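import Crest.Agent.R37.Comb
import Crest.Agent.R309.Feas

/-!
# R37/Canon: computing the canonical partition and a spanning tree

Call `G` `j`-sparse if every nonempty `U` contains at most `j (|U| - 1)` edges of `G`, and `U` tight if it
contains exactly that many.  Singletons are tight; intersecting tight sets have a tight union
(`e(U ∪ W) + e(U ∩ W) ≥ e(U) + e(W)`); tight sets are `j`-PC in `G`.

Test.  For sparse `G`, `j ≥ 1`, `u ≠ v`: no tight set contains `u, v` iff every `U` contains at most
`∑_{x ∈ U} cap x` edges, where `cap u = 0`, `cap v = j - 1`, `cap x = j` otherwise; iff (Hall,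
`Finset.all_card_le_biUnion_card_iff_exists_injective`, with `cap x` copies of `x`) every edge can be
charged to one of its ends with at most `cap x` edges charged to `x`; iff the instance of
`R309.exists_feas` with an arc `s e → t e` of bound `1` for each edge, arcs from an extra vertex `n` to each
`x` of bound `cap x`, demands `#{e | s e = x} - cap x` at `x < n` and minus their sum at `n`, is feasible.

Greedy: run through `F` and keep `e` iff the test succeeds for the edges kept so far and the ends of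
`e`.  The result `G ⊆ F` is sparse and every rejected edge lies in a tight set of `G`.  Then
`Rel j F u v ↔ u = v ∨ (some tight set of G contains u, v)`: if `U` is `j`-PC in `F` and meets `r ≥ 2` maximal
tight sets, at least `j (r - 1)` edges of `F`, all in `G`, join them, so their union is tight.
-/

set_option autoImplicit false
open Finset

namespace Crest.Agent.R37

open Crest.Agent.Lib.PT

section comb

variable {s t : ℕ → ℕ} {j n : ℕ} {F G U W : Finset ℕ} {u v w : ℕ}

/-- the number of edges of `G` inside `U` -/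
def canon_ein (s t : ℕ → ℕ) (G U : Finset ℕ) : ℕ := (G.filter fun e => s e ∈ U ∧ t e ∈ U).card

/-- `j`-sparse edge sets -/
def canon_Sp (s t : ℕ → ℕ) (j : ℕ) (G : Finset ℕ) : Prop :=
  ∀ U : Finset ℕ, U.Nonempty → canon_ein s t G U + j ≤ j * U.card

/-- tight sets -/
def canon_Ti (s t : ℕ → ℕ) (j : ℕ) (G U : Finset ℕ) : Prop := j * U.card ≤ canon_ein s t G U + j

/-- lying in a common tight set -/
def canon_T (s t : ℕ → ℕ) (j : ℕ) (G : Finset ℕ) (u v : ℕ) : Prop :=
  ∃ U : Finset ℕ, u ∈ U ∧ v ∈ U ∧ canon_Ti s t j G U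

theorem canon_ein_mono (hG : F ⊆ G) (hU : U ⊆ W) : canon_ein s t F U ≤ canon_ein s t G W := by
  refine card_le_card fun e he => ?_
  simp only [mem_filter] at he ⊢
  exact ⟨hG he.1, hU he.2.1, hU he.2.2⟩

theorem canon_ein_le : canon_ein s t G U ≤ G.card := card_filter_le _ _

theorem canon_Ti.mono (h : canon_Ti s t j F U) (hG : F ⊆ G) : canon_Ti s t j G U :=
  le_trans h (Nat.add_le_add_right (canon_ein_mono hG subset_rfl) _)

theorem canon_T.mono (h : canon_T s t j F u v) (hG : F ⊆ G) : canon_T s t j G u v :=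
  let ⟨U, a, b, c⟩ := h; ⟨U, a, b, c.mono hG⟩

theorem canon_ti_singleton (u : ℕ) : canon_Ti s t j G {u} := by
  simp [canon_Ti]

theorem canon_supermod :
    canon_ein s t G U + canon_ein s t G W ≤ canon_ein s t G (U ∪ W) + canon_ein s t G (U ∩ W) := by
  unfold canon_ein
  rw [← card_union_add_card_inter]
  refine Nat.add_le_add (card_le_card fun e he => ?_) (card_le_card fun e he => ?_)
  · simp only [mem_union, mem_filter] at he ⊢
    tauto
  · simp only [mem_inter, mem_filter] at he ⊢
    tauto

theorem canon_Ti.union (hG : canon_Sp s t j G) (hU : canon_Ti s t j G U) (hW : canon_Ti s t j G W)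
    (h : (U ∩ W).Nonempty) : canon_Ti s t j G (U ∪ W) := by
  have h1 := hG _ h
  have h2 := canon_supermod (s := s) (t := t) (G := G) (U := U) (W := W)
  have h3 : j * (U ∪ W).card + j * (U ∩ W).card = j * U.card + j * W.card := by
    rw [← mul_add, ← mul_add, card_union_add_card_inter]
  unfold canon_Ti at *
  omega

theorem canon_T.refl (u : ℕ) : canon_T s t j G u u :=
  ⟨{u}, mem_singleton_self _, mem_singleton_self _, canon_ti_singleton u⟩

theorem canon_T.symm (h : canon_T s t j G u v) : canon_T s t j G v u :=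
  let ⟨U, a, b, c⟩ := h; ⟨U, b, a, c⟩

theorem canon_T.trans (hG : canon_Sp s t j G) (h : canon_T s t j G u v) (h' : canon_T s t j G v w) :
    canon_T s t j G u w :=
  let ⟨U, a, b, c⟩ := h
  let ⟨W, a', b', c'⟩ := h'
  ⟨U ∪ W, mem_union_left _ a, mem_union_right _ b', c.union hG c' ⟨v, mem_inter.2 ⟨b, a'⟩⟩⟩

theorem canon_cover (hG : canon_Sp s t j G) (u : ℕ) (A : Finset ℕ)
    (hA : ∀ x ∈ A, canon_T s t j G u x) : ∃ K, u ∈ K ∧ A ⊆ K ∧ canon_Ti s t j G K := by
  induction A using Finset.induction_on with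
  | empty => exact ⟨{u}, mem_singleton_self _, empty_subset _, canon_ti_singleton u⟩
  | insert x A _ ih =>
    obtain ⟨K, h1, h2, h3⟩ := ih fun y hy => hA y (mem_insert_of_mem hy)
    obtain ⟨U, a, b, c⟩ := hA x (mem_insert_self _ _)
    refine ⟨K ∪ U, mem_union_left _ h1, insert_subset (mem_union_right _ b)
      (h2.trans subset_union_left), h3.union hG c ⟨u, mem_inter.2 ⟨h1, a⟩⟩⟩

theorem canon_decomp (c : ℕ → ℕ) : canon_ein s t G W = (cr s t G W c).card +
    ∑ a ∈ W.image c, canon_ein s t G (W.filter fun x => c x = a) := by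
  unfold canon_ein cr
  rw [← card_filter_add_card_filter_not (s := G.filter fun e => s e ∈ W ∧ t e ∈ W)
    (fun e => c (s e) ≠ c (t e))]
  congr 1
  · rw [filter_filter]
    congr 1
    ext e
    simp only [mem_filter]
    tauto
  · rw [card_eq_sum_card_fiberwise (f := fun e => c (s e)) (t := W.image c)]
    · refine sum_congr rfl fun a _ => ?_
      congr 1
      ext e
      simp only [mem_filter, not_not]
      constructor
      · rintro ⟨⟨⟨h1, h2, h3⟩, h4⟩, h5⟩
        exact ⟨h1, ⟨h2, h5⟩, h3, h4 ▸ h5⟩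
      · rintro ⟨h1, ⟨h2, h5⟩, h3, h4⟩
        exact ⟨⟨⟨h1, h2, h3⟩, h5.trans h4.symm⟩, h5⟩
    · intro e he
      simp only [coe_filter, mem_filter, Set.mem_ofPred_eq] at he
      exact mem_coe.2 (mem_image_of_mem _ he.1.2.1)

theorem canon_mul_pred (j r : ℕ) (hr : 1 ≤ r) : j * (r - 1) + j = j * r := by
  obtain ⟨r, rfl⟩ : ∃ k, r = k + 1 := ⟨r - 1, by omega⟩
  simp [mul_add]

theorem canon_Ti.pc (hG : canon_Sp s t j G) (h : canon_Ti s t j G U) : PC s t j G U := by
  intro c
  rcases U.eq_empty_or_nonempty with rfl | hU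
  · simp
  have h1 := canon_decomp (s := s) (t := t) (G := G) (W := U) c
  have h2 : ∑ a ∈ U.image c, (canon_ein s t G (U.filter fun x => c x = a) + j) ≤
      ∑ a ∈ U.image c, j * (U.filter fun x => c x = a).card := by
    refine sum_le_sum fun a ha => hG _ ?_
    obtain ⟨x, hx, rfl⟩ := mem_image.1 ha
    exact ⟨x, mem_filter.2 ⟨hx, rfl⟩⟩
  rw [← mul_sum, ← card_eq_sum_card_image, sum_add_distrib, sum_const, smul_eq_mul,
    mul_comm] at h2
  have h3 := canon_mul_pred j (U.image c).card (card_pos.2 (hU.image c))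
  unfold canon_Ti at h
  omega

/-- A `j`-PC set of `F` lies in a tight set of a maximal sparse subgraph `G`. -/
theorem canon_of_pc (hG : canon_Sp s t j G)
    (hF : ∀ e ∈ F, e ∈ G ∨ canon_T s t j G (s e) (t e)) (hU : U.Nonempty) (h : PC s t j F U) :
    ∃ W, U ⊆ W ∧ canon_Ti s t j G W := by
  classical
  set c : ℕ → ℕ := fun x => sInf {y | canon_T s t j G x y} with hc
  have hc1 : ∀ x, canon_T s t j G x (c x) := fun x =>
    Nat.sInf_mem (s := {y | canon_T s t j G x y}) ⟨x, canon_T.refl x⟩
  have hc2 : ∀ x y, canon_T s t j G x y → c x = c y := fun x y hxy => by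
    simp only [hc]
    congr 1
    ext z
    exact ⟨fun h' => hxy.symm.trans hG h', fun h' => hxy.trans hG h'⟩
  have hK : ∀ a, ∃ K, a ∈ U.image c → (U.filter fun x => c x = a) ⊆ K ∧ canon_Ti s t j G K ∧
      ∀ x ∈ K, c x = a := by
    intro a
    by_cases ha : a ∈ U.image c
    · obtain ⟨x, hx, rfl⟩ := mem_image.1 ha
      obtain ⟨K, h1, h2, h3⟩ := canon_cover hG x (U.filter fun y => c y = c x) fun y hy =>
        (hc1 x).trans hG ((mem_filter.1 hy).2 ▸ (hc1 y).symm)
      exact ⟨K, fun _ => ⟨h2, h3, fun y hy => hc2 _ _ ⟨K, hy, h1, h3⟩⟩⟩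
    · exact ⟨∅, fun h => absurd h ha⟩
  choose K hK using hK
  have hsub : U ⊆ (U.image c).biUnion K := fun x hx =>
    mem_biUnion.2 ⟨c x, mem_image_of_mem _ hx,
      (hK _ (mem_image_of_mem _ hx)).1 (mem_filter.2 ⟨hx, rfl⟩)⟩
  refine ⟨(U.image c).biUnion K, hsub, ?_⟩
  set W := (U.image c).biUnion K with hW
  have him : W.image c = U.image c := by
    refine Subset.antisymm (fun a ha => ?_) (image_subset_image hsub)
    obtain ⟨x, hx, rfl⟩ := mem_image.1 ha
    obtain ⟨b, hb, hxb⟩ := mem_biUnion.1 hx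
    rw [(hK b hb).2.2 x hxb]
    exact hb
  have hfib : ∀ a ∈ U.image c, (W.filter fun x => c x = a) = K a := by
    intro a ha
    ext x
    simp only [mem_filter]
    constructor
    · rintro ⟨hx, rfl⟩
      obtain ⟨b, hb, hxb⟩ := mem_biUnion.1 hx
      rw [(hK b hb).2.2 x hxb]
      exact hxb
    · intro hx
      exact ⟨mem_biUnion.2 ⟨a, ha, hx⟩, (hK a ha).2.2 x hx⟩
  have h1 := canon_decomp (s := s) (t := t) (G := G) (W := W) c
  have h2 : ∑ a ∈ W.image c, j * (W.filter fun x => c x = a).card ≤
      ∑ a ∈ W.image c, (canon_ein s t G (W.filter fun x => c x = a) + j) := by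
    refine sum_le_sum fun a ha => ?_
    rw [him] at ha
    rw [hfib a ha]
    exact (hK a ha).2.1
  rw [← mul_sum, ← card_eq_sum_card_image, sum_add_distrib, sum_const, smul_eq_mul,
    mul_comm (W.image c).card] at h2
  have h3 := canon_mul_pred j (U.image c).card (card_pos.2 (hU.image c))
  have h4 := h c
  have h5 : (cr s t F U c).card ≤ (cr s t G W c).card := by
    refine card_le_card fun e he => ?_
    simp only [cr, mem_filter] at he ⊢
    refine ⟨(hF e he.1).resolve_right fun h' => he.2.2.2 (hc2 _ _ h'), hsub he.2.1,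
      hsub he.2.2.1, he.2.2.2⟩
  rw [him] at h2 h1
  unfold canon_Ti
  omega

theorem canon_rel_iff (hG : canon_Sp s t j G) (hGF : G ⊆ F)
    (hF : ∀ e ∈ F, e ∈ G ∨ canon_T s t j G (s e) (t e)) :
    Rel s t j F u v ↔ canon_T s t j G u v := by
  constructor
  · rintro ⟨U, a, b, c⟩
    obtain ⟨W, h1, h2⟩ := canon_of_pc hG hF ⟨u, a⟩ c
    exact ⟨W, h1 a, h1 b, h2⟩
  · rintro ⟨U, a, b, c⟩
    exact ⟨U, a, b, (c.pc hG).mono hGF le_rfl⟩

theorem canon_Sp.insert (hG : canon_Sp s t j G) {e : ℕ} (he : ¬ canon_T s t j G (s e) (t e)) :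
    canon_Sp s t j (insert e G) := by
  intro U hU
  have h1 := hG U hU
  by_cases h : s e ∈ U ∧ t e ∈ U
  · have h2 : ¬ canon_Ti s t j G U := fun h' => he ⟨U, h.1, h.2, h'⟩
    have h3 : canon_ein s t (Insert.insert e G) U ≤ canon_ein s t G U + 1 := by
      unfold canon_ein
      rw [filter_insert, if_pos h]
      exact card_insert_le _ _
    unfold canon_Ti at h2
    omega
  · have h3 : canon_ein s t (Insert.insert e G) U = canon_ein s t G U := by
      unfold canon_ein
      rw [filter_insert, if_neg h]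
    omega

/-- the capacities of the test -/
def canon_cap (j u v x : ℕ) : ℕ := if x = u then 0 else if x = v then j - 1 else j

theorem canon_sum_cap (hj : 1 ≤ j) (huv : u ≠ v) (U : Finset ℕ) :
    ∑ x ∈ U, canon_cap j u v x + (if u ∈ U then j else 0) + (if v ∈ U then 1 else 0) =
      j * U.card := by
  have : ∀ x, canon_cap j u v x + (if u = x then j else 0) + (if v = x then 1 else 0) = j := by
    intro x
    unfold canon_cap
    split_ifs <;> omega
  rw [← sum_ite_eq U u (fun _ => j), ← sum_ite_eq U v (fun _ => 1), ← sum_add_distrib,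
    ← sum_add_distrib, sum_congr rfl fun x _ => this x, sum_const, smul_eq_mul, mul_comm]

theorem canon_not_T_iff (hG : canon_Sp s t j G) (hj : 1 ≤ j) (huv : u ≠ v) :
    ¬ canon_T s t j G u v ↔ ∀ U, canon_ein s t G U ≤ ∑ x ∈ U, canon_cap j u v x := by
  constructor
  · intro h U
    rcases U.eq_empty_or_nonempty with rfl | hU
    · simp [canon_ein]
    have h1 := hG U hU
    have h2 := canon_sum_cap hj huv U
    have h3 : u ∈ U → v ∈ U → canon_ein s t G U + j < j * U.card := fun a b =>
      not_le.1 fun c => h ⟨U, a, b, c⟩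
    split_ifs at h2 with a b
    · have := h3 a b
      omega
    all_goals omega
  · rintro h ⟨U, a, b, c⟩
    have h1 := h U
    have h2 := canon_sum_cap hj huv U
    rw [if_pos a, if_pos b] at h2
    unfold canon_Ti at c
    omega

/-- Orientations with bounded in-degree. -/
theorem canon_orient (cap : ℕ → ℕ) :
    (∀ U, canon_ein s t G U ≤ ∑ x ∈ U, cap x) ↔
      ∃ h : ℕ → ℕ, (∀ e ∈ G, h e = s e ∨ h e = t e) ∧
        ∀ x, (G.filter fun e => h e = x).card ≤ cap x := by
  constructor
  · intro hU
    let cp : ℕ → Finset (ℕ × ℕ) := fun x => {x} ×ˢ range (cap x)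
    have hcp : ∀ x p, p ∈ cp x ↔ p.1 = x ∧ p.2 < cap x := fun x p => by
      simp only [cp, mem_product, mem_singleton, mem_range]
    obtain ⟨f, hf, hft⟩ := (all_card_le_biUnion_card_iff_exists_injective
      (fun e : G => cp (s e) ∪ cp (t e))).1 (by
      intro S
      set U := S.image (fun e : G => s e) ∪ S.image (fun e : G => t e) with hUdef
      have h1 : S.card ≤ canon_ein s t G U := by
        refine card_le_card_of_injOn (fun e => e.1) (fun e he => ?_) fun _ _ _ _ h => Subtype.ext h
        simp only [coe_filter, Set.mem_ofPred_eq]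
        exact ⟨e.2, mem_union_left _ (mem_image_of_mem (fun e : G => s e) he),
          mem_union_right _ (mem_image_of_mem (fun e : G => t e) he)⟩
      have h2 : (U.biUnion cp).card = ∑ x ∈ U, cap x := by
        rw [card_biUnion]
        · simp [cp]
        · intro x _ y _ hxy
          refine disjoint_left.2 fun p hp hq => hxy ?_
          rw [hcp] at hp hq
          exact hp.1.symm.trans hq.1
      refine h1.trans ((hU U).trans (h2 ▸ card_le_card fun p hp => ?_))
      obtain ⟨x, hx, hp⟩ := mem_biUnion.1 hp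
      rcases mem_union.1 hx with hx | hx
      · obtain ⟨e, he, rfl⟩ := mem_image.1 hx
        exact mem_biUnion.2 ⟨e, he, mem_union_left _ hp⟩
      · obtain ⟨e, he, rfl⟩ := mem_image.1 hx
        exact mem_biUnion.2 ⟨e, he, mem_union_right _ hp⟩)
    have hf2 : ∀ e : G, ((f e).1 = s e ∨ (f e).1 = t e) ∧ (f e).2 < cap (f e).1 := fun e => by
      rcases mem_union.1 (hft e) with h | h <;> rw [hcp] at h
      · exact ⟨Or.inl h.1, h.1 ▸ h.2⟩
      · exact ⟨Or.inr h.1, h.1 ▸ h.2⟩
    refine ⟨fun e => if he : e ∈ G then (f ⟨e, he⟩).1 else 0, fun e he => ?_, fun x => ?_⟩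
    · simp only [dif_pos he]
      exact (hf2 ⟨e, he⟩).1
    · rw [← card_range (cap x)]
      refine card_le_card_of_injOn (fun e => if he : e ∈ G then (f ⟨e, he⟩).2 else 0)
        (fun e he => ?_) fun e he e' he' hee => ?_
      · simp only [coe_filter, Set.mem_ofPred_eq] at he
        obtain ⟨he, hx⟩ := he
        simp only [dif_pos he] at hx ⊢
        exact mem_coe.2 (mem_range.2 (hx ▸ (hf2 ⟨e, he⟩).2))
      · simp only [coe_filter, Set.mem_ofPred_eq] at he he'
        obtain ⟨he, hx⟩ := he
        obtain ⟨he', hx'⟩ := he'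
        simp only [dif_pos he, dif_pos he'] at hx hx' hee
        exact congrArg Subtype.val (hf (Prod.ext (hx.trans hx'.symm) hee))
  · rintro ⟨h, h1, h2⟩ U
    unfold canon_ein
    rw [card_eq_sum_card_fiberwise (f := h) (t := U)]
    · refine sum_le_sum fun x _ => le_trans (card_le_card fun e he => ?_) (h2 x)
      simp only [mem_filter] at he ⊢
      exact ⟨he.1.1, he.2⟩
    · intro e he
      simp only [coe_filter, Set.mem_ofPred_eq] at he
      rcases h1 e he.1 with h' | h' <;> rw [h']
      exacts [he.2.1, he.2.2]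

end comb

section flow

open Crest.Agent.R309

/-- the demand at `x < n` -/
def canon_dm (E : Gr) (G : List ℕ) (cap : ℕ → ℕ) (x : ℕ) : ℤ :=
  ∑ e ∈ range E.length, (if e ∈ G ∧ src E e = x then (1 : ℤ) else 0) - cap x

/-- the arcs -/
def canon_arc (n : ℕ) (E : Gr) (G : List ℕ) (cap : ℕ → ℕ) (i : ℕ) : ℕ × ℕ × ℕ :=
  if i < E.length then (if i ∈ G then (src E i, tgt E i, 1) else (n, n, 0))
  else (n, i - E.length, cap (i - E.length))

/-- the flow instance of the test -/
def canon_inst (n : ℕ) (E : Gr) (G : List ℕ) (cap : ℕ → ℕ) : Inst :=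
  ((List.range (E.length + n)).map (canon_arc n E G cap),
    (List.range (n + 1)).map fun x =>
      if x < n then canon_dm E G cap x else -∑ y ∈ range n, canon_dm E G cap y)

variable {n : ℕ} {E : Gr} {G : List ℕ} {cap : ℕ → ℕ}

theorem canon_nc : (canon_inst n E G cap).nc = E.length + n := by simp [canon_inst, Inst.nc]
theorem canon_nv : (canon_inst n E G cap).nv = n + 1 := by simp [canon_inst, Inst.nv]

theorem canon_getD {i : ℕ} (hi : i < E.length + n) :
    (canon_inst n E G cap).1.getD i (0, 0, 0) = canon_arc n E G cap i :=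
  Feas.getD_map_range _ _ _ hi

theorem canon_arc_add (y : ℕ) : canon_arc n E G cap (E.length + y) = (n, y, cap y) := by
  simp [canon_arc]

theorem canon_d {x : ℕ} (hx : x < n) : (canon_inst n E G cap).d x = canon_dm E G cap x := by
  unfold Inst.d canon_inst
  rw [Feas.getD_map_range _ _ _ (by omega), if_pos hx]

theorem canon_d_last : (canon_inst n E G cap).d n = -∑ y ∈ range n, canon_dm E G cap y := by
  unfold Inst.d canon_inst
  rw [Feas.getD_map_range _ _ _ (by omega), if_neg (lt_irrefl _)]

theorem canon_lt_len (hG : WF (src E) (tgt E) n G.toFinset) {e : ℕ} (he : e ∈ G) :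
    e < E.length := by
  by_contra h
  refine (hG e (List.mem_toFinset.2 he)).2.2 ?_
  unfold src tgt
  rw [List.getD_eq_default _ _ (not_lt.1 h)]

theorem canon_wf (hG : WF (src E) (tgt E) n G.toFinset) : (canon_inst n E G cap).WF := by
  intro i hi
  rw [canon_nc] at hi
  unfold Inst.p Inst.q
  rw [canon_getD hi, canon_nv]
  unfold canon_arc
  split_ifs with h1 h2
  · have := hG i (List.mem_toFinset.2 h2)
    simp only
    omega
  · simp
  · simp only
    omega

theorem canon_sum_G (hG : WF (src E) (tgt E) n G.toFinset) (f : ℕ → ℤ) :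
    ∑ e ∈ range E.length, (if e ∈ G then f e else 0) = ∑ e ∈ G.toFinset, f e := by
  rw [← sum_filter]
  refine sum_congr ?_ fun _ _ => rfl
  ext e
  simp only [mem_filter, mem_range, List.mem_toFinset]
  exact ⟨fun h => h.2, fun h => ⟨canon_lt_len hG h, h⟩⟩

theorem canon_dm_eq (hG : WF (src E) (tgt E) n G.toFinset) (x : ℕ) :
    canon_dm E G cap x = ∑ e ∈ G.toFinset, (if src E e = x then (1 : ℤ) else 0) - cap x := by
  unfold canon_dm
  rw [← canon_sum_G hG]
  congr 1
  refine sum_congr rfl fun e _ => ?_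
  by_cases h : e ∈ G <;> simp [h]

theorem canon_div (hG : WF (src E) (tgt E) n G.toFinset) (X : ℕ → ℤ) {x : ℕ} (hx : x < n) :
    (canon_inst n E G cap).div X x = ∑ e ∈ G.toFinset,
      ((if src E e = x then X e else 0) - (if tgt E e = x then X e else 0)) -
        X (E.length + x) := by
  unfold Inst.div Inst.p Inst.q
  rw [canon_nc, sum_range_add, ← canon_sum_G hG, sub_eq_add_neg]
  congr 1
  · refine sum_congr rfl fun e he => ?_
    have he' := mem_range.1 he
    rw [canon_getD (by omega)]
    unfold canon_arc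
    rw [if_pos he']
    by_cases h : e ∈ G <;> simp [h]
  · rw [sum_eq_single_of_mem x (mem_range.2 hx)]
    · rw [canon_getD (by omega), canon_arc_add]
      simp [hx.ne']
    · intro y hy hyx
      have hy' := mem_range.1 hy
      rw [canon_getD (by omega), canon_arc_add]
      simp [hx.ne', hyx]

theorem canon_div_last (hG : WF (src E) (tgt E) n G.toFinset) (X : ℕ → ℤ) :
    (canon_inst n E G cap).div X n = -∑ y ∈ range n, (canon_inst n E G cap).div X y := by
  have h := Inst.sum_div (canon_wf (cap := cap) hG) X (fun _ => True)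
  simp only [if_true, sub_self, sum_const_zero, canon_nv, sum_range_succ] at h
  linarith

theorem canon_card_cast (A : Finset ℕ) (h : ℕ → ℕ) (x : ℕ) :
    ((A.filter fun e => h e = x).card : ℤ) = ∑ e ∈ A, if h e = x then (1 : ℤ) else 0 := by
  rw [card_filter]
  push_cast
  rfl

theorem canon_feas_iff (hG : WF (src E) (tgt E) n G.toFinset) :
    (∃ X, (canon_inst n E G cap).IsSol X) ↔
      ∃ h : ℕ → ℕ, (∀ e ∈ G.toFinset, h e = src E e ∨ h e = tgt E e) ∧
        ∀ x, (G.toFinset.filter fun e => h e = x).card ≤ cap x := by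
  constructor
  · rintro ⟨X, -, h2, h3⟩
    refine ⟨fun e => if X.getD e 0 = 0 then src E e else tgt E e, fun e _ => ?_, fun x => ?_⟩
    · beta_reduce
      split_ifs
      exacts [Or.inl rfl, Or.inr rfl]
    by_cases hx : x < n
    swap
    · rw [filter_eq_empty_iff.2, card_empty]
      · exact Nat.zero_le _
      · intro e he
        have := hG e he
        beta_reduce
        split_ifs <;> omega
    have h4 := h3 x (by rw [canon_nv]; omega)
    rw [canon_div hG _ hx, canon_d hx, canon_dm_eq hG] at h4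
    have h5 : ∑ e ∈ G.toFinset, ((if src E e = x then (X.getD e 0 : ℤ) else 0) -
        (if tgt E e = x then (X.getD e 0 : ℤ) else 0)) =
        ∑ e ∈ G.toFinset, ((if src E e = x then (1 : ℤ) else 0) -
          if (if X.getD e 0 = 0 then src E e else tgt E e) = x then (1 : ℤ) else 0) := by
      refine sum_congr rfl fun e he => ?_
      have he' := List.mem_toFinset.1 he
      have hl := canon_lt_len hG he'
      have h6 := h2 e (by rw [canon_nc]; omega)
      unfold Inst.b at h6
      rw [canon_getD (by omega)] at h6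
      unfold canon_arc at h6
      rw [if_pos hl, if_pos he'] at h6
      rcases Nat.le_one_iff_eq_zero_or_eq_one.1 h6 with h7 | h7 <;> rw [h7] <;> simp
    rw [h5, sum_sub_distrib] at h4
    have h6 : (0 : ℤ) ≤ X.getD (E.length + x) 0 := Int.natCast_nonneg _
    rw [← Nat.cast_le (α := ℤ), canon_card_cast]
    linarith
  · rintro ⟨h, h1, h2⟩
    set Y : ℕ → ℕ := fun i => if i < E.length then (if i ∈ G ∧ h i ≠ src E i then 1 else 0)
      else cap (i - E.length) - (G.toFinset.filter fun e => h e = i - E.length).card with hY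
    have hX : ∀ i < E.length + n, ((List.range (E.length + n)).map Y).getD i 0 = Y i :=
      fun i hi => Feas.getD_map_range _ _ _ hi
    have key : ∀ x < n, (canon_inst n E G cap).div
        (fun i => (((List.range (E.length + n)).map Y).getD i 0 : ℤ)) x = canon_dm E G cap x := by
      intro x hx
      rw [canon_div hG _ hx, canon_dm_eq hG, hX _ (by omega)]
      have h5 : ∑ e ∈ G.toFinset,
          ((if src E e = x then (((List.range (E.length + n)).map Y).getD e 0 : ℤ) else 0) -
          (if tgt E e = x then (((List.range (E.length + n)).map Y).getD e 0 : ℤ) else 0)) =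
          ∑ e ∈ G.toFinset, ((if src E e = x then (1 : ℤ) else 0) -
            if h e = x then (1 : ℤ) else 0) := by
        refine sum_congr rfl fun e he => ?_
        have he' := List.mem_toFinset.1 he
        have hl := canon_lt_len hG he'
        rw [hX _ (by omega)]
        simp only [hY, if_pos hl]
        by_cases h7 : h e = src E e
        · simp [h7]
        · have h8 := (h1 e he).resolve_left h7
          rw [if_pos (show e ∈ G ∧ h e ≠ src E e from ⟨he', h7⟩), h8]
          simp
      rw [h5, sum_sub_distrib, ← canon_card_cast _ h]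
      simp only [hY, if_neg (show ¬ E.length + x < E.length by omega), Nat.add_sub_cancel_left]
      have := h2 x
      omega
    refine ⟨(List.range (E.length + n)).map Y, by simp [canon_nc], fun i hi => ?_, fun x hx => ?_⟩
    · rw [canon_nc] at hi
      unfold Inst.b
      rw [hX i hi, canon_getD hi]
      simp only [hY, canon_arc]
      split_ifs with a b c d
      · exact le_rfl
      · exact absurd b.1 c
      · exact Nat.zero_le _
      · exact le_rfl
      · exact Nat.sub_le _ _
    · rw [canon_nv] at hx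
      rcases Nat.lt_succ_iff_lt_or_eq.1 hx with hx | rfl
      · rw [key x hx, canon_d hx]
      · rw [canon_div_last hG, canon_d_last, sum_congr rfl fun y hy => key y (mem_range.1 hy)]

theorem canon_exists_test : ∃ ts : (Un × ℕ × Gr) × List ℕ × ℕ × ℕ → Bool, PT ts ∧
    ∀ (n j : ℕ) (E : Gr) (G : List ℕ) (u v : ℕ), 1 ≤ j → u ≠ v →
      WF (src E) (tgt E) n G.toFinset → canon_Sp (src E) (tgt E) j G.toFinset →
      (ts ((⟨n⟩, j, E), G, u, v) = true ↔ ¬ canon_T (src E) (tgt E) j G.toFinset u v) := by
  obtain ⟨feas, h1, h2⟩ := exists_feas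
  refine ⟨fun a => (feas (canon_inst a.1.1.n a.1.2.2 a.2.1
    (canon_cap a.1.2.1 a.2.2.1 a.2.2.2))).isSome, ?_, ?_⟩
  · refine PT.isSome (h1.comp ?_)
    unfold canon_inst canon_arc canon_dm canon_cap
    fun_prop
  · intro n j E G u v hj huv hG hS
    rw [canon_not_T_iff hS hj huv, canon_orient, ← canon_feas_iff hG]
    obtain ⟨h3, h4⟩ := h2 _ (canon_wf (cap := canon_cap j u v) hG)
    beta_reduce
    cases hf : feas (canon_inst n E G (canon_cap j u v)) with
    | none => simpa using h4 hf
    | some X => simpa using ⟨X, h3 X hf⟩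

end flow

section greedy

/-- the greedy sparse subgraph -/
def canon_gr (ts : (Un × ℕ × Gr) × List ℕ × ℕ × ℕ → Bool) (a : Un × ℕ × Gr) (F : List ℕ) : List ℕ :=
  F.foldr (fun e G => if ts (a, G, src a.2.2 e, tgt a.2.2 e) then e :: G else G) []

theorem canon_gr_pt {ts : (Un × ℕ × Gr) × List ℕ × ℕ × ℕ → Bool} (h : PT ts) :
    PT fun p : (Un × ℕ × Gr) × List ℕ => canon_gr ts p.1 p.2 := by
  unfold canon_gr
  refine PT.foldr_grow (f := fun (p : (Un × ℕ × Gr) × List ℕ) e G =>
      if ts (p.1, G, src p.1.2.2 e, tgt p.1.2.2 e) then e :: G else G)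
    (G := fun q => sz q.2 + 1) (by fun_prop) (by fun_prop) (by fun_prop) (by fun_prop) ?_
  intro a b c _
  simp only
  split_ifs
  · rw [sz_cons]
    omega
  · omega

theorem canon_gr_spec {ts : (Un × ℕ × Gr) × List ℕ × ℕ × ℕ → Bool} {n j : ℕ} {E : Gr}
    (h : ∀ (G : List ℕ) (u v : ℕ), u ≠ v →
      WF (src E) (tgt E) n G.toFinset → canon_Sp (src E) (tgt E) j G.toFinset →
      (ts ((⟨n⟩, j, E), G, u, v) = true ↔ ¬ canon_T (src E) (tgt E) j G.toFinset u v))
    (F : List ℕ) (hF : WF (src E) (tgt E) n F.toFinset) :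
    (canon_gr ts (⟨n⟩, j, E) F).toFinset ⊆ F.toFinset ∧
      canon_Sp (src E) (tgt E) j (canon_gr ts (⟨n⟩, j, E) F).toFinset ∧
      ∀ e ∈ F.toFinset, e ∈ (canon_gr ts (⟨n⟩, j, E) F).toFinset ∨
        canon_T (src E) (tgt E) j (canon_gr ts (⟨n⟩, j, E) F).toFinset (src E e) (tgt E e) := by
  induction F with
  | nil =>
    refine ⟨by simp [canon_gr], fun U hU => ?_, by simp⟩
    simpa [canon_gr, canon_ein] using Nat.le_mul_of_pos_right j (card_pos.2 hU)
  | cons e F ih =>
    rw [List.toFinset_cons] at hF ⊢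
    obtain ⟨h1, h2, h3⟩ := ih (hF.mono (subset_insert _ _))
    have h4 := h (canon_gr ts (⟨n⟩, j, E) F) (src E e) (tgt E e) (hF e (mem_insert_self _ _)).2.2
      (hF.mono (h1.trans (subset_insert _ _))) h2
    have h5 : canon_gr ts (⟨n⟩, j, E) (e :: F) =
        if ts ((⟨n⟩, j, E), canon_gr ts (⟨n⟩, j, E) F, src E e, tgt E e) then
          e :: canon_gr ts (⟨n⟩, j, E) F else canon_gr ts (⟨n⟩, j, E) F := rfl
    rw [h5]
    split_ifs with h6
    · rw [List.toFinset_cons]
      refine ⟨insert_subset_insert _ h1, h2.insert (h4.1 h6), fun f hf => ?_⟩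
      rcases mem_insert.1 hf with rfl | hf
      · exact Or.inl (mem_insert_self _ _)
      · exact (h3 f hf).imp mem_insert_of_mem fun h' => h'.mono (subset_insert _ _)
    · refine ⟨h1.trans (subset_insert _ _), h2, fun f hf => ?_⟩
      rcases mem_insert.1 hf with rfl | hf
      · exact Or.inr (not_not.1 fun h' => h6 (h4.2 h'))
      · exact h3 f hf

theorem canon_find (n : ℕ) (p : ℕ → Bool) (S : Set ℕ) (hp : ∀ v < n, p v = true ↔ v ∈ S) {u : ℕ}
    (hu : u < n) (huS : u ∈ S) : ((List.range n).find? p).getD 0 = sInf S := by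
  have h1 : sInf S ∈ S := Nat.sInf_mem ⟨u, huS⟩
  have h2 : sInf S ≤ u := Nat.sInf_le huS
  have h3 : (List.range n).find? p = some (sInf S) := by
    rw [List.find?_range_eq_some]
    refine ⟨(hp _ (by omega)).2 h1, List.mem_range.2 (by omega), fun v hv => ?_⟩
    have := Nat.notMem_of_lt_sInf hv
    rw [← hp v (by omega)] at this
    simpa using this
  rw [h3]
  rfl

end greedy

/-- `can u` is the least `v ≤ u` related to `u`. -/
theorem exists_canon : ∃ cn : Un × ℕ × Gr × List ℕ → List ℕ, PT cn ∧
    ∀ (n j : ℕ) (E : Gr) (F : List ℕ), 1 ≤ j → F.Nodup → WF (src E) (tgt E) n F.toFinset →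
      (cn (⟨n⟩, j, E, F)).length = n ∧
      ∀ u < n, (cn (⟨n⟩, j, E, F)).getD u 0 = can (src E) (tgt E) j F.toFinset u := by
  obtain ⟨ts, h1, h2⟩ := canon_exists_test
  have h3 := canon_gr_pt h1
  have h4 : PT fun a : Un × ℕ × Gr × List ℕ => canon_gr ts (a.1, a.2.1, a.2.2.1) a.2.2.2 :=
    h3.comp (f := fun a : Un × ℕ × Gr × List ℕ => ((a.1, a.2.1, a.2.2.1), a.2.2.2)) (by fun_prop)
  have h5 : PT fun q : (Un × ℕ × Gr) × List ℕ => (List.range q.1.1.n).map fun u =>
      ((List.range q.1.1.n).find? fun v => decide (u = v) || !ts (q.1, q.2, u, v)).getD 0 := by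
    fun_prop
  refine ⟨fun a => (List.range a.1.n).map fun u => ((List.range a.1.n).find? fun v =>
    decide (u = v) || !ts ((a.1, a.2.1, a.2.2.1),
      canon_gr ts (a.1, a.2.1, a.2.2.1) a.2.2.2, u, v)).getD 0,
    h5.comp (f := fun a : Un × ℕ × Gr × List ℕ => ((a.1, a.2.1, a.2.2.1),
      canon_gr ts (a.1, a.2.1, a.2.2.1) a.2.2.2)) (PT.pair (by fun_prop) h4), ?_⟩
  intro n j E F hj _ hF
  refine ⟨by simp, fun u hu => ?_⟩
  obtain ⟨g1, g2, g3⟩ := canon_gr_spec (fun G u v => h2 n j E G u v hj) F hF
  beta_reduce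
  rw [R309.Feas.getD_map_range _ _ _ hu]
  refine canon_find n _ _ (fun v _ => ?_) hu (Rel.refl u)
  rw [Set.mem_ofPred_eq, canon_rel_iff g2 g1 g3]
  by_cases huv : u = v
  · subst huv
    simpa using canon_T.refl u
  · have := h2 n j E _ u v hj huv (hF.mono g1) g2
    simp only [huv, decide_false, Bool.false_or, Bool.not_eq_true', Bool.eq_false_iff, ne_eq, this,
      not_not]

/-- The greedy subgraph for `j = 1`: `range n` is tight (all vertices are related). -/
theorem exists_tree : ∃ tr : Un × Gr × List ℕ → List ℕ, PT tr ∧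
    ∀ (n : ℕ) (E : Gr) (F : List ℕ), 1 ≤ n → F.Nodup → WF (src E) (tgt E) n F.toFinset →
      PC (src E) (tgt E) 1 F.toFinset (range n) →
      (tr (⟨n⟩, E, F)).toFinset ⊆ F.toFinset ∧ (tr (⟨n⟩, E, F)).toFinset.card + 1 = n ∧
      PC (src E) (tgt E) 1 (tr (⟨n⟩, E, F)).toFinset (range n) ∧
      ∀ e ∈ tr (⟨n⟩, E, F), ∀ e' ∈ tr (⟨n⟩, E, F),
        s(src E e, tgt E e) = s(src E e', tgt E e') → e = e' := by
  obtain ⟨ts, h1, h2⟩ := canon_exists_test
  have h3 := canon_gr_pt h1
  refine ⟨fun a => canon_gr ts (a.1, 1, a.2.1) a.2.2,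
    h3.comp (f := fun a : Un × Gr × List ℕ => ((a.1, 1, a.2.1), a.2.2)) (by fun_prop), ?_⟩
  intro n E F hn _ hF hPC
  obtain ⟨g1, g2, g3⟩ := canon_gr_spec (fun G u v => h2 n 1 E G u v le_rfl) F hF
  beta_reduce
  set G := canon_gr ts (⟨n⟩, 1, E) F with hG
  have hne : (range n).Nonempty := nonempty_range_iff.2 (by omega)
  obtain ⟨W, w1, w2⟩ := canon_of_pc g2 g3 hne hPC
  have e1 : canon_ein (src E) (tgt E) G.toFinset (range n) = G.toFinset.card := by
    unfold canon_ein
    rw [filter_true_of_mem]
    intro e he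
    have := hF e (g1 he)
    exact ⟨mem_range.2 this.1, mem_range.2 this.2.1⟩
  have e2 := g2 _ hne
  have e3 := card_le_card w1
  have e4 := canon_ein_le (s := src E) (t := tgt E) (G := G.toFinset) (U := W)
  unfold canon_Ti at w2
  rw [card_range] at e2 e3
  refine ⟨g1, by omega, canon_Ti.pc g2 ?_, fun e he e' he' hee => ?_⟩
  · unfold canon_Ti
    rw [card_range]
    omega
  · by_contra hne'
    have e5 := g2 {src E e, tgt E e} (insert_nonempty _ _)
    have e6 : ({src E e, tgt E e} : Finset ℕ).card ≤ 2 := card_le_two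
    have e7 : ({e, e'} : Finset ℕ).card ≤
        canon_ein (src E) (tgt E) G.toFinset {src E e, tgt E e} := by
      refine card_le_card fun f hf => mem_filter.2 ?_
      rcases mem_insert.1 hf with rfl | hf
      · exact ⟨List.mem_toFinset.2 he, by simp, by simp⟩
      · rw [mem_singleton.1 hf]
        refine ⟨List.mem_toFinset.2 he', ?_⟩
        rcases Sym2.eq_iff.1 hee with h | h <;> simp [h.1, h.2]
    rw [card_pair hne'] at e7
    omega

end Crest.Agent.R37
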