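import Crest.Agent.R37.Comb1

/-!
# R37/Comb: partition connectivity and the canonical partition
-/

set_option autoImplicit false
open Finset

namespace Crest.Agent.R37

variable {s t : ℕ → ℕ} {j k n : ℕ} {F G U W : Finset ℕ} {u v w : ℕ}

/-- edges between different labels of `A` -/
def combE (s t : ℕ → ℕ) (F : Finset ℕ) (c : ℕ → ℕ) (A : Finset ℕ) : Finset ℕ :=
  F.filter fun e => c (s e) ∈ A ∧ c (t e) ∈ A ∧ c (s e) ≠ c (t e)

theorem comb_small (c : ℕ → ℕ) {A : Finset ℕ} (h : ¬ 2 ≤ A.card) : combE s t F c A = ∅ :=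
  filter_eq_empty_iff.2 fun _ _ h' => h (one_lt_card.2 ⟨_, h'.1, _, h'.2.1, h'.2.2⟩)

theorem comb_lt (hF : WF s t n F) (A : Finset ℕ) : A ⊆ (range n).image (can s t j F) → 2 ≤ A.card →
    (combE s t F (can s t j F) A).card < j * (A.card - 1) := by
  set c := can s t j F with hc
  induction A using Finset.strongInduction with
  | H A ih =>
  intro hA h2
  by_contra hcon
  set W := (range n).filter fun v => c v ∈ A with hW
  have hWA : W.image c = A := by
    refine Subset.antisymm (fun x hx => ?_) fun x hx => ?_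
    · obtain ⟨v, hv, rfl⟩ := mem_image.1 hx
      exact (mem_filter.1 hv).2
    · obtain ⟨v, hv, rfl⟩ := mem_image.1 (hA hx)
      exact mem_image_of_mem _ (mem_filter.2 ⟨hv, hx⟩)
  have hPC : PC s t j F W := by
    refine PC.glue c (fun a => ?_) fun β => ?_
    · by_cases ha : a ∈ A
      · convert pc_class (j := j) hF a using 1
        rw [hW, filter_filter]
        exact filter_congr fun v _ => ⟨fun h => h.2, fun h => ⟨(show c v = a from h).symm ▸ ha, h⟩⟩
      · rw [filter_eq_empty_iff.2 fun v hv (h : c v = a) => ha (h ▸ (mem_filter.1 hv).2)]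
        intro β
        simp
    rw [hWA]
    by_cases hβ : (A.image β).card ≤ 1
    · rw [Nat.sub_eq_zero_of_le hβ]
      exact Nat.zero_le _
    have k1 : combE s t F c A ⊆ cr (c ∘ s) (c ∘ t) (F.filter fun e => s e ∈ W ∧ t e ∈ W) A β ∪
        (A.image β).biUnion fun b => combE s t F c (A.filter fun x => β x = b) := by
      intro e he
      obtain ⟨e1, e2, e3, e4⟩ := mem_filter.1 he
      obtain ⟨f1, f2, -⟩ := hF e e1
      by_cases hb : β (c (s e)) = β (c (t e))
      · exact mem_union_right _ (mem_biUnion.2 ⟨_, mem_image_of_mem β e2, mem_filter.2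
          ⟨e1, mem_filter.2 ⟨e2, rfl⟩, mem_filter.2 ⟨e3, hb.symm⟩, e4⟩⟩)
      · exact mem_union_left _ (mem_filter.2 ⟨mem_filter.2 ⟨e1, mem_filter.2 ⟨mem_range.2 f1, e2⟩,
          mem_filter.2 ⟨mem_range.2 f2, e3⟩⟩, e2, e3, hb⟩)
    have k2 : ∀ b ∈ A.image β, (combE s t F c (A.filter fun x => β x = b)).card + j ≤
        j * (A.filter fun x => β x = b).card := fun b hb => by
      obtain ⟨x, hx, rfl⟩ := mem_image.1 hb
      have r1 : 1 ≤ (A.filter fun y => β y = β x).card := card_pos.2 ⟨x, mem_filter.2 ⟨hx, rfl⟩⟩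
      have r2 := Nat.mul_le_mul_left j r1
      by_cases r3 : 2 ≤ (A.filter fun y => β y = β x).card
      · have := ih _ (filter_ssubset.2 (by
          by_contra hall
          push Not at hall
          refine hβ (card_le_one.2 fun a ha b hb => ?_)
          obtain ⟨a, ha', rfl⟩ := mem_image.1 ha
          obtain ⟨b, hb', rfl⟩ := mem_image.1 hb
          rw [hall a ha', hall b hb'])) ((filter_subset _ _).trans hA) r3
        rw [Nat.mul_sub_one] at this
        omega
      · rw [comb_small c r3, card_empty]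
        omega
    have k3 := sum_le_sum k2
    rw [sum_add_distrib, ← mul_sum, ← card_eq_sum_card_image, sum_const, smul_eq_mul,
      mul_comm] at k3
    have k4 := (card_le_card k1).trans
      ((card_union_le _ _).trans (Nat.add_le_add_left card_biUnion_le _))
    rw [Nat.mul_sub_one] at hcon ⊢
    omega
  obtain ⟨a, ha, b, hb, hab⟩ := one_lt_card.1 h2
  rw [← hWA] at ha hb
  obtain ⟨u, hu, rfl⟩ := mem_image.1 ha
  obtain ⟨v, hv, rfl⟩ := mem_image.1 hb
  exact hab (can_eq_iff.2 (hPC.rel hu hv))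

theorem comb_cr_sub (c : ℕ → ℕ) : cr s t F U c ⊆ combE s t F c (U.image c) := fun _ he =>
  have h := mem_filter.1 he
  mem_filter.2 ⟨h.1, mem_image_of_mem _ h.2.1, mem_image_of_mem _ h.2.2.1, h.2.2.2⟩

/-- Fewer than `j (r - 1)` edges run between `r ≥ 2` canonical classes.  Otherwise take a minimal set
`A` of at least two labels such that at least `j (|A| - 1)` edges of `F` join two different classes
with labels in `A`.  By minimality the quotient graph on `A` is `j`-PC (for a labelling of `A` with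
groups `A_i`, at most `j (|A_i| - 1)` of these edges lie inside `A_i`), so by `PC.glue` and `pc_class`
the union of the classes is `j`-PC, and two different classes are related. -/
theorem card_cr_can_lt (hF : WF s t n F) (hj : 1 ≤ j) (hU : U ⊆ range n)
    (h2 : 2 ≤ (U.image (can s t j F)).card) :
    (cr s t F U (can s t j F)).card < j * ((U.image (can s t j F)).card - 1) := by
  exact (card_le_card (comb_cr_sub _)).trans_lt (comb_lt hF _ (image_subset_image hU) h2)

theorem card_cr_can_le (hF : WF s t n F) (hU : U ⊆ range n) :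
    (cr s t F U (can s t j F)).card ≤ j * ((U.image (can s t j F)).card - 1) := by
  by_cases h2 : 2 ≤ (U.image (can s t j F)).card
  · exact (card_le_card (comb_cr_sub _)).trans (comb_lt hF _ (image_subset_image hU) h2).le
  · refine (card_le_card (comb_cr_sub _)).trans ?_
    rw [comb_small _ h2]
    exact Nat.zero_le _

theorem comb_kruskal (h : PC s t j F W) (hj : 1 ≤ j) (p : ℕ) : ∀ (c : ℕ → ℕ) (ℓ : ℕ → ℝ),
    (W.image c).card = p + 1 → (∀ e ∈ cr s t F W c, 0 ≤ ℓ e) →
    ∃ T ⊆ cr s t F W c, T.card = p ∧ (j : ℝ) * ∑ e ∈ T, ℓ e ≤ ∑ e ∈ cr s t F W c, ℓ e ∧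
      ∀ P : ℕ → Prop, (∀ u ∈ W, ∀ v ∈ W, c u = c v → P u → P v) →
        (∀ e ∈ T, P (s e) ↔ P (t e)) → ∀ u ∈ W, ∀ v ∈ W, P u → P v := by
  induction p with
  | zero =>
    intro c ℓ hc hℓ
    refine ⟨∅, empty_subset _, rfl, by simpa using sum_nonneg hℓ, fun P hP _ u hu v hv => ?_⟩
    exact hP u hu v hv (card_le_one.1 hc.le _ (mem_image_of_mem _ hu) _ (mem_image_of_mem _ hv))
  | succ p ih =>
    intro c ℓ hc hℓ
    have h1 := h c
    rw [hc, Nat.add_sub_cancel] at h1
    obtain ⟨e₀, he₀, hmin⟩ := exists_min_image (cr s t F W c) ℓ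
      (card_pos.1 ((Nat.mul_pos hj p.succ_pos).trans_le h1))
    obtain ⟨-, a1, a2, a3⟩ := mem_filter.1 he₀
    set c' : ℕ → ℕ := fun v => if c v = c (t e₀) then c (s e₀) else c v with hc'
    have k1 : W.image c' = (W.image c).erase (c (t e₀)) := by
      ext x
      simp only [mem_image, mem_erase, hc']
      constructor
      · rintro ⟨v, hv, rfl⟩
        split_ifs with e
        exacts [⟨a3, _, a1, rfl⟩, ⟨e, v, hv, rfl⟩]
      · rintro ⟨e, v, hv, rfl⟩
        exact ⟨v, hv, if_neg e⟩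
    have k2 : cr s t F W c' ⊆ cr s t F W c := fun e he => by
      obtain ⟨b0, b1, b2, b3⟩ := mem_filter.1 he
      exact mem_filter.2 ⟨b0, b1, b2, fun e => b3 (by simp only [hc', e])⟩
    have k3 : e₀ ∉ cr s t F W c' := fun he => (mem_filter.1 he).2.2.2 (by simp [hc'])
    obtain ⟨T, hT, hcard, hsum, hP⟩ := ih c' (fun e => ℓ e - ℓ e₀)
      (by rw [k1, card_erase_of_mem (mem_image_of_mem _ a2), hc]; rfl)
      fun e he => sub_nonneg.2 (hmin e (k2 he))
    have k4 : e₀ ∉ T := fun he => k3 (hT he)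
    refine ⟨insert e₀ T, insert_subset he₀ (hT.trans k2), by rw [card_insert_of_notMem k4, hcard], ?_,
      fun P hP1 hP2 => hP P (fun u hu v hv e => ?_) fun e he => hP2 e (mem_insert_of_mem he)⟩
    · have k5 := hsum.trans (sum_le_sum_of_subset_of_nonneg k2
        fun e he _ => sub_nonneg.2 (hmin e he))
      have k6 : (j : ℝ) * (p + 1) ≤ (cr s t F W c).card := by exact_mod_cast h1
      have k7 := mul_le_mul_of_nonneg_right k6 (hℓ e₀ he₀)
      simp only [sum_sub_distrib, sum_const, nsmul_eq_mul, hcard] at k5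
      rw [sum_insert k4]
      linarith
    · have k8 := hP2 e₀ (mem_insert_self _ _)
      simp only [hc'] at e
      split_ifs at e with e1 e2 e2
      · exact hP1 u hu v hv (e1.trans e2.symm)
      · exact fun h => hP1 _ a1 v hv e (k8.2 (hP1 u hu _ a2 e1 h))
      · exact fun h => hP1 _ a2 v hv e2.symm (k8.1 (hP1 u hu _ a1 e h))
      · exact hP1 u hu v hv e

/-- Kruskal: a cheap spanning tree of the quotient `W / c`.  Induction on the number of labels, for all
`ℓ ≥ 0`: if there are `p ≥ 2` labels take a shortest crossing edge `e₀`, merge its two labels (`c'`),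
and apply the induction hypothesis to `c'` and `max (ℓ - ℓ e₀) 0`; then
`j ∑_T ℓ = j (p - 1) ℓ e₀ + j ∑_{T'} (ℓ - ℓ e₀) ≤ |cr c| ℓ e₀ + ∑_{cr c} (ℓ - ℓ e₀)`. -/
theorem kruskal (h : PC s t j F W) (hj : 1 ≤ j) (hW : W.Nonempty) (c : ℕ → ℕ) (ℓ : ℕ → ℝ)
    (hℓ : ∀ e ∈ F, 0 ≤ ℓ e) :
    ∃ T ⊆ cr s t F W c, T.card + 1 = (W.image c).card ∧
      (j : ℝ) * ∑ e ∈ T, ℓ e ≤ ∑ e ∈ cr s t F W c, ℓ e ∧
      ∀ P : ℕ → Prop, (∀ u ∈ W, ∀ v ∈ W, c u = c v → P u → P v) →
        (∀ e ∈ T, P (s e) ↔ P (t e)) → ∀ u ∈ W, ∀ v ∈ W, P u → P v := by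
  obtain ⟨p, hp⟩ := Nat.exists_eq_add_of_le' (card_pos.2 (hW.image c))
  obtain ⟨T, h1, h2, h3⟩ := comb_kruskal h hj p c ℓ hp fun e he => hℓ e (cr_subset c he)
  exact ⟨T, h1, by rw [h2, hp], h3⟩

/-- Along a spanning tree: `|x u - x v| ≤ ∑_{e ∈ T} |x (s e) - x (t e)|` for the tree `T` of `kruskal`
with `c = id` (every level between `x u` and `x v` lies between the ends of an edge of `T`; compare
Lebesgue measures, or induct), `|T| ≤ n - 1`, and Cauchy-Schwarz. -/
theorem Rel.sq_sub_le (hF : WF s t n F) (hj : 1 ≤ j) (h : Rel s t j F u v) (hu : u < n)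
    (x : ℕ → ℝ) : (x u - x v) ^ 2 ≤ ((n : ℝ) - 1) * qL s t F x := by
  obtain ⟨U, hu', hv', hU⟩ := h
  obtain ⟨T, hT, hcard, -, hP⟩ := kruskal hU hj ⟨u, hu'⟩ id (fun _ => 0) fun _ _ => le_rfl
  have h1 : T.card + 1 ≤ n := by
    rw [hcard, image_id, ← card_range n]
    exact card_le_card fun w hw => mem_range.2 ((hU.rel hu' hw).lt hF hj hu)
  have h2 : Set.uIoc (x u) (x v) ⊆ ⋃ e ∈ T, Set.uIoc (x (s e)) (x (t e)) := fun θ hθ => by
    by_contra hc
    simp only [Set.mem_iUnion, not_exists, Set.mem_uIoc] at hc hθ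
    have := hP (fun w => θ ≤ x w) (fun a _ b _ e => by rw [show a = b from e]; exact id) fun e he => by
      have := hc e he
      constructor <;> intro h <;> by_contra h' <;> simp [h, not_le.1 h'] at this
    rcases hθ with h | h
    · exact absurd (this v hv' u hu' h.2) (not_le.2 h.1)
    · exact absurd (this u hu' v hv' h.2) (not_le.2 h.1)
  have h3 : |x u - x v| ≤ ∑ e ∈ T, |x (s e) - x (t e)| := by
    have := (MeasureTheory.measure_mono (μ := MeasureTheory.volume) h2).trans
      (MeasureTheory.measure_biUnion_finset_le _ _)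
    simp only [Real.volume_uIoc] at this
    rw [← ENNReal.ofReal_sum_of_nonneg fun _ _ => abs_nonneg _,
      ENNReal.ofReal_le_ofReal_iff (sum_nonneg fun _ _ => abs_nonneg _), abs_sub_comm] at this
    simpa only [abs_sub_comm (x (t _))] using this
  have h4 : (T.card : ℝ) ≤ n - 1 := by
    rw [le_sub_iff_add_le]
    exact_mod_cast h1
  calc _ = |x u - x v| ^ 2 := (sq_abs _).symm
    _ ≤ (∑ e ∈ T, |x (s e) - x (t e)|) ^ 2 := by gcongr
    _ ≤ T.card * ∑ e ∈ T, |x (s e) - x (t e)| ^ 2 := sq_sum_le_card_mul_sum_sq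
    _ ≤ _ := by
      simp only [sq_abs, qL]
      have := (Nat.cast_nonneg T.card).trans h4
      gcongr
      exact hT.trans (cr_subset _)

/-- With a root `r`: `x v ^ 2 ≤ n (qL + x r ^ 2)`
(`|x v| ≤ |x r| + √((n-1) qL)` and Cauchy-Schwarz). -/
theorem Rel.sq_le (hF : WF s t n F) (hj : 1 ≤ j) (h : Rel s t j F v u) (hv : v < n)
    (x : ℕ → ℝ) : x v ^ 2 ≤ (n : ℝ) * (qL s t F x + x u ^ 2) := by
  have h1 := h.sq_sub_le hF hj hv x
  have h2 : 0 ≤ qL s t F x := sum_nonneg fun _ _ => sq_nonneg _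
  have h3 : (1 : ℝ) ≤ n := by exact_mod_cast Nat.succ_le_of_lt (Nat.zero_lt_of_lt hv)
  rcases h3.eq_or_lt with e | e
  · rw [← e, sub_self, zero_mul] at h1
    rw [sub_eq_zero.1 (pow_eq_zero_iff two_ne_zero |>.1 (h1.antisymm (sq_nonneg _))), ← e]
    linarith
  · refine le_of_mul_le_mul_left ?_ (sub_pos.2 e)
    nlinarith [sq_nonneg (x v - x u - (n - 1) * x u), mul_le_mul_of_nonneg_left h1 (Nat.cast_nonneg n)]

end Crest.Agent.R37
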