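import Crest.Agent.R37.Defs

/-!
# R37/Comb1: partition connectivity and the canonical partition
-/

set_option autoImplicit false
open Finset

namespace Crest.Agent.R37

variable {s t : ℕ → ℕ} {j k n : ℕ} {F G U W : Finset ℕ} {u v w : ℕ}

theorem WF.mono (h : WF s t n F) (hG : G ⊆ F) : WF s t n G := fun e he => h e (hG he)

theorem cr_subset (c : ℕ → ℕ) : cr s t F U c ⊆ F := filter_subset _ _

theorem cr_mono (hF : F ⊆ G) (c : ℕ → ℕ) : cr s t F U c ⊆ cr s t G U c :=
  filter_subset_filter _ hF

theorem PC.mono (h : PC s t j F U) (hF : F ⊆ G) (hk : k ≤ j) : PC s t k G U := fun c =>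
  (Nat.mul_le_mul_right _ hk).trans ((h c).trans (card_le_card (cr_mono hF c)))

theorem pc_zero : PC s t 0 F U := fun c => by simp

theorem pc_singleton (u : ℕ) : PC s t j F {u} := fun c => by simp

/-- Only the edges inside `U` matter. -/
theorem PC.restrict (h : PC s t j F U) (hG : ∀ e ∈ F, s e ∈ U → t e ∈ U → e ∈ G) :
    PC s t j G U := fun c => (h c).trans (card_le_card fun e he => by
  simp only [cr, mem_filter] at he ⊢
  exact ⟨hG e he.1 he.2.1 he.2.2.1, he.2⟩)

/-- Removing one edge costs at most one. -/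
theorem PC.erase (h : PC s t (j + 1) F U) (e : ℕ) : PC s t j (F.erase e) U := by
  intro c
  have h1 := h c
  have h2 : (cr s t F U c).erase e ⊆ cr s t (F.erase e) U c := by
    intro f hf
    simp only [cr, mem_erase, mem_filter] at hf ⊢
    exact ⟨⟨hf.1, hf.2.1⟩, hf.2.2⟩
  have h3 := card_le_card h2
  have h4 : (cr s t F U c).card ≤ ((cr s t F U c).erase e).card + 1 := by
    have := pred_card_le_card_erase (s := cr s t F U c) (a := e)
    omega
  rcases Nat.eq_zero_or_pos ((U.image c).card - 1) with h0 | h0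
  · rw [h0]; simp
  · rw [Nat.add_mul, one_mul] at h1
    omega

/-- merge all labels taken on `U` into the label of `x` -/
def comb1_merge (U : Finset ℕ) (c : ℕ → ℕ) (x : ℕ) : ℕ → ℕ :=
  fun v => if c v ∈ U.image c then c x else c v

theorem comb1_merge_of_mem {c : ℕ → ℕ} {x : ℕ} (hv : v ∈ U) : comb1_merge U c x v = c x := by
  unfold comb1_merge
  rw [if_pos (mem_image_of_mem c hv)]

theorem comb1_merge_card {c : ℕ → ℕ} {x : ℕ} (hUW : U ⊆ W) (hx : x ∈ U) :
    (W.image (comb1_merge U c x)).card + (U.image c).card = (W.image c).card + 1 := by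
  have e1 : W.image (comb1_merge U c x) = insert (c x) (W.image c \ U.image c) := by
    ext a
    simp only [mem_insert, mem_sdiff]
    constructor
    · intro ha
      obtain ⟨v, hv, rfl⟩ := mem_image.1 ha
      unfold comb1_merge
      split_ifs with h
      · exact Or.inl rfl
      · exact Or.inr ⟨mem_image_of_mem c hv, h⟩
    · rintro (rfl | ⟨h1, h2⟩)
      · exact mem_image.2 ⟨x, hUW hx, comb1_merge_of_mem hx⟩
      · obtain ⟨v, hv, rfl⟩ := mem_image.1 h1
        refine mem_image.2 ⟨v, hv, ?_⟩
        unfold comb1_merge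
        rw [if_neg h2]
  have e2 : c x ∉ W.image c \ U.image c := fun h => (mem_sdiff.1 h).2 (mem_image_of_mem c hx)
  have e3 : U.image c ⊆ W.image c := image_subset_image hUW
  rw [e1, card_insert_of_notMem e2, card_sdiff_of_subset e3]
  have := card_le_card e3
  omega

theorem comb1_merge_cr {c : ℕ → ℕ} {x : ℕ} (hUW : U ⊆ W) :
    (cr s t F U c).card + (cr s t F W (comb1_merge U c x)).card ≤ (cr s t F W c).card := by
  rw [← card_union_of_disjoint]
  · refine card_le_card fun e he => ?_
    simp only [cr, mem_union, mem_filter] at he ⊢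
    rcases he with ⟨h1, h2, h3, h4⟩ | ⟨h1, h2, h3, h4⟩
    · exact ⟨h1, hUW h2, hUW h3, h4⟩
    · refine ⟨h1, h2, h3, fun h => h4 ?_⟩
      unfold comb1_merge
      rw [h]
  · rw [disjoint_left]
    intro e h1 h2
    simp only [cr, mem_filter] at h1 h2
    exact h2.2.2.2 ((comb1_merge_of_mem h1.2.1).trans (comb1_merge_of_mem h1.2.2.1).symm)

theorem comb1_cr_mono_right (hUW : U ⊆ W) (c : ℕ → ℕ) : cr s t F U c ⊆ cr s t F W c := by
  intro e he
  simp only [cr, mem_filter] at he ⊢
  exact ⟨he.1, hUW he.2.1, hUW he.2.2.1, he.2.2.2⟩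

theorem comb1_step {c : ℕ → ℕ} {x : ℕ} (hUW : U ⊆ W) (hx : x ∈ U)
    (h1 : j * ((U.image c).card - 1) ≤ (cr s t F U c).card)
    (h2 : j * ((W.image (comb1_merge U c x)).card - 1) ≤ (cr s t F W (comb1_merge U c x)).card) :
    j * ((W.image c).card - 1) ≤ (cr s t F W c).card := by
  have e1 := comb1_merge_card (c := c) hUW hx
  have e2 := comb1_merge_cr (s := s) (t := t) (F := F) (c := c) (x := x) hUW
  have e3 : 1 ≤ (U.image c).card := card_pos.2 ⟨_, mem_image_of_mem c hx⟩
  have e4 : 1 ≤ (W.image (comb1_merge U c x)).card :=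
    card_pos.2 ⟨_, mem_image_of_mem _ (hUW hx)⟩
  have e5 : (W.image c).card - 1 =
      ((U.image c).card - 1) + ((W.image (comb1_merge U c x)).card - 1) := by omega
  rw [e5, Nat.mul_add]
  omega

/-- Given `c`, let `c'` send every vertex whose label lies in `c(U)` to one label `c x` (`x ∈ U ∩ W`).
The edges inside `U` crossing `c` and the edges inside `W` crossing `c'` are disjoint subsets of the
edges inside `U ∪ W` crossing `c`, and `|c(U ∪ W)| + 1 = |c(U)| + |c'(W)|`. -/
theorem PC.union (hU : PC s t j F U) (hW : PC s t j F W) (h : (U ∩ W).Nonempty) :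
    PC s t j F (U ∪ W) := by
  intro c
  obtain ⟨x, hx⟩ := h
  obtain ⟨hxU, hxW⟩ := mem_inter.1 hx
  refine comb1_step subset_union_left hxU (hU c) ?_
  have e : (U ∪ W).image (comb1_merge U c x) = W.image (comb1_merge U c x) := by
    refine Subset.antisymm ?_ (image_subset_image subset_union_right)
    intro a ha
    obtain ⟨v, hv, rfl⟩ := mem_image.1 ha
    rcases mem_union.1 hv with h | h
    · exact mem_image.2 ⟨x, hxW, (comb1_merge_of_mem hxU).trans (comb1_merge_of_mem h).symm⟩
    · exact mem_image_of_mem _ h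
  rw [e]
  exact (hW _).trans (card_le_card (comb1_cr_mono_right subset_union_right _))

theorem Rel.refl (u : ℕ) : Rel s t j F u u :=
  ⟨{u}, mem_singleton_self _, mem_singleton_self _, pc_singleton u⟩

theorem Rel.symm (h : Rel s t j F u v) : Rel s t j F v u :=
  let ⟨U, a, b, c⟩ := h; ⟨U, b, a, c⟩

theorem Rel.trans (h : Rel s t j F u v) (h' : Rel s t j F v w) : Rel s t j F u w :=
  let ⟨U, a, b, c⟩ := h
  let ⟨W, a', b', c'⟩ := h'
  ⟨U ∪ W, mem_union_left _ a, mem_union_right _ b', c.union c' ⟨v, mem_inter.2 ⟨b, a'⟩⟩⟩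

theorem Rel.mono (h : Rel s t j F u v) (hF : F ⊆ G) (hk : k ≤ j) : Rel s t k G u v :=
  let ⟨U, a, b, c⟩ := h; ⟨U, a, b, c.mono hF hk⟩

theorem rel_zero (u v : ℕ) : Rel s t 0 F u v := ⟨{u, v}, by simp, by simp, pc_zero⟩

theorem PC.rel (h : PC s t j F U) (hu : u ∈ U) (hv : v ∈ U) : Rel s t j F u v := ⟨U, hu, hv, h⟩

theorem rel_can (u : ℕ) : Rel s t j F u (can s t j F u) :=
  Nat.sInf_mem (s := {v | Rel s t j F u v}) ⟨u, Rel.refl u⟩

theorem can_le (u : ℕ) : can s t j F u ≤ u := Nat.sInf_le (Rel.refl u)

theorem can_eq_iff : can s t j F u = can s t j F v ↔ Rel s t j F u v := by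
  refine ⟨fun h => (rel_can u).trans (h ▸ (rel_can v).symm), fun h => ?_⟩
  unfold can
  congr 1
  ext w
  exact ⟨fun h' => h.symm.trans h', fun h' => h.trans h'⟩

theorem can_can (u : ℕ) : can s t j F (can s t j F u) = can s t j F u :=
  can_eq_iff.2 (rel_can u).symm

/-- Connectivity principle: a property constant along the edges inside a `1`-PC set is constant
(take for `c` the indicator of `P`). -/
theorem PC.conn (h : PC s t j F U) (hj : 1 ≤ j) (P : ℕ → Prop)
    (hP : ∀ e ∈ F, s e ∈ U → t e ∈ U → (P (s e) ↔ P (t e))) (hu : u ∈ U) (hv : v ∈ U) (h1 : P u) :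
    P v := by
  classical
  by_contra hv'
  have h2 := h fun x => if P x then 0 else 1
  have h3 : 2 ≤ (U.image fun x => if P x then 0 else 1).card := by
    have : ({0, 1} : Finset ℕ) ⊆ U.image fun x => if P x then 0 else 1 := by
      intro a ha
      simp only [mem_insert, mem_singleton] at ha
      rcases ha with rfl | rfl
      · exact mem_image.2 ⟨u, hu, if_pos h1⟩
      · exact mem_image.2 ⟨v, hv, if_neg hv'⟩
    simpa using card_le_card this
  have h4 : cr s t F U (fun x => if P x then 0 else 1) = ∅ := by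
    refine eq_empty_of_forall_notMem fun e he => ?_
    simp only [cr, mem_filter] at he
    have := hP e he.1 he.2.1 he.2.2.1
    refine he.2.2.2 ?_
    by_cases hs : P (s e)
    · rw [if_pos hs, if_pos (this.1 hs)]
    · rw [if_neg hs, if_neg fun h' => hs (this.2 h')]
  rw [h4, card_empty] at h2
  have h5 : 1 * 1 ≤ j * ((U.image fun x => if P x then 0 else 1).card - 1) :=
    Nat.mul_le_mul hj (by omega)
  omega

/-- Converse for `j = 1`: induction on the number of labels (the class of one label is left by an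
edge; merge the two labels of that edge). -/
theorem pc_one_of_conn (h : ∀ P : ℕ → Prop, (∀ e ∈ F, s e ∈ U → t e ∈ U → (P (s e) ↔ P (t e))) →
    ∀ u ∈ U, ∀ v ∈ U, P u → P v) : PC s t 1 F U := by
  have key : ∀ m, ∀ c : ℕ → ℕ, (U.image c).card = m →
      1 * ((U.image c).card - 1) ≤ (cr s t F U c).card := by
    intro m
    induction m using Nat.strong_induction_on with
    | _ m ih =>
      intro c hc
      by_cases hm : m ≤ 1
      · omega
      obtain ⟨a, ha, b, hb, hab⟩ := one_lt_card.1 (show 1 < (U.image c).card by omega)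
      obtain ⟨u, hu, rfl⟩ := mem_image.1 ha
      obtain ⟨v, hv, rfl⟩ := mem_image.1 hb
      have : ∃ e ∈ F, s e ∈ U ∧ t e ∈ U ∧ c (s e) ≠ c (t e) := by
        by_contra hcon
        push Not at hcon
        exact hab (h (fun x => c u = c x)
          (fun e he h1 h2 => by rw [hcon e he h1 h2]) u hu v hv rfl)
      obtain ⟨e, he, h1, h2, h3⟩ := this
      have hsub : ({s e, t e} : Finset ℕ) ⊆ U := by
        intro x hx
        simp only [mem_insert, mem_singleton] at hx
        rcases hx with rfl | rfl <;> assumption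
      have hx : s e ∈ ({s e, t e} : Finset ℕ) := by simp
      have hcard : (({s e, t e} : Finset ℕ).image c).card = 2 := by
        rw [image_insert, image_singleton, card_pair h3]
      have e1 := comb1_merge_card (c := c) hsub hx
      refine comb1_step hsub hx ?_ (ih _ (by omega) _ rfl)
      rw [hcard]
      refine card_pos.2 ⟨e, ?_⟩
      simp only [cr, mem_filter]
      exact ⟨he, hx, by simp, h3⟩
  exact fun c => key _ c rfl

/-- For `j ≥ 1` a vertex related to `u < n` is below `n` (use `PC.conn` with `P x := x < n`). -/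
theorem Rel.lt (hF : WF s t n F) (hj : 1 ≤ j) (h : Rel s t j F u v) (hu : u < n) : v < n := by
  obtain ⟨U, a, b, c⟩ := h
  exact c.conn hj (fun x => x < n)
    (fun e he _ _ => ⟨fun _ => (hF e he).2.1, fun _ => (hF e he).1⟩) a b hu

theorem comb1_pc_cover {C : Finset ℕ} (hu : u ∈ C) (S : Finset ℕ)
    (h : ∀ v ∈ S, ∃ U, u ∈ U ∧ v ∈ U ∧ U ⊆ C ∧ PC s t j F U) :
    ∃ U, u ∈ U ∧ S ⊆ U ∧ U ⊆ C ∧ PC s t j F U := by
  induction S using Finset.induction_on with
  | empty => exact ⟨{u}, by simp, by simp, by simpa using hu, pc_singleton u⟩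
  | insert v S _ ih =>
    obtain ⟨U, h1, h2, h3, h4⟩ := ih fun w hw => h w (mem_insert_of_mem hw)
    obtain ⟨U', h1', h2', h3', h4'⟩ := h v (mem_insert_self _ _)
    refine ⟨U ∪ U', mem_union_left _ h1, ?_, union_subset h3 h3',
      h4.union h4' ⟨u, mem_inter.2 ⟨h1, h1'⟩⟩⟩
    exact insert_subset (mem_union_right _ h2') (h2.trans subset_union_left)

/-- The classes are partition-connected (finite union of PC sets through one point, all inside
`range n` when `j ≥ 1`). -/
theorem pc_class (hF : WF s t n F) (a : ℕ) :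
    PC s t j F ((range n).filter fun v => can s t j F v = a) := by
  rcases Nat.eq_zero_or_pos j with rfl | hj
  · exact pc_zero
  rcases ((range n).filter fun v => can s t j F v = a).eq_empty_or_nonempty with h | ⟨u, hu⟩
  · rw [h]; intro c; simp
  obtain ⟨U, -, h2, h3, h4⟩ := comb1_pc_cover (s := s) (t := t) (j := j) (F := F) hu
    ((range n).filter fun v => can s t j F v = a) (by
      intro v hv
      have hu' := mem_filter.1 hu
      have hv' := mem_filter.1 hv
      obtain ⟨U, h1, h2, h3⟩ := can_eq_iff.1 (hu'.2.trans hv'.2.symm)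
      refine ⟨U, h1, h2, fun w hw => ?_, h3⟩
      have hr : Rel s t j F u w := ⟨U, h1, hw, h3⟩
      exact mem_filter.2 ⟨mem_range.2 (hr.lt hF hj (mem_range.1 hu'.1)),
        (can_eq_iff.2 hr).symm.trans hu'.2⟩)
  rwa [Subset.antisymm h2 h3]

/-- Gluing: if the fibres of `c` in `W` are PC and the quotient is PC then `W` is PC.
Strong induction on the number of labels of the test labelling `β` on `W`: if `β` is constant on each
fibre it factors through `c`; otherwise merge all labels that `β` takes on one non-constant fibre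
into one label (as in `PC.union`) and use the induction hypothesis. -/
theorem PC.glue (c : ℕ → ℕ) (h1 : ∀ a, PC s t j F (W.filter fun v => c v = a))
    (h2 : PC (c ∘ s) (c ∘ t) j (F.filter fun e => s e ∈ W ∧ t e ∈ W) (W.image c)) :
    PC s t j F W := by
  have key : ∀ m, ∀ β : ℕ → ℕ, (W.image β).card = m →
      j * ((W.image β).card - 1) ≤ (cr s t F W β).card := by
    intro m
    induction m using Nat.strong_induction_on with
    | _ m ih =>
      intro β hβ
      by_cases hc : ∀ v ∈ W, ∀ w ∈ W, c v = c w → β v = β w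
      · classical
        let γ : ℕ → ℕ := fun a => if h : ∃ v ∈ W, c v = a then β h.choose else 0
        have hγ : ∀ v ∈ W, γ (c v) = β v := by
          intro v hv
          have h : ∃ w ∈ W, c w = c v := ⟨v, hv, rfl⟩
          simp only [γ, dif_pos h]
          exact hc _ h.choose_spec.1 _ hv h.choose_spec.2
        have e1 : (W.image c).image γ = W.image β := by
          rw [image_image]
          exact image_congr fun v hv => hγ v hv
        have h3 := h2 γ
        rw [e1] at h3
        refine h3.trans (card_le_card fun e he => ?_)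
        simp only [cr, mem_filter, Function.comp_apply] at he ⊢
        obtain ⟨⟨a1, a2, a3⟩, -, -, a4⟩ := he
        refine ⟨a1, a2, a3, ?_⟩
        rwa [hγ _ a2, hγ _ a3] at a4
      · push Not at hc
        obtain ⟨v, hv, w, hw, hvw, hne⟩ := hc
        have hsub : W.filter (fun x => c x = c v) ⊆ W := filter_subset _ _
        have hx : v ∈ W.filter (fun x => c x = c v) := mem_filter.2 ⟨hv, rfl⟩
        have hy : w ∈ W.filter (fun x => c x = c v) := mem_filter.2 ⟨hw, hvw.symm⟩
        have e1 := comb1_merge_card (c := β) hsub hx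
        have e2 : 1 < ((W.filter fun x => c x = c v).image β).card :=
          one_lt_card.2 ⟨_, mem_image_of_mem β hx, _, mem_image_of_mem β hy, hne⟩
        exact comb1_step hsub hx (h1 (c v) β) (ih _ (by omega) _ rfl)
  exact fun β => key _ β rfl

/-- Contraction preserves partition connectivity. -/
theorem PC.map (h : PC s t j F W) (c : ℕ → ℕ) :
    PC (c ∘ s) (c ∘ t) j (F.filter fun e => c (s e) ≠ c (t e)) (W.image c) := by
  intro γ
  rw [image_image]
  refine (h (γ ∘ c)).trans (card_le_card fun e he => ?_)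
  simp only [cr, mem_filter, Function.comp_apply] at he ⊢
  obtain ⟨a1, a2, a3, a4⟩ := he
  exact ⟨⟨a1, fun h' => a4 (by rw [h'])⟩, mem_image_of_mem c a2, mem_image_of_mem c a3, a4⟩

/-- Deleting the edges between different classes does not change the classes. -/
theorem rel_tidy [DecidablePred fun e => Rel s t j F (s e) (t e)] :
    Rel s t j (F.filter fun e => Rel s t j F (s e) (t e)) u v ↔ Rel s t j F u v := by
  refine ⟨fun h => h.mono (filter_subset _ _) le_rfl, fun ⟨U, a, b, c⟩ => ⟨U, a, b, ?_⟩⟩
  exact c.restrict fun e he h1 h2 => mem_filter.2 ⟨he, c.rel h1 h2⟩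

/-- Every crossing edge is counted by two classes. -/
theorem sum_cut_eq (hF : WF s t n F) (c : ℕ → ℕ) :
    ∑ a ∈ (range n).image c, cut s t F ((range n).filter fun v => c v = a) =
      2 * (cr s t F (range n) c).card := by
  unfold cut cr
  simp only [card_filter]
  rw [sum_comm, mul_sum]
  refine sum_congr rfl fun e he => ?_
  obtain ⟨h1, h2, -⟩ := hF e he
  have hs : c (s e) ∈ (range n).image c := mem_image_of_mem c (mem_range.2 h1)
  have ht : c (t e) ∈ (range n).image c := mem_image_of_mem c (mem_range.2 h2)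
  simp only [mem_filter, mem_range, h1, h2, true_and]
  by_cases h : c (s e) = c (t e)
  · simp [h]
  · rw [if_pos h, mul_one, ← card_filter]
    have : ((range n).image c).filter (fun a => ¬ (c (s e) = a ↔ c (t e) = a)) =
        {c (s e), c (t e)} := by
      ext a
      simp only [mem_filter, mem_insert, mem_singleton]
      constructor
      · rintro ⟨-, h3⟩
        by_contra h4
        push Not at h4
        exact h3 ⟨fun h5 => absurd h5.symm h4.1, fun h5 => absurd h5.symm h4.2⟩
      · rintro (rfl | rfl)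
        · exact ⟨hs, fun h3 => h (h3.1 rfl).symm⟩
        · exact ⟨ht, fun h3 => h (h3.2 rfl)⟩
    rw [this, card_pair h]

theorem qL_indicator (S : Finset ℕ) :
    qL s t F (fun v => if v ∈ S then 1 else 0) = cut s t F S := by
  unfold qL cut
  rw [card_filter]
  push_cast
  refine sum_congr rfl fun e _ => ?_
  by_cases h1 : s e ∈ S <;> by_cases h2 : t e ∈ S <;> simp [h1, h2]

theorem IsPM.nonneg {d : ℕ → ℕ → ℝ} (h : IsPM d) (u v : ℕ) : 0 ≤ d u v := by
  have h1 := h.2.2 u v u
  rw [h.1, h.2.1 v u] at h1
  linarith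

end Crest.Agent.R37
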