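import Mathlib
import Crest.Agent.Lib.PT.All

/-!
# R37 (strong thin trees): definitions

Vertices and edges are natural numbers.  A multigraph is a pair of maps `s t : ℕ → ℕ` (the two ends of
an edge) with a finite set `F : Finset ℕ` of edges; the vertices are `range n`.  Partitions are
labellings `c : ℕ → ℕ`.  For the algorithms a graph is a list `E : Gr` of pairs (`s = src E`,
`t = tgt E`) and a list `F : List ℕ` of edge indices (the edge set is `F.toFinset`).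
-/

set_option autoImplicit false
open Finset Matrix

namespace Crest.Agent.R37

open Crest.Agent.Lib.PT

/-! ### Graphs, partitions -/

abbrev Gr := List (ℕ × ℕ)
def src (E : Gr) (e : ℕ) : ℕ := (E.getD e (0, 0)).1
def tgt (E : Gr) (e : ℕ) : ℕ := (E.getD e (0, 0)).2

section comb
variable (s t : ℕ → ℕ)

/-- the edges of `F` join two distinct vertices below `n` -/
def WF (n : ℕ) (F : Finset ℕ) : Prop := ∀ e ∈ F, s e < n ∧ t e < n ∧ s e ≠ t e

/-- the edges of `F` inside `U` whose ends have different labels -/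
def cr (F U : Finset ℕ) (c : ℕ → ℕ) : Finset ℕ :=
  F.filter fun e => s e ∈ U ∧ t e ∈ U ∧ c (s e) ≠ c (t e)

/-- `U` is `j`-partition-connected by the edges of `F` inside `U` -/
def PC (j : ℕ) (F U : Finset ℕ) : Prop :=
  ∀ c : ℕ → ℕ, j * ((U.image c).card - 1) ≤ (cr s t F U c).card

/-- `u, v` lie in a common `j`-partition-connected set -/
def Rel (j : ℕ) (F : Finset ℕ) (u v : ℕ) : Prop := ∃ U : Finset ℕ, u ∈ U ∧ v ∈ U ∧ PC s t j F U

/-- the canonical partition: the least vertex related to `u` -/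
noncomputable def can (j : ℕ) (F : Finset ℕ) (u : ℕ) : ℕ := sInf {v | Rel s t j F u v}

/-- the number of edges of `F` with exactly one end in `S` -/
def cut (F S : Finset ℕ) : ℕ := (F.filter fun e => ¬ (s e ∈ S ↔ t e ∈ S)).card

/-- the Laplacian form -/
def qL (F : Finset ℕ) (x : ℕ → ℝ) : ℝ := ∑ e ∈ F, (x (s e) - x (t e)) ^ 2

end comb

/-- pseudo-metrics on the vertices -/
def IsPM (d : ℕ → ℕ → ℝ) : Prop :=
  (∀ u, d u u = 0) ∧ (∀ u v, d u v = d v u) ∧ ∀ u v w, d u w ≤ d u v + d v w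

/-! ### Matrices -/

section la
variable {N : ℕ}

def ev (N u : ℕ) : Fin N → ℝ := fun i => if (i : ℕ) = u then 1 else 0
def bv (N u v : ℕ) : Fin N → ℝ := ev N u - ev N v
def op (x : Fin N → ℝ) : Matrix (Fin N) (Fin N) ℝ := vecMulVec x x
def qf (M : Matrix (Fin N) (Fin N) ℝ) (x : Fin N → ℝ) : ℝ := x ⬝ᵥ M *ᵥ x
/-- Loewner order -/
def Le (A B : Matrix (Fin N) (Fin N) ℝ) : Prop := ∀ x, qf A x ≤ qf B x
/-- positive definite -/
def PD (M : Matrix (Fin N) (Fin N) ℝ) : Prop := M.IsSymm ∧ ∀ x, x ≠ 0 → 0 < qf M x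
/-- effective resistance -/
noncomputable def res (D : Matrix (Fin N) (Fin N) ℝ) (u v : ℕ) : ℝ := qf D⁻¹ (bv N u v)

def lap (N : ℕ) (s t : ℕ → ℕ) (F : Finset ℕ) : Matrix (Fin N) (Fin N) ℝ :=
  ∑ e ∈ F, op (bv N (s e) (t e))
/-- Laplacian grounded at the vertices of `ρ` -/
def glap (N : ℕ) (s t : ℕ → ℕ) (F ρ : Finset ℕ) : Matrix (Fin N) (Fin N) ℝ :=
  lap N s t F + ∑ r ∈ ρ, op (ev N r)

end la

/-! ### Lists of rationals as vectors and matrices -/

abbrev Vec := List ℚ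
abbrev Mat := List (List ℚ)

def vg (x : Vec) (i : ℕ) : ℚ := x.getD i 0
def mg (C : Mat) (k l : ℕ) : ℚ := (C.getD k []).getD l 0
def mkV (N : ℕ) (f : ℕ → ℚ) : Vec := (List.range N).map f
def mkM (N : ℕ) (f : ℕ → ℕ → ℚ) : Mat :=
  (List.range N).map fun k => (List.range N).map fun l => f k l
def toV (N : ℕ) (x : Vec) : Fin N → ℝ := fun i => (vg x i : ℝ)
def toM (N : ℕ) (C : Mat) : Matrix (Fin N) (Fin N) ℝ := Matrix.of fun k l => (mg C k l : ℝ)
def evL (N u : ℕ) : Vec := mkV N fun i => if i = u then 1 else 0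
def bvL (N u v : ℕ) : Vec := mkV N fun i => (if i = u then 1 else 0) - (if i = v then 1 else 0)
/-- `∑ w • x xᵀ` -/
def sumOp (N : ℕ) (L : List (ℚ × Vec)) : Mat :=
  mkM N fun k l => (L.map fun p => p.1 * (vg p.2 k * vg p.2 l)).sum
/-- `xᵀ C y` -/
def bil (N : ℕ) (C : Mat) (x y : Vec) : ℚ :=
  ∑ k ∈ range N, ∑ l ∈ range N, vg x k * (mg C k l * vg y l)

/-! ### Routable demands and the convex programme -/

section opt
variable (n : ℕ) (s t : ℕ → ℕ) (F : Finset ℕ)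

/-- grounded Laplacian plus the demands `c` -/
def Dm (c : ℕ → ℕ → ℝ) : Matrix (Fin n) (Fin n) ℝ :=
  glap n s t F {0} + ∑ u ∈ range n, ∑ v ∈ range n, c u v • op (bv n u v)

/-- the demands `c` are routable with congestion `g < 1` -/
structure Valid (c : ℕ → ℕ → ℝ) (g : ℕ → ℝ) : Prop where
  c_nonneg : ∀ u v, 0 ≤ c u v
  g_nonneg : ∀ a ∈ F, 0 ≤ g a
  g_lt : ∀ a ∈ F, g a < 1
  route : ∀ d, IsPM d →
    ∑ u ∈ range n, ∑ v ∈ range n, c u v * d u v ≤ ∑ a ∈ F, g a * d (s a) (t a)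

/-- the objective -/
noncomputable def Fv (lam : ℕ → ℕ) (c : ℕ → ℕ → ℝ) (g : ℕ → ℝ) : ℝ :=
  ∑ e ∈ F, (lam e : ℝ) * res (Dm n s t F c) (s e) (t e) + ∑ a ∈ F, 1 / (1 - g a)

/-- minus the derivative of the resistance part in the demand `(u, v)` -/
noncomputable def gr (lam : ℕ → ℕ) (c : ℕ → ℕ → ℝ) (u v : ℕ) : ℝ :=
  ∑ e ∈ F, (lam e : ℝ) * (bv n (s e) (t e) ⬝ᵥ (Dm n s t F c)⁻¹ *ᵥ bv n u v) ^ 2

/-- near-stationary points -/
def NS (lam : ℕ → ℕ) (c : ℕ → ℕ → ℝ) (g : ℕ → ℝ) (ξ : ℝ) : Prop :=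
  ∃ d, IsPM d ∧ (∀ a ∈ F, d (s a) (t a) ≤ 1 / (1 - g a) ^ 2) ∧
    (∀ u < n, ∀ v < n, gr n s t F lam c u v ≤ d u v + ξ) ∧
    ∑ a ∈ F, g a / (1 - g a) ^ 2 ≤
      ∑ u ∈ range n, ∑ v ∈ range n, c u v * gr n s t F lam c u v + ξ

/-- the weights are powers of two, and a raised edge is not inside a `k`-partition-connected set
of much lighter edges -/
def Aligned (k : ℕ) (lam : ℕ → ℕ) : Prop :=
  ∀ e ∈ F, (∃ a, lam e = 2 ^ a) ∧
    (2 ≤ lam e → ¬ Rel s t k (F.filter fun f => 2 * lam f < lam e) (s e) (t e))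

end opt

/-! ### Chain-connected finite sets -/

/-- `K` is connected by steps of length at most `a` -/
def Conn {Y : Type} [PseudoMetricSpace Y] (a : ℝ) (K : Finset Y) : Prop :=
  ∀ P : Y → Prop, (∀ x ∈ K, ∀ y ∈ K, dist x y ≤ a → P x → P y) → ∀ x ∈ K, ∀ y ∈ K, P x → P y

/-! ### Polynomial time -/

section pt
variable {α : Type} [Enc α] {E : α → Gr} {e k l N u v : α → ℕ} {C : α → Mat} {x y : α → Vec}

@[fun_prop] theorem src_pt (hE : PT E) (he : PT e) : PT fun a => src (E a) (e a) := by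
  unfold src; fun_prop
@[fun_prop] theorem tgt_pt (hE : PT E) (he : PT e) : PT fun a => tgt (E a) (e a) := by
  unfold tgt; fun_prop
@[fun_prop] theorem vg_pt (hx : PT x) (hk : PT k) : PT fun a => vg (x a) (k a) := by
  unfold vg; fun_prop
@[fun_prop] theorem mg_pt (hC : PT C) (hk : PT k) (hl : PT l) :
    PT fun a => mg (C a) (k a) (l a) := by
  unfold mg; fun_prop
theorem mkV_pt {f : α → ℕ → ℚ} (hN : PT N) (hb : PB N)
    (hf : PT fun q : α × ℕ => f q.1 q.2) : PT fun a => mkV (N a) (f a) := by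
  unfold mkV
  exact PT.map (hN.range hb) hf
theorem mkM_pt {f : α → ℕ → ℕ → ℚ} (hN : PT N) (hb : PB N)
    (hf : PT fun q : (α × ℕ) × ℕ => f q.1.1 q.1.2 q.2) : PT fun a => mkM (N a) (f a) := by
  unfold mkM
  exact PT.map (hN.range hb) (PT.map (f := fun (q : α × ℕ) j => f q.1 q.2 j)
    ((hN.range hb).comp PT.id.fst) hf)
@[fun_prop] theorem evL_pt (hN : PT N) (hb : PB N) (hu : PT u) : PT fun a => evL (N a) (u a) :=
  mkV_pt hN hb (by fun_prop)
@[fun_prop] theorem bvL_pt (hN : PT N) (hb : PB N) (hu : PT u) (hv : PT v) :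
    PT fun a => bvL (N a) (u a) (v a) :=
  mkV_pt hN hb (by fun_prop)
@[fun_prop] theorem sumOp_pt {L : α → List (ℚ × Vec)} (hN : PT N) (hb : PB N) (hL : PT L) :
    PT fun a => sumOp (N a) (L a) :=
  mkM_pt hN hb (by fun_prop)
@[fun_prop] theorem bil_pt (hN : PT N) (hb : PB N) (hC : PT C) (hx : PT x) (hy : PT y) :
    PT fun a => bil (N a) (C a) (x a) (y a) := by
  unfold bil; fun_prop

end pt

/-! ### Interpretation of the list operations -/

theorem vg_mkV {N i : ℕ} (f : ℕ → ℚ) (h : i < N) : vg (mkV N f) i = f i := by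
  simp [vg, mkV, List.getD_eq_getElem?_getD, h]

theorem mg_mkM {N k l : ℕ} (f : ℕ → ℕ → ℚ) (hk : k < N) (hl : l < N) :
    mg (mkM N f) k l = f k l := by
  simp [mg, mkM, List.getD_eq_getElem?_getD, hk, hl]

@[simp] theorem length_mkV (N : ℕ) (f : ℕ → ℚ) : (mkV N f).length = N := by simp [mkV]
@[simp] theorem length_mkM (N : ℕ) (f : ℕ → ℕ → ℚ) : (mkM N f).length = N := by simp [mkM]
@[simp] theorem length_sumOp (N : ℕ) (L : List (ℚ × Vec)) : (sumOp N L).length = N := by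
  simp [sumOp]

theorem toV_mkV (N : ℕ) (f : ℕ → ℚ) : toV N (mkV N f) = fun i : Fin N => (f i : ℝ) := by
  funext i; simp [toV, vg_mkV f i.2]

theorem toM_mkM (N : ℕ) (f : ℕ → ℕ → ℚ) :
    toM N (mkM N f) = Matrix.of fun k l : Fin N => (f k l : ℝ) := by
  ext k l; simp [toM, mg_mkM f k.2 l.2]

@[simp] theorem toV_evL (N u : ℕ) : toV N (evL N u) = ev N u := by
  funext i; rw [evL, toV_mkV]; simp only [ev]; split_ifs <;> simp

@[simp] theorem toV_bvL (N u v : ℕ) : toV N (bvL N u v) = bv N u v := by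
  funext i; rw [bvL, toV_mkV]; simp only [bv, ev, Pi.sub_apply]; split_ifs <;> simp

theorem toM_sumOp (N : ℕ) (L : List (ℚ × Vec)) :
    toM N (sumOp N L) = (L.map fun p => (p.1 : ℝ) • op (toV N p.2)).sum := by
  rw [sumOp, toM_mkM]
  induction L with
  | nil => ext k l; simp
  | cons p L ih =>
    rw [List.map_cons, List.sum_cons, ← ih]
    ext k l
    simp [op, toV, vecMulVec_apply]

theorem cast_bil (N : ℕ) (C : Mat) (x y : Vec) :
    (bil N C x y : ℝ) = toV N x ⬝ᵥ toM N C *ᵥ toV N y := by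
  unfold bil
  push_cast
  rw [Finset.sum_range, dotProduct]
  refine Finset.sum_congr rfl fun k _ => ?_
  rw [Finset.sum_range, mulVec, dotProduct, Finset.mul_sum]
  rfl

end Crest.Agent.R37
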