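import Crest.Agent.R37.Tele

/-!
# R37/EI: the energy inequality for aligned weights
-/

set_option autoImplicit false
open Finset

namespace Crest.Agent.R37

variable {s t : ℕ → ℕ} {n k : ℕ} {F : Finset ℕ}

/-- At least `k (p - 1)` edges of `F`, and at most `k' (p - 1)` edges of `G`, cross `can k' G`. -/
theorem budget (hF : WF s t n F) (hPC : PC s t k F (range n)) {G : Finset ℕ} (hG : G ⊆ F) (k' : ℕ) :
    (k - k') * (((range n).image (can s t k' G)).card - 1) ≤ (F \ G).card := by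
  have h1 := hPC (can s t k' G)
  have h2 := card_cr_can_le (j := k') (hF.mono hG) (Subset.refl (range n))
  have h3 : cr s t F (range n) (can s t k' G) ⊆ cr s t G (range n) (can s t k' G) ∪ F \ G := by
    intro e he
    simp only [cr, mem_filter, mem_union, mem_sdiff] at he ⊢
    tauto
  have h4 := (card_le_card h3).trans (card_union_le _ _)
  rw [Nat.sub_mul]
  omega

theorem ei_refine {G G' : Finset ℕ} (hG : G ⊆ G') {j j' : ℕ} (h : j ≤ j') (u : ℕ) :
    can s t j G' (can s t j' G u) = can s t j G' u :=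
  can_eq_iff.2 ((rel_can u).symm.mono hG h)

theorem ei_card_le {G G' : Finset ℕ} (hG : G ⊆ G') {j j' : ℕ} (h : j ≤ j') (U : Finset ℕ) :
    (U.image (can s t j G')).card ≤ (U.image (can s t j' G)).card := by
  have : U.image (can s t j G') = (U.image (can s t j' G)).image (can s t j G') := by
    rw [image_image]
    exact image_congr fun u _ => (ei_refine hG h u).symm
  rw [this]
  exact card_image_le

open Classical in
/-- For a class `U` of `can j G` let `β = can j' G'`, `r = |β(U)|`.  At most `j' (r - 1)` edges of `G'`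
(`card_cr_can_le`) and at least `j (r - 1)` edges of `G` (`pc_class`) inside `U` cross `β`, so at most
`Δ (r - 1)` edges of `G' \ G` do.  Moreover `r ≤ |can j' G (U)|`, and these numbers add up to
`|can j' G (range n)|` since `can j' G` refines `can j G`. -/
theorem unpaid (hF : WF s t n F) {G G' : Finset ℕ} (hG : G ⊆ G') (hG' : G' ⊆ F) {j j' Δ : ℕ}
    (h1 : j ≤ j') (h2 : j' ≤ j + Δ) :
    ((G' \ G).filter fun e => Rel s t j G (s e) (t e) ∧ ¬ Rel s t j' G' (s e) (t e)).card +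
        Δ * ((range n).image (can s t j G)).card ≤
      Δ * ((range n).image (can s t j' G)).card := by
  set c := can s t j G with hc
  set β := can s t j' G' with hβ
  set U := fun a => (range n).filter fun v => c v = a with hU
  have k1 : ((G' \ G).filter fun e => Rel s t j G (s e) (t e) ∧ ¬ Rel s t j' G' (s e) (t e)) ⊆
      ((range n).image c).biUnion fun a => cr s t G' (U a) β \ cr s t G (U a) β := by
    intro e he
    simp only [mem_filter, mem_sdiff] at he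
    obtain ⟨⟨e1, e2⟩, e3, e4⟩ := he
    obtain ⟨f1, f2, -⟩ := hF e (hG' e1)
    refine mem_biUnion.2 ⟨c (s e), mem_image_of_mem _ (mem_range.2 f1), mem_sdiff.2
      ⟨mem_filter.2 ⟨e1, mem_filter.2 ⟨mem_range.2 f1, rfl⟩,
        mem_filter.2 ⟨mem_range.2 f2, (can_eq_iff.2 e3).symm⟩, fun h => e4 (can_eq_iff.1 h)⟩,
      fun h => e2 (cr_subset _ h)⟩⟩
  have k2 : ∀ a ∈ (range n).image c, (cr s t G' (U a) β \ cr s t G (U a) β).card + Δ ≤
      Δ * (((range n).image (can s t j' G)).filter fun x => c x = a).card := fun a ha => by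
    obtain ⟨u, hu, rfl⟩ := mem_image.1 ha
    have r1 : 1 ≤ ((U (c u)).image β).card :=
      card_pos.2 ⟨β u, mem_image_of_mem _ (mem_filter.2 ⟨hu, rfl⟩)⟩
    have r2 : ((U (c u)).image β).card ≤
        (((range n).image (can s t j' G)).filter fun x => c x = c u).card := by
      refine (ei_card_le hG le_rfl _).trans (card_le_card fun x hx => ?_)
      obtain ⟨v, hv, rfl⟩ := mem_image.1 hx
      exact mem_filter.2 ⟨mem_image_of_mem _ (mem_filter.1 hv).1,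
        (ei_refine (Subset.refl G) h1 v).trans (mem_filter.1 hv).2⟩
    have r3 := card_cr_can_le (j := j') (U := U (c u)) (hF.mono hG') (filter_subset _ _)
    have r4 := pc_class (j := j) (hF.mono (hG.trans hG')) (c u) β
    rw [card_sdiff_of_subset (cr_mono hG β)]
    refine le_trans ?_ (Nat.mul_le_mul_left Δ r2)
    change j * (((U (c u)).image β).card - 1) ≤ (cr s t G (U (c u)) β).card at r4
    obtain ⟨r, hr⟩ := Nat.exists_eq_add_of_le' r1
    rw [← hβ, hr, Nat.add_sub_cancel] at r3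
    rw [hr, Nat.add_sub_cancel] at r4
    have r5 := Nat.mul_le_mul_right r h2
    rw [add_mul] at r5
    rw [hr, mul_add, mul_one]
    omega
  have k3 := sum_le_sum k2
  rw [sum_add_distrib, ← mul_sum, ← card_eq_sum_card_fiberwise, sum_const, smul_eq_mul,
    mul_comm] at k3
  · exact (Nat.add_le_add_right ((card_le_card k1).trans card_biUnion_le) _).trans k3
  · intro x hx
    obtain ⟨v, hv, rfl⟩ := mem_image.1 (mem_coe.1 hx)
    exact mem_coe.2 (mem_image.2 ⟨v, hv, (ei_refine (Subset.refl G) h1 v).symm⟩)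

theorem ei_geom (N x : ℕ) : ∑ a ∈ range N, (if 2 ^ a ≤ x then 2 ^ a else 0) ≤ 2 * x := by
  have h : ∀ N, ∑ a ∈ range N, (if 2 ^ a ≤ x then 2 ^ a else 0) ≤ 2 ^ N := fun N => by
    induction N with
    | zero => simp
    | succ N ih => rw [sum_range_succ, pow_succ]; split_ifs <;> omega
  induction N with
  | zero => simp
  | succ N ih =>
    have := h N
    rw [sum_range_succ]
    split_ifs <;> omega

theorem ei_step (P : ℕ → Prop) (I : ℕ) (h0 : P 0) (hI : ¬ P I) : ∃ i < I, P i ∧ ¬ P (i + 1) := by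
  induction I with
  | zero => exact absurd h0 hI
  | succ I ih =>
    by_cases h : P I
    · exact ⟨I, I.lt_succ_self, h, hI⟩
    · obtain ⟨i, hi, h'⟩ := ih h
      exact ⟨i, by omega, h'⟩

theorem ei_sum_mul (f : ℕ → ℝ) (S L : ℕ) :
    ∑ a ∈ range (S * L), f a = ∑ r ∈ range L, ∑ m ∈ range S, f (m * L + r) := by
  rw [sum_comm]
  induction S with
  | zero => simp
  | succ S ih => rw [sum_range_succ, ← ih, add_mul, one_mul, sum_range_add]

/-- light edges -/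
def eiG (F : Finset ℕ) (lam : ℕ → ℕ) (a : ℕ) : Finset ℕ := F.filter fun f => lam f < 2 ^ a

theorem eiG_sub (lam : ℕ → ℕ) (a : ℕ) : eiG F lam a ⊆ F := filter_subset _ _

theorem eiG_mono (lam : ℕ → ℕ) (a L : ℕ) : eiG F lam a ⊆ eiG F lam (a + L) := fun f hf =>
  mem_filter.2 ⟨(mem_filter.1 hf).1,
    (mem_filter.1 hf).2.trans_le (Nat.pow_le_pow_right two_pos (Nat.le_add_right _ _))⟩

theorem ei_budget (hF : WF s t n F) (hPC : PC s t k F (range n)) (lam : ℕ → ℕ) (k' N : ℕ) :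
    (k - k') * ∑ a ∈ range N, 2 ^ a * (((range n).image (can s t k' (eiG F lam a))).card - 1) ≤
      2 * ∑ f ∈ F, lam f := by
  rw [mul_sum, mul_sum]
  refine le_trans ?_ (sum_le_sum fun f _ => ei_geom N (lam f))
  rw [sum_comm]
  refine sum_le_sum fun a _ => ?_
  rw [mul_left_comm, ← sum_filter, sum_const, smul_eq_mul, mul_comm (card _)]
  refine Nat.mul_le_mul_left _ ((budget hF hPC (eiG_sub lam a) k').trans (card_le_card fun f hf => ?_))
  simp only [eiG, mem_sdiff, mem_filter] at hf ⊢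
  exact ⟨hf.1, not_lt.1 fun h => hf.2 ⟨hf.1, h⟩⟩

open Classical in
theorem ei_unpaid (hF : WF s t n F) (hn : 1 ≤ n) {G G' : Finset ℕ} (hG : G ⊆ G') (hG' : G' ⊆ F)
    (Δ k' I : ℕ) (hI : k' ≤ I * Δ) :
    ∑ i ∈ range I, ((G' \ G).filter fun e => Rel s t (min (i * Δ) k') G (s e) (t e) ∧
      ¬ Rel s t (min ((i + 1) * Δ) k') G' (s e) (t e)).card ≤
      Δ * (((range n).image (can s t k' G)).card - 1) := by
  have h : ∀ I, ∑ i ∈ range I, ((G' \ G).filter fun e => Rel s t (min (i * Δ) k') G (s e) (t e) ∧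
      ¬ Rel s t (min ((i + 1) * Δ) k') G' (s e) (t e)).card + Δ ≤
      Δ * ((range n).image (can s t (min (I * Δ) k') G)).card := fun I => by
    induction I with
    | zero =>
      rw [sum_range_zero, zero_add]
      exact Nat.le_mul_of_pos_right _ (card_pos.2 (Nonempty.image ⟨0, mem_range.2 hn⟩ _))
    | succ I ih =>
      have := unpaid hF hG hG' (j := min (I * Δ) k') (j' := min ((I + 1) * Δ) k') (Δ := Δ)
        (by rw [add_mul]; omega) (by rw [add_mul]; omega)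
      rw [sum_range_succ]
      omega
  have := h I
  rw [min_eq_right hI] at this
  rw [Nat.mul_sub_one]
  omega

open Classical in
theorem ei_paid (hF : WF s t n F) (hn : 1 ≤ n) (Y h : ℕ) (hY : 1 ≤ Y) (hh : h = 256 * Y ^ 2 + 18)
    {Δ j k' : ℕ} (hΔ : 1 ≤ Δ) (h1 : Δ ≤ j) (h2 : j ≤ k') (lam : ℕ → ℕ) (S : ℕ)
    (d : ℕ → ℕ → ℝ) (hd : IsPM d) (X : ℕ → ℕ → ℝ)
    (hX : ∀ u < n, ∀ v < n, ∑ f ∈ F, (X u f - X v f) ^ 2 ≤ d u v) :
    ∑ a ∈ range (S * (h + 3)), (2 : ℝ) ^ a * (F.filter fun e =>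
      ¬ Rel s t j (eiG F lam a) (s e) (t e) ∧ Rel s t j (eiG F lam (a + (h + 3))) (s e) (t e) ∧
      2 * (2 : ℝ) ^ a / Y ≤ (X (s e) e - X (t e) e) ^ 2 ∧ d (s e) (t e) ≤ 2 * (2 : ℝ) ^ a * Y).card ≤
      12 * (Y : ℝ) ^ 2 * (h + 1) * ((h + 3) * (2 * n + 64 * Y * (∑ e ∈ F, d (s e) (t e)) / Δ) +
        (3 * h + 10) * (∑ a ∈ range (S * (h + 3)),
          2 ^ a * (((range n).image (can s t k' (eiG F lam a))).card - 1) : ℕ)) := by
  have hD : 0 ≤ ∑ e ∈ F, d (s e) (t e) := sum_nonneg fun e _ => hd.nonneg _ _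
  have e1 : ∀ m r, (m + 1) * (h + 3) + r = m * (h + 3) + r + (h + 3) := fun m r => by ring
  have e2 : ∀ (z c : ℝ) (f : ℕ → ℝ), ((h : ℝ) + 3) * z + c * ∑ r ∈ range (h + 3), f r =
      ∑ r ∈ range (h + 3), (z + c * f r) := fun z c f => by
    rw [sum_add_distrib, mul_sum, sum_const, card_range, nsmul_eq_mul, Nat.cast_add, Nat.cast_ofNat]
  rw [Nat.cast_sum, ei_sum_mul, ei_sum_mul, e2, mul_sum]
  refine sum_le_sum fun r _ => ?_
  have := tele hF hn (hΔ.trans h1) Y h hY hh S (fun m => can s t j (eiG F lam (m * (h + 3) + r)))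
    (fun m => 2 ^ (m * (h + 3) + r)) (fun m => F.filter fun e =>
      ¬ Rel s t j (eiG F lam (m * (h + 3) + r)) (s e) (t e) ∧
      Rel s t j (eiG F lam (m * (h + 3) + r + (h + 3))) (s e) (t e) ∧
      2 * (2 : ℝ) ^ (m * (h + 3) + r) / Y ≤ (X (s e) e - X (t e) e) ^ 2 ∧
      d (s e) (t e) ≤ 2 * (2 : ℝ) ^ (m * (h + 3) + r) * Y) (fun m => Nat.one_le_two_pow)
    (fun m => by
      rw [e1, pow_add _ _ (h + 3), mul_comm (2 ^ _), ← mul_assoc]
      exact Nat.mul_le_mul_right _ (by have := @Nat.lt_two_pow_self (h + 3); omega))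
    (fun m u _ v _ e => by
      rw [e1]
      exact can_eq_iff.2 ((can_eq_iff.1 e).mono (eiG_mono lam _ _) le_rfl))
    (fun m a => (pc_class (hF.mono (eiG_sub lam _)) a).mono (eiG_sub lam _) le_rfl) d hd X hX
    (fun m e he => by
      obtain ⟨a1, a2, a3, a4, a5⟩ := mem_filter.1 he
      push_cast
      exact ⟨a1, fun h => a2 (can_eq_iff.1 h), by rw [e1]; exact can_eq_iff.2 a3, a4, a5⟩)
  push_cast at this ⊢
  refine this.trans ?_
  have : (0 : ℝ) < Δ := Nat.cast_pos.2 hΔ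
  gcongr _ * (_ + _ * _ * _ / ?_ + _ * ∑ m ∈ _, _ * ((?_ - 1 : ℕ) : ℝ)) with m
  · exact Nat.cast_le.2 h1
  · exact ei_card_le (Subset.refl _) h2 _

open Classical in
theorem ei_main (hF : WF s t n F) (hn : 1 ≤ n) (Y h : ℕ) (hY : 1 ≤ Y) (hh : h = 256 * Y ^ 2 + 18)
    {Δ k' κ I : ℕ} (hΔ : 1 ≤ Δ) (hκ : 1 ≤ κ) (h1 : Δ ≤ k') (hI : k' ≤ I * Δ)
    (hPC : PC s t (k' + κ) F (range n)) (lam : ℕ → ℕ) (hal : Aligned s t F k' lam)
    (d : ℕ → ℕ → ℝ) (hd : IsPM d) (X : ℕ → ℕ → ℝ)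
    (hX : ∀ u < n, ∀ v < n, ∑ f ∈ F, (X u f - X v f) ^ 2 ≤ d u v)
    (hw : ∀ e ∈ F, (X (s e) e - X (t e) e) ^ 2 ≤ lam e) :
    ∑ e ∈ F, (X (s e) e - X (t e) e) ^ 2 ≤ F.card + (∑ e ∈ F, (lam e : ℝ)) / Y +
      (∑ e ∈ F, d (s e) (t e)) / Y + 2 * Δ * (2 * (∑ e ∈ F, (lam e : ℝ)) / κ) +
      2 * I * (12 * (Y : ℝ) ^ 2 * (h + 1) * ((h + 3) * (2 * n + 64 * Y * (∑ e ∈ F, d (s e) (t e)) / Δ) +
        (3 * h + 10) * (2 * (∑ e ∈ F, (lam e : ℝ)) / κ))) := by
  set S := ∑ e ∈ F, lam e with hS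
  set A : ℕ → ℕ → Finset ℕ := fun a i => (eiG F lam (a + (h + 3)) \ eiG F lam a).filter fun e =>
    Rel s t (min (i * Δ) k') (eiG F lam a) (s e) (t e) ∧
      ¬ Rel s t (min ((i + 1) * Δ) k') (eiG F lam (a + (h + 3))) (s e) (t e) with hA
  set R : ℕ → ℕ → Finset ℕ := fun a i => F.filter fun e =>
    ¬ Rel s t (min ((i + 1) * Δ) k') (eiG F lam a) (s e) (t e) ∧
      Rel s t (min ((i + 1) * Δ) k') (eiG F lam (a + (h + 3))) (s e) (t e) ∧
      2 * (2 : ℝ) ^ a / Y ≤ (X (s e) e - X (t e) e) ^ 2 ∧ d (s e) (t e) ≤ 2 * (2 : ℝ) ^ a * Y with hR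
  have hY0 : (0 : ℝ) < Y := Nat.cast_pos.2 hY
  have key : ∀ e ∈ F, (X (s e) e - X (t e) e) ^ 2 ≤ 1 + lam e / Y + d (s e) (t e) / Y +
      ∑ x ∈ range (S * (h + 3)) ×ˢ range I, 2 * (2 : ℝ) ^ x.1 *
        ((if e ∈ A x.1 x.2 then 1 else 0) + if e ∈ R x.1 x.2 then 1 else 0) := fun e he => by
    have n0 : ∀ x : ℕ × ℕ, 0 ≤ 2 * (2 : ℝ) ^ x.1 *
        ((if e ∈ A x.1 x.2 then 1 else 0) + if e ∈ R x.1 x.2 then 1 else 0) := fun x => by positivity
    have n1 := sum_nonneg fun x (_ : x ∈ range (S * (h + 3)) ×ˢ range I) => n0 x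
    have n2 : (0 : ℝ) ≤ lam e / Y := by positivity
    have n3 : 0 ≤ d (s e) (t e) / Y := div_nonneg (hd.nonneg _ _) hY0.le
    have hwe := hw e he
    obtain ⟨⟨b, hb⟩, hrel⟩ := hal e he
    rcases b with _ | a
    · rw [hb, pow_zero, Nat.cast_one] at hwe
      linarith
    by_contra hcon
    have hb' : (lam e : ℝ) = 2 * 2 ^ a := by rw [hb]; push_cast; ring
    have c1 : 2 * (2 : ℝ) ^ a / Y ≤ (X (s e) e - X (t e) e) ^ 2 := by rw [← hb']; linarith
    have c2 : d (s e) (t e) ≤ 2 * (2 : ℝ) ^ a * Y := by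
      rw [← hb', ← div_le_iff₀ hY0]; linarith
    have a1 := @Nat.one_le_two_pow a
    have c3 : ¬ Rel s t k' (eiG F lam a) (s e) (t e) := by
      have := hrel (by rw [hb, pow_succ]; omega)
      rwa [filter_congr (q := fun f => lam f < 2 ^ a) fun f _ => by rw [hb, pow_succ]; omega] at this
    obtain ⟨i, hi, c4, c5⟩ := ei_step (fun i => Rel s t (min (i * Δ) k') (eiG F lam a) (s e) (t e)) I
      (by simpa using rel_zero _ _) (by rwa [min_eq_right hI])
    have ha : a < S * (h + 3) := by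
      have := @Nat.lt_two_pow_self (a + 1)
      have := single_le_sum (f := lam) (fun _ _ => Nat.zero_le _) he
      have := Nat.le_mul_of_pos_right S (show 0 < h + 3 by omega)
      omega
    have c6 := single_le_sum (fun x _ => n0 x)
      (mem_product.2 ⟨mem_range.2 ha, mem_range.2 hi⟩ : (a, i) ∈ range (S * (h + 3)) ×ˢ range I)
    have c7 : e ∈ A a i ∨ e ∈ R a i := by
      by_cases c : Rel s t (min ((i + 1) * Δ) k') (eiG F lam (a + (h + 3))) (s e) (t e)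
      · exact Or.inr (mem_filter.2 ⟨he, c5, c, c1, c2⟩)
      · refine Or.inl (mem_filter.2 ⟨mem_sdiff.2 ⟨mem_filter.2 ⟨he, ?_⟩, fun h => ?_⟩, c4, c⟩)
        · rw [hb]
          exact Nat.pow_lt_pow_right one_lt_two (by omega)
        · have := (mem_filter.1 h).2
          rw [hb, pow_succ] at this
          omega
    have c8 : (1 : ℝ) ≤ (if e ∈ A a i then 1 else 0) + if e ∈ R a i then 1 else 0 := by
      rcases c7 with c | c <;> rw [if_pos c] <;> split_ifs <;> norm_num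
    have c9 := mul_le_mul_of_nonneg_left c8 (show 0 ≤ 2 * (2 : ℝ) ^ a by positivity)
    dsimp only at c6
    linarith
  have hP : ((∑ a ∈ range (S * (h + 3)),
      2 ^ a * (((range n).image (can s t k' (eiG F lam a))).card - 1) : ℕ) : ℝ) ≤
      2 * (∑ e ∈ F, (lam e : ℝ)) / κ := by
    have := ei_budget hF hPC lam k' (S * (h + 3))
    rw [Nat.add_sub_cancel_left] at this
    rw [le_div_iff₀' (Nat.cast_pos.2 hκ)]
    exact_mod_cast this
  have cA : ∀ a i, ∑ e ∈ F, (if e ∈ A a i then (1 : ℝ) else 0) = (A a i).card := fun a i => by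
    rw [sum_boole, filter_mem_eq_inter, inter_eq_right.2
      ((filter_subset _ _).trans (sdiff_subset.trans (eiG_sub lam _)))]
  have cR : ∀ a i, ∑ e ∈ F, (if e ∈ R a i then (1 : ℝ) else 0) = (R a i).card := fun a i => by
    rw [sum_boole, filter_mem_eq_inter, inter_eq_right.2 (filter_subset _ _)]
  refine (sum_le_sum key).trans ?_
  rw [sum_add_distrib, sum_add_distrib, sum_add_distrib, sum_const, nsmul_one, ← sum_div, ← sum_div,
    add_assoc _ (2 * Δ * _ : ℝ), sum_comm]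
  gcongr
  simp only [← mul_sum, sum_add_distrib, cA, cR, mul_add (2 * (2 : ℝ) ^ _)]
  refine add_le_add ?_ ?_
  · refine le_trans ?_ (mul_le_mul_of_nonneg_left hP (by positivity))
    rw [sum_product, Nat.cast_sum, mul_sum]
    refine sum_le_sum fun a _ => ?_
    have := (Nat.cast_le (α := ℝ)).2
      (ei_unpaid hF hn (eiG_mono lam a (h + 3)) (eiG_sub lam _) Δ k' I hI)
    rw [Nat.cast_sum] at this
    dsimp only
    rw [← mul_sum]
    refine (mul_le_mul_of_nonneg_left this (by positivity)).trans_eq ?_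
    push_cast
    ring
  · rw [sum_product_right, mul_assoc 2, mul_left_comm 2, ← card_range I, ← nsmul_eq_mul, card_range]
    refine (sum_le_card_nsmul _ _ _ fun i _ => ?_).trans_eq (by rw [card_range])
    simp only [mul_assoc (2 : ℝ) (2 ^ _), ← mul_sum]
    refine mul_le_mul_of_nonneg_left ((ei_paid hF hn Y h hY hh hΔ
      (le_min (Nat.le_mul_of_pos_left _ i.succ_pos) h1) (min_le_right _ _) lam S d hd X hX).trans ?_)
      two_pos.le
    gcongr

/-- Put `Y = y²`, `Δ = y^30`, `κ = y^35`, `k' = k - κ`, `h = 256 Y² + 18`, `L = h + 3`, `I = k / Δ + 1`,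
`j i = min (i Δ) k'`, `G a = {f ∈ F | lam f < 2^a}`, `p a = |can k' (G a) (range n)|`,
`w e = (X (s e) e - X (t e) e)²`, `Λ = ∑ lam`, `D = ∑ d`.

* `∑_a 2^a (p a - 1) ≤ 2 Λ / κ` by `budget` (`∑_{2^a ≤ lam f} 2^a ≤ 2 lam f`).
* Edges with `lam e = 1` contribute at most `|F|`, edges with `w e < lam e / Y` at most `Λ / Y`, edges with
  `w e < d e / Y` at most `D / Y`.  The other edges (rungs) have `lam e = 2 · 2^a`, `lam e / Y ≤ w e ≤ lam e`,
  `d e ≤ Y lam e`, `e ∈ G (a + L) \ G a`, and `¬ Rel k' (G a) e` by `Aligned`.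
* Let `i₀ ≥ 1` be least with `¬ Rel (j i₀) (G a) e` (`j 0 = 0`, `j I = k'`).  If `¬ Rel (j i₀) (G (a + L)) e` the rung is
  counted by `unpaid` for `(j (i₀ - 1), j i₀)`; summing over `i₀` telescopes to `Δ (p a - 1)`, so these
  rungs contribute at most `∑_a 2 · 2^a Δ (p a - 1) ≤ 4 Δ Λ / κ ≤ Λ / Y`.
* The others belong to `R i ϱ m` (`i = i₀ ∈ [1, I]`, `a = ϱ + m L`, `ϱ < L`).  For fixed `i, ϱ` apply `tele`
  with `c m = can (j i) (G (ϱ + m L))`, `τ m = 2^(ϱ + m L)` and `j = j i ≥ Δ`; `|c m (range n)| ≤ p (ϱ + m L)`.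
  With `h + 1, L ≤ 275 y⁴`, `3 h + 10 ≤ 800 y⁴`, `I ≤ 3 y^10`, the sum over `i, ϱ` is at most
  `24 Y² (h+1) (2 n I L + 64 Y I L D / Δ + (3 h + 10) I · 2 Λ / κ) ≤ n k + D / Y + Λ / Y`. -/
theorem energy_ineq (hF : WF s t n F) (hn : 1 ≤ n) (y : ℕ) (hy : 1000 ≤ y) (hk1 : y ^ 40 ≤ k)
    (hk2 : k ≤ 2 * y ^ 40) (hPC : PC s t k F (range n)) (lam : ℕ → ℕ)
    (hal : Aligned s t F (k - y ^ 35) lam) (d : ℕ → ℕ → ℝ) (hd : IsPM d) (X : ℕ → ℕ → ℝ)
    (hX : ∀ u < n, ∀ v < n, ∑ f ∈ F, (X u f - X v f) ^ 2 ≤ d u v)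
    (hw : ∀ e ∈ F, (X (s e) e - X (t e) e) ^ 2 ≤ lam e) :
    ∑ e ∈ F, (X (s e) e - X (t e) e) ^ 2 ≤ 2 / (y : ℝ) ^ 2 * ∑ e ∈ F, d (s e) (t e) +
      3 / (y : ℝ) ^ 2 * ∑ e ∈ F, (lam e : ℝ) + F.card + n * k := by
  have y1 : 1 ≤ y := by omega
  have a1 : y ^ 30 ≤ y ^ 35 := Nat.pow_le_pow_right y1 (by norm_num)
  have a2 : 2 * y ^ 35 ≤ y ^ 40 := by
    calc 2 * y ^ 35 ≤ y * y ^ 35 := Nat.mul_le_mul_right _ (by omega)
      _ = y ^ 36 := by ring
      _ ≤ _ := Nat.pow_le_pow_right y1 (by norm_num)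
  have h := ei_main hF hn (y ^ 2) _ (Nat.one_le_pow _ _ y1) rfl (Δ := y ^ 30) (k' := k - y ^ 35)
    (κ := y ^ 35) (I := 2 * y ^ 10) (Nat.one_le_pow _ _ y1) (Nat.one_le_pow _ _ y1) (by omega)
    ((Nat.sub_le _ _).trans (hk2.trans_eq (by ring))) (by rwa [Nat.sub_add_cancel (by omega)]) lam hal d hd X hX hw
  refine h.trans ?_
  have hD : 0 ≤ ∑ e ∈ F, d (s e) (t e) := sum_nonneg fun e _ => hd.nonneg _ _
  have hΛ : 0 ≤ ∑ e ∈ F, (lam e : ℝ) := sum_nonneg fun e _ => Nat.cast_nonneg _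
  have hk : (y : ℝ) ^ 40 ≤ k := by exact_mod_cast hk1
  have hy' : (1000 : ℝ) ≤ y := by exact_mod_cast hy
  have hn0 : (0 : ℝ) ≤ n := Nat.cast_nonneg n
  push_cast
  generalize ∑ e ∈ F, d (s e) (t e) = D at *
  generalize ∑ e ∈ F, (lam e : ℝ) = Λ at *
  generalize (y : ℝ) = x at *
  have x0 : 0 < x := by linarith
  have x4 : (1000 : ℝ) ^ 4 ≤ x ^ 4 := by gcongr
  have b1 : 256 * (x ^ 2) ^ 2 + 18 + 1 ≤ 257 * x ^ 4 := by linarith
  have b2 : 256 * (x ^ 2) ^ 2 + 18 + 3 ≤ 257 * x ^ 4 := by linarith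
  have b3 : 3 * (256 * (x ^ 2) ^ 2 + 18) + 10 ≤ 769 * x ^ 4 := by linarith
  have x5 : ∀ m : ℕ, 4 ≤ m → (1000 : ℝ) ^ 4 ≤ x ^ m := fun m hm =>
    x4.trans (pow_le_pow_right₀ (by linarith) hm)
  have t1 : 2 * x ^ 30 * (2 * Λ / x ^ 35) ≤ Λ / x ^ 2 := by
    have : 2 * x ^ 30 * (2 * Λ / x ^ 35) = Λ / x ^ 2 * (4 / x ^ 3) := by field_simp; ring
    rw [this]
    refine mul_le_of_le_one_right (by positivity) ((div_le_one (by positivity)).2 ?_)
    have : (1000 : ℝ) ^ 3 ≤ x ^ 3 := by gcongr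
    linarith
  have t2 : 2 * (2 * x ^ 10) * (12 * (x ^ 2) ^ 2 * (257 * x ^ 4) *
      (257 * x ^ 4 * (2 * n + 64 * x ^ 2 * D / x ^ 30) + 769 * x ^ 4 * (2 * Λ / x ^ 35))) =
      n * x ^ 40 * (6340704 / x ^ 18) + D / x ^ 2 * (202902528 / x ^ 4) +
        Λ / x ^ 2 * (18972768 / x ^ 11) := by
    field_simp
    ring
  have t3 : ∀ {z c : ℝ} (m : ℕ), 0 ≤ z → 4 ≤ m → c ≤ 1000 ^ 4 → z * (c / x ^ m) ≤ z :=
    fun m hz hm hc => mul_le_of_le_one_right hz ((div_le_one (by positivity)).2 (hc.trans (x5 m hm)))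
  have t4 := t3 (z := n * x ^ 40) (c := 6340704) 18 (by positivity) (by norm_num) (by norm_num)
  have t5 := t3 (z := D / x ^ 2) (c := 202902528) 4 (by positivity) (by norm_num) (by norm_num)
  have t6 := t3 (z := Λ / x ^ 2) (c := 18972768) 11 (by positivity) (by norm_num) (by norm_num)
  have t7 := mul_le_mul_of_nonneg_left hk hn0
  calc _ ≤ F.card + Λ / x ^ 2 + D / x ^ 2 + Λ / x ^ 2 + 2 * (2 * x ^ 10) * (12 * (x ^ 2) ^ 2 *
        (257 * x ^ 4) * (257 * x ^ 4 * (2 * n + 64 * x ^ 2 * D / x ^ 30) +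
          769 * x ^ 4 * (2 * Λ / x ^ 35))) := by gcongr
    _ ≤ F.card + Λ / x ^ 2 + D / x ^ 2 + Λ / x ^ 2 + (n * k + D / x ^ 2 + Λ / x ^ 2) := by
      rw [t2]
      linarith
    _ = _ := by ring

end Crest.Agent.R37
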