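import Crest.Agent.R37.Piece

/-!
# R37/EntA: a hierarchy of well connected pieces with small resistances
-/

set_option autoImplicit false
open Finset Matrix

namespace Crest.Agent.R37

open Crest.Agent.Lib.PT

section math
variable {n j A : ℕ} {s t : ℕ → ℕ} {F : Finset ℕ} {c : ℕ → ℕ → ℕ} {H : ℕ → Finset ℕ}

theorem enta_pc_congr {s' t' : ℕ → ℕ} {G U : Finset ℕ} {k : ℕ} (h : PC s t k G U)
    (hs : ∀ e ∈ G, s e = s' e ∧ t e = t' e) : PC s' t' k G U := by
  intro β
  refine (h β).trans (card_le_card fun e he => ?_)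
  simp only [cr, mem_filter] at he ⊢
  obtain ⟨h1, h2⟩ := hs e he.1
  rw [← h1, ← h2]
  exact he

theorem enta_qL_congr {G : Finset ℕ} {x y : ℕ → ℝ} (hG : WF s t n G) (h : ∀ v < n, x v = y v) :
    qL s t G x = qL s t G y :=
  sum_congr rfl fun e he => by rw [h _ (hG e he).1, h _ (hG e he).2.1]

/-- the tower of contractions -/
structure enta_Tower (n j A : ℕ) (s t : ℕ → ℕ) (F : Finset ℕ) (c : ℕ → ℕ → ℕ)
    (H : ℕ → Finset ℕ) : Prop where
  wf : WF s t n F
  hj : 1 ≤ j
  c0 : ∀ v < n, c 0 v = v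
  cs : ∀ i, ∀ v < n, c (i + 1) v = can (c i ∘ s) (c i ∘ t) j (H i) (c i v)
  sub : ∀ i, ∀ e ∈ H i, e ∈ F ∧ c i (s e) ≠ c i (t e)
  ne : ∀ i, 2 ≤ ((range n).image (c i)).card → (H i).Nonempty
  rel : ∀ i, ∀ e ∈ H i, Rel (c i ∘ s) (c i ∘ t) j (H i) (c i (s e)) (c i (t e))
  res : ∀ i, ∀ e ∈ H i, ∀ x : ℕ → ℝ, A * (x (c i (s e)) - x (c i (t e))) ^ 2 ≤
    qL (c i ∘ s) (c i ∘ t) (H i) x + ∑ r ∈ roots n (c i ∘ s) (c i ∘ t) j (H i), x r ^ 2

theorem enta_Tower.lt (h : enta_Tower n j A s t F c H) (i : ℕ) {v : ℕ} (hv : v < n) :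
    c i v < n := by
  induction i with
  | zero => rw [h.c0 v hv]; exact hv
  | succ i ih => rw [h.cs i v hv]; exact (can_le _).trans_lt ih

theorem enta_Tower.wfi (h : enta_Tower n j A s t F c H) (i : ℕ) :
    WF (c i ∘ s) (c i ∘ t) n (H i) := fun e he =>
  ⟨h.lt i (h.wf e (h.sub i e he).1).1, h.lt i (h.wf e (h.sub i e he).1).2.1, (h.sub i e he).2⟩

theorem enta_Tower.eq_succ (h : enta_Tower n j A s t F c H) {i e : ℕ} (he : e ∈ H i) :
    c (i + 1) (s e) = c (i + 1) (t e) := by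
  have h1 := h.wf e (h.sub i e he).1
  rw [h.cs i _ h1.1, h.cs i _ h1.2.1]
  exact can_eq_iff.2 (h.rel i e he)

theorem enta_Tower.eq_of_lt (h : enta_Tower n j A s t F c H) {i i' e : ℕ} (he : e ∈ H i)
    (hi : i < i') : c i' (s e) = c i' (t e) := by
  have h1 := h.wf e (h.sub i e he).1
  induction i', hi using Nat.le_induction with
  | base => exact h.eq_succ he
  | succ m _ ih => rw [h.cs m _ h1.1, h.cs m _ h1.2.1, ih]

theorem enta_Tower.uniq (h : enta_Tower n j A s t F c H) {i i' e : ℕ} (he : e ∈ H i)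
    (he' : e ∈ H i') : i = i' := by
  rcases lt_trichotomy i i' with h1 | h1 | h1
  · exact absurd (h.eq_of_lt he h1) (h.sub i' e he').2
  · exact h1
  · exact absurd (h.eq_of_lt he' h1) (h.sub i e he).2

theorem enta_Tower.image_succ (h : enta_Tower n j A s t F c H) (i : ℕ) :
    (range n).image (c (i + 1)) =
      ((range n).image (c i)).image (can (c i ∘ s) (c i ∘ t) j (H i)) := by
  rw [image_image]
  exact image_congr fun v hv => h.cs i v (mem_range.1 hv)

theorem enta_Tower.card_le (h : enta_Tower n j A s t F c H) (i : ℕ) :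
    ((range n).image (c i)).card + i ≤ n ∨ ((range n).image (c i)).card ≤ 1 := by
  induction i with
  | zero => left; simpa using (card_image_le (s := range n) (f := c 0))
  | succ i ih =>
    have h1 : ((range n).image (c (i + 1))).card ≤ ((range n).image (c i)).card := by
      rw [h.image_succ]; exact card_image_le
    by_cases h2 : 2 ≤ ((range n).image (c i)).card
    · obtain ⟨e, he⟩ := h.ne i h2
      have h3 := h.wf e (h.sub i e he).1
      have h4 : ((range n).image (c (i + 1))).card ≠ ((range n).image (c i)).card := by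
        rw [h.image_succ, Ne, card_image_iff]
        intro hinj
        exact (h.sub i e he).2 (hinj (mem_coe.2 (mem_image_of_mem _ (mem_range.2 h3.1)))
          (mem_coe.2 (mem_image_of_mem _ (mem_range.2 h3.2.1))) (can_eq_iff.2 (h.rel i e he)))
      omega
    · omega

/-- downward induction -/
theorem enta_Tower.pc (h : enta_Tower n j A s t F c H) {H' : Finset ℕ} (hH' : H' ⊆ F) {j' : ℕ}
    (hc : ∀ i < n, ∀ a, PC (c i ∘ s) (c i ∘ t) j' H'
      ((range n).filter fun v => can (c i ∘ s) (c i ∘ t) j (H i) v = a)) :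
    PC s t j' H' (range n) := by
  have key : ∀ i ≤ n, PC (c i ∘ s) (c i ∘ t) j' H' ((range n).image (c i)) := by
    intro i hi
    induction hi using Nat.decreasingInduction with
    | self =>
      intro β
      have h1 := h.card_le n
      have h2 : (((range n).image (c n)).image β).card ≤ ((range n).image (c n)).card :=
        card_image_le
      have h3 : (((range n).image (c n)).image β).card - 1 = 0 := by omega
      rw [h3]; simp
    | of_succ i hi ih =>
      refine PC.glue (can (c i ∘ s) (c i ∘ t) j (H i)) (fun a => ?_) ?_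
      · rcases (((range n).image (c i)).filter
          fun v => can (c i ∘ s) (c i ∘ t) j (H i) v = a).eq_empty_or_nonempty with h0 | ⟨u, hu⟩
        · rw [h0]; intro β; simp
        · obtain ⟨hu1, hu2⟩ := mem_filter.1 hu
          have e : (((range n).image (c i)).filter
              fun v => can (c i ∘ s) (c i ∘ t) j (H i) v = a) =
              (range n).filter fun v => can (c i ∘ s) (c i ∘ t) j (H i) v = a := by
            ext v
            simp only [mem_filter]
            refine and_congr_left fun hv => ⟨fun h1 => ?_, fun _ => ?_⟩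
            · obtain ⟨w, hw, rfl⟩ := mem_image.1 h1
              exact mem_range.2 (h.lt i (mem_range.1 hw))
            · obtain ⟨U, a1, a2, a3⟩ := can_eq_iff.1 (hu2.trans hv.symm)
              refine a3.conn h.hj (fun x => x ∈ (range n).image (c i)) (fun e he _ _ => ?_)
                a1 a2 hu1
              have h3 := h.wf e (h.sub i e he).1
              exact ⟨fun _ => mem_image_of_mem _ (mem_range.2 h3.2.1),
                fun _ => mem_image_of_mem _ (mem_range.2 h3.1)⟩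
          rw [e]
          exact hc i hi a
      · rw [← h.image_succ, filter_true_of_mem]
        · refine enta_pc_congr ih fun e he => ?_
          have h3 := h.wf e (hH' he)
          exact ⟨h.cs i _ h3.1, h.cs i _ h3.2.1⟩
        · intro e he
          have h3 := h.wf e (hH' he)
          exact ⟨mem_image_of_mem _ (mem_range.2 h3.1), mem_image_of_mem _ (mem_range.2 h3.2.1)⟩
  have h0 := key 0 (Nat.zero_le _)
  have e : (range n).image (c 0) = range n := by
    rw [image_congr (g := id) fun v hv => h.c0 v (mem_range.1 hv), image_id]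
  rw [e] at h0
  refine enta_pc_congr h0 fun e he => ?_
  have h3 := h.wf e (hH' he)
  exact ⟨h.c0 _ h3.1, h.c0 _ h3.2.1⟩

/-- the roots of all rounds -/
noncomputable def enta_rho (n j : ℕ) (s t : ℕ → ℕ) (c : ℕ → ℕ → ℕ) (H : ℕ → Finset ℕ) : Finset ℕ :=
  (range n).biUnion fun i => (roots n (c i ∘ s) (c i ∘ t) j (H i)).image fun r => i * n + r

theorem enta_block_inj {i i' a a' : ℕ} (ha : a < n) (ha' : a' < n) (h : i * n + a = i' * n + a') :
    i = i' := by
  have hn : 0 < n := by omega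
  have h1 : (i * n + a) / n = i := by
    rw [Nat.add_comm, Nat.add_mul_div_right _ _ hn, Nat.div_eq_of_lt ha, Nat.zero_add]
  have h2 : (i' * n + a') / n = i' := by
    rw [Nat.add_comm, Nat.add_mul_div_right _ _ hn, Nat.div_eq_of_lt ha', Nat.zero_add]
  rw [← h1, h, h2]

theorem enta_block_lt {i a : ℕ} (hi : i < n) (ha : a < n) : i * n + a < n * n := by
  have : (i + 1) * n ≤ n * n := Nat.mul_le_mul_right _ hi
  rw [Nat.succ_mul] at this
  omega

theorem enta_roots_lt {s t : ℕ → ℕ} {G : Finset ℕ} {r : ℕ} (h : r ∈ roots n s t j G) : r < n :=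
  mem_range.1 (mem_filter.1 h).1

theorem enta_sum_rho (x : ℕ → ℝ) : ∑ r ∈ enta_rho n j s t c H, x r ^ 2 =
    ∑ i ∈ range n, ∑ r ∈ roots n (c i ∘ s) (c i ∘ t) j (H i), x (i * n + r) ^ 2 := by
  unfold enta_rho
  rw [sum_biUnion]
  · refine sum_congr rfl fun i _ => sum_image fun a _ b _ h => ?_
    simpa using h
  · intro i _ i' _ hne
    refine disjoint_left.2 fun v h1 h2 => hne ?_
    obtain ⟨a, ha, rfl⟩ := mem_image.1 h1
    obtain ⟨a', ha', e⟩ := mem_image.1 h2
    exact (enta_block_inj (enta_roots_lt ha') (enta_roots_lt ha) e).symm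

theorem enta_Tower.qL_eq (h : enta_Tower n j A s t F c H) {s₀ t₀ : ℕ → ℕ}
    (h0 : ∀ i < n, ∀ e ∈ H i, s₀ e = i * n + c i (s e) ∧ t₀ e = i * n + c i (t e))
    (H' : Finset ℕ) (x : ℕ → ℝ) :
    qL s₀ t₀ ((range n).biUnion H \ H') x =
      ∑ i ∈ range n, qL (c i ∘ s) (c i ∘ t) (H i \ H') fun v => x (i * n + v) := by
  have e : (range n).biUnion H \ H' = (range n).biUnion fun i => H i \ H' := by
    ext e
    simp only [mem_sdiff, mem_biUnion]
    exact ⟨fun ⟨⟨i, a, b⟩, d⟩ => ⟨i, a, b, d⟩, fun ⟨i, a, b, d⟩ => ⟨⟨i, a, b⟩, d⟩⟩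
  rw [e]
  unfold qL
  rw [sum_biUnion]
  · refine sum_congr rfl fun i hi => sum_congr rfl fun e he => ?_
    obtain ⟨h1, h2⟩ := h0 i (mem_range.1 hi) e (mem_sdiff.1 he).1
    rw [h1, h2]; rfl
  · intro i _ i' _ hne
    exact disjoint_left.2 fun v h1 h2 => hne (h.uniq (mem_sdiff.1 h1).1 (mem_sdiff.1 h2).1)

theorem enta_Tower.form_eq (h : enta_Tower n j A s t F c H) {s₀ t₀ : ℕ → ℕ}
    (h0 : ∀ i < n, ∀ e ∈ H i, s₀ e = i * n + c i (s e) ∧ t₀ e = i * n + c i (t e))
    (x : ℕ → ℝ) :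
    qL s₀ t₀ ((range n).biUnion H) x + ∑ r ∈ enta_rho n j s t c H, x r ^ 2 =
      ∑ i ∈ range n, ((qL (c i ∘ s) (c i ∘ t) (H i) fun v => x (i * n + v)) +
        ∑ r ∈ roots n (c i ∘ s) (c i ∘ t) j (H i), x (i * n + r) ^ 2) := by
  have h1 := h.qL_eq h0 ∅ x
  simp only [sdiff_empty] at h1
  rw [h1, enta_sum_rho, sum_add_distrib]

theorem enta_Tower.block_le (h : enta_Tower n j A s t F c H) {s₀ t₀ : ℕ → ℕ}
    (h0 : ∀ i < n, ∀ e ∈ H i, s₀ e = i * n + c i (s e) ∧ t₀ e = i * n + c i (t e))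
    (x : ℕ → ℝ) {i : ℕ} (hi : i < n) :
    (qL (c i ∘ s) (c i ∘ t) (H i) fun v => x (i * n + v)) +
        ∑ r ∈ roots n (c i ∘ s) (c i ∘ t) j (H i), x (i * n + r) ^ 2 ≤
      qL s₀ t₀ ((range n).biUnion H) x + ∑ r ∈ enta_rho n j s t c H, x r ^ 2 := by
  rw [h.form_eq h0]
  exact single_le_sum (f := fun i => (qL (c i ∘ s) (c i ∘ t) (H i) fun v => x (i * n + v)) +
        ∑ r ∈ roots n (c i ∘ s) (c i ∘ t) j (H i), x (i * n + r) ^ 2)
    (fun i _ => add_nonneg (sum_nonneg fun _ _ => sq_nonneg _)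
      (sum_nonneg fun _ _ => sq_nonneg _)) (mem_range.2 hi)

theorem enta_Tower.main (h : enta_Tower n j A s t F c H) {s₀ t₀ : ℕ → ℕ}
    (h0 : ∀ i < n, ∀ e ∈ H i, s₀ e = i * n + c i (s e) ∧ t₀ e = i * n + c i (t e)) :
    WF s₀ t₀ (n * n) ((range n).biUnion H) ∧
      (∀ e ∈ (range n).biUnion H, ∀ x : ℕ → ℝ, A * (x (s₀ e) - x (t₀ e)) ^ 2 ≤
        qL s₀ t₀ ((range n).biUnion H) x + ∑ r ∈ enta_rho n j s t c H, x r ^ 2) ∧
      (∀ v < n * n, ∀ x : ℕ → ℝ, x v ^ 2 ≤
        n * (qL s₀ t₀ ((range n).biUnion H) x + ∑ r ∈ enta_rho n j s t c H, x r ^ 2)) ∧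
      ∀ (H' : Finset ℕ) (ε : ℝ) (j' : ℕ), H' ⊆ (range n).biUnion H → 0 ≤ ε → ε ≤ 1 / 2 →
        (j' : ℝ) + 1 / 2 ≤ (1 / 2 - ε) * j →
        (∀ x : ℕ → ℝ, qL s₀ t₀ ((range n).biUnion H \ H') x ≤
          (1 / 2 + ε) * (qL s₀ t₀ ((range n).biUnion H) x +
            ∑ r ∈ enta_rho n j s t c H, x r ^ 2)) →
        PC s t j' H' (range n) := by
  refine ⟨fun e he => ?_, fun e he x => ?_, fun v hv x => ?_, fun H' ε j' hH' hε hε' hj' hx => ?_⟩
  · obtain ⟨i, hi, he⟩ := mem_biUnion.1 he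
    obtain ⟨h1, h2⟩ := h0 i (mem_range.1 hi) e he
    obtain ⟨a1, a2, a3⟩ := h.wfi i e he
    rw [h1, h2]
    exact ⟨enta_block_lt (mem_range.1 hi) a1, enta_block_lt (mem_range.1 hi) a2,
      fun h' => a3 (Nat.add_left_cancel h')⟩
  · obtain ⟨i, hi, he⟩ := mem_biUnion.1 he
    obtain ⟨h1, h2⟩ := h0 i (mem_range.1 hi) e he
    rw [h1, h2]
    exact (h.res i e he fun v => x (i * n + v)).trans (h.block_le h0 x (mem_range.1 hi))
  · have hn : 0 < n := Nat.pos_of_ne_zero fun h' => by simp [h'] at hv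
    have hi : v / n < n := Nat.div_lt_of_lt_mul hv
    have h1 := sq_le_roots (h.wfi (v / n)) h.hj (Nat.mod_lt v hn) fun w => x (v / n * n + w)
    simp only [Nat.div_add_mod'] at h1
    exact h1.trans (mul_le_mul_of_nonneg_left (h.block_le h0 x hi) (Nat.cast_nonneg _))
  · refine h.pc (fun e he => ?_) fun i hi a => ?_
    · obtain ⟨i, _, he⟩ := mem_biUnion.1 (hH' he)
      exact (h.sub i e he).1
    refine (pc_of_spectral (h.wfi i) h.hj (h.rel i) (H' := H i ∩ H') inter_subset_left hε hε'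
      (fun y => ?_) hj' a).mono inter_subset_right le_rfl
    have hn : 0 < n := by omega
    have h1 := hx fun v => if v / n = i then y (v % n) else 0
    rw [h.qL_eq h0, h.form_eq h0] at h1
    have h2 : ∀ i', ∀ v < n, (if (i' * n + v) / n = i then y ((i' * n + v) % n) else 0) =
        if i' = i then y v else 0 := by
      intro i' v hv
      rw [Nat.add_comm, Nat.add_mul_div_right _ _ hn, Nat.div_eq_of_lt hv, Nat.zero_add,
        Nat.add_mul_mod_self_right, Nat.mod_eq_of_lt hv]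
    rw [sum_eq_single_of_mem i (mem_range.2 hi), sum_eq_single_of_mem i (mem_range.2 hi)] at h1
    · rw [enta_qL_congr ((h.wfi i).mono sdiff_subset) (h2 i), enta_qL_congr (h.wfi i) (h2 i),
        sum_congr rfl fun r hr => by rw [h2 i r (enta_roots_lt hr)]] at h1
      simp only [if_true] at h1
      rw [sdiff_inter_self_left]
      exact h1
    · intro i' _ hne
      rw [enta_qL_congr (h.wfi i') (h2 i'),
        sum_congr rfl fun r hr => by rw [h2 i' r (enta_roots_lt hr)]]
      simp [hne, qL]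
    · intro i' _ hne
      rw [enta_qL_congr ((h.wfi i').mono sdiff_subset) (h2 i')]
      simp [hne, qL]

end math

section alg
variable (pc : Un × ℕ × ℕ × Gr × List ℕ → List ℕ) (cn : Un × ℕ × Gr × List ℕ → List ℕ)

/-- the contracted graph -/
def enta_E (c : List ℕ) (E : Gr) : Gr := E.map fun p => (c.getD p.1 0, c.getD p.2 0)

/-- the edges that are not contracted -/
def enta_F (c : List ℕ) (E : Gr) (F : List ℕ) : List ℕ :=
  F.filter fun e => decide (c.getD (src E e) 0 ≠ c.getD (tgt E e) 0)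

/-- the piece -/
def enta_H (n j A : ℕ) (E : Gr) (F c : List ℕ) : List ℕ :=
  pc (⟨n⟩, j, A, enta_E c E, enta_F c E F)

/-- its canonical labels -/
def enta_K (n j A : ℕ) (E : Gr) (F c : List ℕ) : List ℕ :=
  cn (⟨n⟩, j, enta_E c E, enta_H pc n j A E F c)

/-- one round -/
def enta_step (n j A : ℕ) (E : Gr) (F c : List ℕ) : List ℕ :=
  (List.range n).map fun v => min ((enta_K pc cn n j A E F c).getD (c.getD v 0) 0) n

/-- the labels of round `i` -/
def enta_c (n j A : ℕ) (E : Gr) (F : List ℕ) (i : ℕ) : List ℕ :=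
  (enta_step pc cn n j A E F)^[i] (List.range n)

/-- the piece of round `i` -/
def enta_Hi (n j A : ℕ) (E : Gr) (F : List ℕ) (i : ℕ) : List ℕ :=
  enta_H pc n j A E F (enta_c pc cn n j A E F (min i n))

/-- the round of an edge -/
def enta_idx (n j A : ℕ) (E : Gr) (F : List ℕ) (e : ℕ) : ℕ :=
  ((List.range n).find? fun i => decide (e ∈ enta_Hi pc cn n j A E F i)).getD 0

def enta_oH (n j A : ℕ) (E : Gr) (F : List ℕ) : List ℕ :=
  (List.range n).flatMap fun i => enta_Hi pc cn n j A E F i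

def enta_pos (n j A : ℕ) (E : Gr) (F : List ℕ) (i v : ℕ) : ℕ :=
  i * n + (enta_c pc cn n j A E F (min i n)).getD v 0

def enta_oE (n j A : ℕ) (E : Gr) (F : List ℕ) : Gr :=
  (List.range E.length).map fun e =>
    (enta_pos pc cn n j A E F (enta_idx pc cn n j A E F e) (src E e),
      enta_pos pc cn n j A E F (enta_idx pc cn n j A E F e) (tgt E e))

def enta_roots (n j A : ℕ) (E : Gr) (F : List ℕ) (i : ℕ) : List ℕ :=
  (List.range n).filter fun v =>
    decide ((enta_K pc cn n j A E F (enta_c pc cn n j A E F (min i n))).getD v 0 = v)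

def enta_oR (n j A : ℕ) (E : Gr) (F : List ℕ) : List ℕ :=
  (List.range n).flatMap fun i => (enta_roots pc cn n j A E F i).map fun r => i * n + r

/-- the algorithm -/
def enta_run (p : Un × ℕ × ℕ × Gr × List ℕ) : List ℕ × Gr × List ℕ :=
  (enta_oH pc cn p.1.n p.2.1 p.2.2.1 p.2.2.2.1 p.2.2.2.2,
    enta_oE pc cn p.1.n p.2.1 p.2.2.1 p.2.2.2.1 p.2.2.2.2,
    enta_oR pc cn p.1.n p.2.1 p.2.2.1 p.2.2.2.1 p.2.2.2.2)

theorem enta_c_bound (n j A : ℕ) (E : Gr) (F : List ℕ) (i : ℕ) :
    (enta_c pc cn n j A E F i).length = n ∧ ∀ a ∈ enta_c pc cn n j A E F i, a ≤ n := by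
  unfold enta_c
  cases i with
  | zero => exact ⟨by simp, fun a ha => (List.mem_range.1 ha).le⟩
  | succ i =>
    rw [Function.iterate_succ_apply']
    refine ⟨by simp [enta_step], fun a ha => ?_⟩
    obtain ⟨v, _, rfl⟩ := List.mem_map.1 ha
    exact min_le_right _ _

end alg

section pt
variable {pc : Un × ℕ × ℕ × Gr × List ℕ → List ℕ} {cn : Un × ℕ × Gr × List ℕ → List ℕ}
variable {α : Type} [Enc α] {n j A i v : α → ℕ} {E : α → Gr} {F c : α → List ℕ}

theorem enta_E_pt (hc : PT c) (hE : PT E) : PT fun a => enta_E (c a) (E a) := by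
  unfold enta_E; fun_prop

theorem enta_F_pt (hc : PT c) (hE : PT E) (hF : PT F) : PT fun a => enta_F (c a) (E a) (F a) := by
  unfold enta_F
  exact PT.filter hF (PT.decide (PT.ne
    (PT.getD (hc.comp PT.id.fst) (src_pt (hE.comp PT.id.fst) PT.id.snd) (PT.const _))
    (PT.getD (hc.comp PT.id.fst) (tgt_pt (hE.comp PT.id.fst) PT.id.snd) (PT.const _))))

theorem enta_H_pt (hpc : PT pc) (hn : PT n) (hb : PB n) (hj : PT j) (hA : PT A) (hE : PT E)
    (hF : PT F) (hc : PT c) : PT fun a => enta_H pc (n a) (j a) (A a) (E a) (F a) (c a) :=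
  hpc.comp ((hn.un_mk hb).pair (hj.pair (hA.pair ((enta_E_pt hc hE).pair (enta_F_pt hc hE hF)))))

theorem enta_K_pt (hpc : PT pc) (hcn : PT cn) (hn : PT n) (hb : PB n) (hj : PT j) (hA : PT A)
    (hE : PT E) (hF : PT F) (hc : PT c) :
    PT fun a => enta_K pc cn (n a) (j a) (A a) (E a) (F a) (c a) :=
  hcn.comp ((hn.un_mk hb).pair (hj.pair ((enta_E_pt hc hE).pair
    (enta_H_pt hpc hn hb hj hA hE hF hc))))

theorem enta_step_pt (hpc : PT pc) (hcn : PT cn) (hn : PT n) (hb : PB n) (hj : PT j) (hA : PT A)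
    (hE : PT E) (hF : PT F) (hc : PT c) :
    PT fun a => enta_step pc cn (n a) (j a) (A a) (E a) (F a) (c a) := by
  unfold enta_step
  exact PT.map (hn.range hb) (PT.nat_min
    (PT.getD ((enta_K_pt hpc hcn hn hb hj hA hE hF hc).comp PT.id.fst)
      (PT.getD (hc.comp PT.id.fst) PT.id.snd (PT.const _)) (PT.const _)) (hn.comp PT.id.fst))

theorem enta_c_pt (hpc : PT pc) (hcn : PT cn) (hn : PT n) (hb : PB n) (hj : PT j) (hA : PT A)
    (hE : PT E) (hF : PT F) (hi : PT i) :
    PT fun a => enta_c pc cn (n a) (j a) (A a) (E a) (F a) (min (i a) (n a)) := by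
  unfold enta_c
  refine PT.iterate (f := fun a => enta_step pc cn (n a) (j a) (A a) (E a) (F a))
    (hi.nat_min hn) (PB.min_right _ hb) (hn.range hb)
    (enta_step_pt hpc hcn (hn.comp PT.id.fst) (hb.comp PT.id.fst) (hj.comp PT.id.fst)
      (hA.comp PT.id.fst) (hE.comp PT.id.fst) (hF.comp PT.id.fst) PT.id.snd)
    (B := fun a => n a * (4 * n a + 1 + 1) + 1) (by fun_prop) fun a k _ => ?_
  obtain ⟨h1, h2⟩ := enta_c_bound pc cn (n a) (j a) (A a) (E a) (F a) k
  have h3 := sz_list_le (l := enta_c pc cn (n a) (j a) (A a) (E a) (F a) k) (B := 4 * n a + 1)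
    fun b hb => (sz_nat_le_self b).trans (by have := h2 b hb; omega)
  rw [h1] at h3
  exact h3

theorem enta_Hi_pt (hpc : PT pc) (hcn : PT cn) (hn : PT n) (hb : PB n) (hj : PT j) (hA : PT A)
    (hE : PT E) (hF : PT F) (hi : PT i) :
    PT fun a => enta_Hi pc cn (n a) (j a) (A a) (E a) (F a) (i a) :=
  enta_H_pt hpc hn hb hj hA hE hF (enta_c_pt hpc hcn hn hb hj hA hE hF hi)

theorem enta_idx_pt (hpc : PT pc) (hcn : PT cn) (hn : PT n) (hb : PB n) (hj : PT j) (hA : PT A)
    (hE : PT E) (hF : PT F) (hi : PT i) :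
    PT fun a => enta_idx pc cn (n a) (j a) (A a) (E a) (F a) (i a) := by
  unfold enta_idx
  exact (PT.find? (hn.range hb) (PT.decide (PT.mem
    (enta_Hi_pt hpc hcn (hn.comp PT.id.fst) (hb.comp PT.id.fst) (hj.comp PT.id.fst)
      (hA.comp PT.id.fst) (hE.comp PT.id.fst) (hF.comp PT.id.fst) PT.id.snd)
    (hi.comp PT.id.fst)))).option_getD (PT.const _)

theorem enta_pos_pt (hpc : PT pc) (hcn : PT cn) (hn : PT n) (hb : PB n) (hj : PT j) (hA : PT A)
    (hE : PT E) (hF : PT F) (hi : PT i) (hv : PT v) :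
    PT fun a => enta_pos pc cn (n a) (j a) (A a) (E a) (F a) (i a) (v a) := by
  unfold enta_pos
  exact (hi.nat_mul hn).nat_add (PT.getD (enta_c_pt hpc hcn hn hb hj hA hE hF hi) hv (PT.const _))

theorem enta_roots_pt (hpc : PT pc) (hcn : PT cn) (hn : PT n) (hb : PB n) (hj : PT j) (hA : PT A)
    (hE : PT E) (hF : PT F) (hi : PT i) :
    PT fun a => enta_roots pc cn (n a) (j a) (A a) (E a) (F a) (i a) := by
  unfold enta_roots
  exact PT.filter (hn.range hb) (PT.decide (PT.eq (PT.getD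
    ((enta_K_pt hpc hcn hn hb hj hA hE hF (enta_c_pt hpc hcn hn hb hj hA hE hF hi)).comp PT.id.fst)
      PT.id.snd (PT.const _)) PT.id.snd))

theorem enta_oH_pt (hpc : PT pc) (hcn : PT cn) (hn : PT n) (hb : PB n) (hj : PT j) (hA : PT A)
    (hE : PT E) (hF : PT F) : PT fun a => enta_oH pc cn (n a) (j a) (A a) (E a) (F a) := by
  unfold enta_oH
  exact PT.flatMap (hn.range hb)
    (enta_Hi_pt hpc hcn (hn.comp PT.id.fst) (hb.comp PT.id.fst) (hj.comp PT.id.fst)
      (hA.comp PT.id.fst) (hE.comp PT.id.fst) (hF.comp PT.id.fst) PT.id.snd)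

theorem enta_oE_pt (hpc : PT pc) (hcn : PT cn) (hn : PT n) (hb : PB n) (hj : PT j) (hA : PT A)
    (hE : PT E) (hF : PT F) : PT fun a => enta_oE pc cn (n a) (j a) (A a) (E a) (F a) := by
  unfold enta_oE
  have h1 := enta_idx_pt (α := α × ℕ) hpc hcn (hn.comp PT.id.fst) (hb.comp PT.id.fst)
    (hj.comp PT.id.fst) (hA.comp PT.id.fst) (hE.comp PT.id.fst) (hF.comp PT.id.fst) PT.id.snd
  exact PT.map (hE.length.range (PB.length hE)) (PT.pair
    (enta_pos_pt hpc hcn (hn.comp PT.id.fst) (hb.comp PT.id.fst) (hj.comp PT.id.fst)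
      (hA.comp PT.id.fst) (hE.comp PT.id.fst) (hF.comp PT.id.fst) h1
      (src_pt (hE.comp PT.id.fst) PT.id.snd))
    (enta_pos_pt hpc hcn (hn.comp PT.id.fst) (hb.comp PT.id.fst) (hj.comp PT.id.fst)
      (hA.comp PT.id.fst) (hE.comp PT.id.fst) (hF.comp PT.id.fst) h1
      (tgt_pt (hE.comp PT.id.fst) PT.id.snd)))

theorem enta_oR_pt (hpc : PT pc) (hcn : PT cn) (hn : PT n) (hb : PB n) (hj : PT j) (hA : PT A)
    (hE : PT E) (hF : PT F) : PT fun a => enta_oR pc cn (n a) (j a) (A a) (E a) (F a) := by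
  unfold enta_oR
  exact PT.flatMap (hn.range hb) (PT.map (f := fun (q : α × ℕ) r => q.2 * n q.1 + r)
    (enta_roots_pt hpc hcn (hn.comp PT.id.fst) (hb.comp PT.id.fst) (hj.comp PT.id.fst)
      (hA.comp PT.id.fst) (hE.comp PT.id.fst) (hF.comp PT.id.fst) PT.id.snd)
    ((PT.id.fst.snd.nat_mul (hn.comp PT.id.fst.fst)).nat_add PT.id.snd))

theorem enta_run_pt (hpc : PT pc) (hcn : PT cn) : PT (enta_run pc cn) := by
  unfold enta_run
  exact (enta_oH_pt hpc hcn (by fun_prop) (by fun_prop) (by fun_prop) (by fun_prop) (by fun_prop)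
    (by fun_prop)).pair ((enta_oE_pt hpc hcn (by fun_prop) (by fun_prop) (by fun_prop)
    (by fun_prop) (by fun_prop) (by fun_prop)).pair (enta_oR_pt hpc hcn (by fun_prop) (by fun_prop)
    (by fun_prop) (by fun_prop) (by fun_prop) (by fun_prop)))

end pt

section correct
variable {pc : Un × ℕ × ℕ × Gr × List ℕ → List ℕ} {cn : Un × ℕ × Gr × List ℕ → List ℕ}
variable {n j A k : ℕ} {E : Gr} {F : List ℕ}

/-- the specification of the piece algorithm -/
def enta_Pc (pc : Un × ℕ × ℕ × Gr × List ℕ → List ℕ) : Prop :=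
  ∀ (n j A k : ℕ) (E : Gr) (F : List ℕ) (W : Finset ℕ), 2 ≤ j → 1 ≤ A → 2 * A ≤ k →
      (j : ℝ) + 2 * A * Real.log (2 * k + 1) < k → F.Nodup → WF (src E) (tgt E) n F.toFinset →
      W ⊆ range n → (∀ e ∈ F, src E e ∈ W ∧ tgt E e ∈ W) → PC (src E) (tgt E) k F.toFinset W →
      ∀ H : List ℕ, pc (⟨n⟩, j, A, E, F) = H →
      H.Nodup ∧ H ⊆ F ∧ (2 ≤ W.card → H ≠ []) ∧
      (∀ e ∈ H, Rel (src E) (tgt E) j H.toFinset (src E e) (tgt E e)) ∧
      ∀ e ∈ H, ∀ x : ℕ → ℝ, A * (x (src E e) - x (tgt E e)) ^ 2 ≤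
        qL (src E) (tgt E) H.toFinset x + ∑ r ∈ roots n (src E) (tgt E) j H.toFinset, x r ^ 2

/-- the hypotheses on the input -/
structure enta_In (n j A k : ℕ) (E : Gr) (F : List ℕ) : Prop where
  hn : 1 ≤ n
  hj : 2 ≤ j
  hA : 1 ≤ A
  hAk : 2 * A ≤ k
  hk : (j : ℝ) + 2 * A * Real.log (2 * k + 1) < k
  nd : F.Nodup
  wf : WF (src E) (tgt E) n F.toFinset
  pc : PC (src E) (tgt E) k F.toFinset (range n)

theorem enta_src {L : List ℕ} (h : L.getD 0 0 = 0) (E : Gr) :
    src (enta_E L E) = (fun v => L.getD v 0) ∘ src E := by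
  funext e
  simp only [src, enta_E, Function.comp_apply, List.getD_eq_getElem?_getD, List.getElem?_map] at h ⊢
  cases E[e]? with
  | none => simpa using h.symm
  | some p => simp

theorem enta_tgt {L : List ℕ} (h : L.getD 0 0 = 0) (E : Gr) :
    tgt (enta_E L E) = (fun v => L.getD v 0) ∘ tgt E := by
  funext e
  simp only [tgt, enta_E, Function.comp_apply, List.getD_eq_getElem?_getD, List.getElem?_map] at h ⊢
  cases E[e]? with
  | none => simpa using h.symm
  | some p => simp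

theorem enta_round (hpc : enta_Pc pc) (hcn : piece_Cn cn) (h : enta_In n j A k E F) {L : List ℕ}
    (h0 : L.getD 0 0 = 0) (hL : ∀ v < n, L.getD v 0 < n) {c : ℕ → ℕ} (hc : c = fun v => L.getD v 0)
    {H : List ℕ} (hH : H = enta_H pc n j A E F L) :
    H.Nodup ∧ (∀ e ∈ H, e ∈ F ∧ c (src E e) ≠ c (tgt E e)) ∧
      (2 ≤ ((range n).image c).card → H ≠ []) ∧
      (∀ e ∈ H, Rel (c ∘ src E) (c ∘ tgt E) j H.toFinset (c (src E e)) (c (tgt E e))) ∧
      (∀ e ∈ H, ∀ x : ℕ → ℝ, A * (x (c (src E e)) - x (c (tgt E e))) ^ 2 ≤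
        qL (c ∘ src E) (c ∘ tgt E) H.toFinset x +
          ∑ r ∈ roots n (c ∘ src E) (c ∘ tgt E) j H.toFinset, x r ^ 2) ∧
      ∀ u < n, (enta_K pc cn n j A E F L).getD u 0 =
        can (c ∘ src E) (c ∘ tgt E) j H.toFinset u := by
  have hs : src (enta_E L E) = c ∘ src E := by rw [hc]; exact enta_src h0 E
  have ht : tgt (enta_E L E) = c ∘ tgt E := by rw [hc]; exact enta_tgt h0 E
  have hc' : ∀ v < n, c v < n := by rw [hc]; exact hL
  have hF : ∀ e, e ∈ enta_F L E F ↔ e ∈ F ∧ c (src E e) ≠ c (tgt E e) := by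
    intro e; rw [hc]; simp [enta_F]
  have hF' : (enta_F L E F).toFinset =
      F.toFinset.filter fun e => c (src E e) ≠ c (tgt E e) := by
    ext e; simp [hF]
  have hwf : WF (src (enta_E L E)) (tgt (enta_E L E)) n (enta_F L E F).toFinset := by
    intro e he
    obtain ⟨h1, h2⟩ := (hF e).1 (List.mem_toFinset.1 he)
    have h3 := h.wf e (List.mem_toFinset.2 h1)
    rw [hs, ht]
    exact ⟨hc' _ h3.1, hc' _ h3.2.1, h2⟩
  obtain ⟨a1, a2, a3, a4, a5⟩ := hpc n j A k (enta_E L E) (enta_F L E F) ((range n).image c) h.hj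
    h.hA h.hAk h.hk (h.nd.filter _) hwf
    (fun v hv => by
      obtain ⟨w, hw, rfl⟩ := mem_image.1 hv
      exact mem_range.2 (hc' w (mem_range.1 hw)))
    (fun e he => by
      have h3 := h.wf e (List.mem_toFinset.2 ((hF e).1 he).1)
      rw [hs, ht]
      exact ⟨mem_image_of_mem _ (mem_range.2 h3.1), mem_image_of_mem _ (mem_range.2 h3.2.1)⟩)
    (by rw [hs, ht, hF']; exact h.pc.map c) H hH.symm
  have a6 := (hcn n j (enta_E L E) H (by have := h.hj; omega) a1
    (hwf.mono fun e he => List.mem_toFinset.2 (a2 (List.mem_toFinset.1 he)))).2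
  rw [hs, ht] at a4 a5 a6
  refine ⟨a1, fun e he => (hF e).1 (a2 he), a3, a4, a5, fun u hu => ?_⟩
  rw [← a6 u hu, hH]; rfl

theorem enta_step_getD {L : List ℕ} {v : ℕ} (hv : v < n) :
    (enta_step pc cn n j A E F L).getD v 0 =
      min ((enta_K pc cn n j A E F L).getD (L.getD v 0) 0) n := by
  simp [enta_step, List.getD_eq_getElem?_getD, hv]

theorem enta_c_succ (i : ℕ) : enta_c pc cn n j A E F (i + 1) =
    enta_step pc cn n j A E F (enta_c pc cn n j A E F i) := Function.iterate_succ_apply' _ _ _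

theorem enta_c_zero {v : ℕ} (hv : v < n) : (enta_c pc cn n j A E F 0).getD v 0 = v := by
  simp [enta_c, List.getD_eq_getElem?_getD, hv]

theorem enta_c_le (hpc : enta_Pc pc) (hcn : piece_Cn cn) (h : enta_In n j A k E F) (i : ℕ) :
    ∀ v < n, (enta_c pc cn n j A E F i).getD v 0 ≤ v := by
  induction i with
  | zero => intro v hv; exact (enta_c_zero hv).le
  | succ i ih =>
    intro v hv
    have h1 := (enta_round hpc hcn h (L := enta_c pc cn n j A E F i)
      (Nat.le_zero.1 (ih 0 h.hn)) (fun w hw => (ih w hw).trans_lt hw) rfl rfl).2.2.2.2.2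
    rw [enta_c_succ, enta_step_getD hv, h1 _ ((ih v hv).trans_lt hv)]
    exact (min_le_left _ _).trans ((can_le _).trans (ih v hv))

theorem enta_tower (hpc : enta_Pc pc) (hcn : piece_Cn cn) (h : enta_In n j A k E F) :
    enta_Tower n j A (src E) (tgt E) F.toFinset (fun i v => (enta_c pc cn n j A E F i).getD v 0)
      fun i => (enta_H pc n j A E F (enta_c pc cn n j A E F i)).toFinset := by
  have key := fun i => enta_round hpc hcn h (L := enta_c pc cn n j A E F i)
      (Nat.le_zero.1 (enta_c_le hpc hcn h i 0 h.hn))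
      (fun w hw => (enta_c_le hpc hcn h i w hw).trans_lt hw) rfl rfl
  refine ⟨h.wf, by have := h.hj; omega, fun v hv => enta_c_zero hv, fun i v hv => ?_,
    fun i e he => ?_, fun i hi => ?_, fun i e he => (key i).2.2.2.1 e (List.mem_toFinset.1 he),
    fun i e he => (key i).2.2.2.2.1 e (List.mem_toFinset.1 he)⟩
  · have h1 := (enta_c_le hpc hcn h i v hv).trans_lt hv
    rw [enta_c_succ, enta_step_getD hv, (key i).2.2.2.2.2 _ h1]
    exact min_eq_left ((can_le _).trans h1.le)
  · obtain ⟨h1, h2⟩ := (key i).2.1 e (List.mem_toFinset.1 he)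
    exact ⟨List.mem_toFinset.2 h1, h2⟩
  · exact List.toFinset_nonempty_iff _ |>.2 ((key i).2.2.1 hi)

end correct

/-- Contract and repeat, `n` rounds.  Round `i` has labels `c i` (a list, `c 0 = id`, `c i v < n`), the graph
`E i = E.map (c i × c i)`, the edges `F i` of `F` whose ends have different labels (`PC.map`, `W = c i (range n)`), the piece
`H i = pc (n, j, A, E i, F i)`, its canonical labels `κ i`, and `c (i+1) = κ i ∘ c i`.  Edges of `H i` are inside the
classes of `c (i+1)`, so the `H i` are disjoint; while `c i` has two labels, `H i ≠ []` and the number of labels drops; so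
`c n` is constant.  Output: `H = ⋃ H i`; `E₀` has at `e ∈ H i` the pair `(i n + c i (s e), i n + c i (t e))`; `ρ` lists
`i n + r` for the roots `r` of round `i`.  The form of `(E₀, H, ρ)` at `x` is the sum over `i` of the forms of round `i` at
`v ↦ x (i n + v)`; for the last claim test `hx` with functions supported on one block, apply `pc_of_spectral`,
and prove `PC j' (H' ∩ ⋃_{i' ≥ i} H i') (c i (range n))` in the graph `E i` by downward induction (`PC.glue`). -/
theorem exists_ent : ∃ en : Un × ℕ × ℕ × Gr × List ℕ → List ℕ × Gr × List ℕ, PT en ∧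
    ∀ (n j A k : ℕ) (E : Gr) (F : List ℕ), 1 ≤ n → 2 ≤ j → 1 ≤ A → 2 * A ≤ k →
      (j : ℝ) + 2 * A * Real.log (2 * k + 1) < k → F.Nodup → WF (src E) (tgt E) n F.toFinset →
      PC (src E) (tgt E) k F.toFinset (range n) →
      ∀ (H : List ℕ) (E₀ : Gr) (ρ : List ℕ), en (⟨n⟩, j, A, E, F) = (H, E₀, ρ) →
      H.Nodup ∧ H ⊆ F ∧ ρ.Nodup ∧ (∀ r ∈ ρ, r < n * n) ∧ WF (src E₀) (tgt E₀) (n * n) H.toFinset ∧
      (∀ e ∈ H, ∀ x : ℕ → ℝ, A * (x (src E₀ e) - x (tgt E₀ e)) ^ 2 ≤
        qL (src E₀) (tgt E₀) H.toFinset x + ∑ r ∈ ρ.toFinset, x r ^ 2) ∧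
      (∀ v < n * n, ∀ x : ℕ → ℝ, x v ^ 2 ≤
        n * (qL (src E₀) (tgt E₀) H.toFinset x + ∑ r ∈ ρ.toFinset, x r ^ 2)) ∧
      ∀ (H' : Finset ℕ) (ε : ℝ) (j' : ℕ), H' ⊆ H.toFinset → 0 ≤ ε → ε ≤ 1 / 2 →
        (j' : ℝ) + 1 / 2 ≤ (1 / 2 - ε) * j →
        (∀ x : ℕ → ℝ, qL (src E₀) (tgt E₀) (H.toFinset \ H') x ≤
          (1 / 2 + ε) * (qL (src E₀) (tgt E₀) H.toFinset x + ∑ r ∈ ρ.toFinset, x r ^ 2)) →
        PC (src E) (tgt E) j' H' (range n) := by
  obtain ⟨pc, hpc_pt, hpc⟩ := exists_piece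
  obtain ⟨cn, hcn_pt, hcn⟩ := exists_canon
  refine ⟨enta_run pc cn, enta_run_pt hpc_pt hcn_pt, ?_⟩
  intro n j A k E F hn hj hA hAk hk hF hWF hPC H E₀ ρ hrun
  have hin : enta_In n j A k E F := ⟨hn, hj, hA, hAk, hk, hF, hWF, hPC⟩
  have hT := enta_tower (pc := pc) (cn := cn) hpc hcn hin
  have key := fun i => enta_round (pc := pc) (cn := cn) hpc hcn hin (L := enta_c pc cn n j A E F i)
      (Nat.le_zero.1 (enta_c_le hpc hcn hin i 0 hn))
      (fun w hw => (enta_c_le hpc hcn hin i w hw).trans_lt hw) rfl rfl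
  simp only [enta_run, Prod.mk.injEq] at hrun
  obtain ⟨rfl, rfl, rfl⟩ := hrun
  set c : ℕ → ℕ → ℕ := fun i v => (enta_c pc cn n j A E F i).getD v 0 with hc
  set G : ℕ → Finset ℕ := fun i => (enta_H pc n j A E F (enta_c pc cn n j A E F i)).toFinset
    with hG
  have hHi : ∀ i < n, enta_Hi pc cn n j A E F i = enta_H pc n j A E F (enta_c pc cn n j A E F i) :=
    fun i hi => by rw [enta_Hi, min_eq_left hi.le]
  have hmem : ∀ i < n, ∀ e, e ∈ enta_Hi pc cn n j A E F i ↔ e ∈ G i := fun i hi e => by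
    rw [hHi i hi, hG, List.mem_toFinset]
  have eH : (enta_oH pc cn n j A E F).toFinset = (range n).biUnion G := by
    ext e
    simp only [enta_oH, List.mem_toFinset, List.mem_flatMap, List.mem_range, mem_biUnion,
      mem_range]
    exact exists_congr fun i => and_congr_right fun hi => hmem i hi e
  have hroots : ∀ i < n, ∀ r, r ∈ enta_roots pc cn n j A E F i ↔
      r ∈ roots n (c i ∘ src E) (c i ∘ tgt E) j (G i) := by
    intro i hi r
    simp only [enta_roots, roots, List.mem_filter, List.mem_range, decide_eq_true_eq, mem_filter,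
      mem_range, min_eq_left hi.le]
    refine and_congr_right fun hr => ?_
    rw [(key i).2.2.2.2.2 r hr]
  have eR : (enta_oR pc cn n j A E F).toFinset = enta_rho n j (src E) (tgt E) c G := by
    ext v
    simp only [enta_oR, enta_rho, List.mem_toFinset, List.mem_flatMap, List.mem_range,
      mem_biUnion, mem_range, List.mem_map, mem_image]
    exact exists_congr fun i => and_congr_right fun hi => exists_congr fun r =>
      and_congr_left fun _ => hroots i hi r
  have h0 : ∀ i < n, ∀ e ∈ G i, src (enta_oE pc cn n j A E F) e = i * n + c i (src E e) ∧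
      tgt (enta_oE pc cn n j A E F) e = i * n + c i (tgt E e) := by
    intro i hi e he
    have h1 : e < E.length := by
      by_contra h1
      have h2 := (hWF e (hT.sub i e he).1).2.2
      simp [src, tgt, List.getD_eq_getElem?_getD, List.getElem?_eq_none (not_lt.1 h1)] at h2
    have h2 : enta_idx pc cn n j A E F e = i := by
      unfold enta_idx
      cases hf : (List.range n).find? fun i => decide (e ∈ enta_Hi pc cn n j A E F i) with
      | none =>
        have := List.find?_eq_none.1 hf i (List.mem_range.2 hi)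
        simp [hmem i hi, he] at this
      | some i' =>
        have h3 := List.find?_some hf
        have h4 := List.mem_range.1 (List.mem_of_find?_eq_some hf)
        rw [decide_eq_true_eq, hmem i' h4] at h3
        exact hT.uniq h3 he
    have h3 : (enta_oE pc cn n j A E F).getD e (0, 0) =
        (i * n + c i (src E e), i * n + c i (tgt E e)) := by
      simp only [enta_oE, List.getD_eq_getElem?_getD, List.getElem?_map,
        List.getElem?_range h1, Option.map_some, Option.getD_some, h2, enta_pos,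
        min_eq_left hi.le, hc]
    constructor
    · rw [src, h3]
    · rw [tgt, h3]
  obtain ⟨m1, m2, m3, m4⟩ := hT.main h0
  rw [eH, eR]
  refine ⟨?_, fun e he => ?_, ?_, fun r hr => ?_, m1, fun e he => m2 e ?_, m3, m4⟩
  · refine List.nodup_flatMap.2 ⟨fun i hi => ?_, List.nodup_range.pairwise_of_forall_ne ?_⟩
    · rw [hHi i (List.mem_range.1 hi)]; exact (key i).1
    · intro i hi i' hi' hne e h1 h2
      exact hne (hT.uniq ((hmem i (List.mem_range.1 hi) e).1 h1)
        ((hmem i' (List.mem_range.1 hi') e).1 h2))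
  · have := List.mem_toFinset.2 he
    rw [eH] at this
    obtain ⟨i, _, hi⟩ := mem_biUnion.1 this
    exact List.mem_toFinset.1 (hT.sub i e hi).1
  · refine List.nodup_flatMap.2 ⟨fun i hi => ?_, List.nodup_range.pairwise_of_forall_ne ?_⟩
    · exact (List.nodup_range.filter _).map fun a b hab => Nat.add_left_cancel hab
    · intro i hi i' hi' hne v h1 h2
      obtain ⟨a, ha, rfl⟩ := List.mem_map.1 h1
      obtain ⟨a', ha', e⟩ := List.mem_map.1 h2
      exact hne (enta_block_inj (List.mem_range.1 (List.mem_of_mem_filter ha'))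
        (List.mem_range.1 (List.mem_of_mem_filter ha)) e).symm
  · obtain ⟨i, hi, hr⟩ := List.mem_flatMap.1 hr
    obtain ⟨a, ha, rfl⟩ := List.mem_map.1 hr
    exact enta_block_lt (List.mem_range.1 hi) (List.mem_range.1 (List.mem_of_mem_filter ha))
  · rw [← eH]; exact List.mem_toFinset.2 he

end Crest.Agent.R37
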