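import Crest.Agent.R37.EntM1

/-!
# R37/EntM: the number of spanning forests as a potential
-/

set_option autoImplicit false
open Finset Matrix

namespace Crest.Agent.R37

variable {s t : ℕ → ℕ} {n j k : ℕ} {F H : Finset ℕ}

theorem entm_roots_subset : roots n s t j H ⊆ range n := filter_subset _ _

theorem entm_can_mem_roots {v : ℕ} (hv : v < n) : can s t j H v ∈ roots n s t j H :=
  mem_filter.2 ⟨mem_range.2 (lt_of_le_of_lt (can_le v) hv), can_can v⟩

theorem entm_glap_insert {ρ : Finset ℕ} {v : ℕ} (hv : v ∉ ρ) :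
    glap n s t H (insert v ρ) = glap n s t H ρ + op (ev n v) := by
  unfold glap
  rw [sum_insert hv]
  abel

theorem entm_rel_of_one (ht : ∀ e ∈ H, Rel s t j H (s e) (t e)) {u v : ℕ}
    (h : Rel s t 1 H u v) : Rel s t j H u v := by
  obtain ⟨U, hu, hv, hU⟩ := h
  refine hU.conn le_rfl (fun x => Rel s t j H u x) (fun e he _ _ => ?_) hu hv (Rel.refl u)
  exact ⟨fun h => h.trans (ht e he), fun h => h.trans (ht e he).symm⟩

/-- adding roots does not decrease the determinant -/
theorem entm_det_mono {ρ : Finset ℕ} (h : PD (glap n s t H ρ)) (σ : Finset ℕ) (hd : Disjoint ρ σ) :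
    PD (glap n s t H (ρ ∪ σ)) ∧ (glap n s t H ρ).det ≤ (glap n s t H (ρ ∪ σ)).det := by
  induction σ using Finset.induction_on with
  | empty => simpa using h
  | insert v σ hv ih =>
    rw [disjoint_insert_right] at hd
    obtain ⟨h1, h2⟩ := ih hd.2
    have hv' : v ∉ ρ ∪ σ := by
      rw [mem_union]
      exact fun h => h.elim hd.1 hv
    rw [union_insert]
    refine ⟨h1.of_le (glap_symm _ _ _ _) fun x => ?_, ?_⟩
    · rw [entm_glap_insert hv', qf_add, qf_op]
      exact le_add_of_nonneg_right (sq_nonneg _)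
    · have h3 := h1.det_add 1 (ev n v)
      rw [one_smul] at h3
      rw [entm_glap_insert hv', h3]
      have h4 := h1.inv.nonneg (ev n v)
      have h5 := h1.det_pos
      nlinarith

/-- moving the roots inside their classes does not change the determinant -/
theorem entm_det_rep (hH : WF s t n H) (ht : ∀ e ∈ H, Rel s t j H (s e) (t e)) (m : ℕ) :
    ∀ g : ℕ → ℕ, (∀ a ∈ roots n s t j H, g a < n ∧ can s t j H (g a) = a) →
      ((roots n s t j H).filter fun a => g a ≠ a).card = m →
      (glap n s t H ((roots n s t j H).image g)).det = (glap n s t H (roots n s t j H)).det := by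
  induction m with
  | zero =>
    intro g _ h0
    rw [card_eq_zero, filter_eq_empty_iff] at h0
    have : (roots n s t j H).image g = roots n s t j H := by
      rw [image_congr (g := id) fun a ha => by simpa using h0 ha, image_id]
    rw [this]
  | succ m ih =>
    intro g hg hm
    obtain ⟨a, ha⟩ : ((roots n s t j H).filter fun a => g a ≠ a).Nonempty :=
      card_pos.1 (by omega)
    obtain ⟨haR, hga⟩ := mem_filter.1 ha
    have han : a < n := mem_range.1 (entm_roots_subset haR)
    have hca : can s t j H a = a := (mem_filter.1 haR).2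
    have h1 := ih (Function.update g a a) (fun b hb => by
      by_cases hba : b = a
      · subst hba
        rw [Function.update_self]
        exact ⟨han, hca⟩
      · rw [Function.update_of_ne hba]
        exact hg b hb) (by
      have : ((roots n s t j H).filter fun b => Function.update g a a b ≠ b) =
          ((roots n s t j H).filter fun a => g a ≠ a).erase a := by
        ext b
        by_cases hba : b = a
        · subst hba
          simp
        · simp [hba]
      rw [this, card_erase_of_mem ha, hm]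
      rfl)
    rw [← h1]
    set ρ := ((roots n s t j H).erase a).image g with hρ
    set K := (range n).filter fun v => can s t j H v = a with hK
    have hd : Disjoint ρ K := by
      rw [disjoint_left]
      intro x hx hxK
      obtain ⟨b, hb, rfl⟩ := mem_image.1 hx
      obtain ⟨hba, hb⟩ := mem_erase.1 hb
      exact hba ((hg b hb).2.symm.trans (mem_filter.1 hxK).2)
    have haK : a ∈ K := mem_filter.2 ⟨mem_range.2 han, hca⟩
    have hgK : g a ∈ K := mem_filter.2 ⟨mem_range.2 (hg a haR).1, (hg a haR).2⟩
    have e1 : (roots n s t j H).image g = insert (g a) ρ := by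
      rw [hρ, ← image_insert, insert_erase haR]
    have e2 : (roots n s t j H).image (Function.update g a a) = insert a ρ := by
      conv_lhs => rw [← insert_erase haR, image_insert, Function.update_self]
      congr 1
      exact image_congr fun b hb => Function.update_of_ne (mem_erase.1 (mem_coe.1 hb)).1 _ _
    rw [e1, e2, entm_glap_insert (disjoint_right.1 hd hgK), entm_glap_insert (disjoint_right.1 hd haK)]
    have hKe : ∀ e ∈ H, s e ∈ K ↔ t e ∈ K := by
      intro e he
      have := can_eq_iff.2 (ht e he)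
      simp only [hK, mem_filter, mem_range, (hH e he).1, (hH e he).2.1, true_and, this]
    have hdot : ∀ u, u < n → u ∈ K →
        ev n u ⬝ᵥ (fun i : Fin n => if (i : ℕ) ∈ K then (1 : ℝ) else 0) = 1 := by
      intro u hu huK
      have := ext_restrict (N := n) (fun i => if i ∈ K then (1 : ℝ) else 0) hu
      rw [if_pos huK] at this
      exact this
    have := det_shear hH hKe hd haK han (ev n (g a) - ev n a) (by
      rw [sub_dotProduct, hdot _ (hg a haR).1 hgK, hdot _ han haK, sub_self])
    rw [← this]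
    congr 3
    abel

/-- If all edges lie inside classes, the classes are the components.  An admissible `ρ` contains one root
per class; dropping the others does not increase the determinant (`PD.det_add`), and moving a root
inside its class does not change it (`det_shear` with `a = ev r' - ev r`). -/
theorem tau_eq_roots (hH : WF s t n H) (hj : 1 ≤ j) (ht : ∀ e ∈ H, Rel s t j H (s e) (t e)) :
    tau n s t H = (glap n s t H (roots n s t j H)).det := by
  refine le_antisymm (tau_le entm_roots_subset (pd_roots hH hj)) ?_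
  obtain ⟨ρ, hρ, hpd, hdet⟩ := exists_tau hH
  rw [← hdet]
  have h1 := (pd_glap_iff hH hρ).1 hpd
  have h2 : ∀ a, ∃ r, a < n → r ∈ ρ ∧ Rel s t j H a r := by
    intro a
    by_cases ha : a < n
    · obtain ⟨r, hr, h⟩ := h1 a ha
      exact ⟨r, fun _ => ⟨hr, entm_rel_of_one ht h⟩⟩
    · exact ⟨0, fun h => absurd h ha⟩
  choose g hg using h2
  have hg' : ∀ a ∈ roots n s t j H, g a < n ∧ can s t j H (g a) = a := by
    intro a ha
    obtain ⟨h3, h4⟩ := hg a (mem_range.1 (entm_roots_subset ha))
    exact ⟨mem_range.1 (hρ h3), (can_eq_iff.2 h4).symm.trans (mem_filter.1 ha).2⟩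
  rw [← entm_det_rep hH ht _ g hg' rfl]
  have hsub : (roots n s t j H).image g ⊆ ρ := by
    intro x hx
    obtain ⟨a, ha, rfl⟩ := mem_image.1 hx
    exact (hg a (mem_range.1 (entm_roots_subset ha))).1
  have hpd' : PD (glap n s t H ((roots n s t j H).image g)) := by
    refine (pd_glap_iff hH (hsub.trans hρ)).2 fun v hv => ?_
    have h3 : can s t j H v ∈ roots n s t j H := entm_can_mem_roots hv
    refine ⟨_, mem_image_of_mem g h3, ?_⟩
    exact ((rel_can v).trans (hg _ (mem_range.1 (entm_roots_subset h3))).2).mono Subset.rfl hj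
  have := (entm_det_mono hpd' (ρ \ (roots n s t j H).image g) disjoint_sdiff).2
  rwa [union_sdiff_of_subset hsub] at this

open Classical in
/-- tidying after the deletion of edges removes few edges -/
theorem entm_removed_le (hH : WF s t n H) (ht : ∀ e ∈ H, Rel s t j H (s e) (t e)) {G : Finset ℕ}
    (hG : G ⊆ H) :
    ((G.filter fun f => ¬ Rel s t j G (s f) (t f)).card : ℝ) ≤
      j * ((((range n).image (can s t j G)).card : ℝ) - ((range n).image (can s t j H)).card) := by
  set B := (range n).image (can s t j H) with hB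
  set U : ℕ → Finset ℕ := fun a => (range n).filter fun v => can s t j H v = a with hU
  have h1 : (G.filter fun f => ¬ Rel s t j G (s f) (t f)) ⊆
      B.biUnion fun a => cr s t G (U a) (can s t j G) := by
    intro f hf
    obtain ⟨hfG, hf⟩ := mem_filter.1 hf
    have hw := hH f (hG hfG)
    refine mem_biUnion.2 ⟨can s t j H (s f), mem_image_of_mem _ (mem_range.2 hw.1), ?_⟩
    refine mem_filter.2 ⟨hfG, mem_filter.2 ⟨mem_range.2 hw.1, rfl⟩,
      mem_filter.2 ⟨mem_range.2 hw.2.1, (can_eq_iff.2 (ht f (hG hfG))).symm⟩, ?_⟩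
    exact fun h => hf (can_eq_iff.1 h)
  have h2 : ∀ a ∈ B, ((cr s t G (U a) (can s t j G)).card : ℝ) ≤
      j * ((((U a).image (can s t j G)).card : ℝ) - 1) := by
    intro a ha
    have h3 := card_cr_can_le (j := j) (hH.mono hG) (U := U a) (filter_subset _ _)
    obtain ⟨v, hv, rfl⟩ := mem_image.1 ha
    have h4 : 1 ≤ ((U (can s t j H v)).image (can s t j G)).card :=
      card_pos.2 ⟨_, mem_image_of_mem _ (mem_filter.2 ⟨hv, rfl⟩)⟩
    have h5 : ((cr s t G (U (can s t j H v)) (can s t j G)).card : ℝ) ≤
        ((j * (((U (can s t j H v)).image (can s t j G)).card - 1) : ℕ) : ℝ) := by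
      exact_mod_cast h3
    rwa [Nat.cast_mul, Nat.cast_sub h4, Nat.cast_one] at h5
  have h3 : ∑ a ∈ B, ((U a).image (can s t j G)).card ≤ ((range n).image (can s t j G)).card := by
    rw [← card_biUnion]
    · refine card_le_card fun x hx => ?_
      obtain ⟨a, _, hx⟩ := mem_biUnion.1 hx
      exact image_subset_image (filter_subset _ _) hx
    · have key : ∀ a, ∀ x ∈ (U a).image (can s t j G), can s t j H x = a := by
        intro a x hx
        obtain ⟨v, hv, rfl⟩ := mem_image.1 hx
        exact (can_eq_iff.2 ((rel_can v).mono hG le_rfl)).symm.trans (mem_filter.1 hv).2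
      intro a _ b _ hab
      refine disjoint_left.2 fun x hx hx' => hab ?_
      exact (key a x hx).symm.trans (key b x hx')
  have h4 : ((G.filter fun f => ¬ Rel s t j G (s f) (t f)).card : ℝ) ≤
      ∑ a ∈ B, ((cr s t G (U a) (can s t j G)).card : ℝ) := by
    exact_mod_cast (card_le_card h1).trans card_biUnion_le
  have h5 : ∑ a ∈ B, (((U a).image (can s t j G)).card : ℝ) ≤
      ((range n).image (can s t j G)).card := by
    exact_mod_cast h3
  refine h4.trans ((sum_le_sum h2).trans ?_)
  rw [← mul_sum, sum_sub_distrib, sum_const, nsmul_eq_mul, mul_one]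
  exact mul_le_mul_of_nonneg_left (sub_le_sub_right h5 _) (Nat.cast_nonneg _)

open Classical in
/-- Deleting an edge of large resistance and then the edges between the new classes raises the
potential.  With `ρ = roots j H`, `R = res e`: `glap (H.erase e) ρ` is positive definite (`PC.erase`,
`j ≥ 2`), so `tau (H.erase e) ≤ tau H · (1 - R)` (`PD.det_add` with `τ = -1`) and `A log (1 - R) ≤ - A R < -1`.  Let
`p`, `p'` be the numbers of classes of `H`, `H.erase e`.  All edges of `H` lie inside old classes, so by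
`card_cr_can_le` in each old class at most `j (p' - p)` edges are removed by tidying; `tau_mono`, `rel_tidy`. -/
theorem entP_step (hH : WF s t n H) (hj : 2 ≤ j) (ht : ∀ e ∈ H, Rel s t j H (s e) (t e)) (A : ℕ)
    {e : ℕ} (he : e ∈ H) (hR : 1 < A * res (glap n s t H (roots n s t j H)) (s e) (t e)) :
    entP n s t j A H <
      entP n s t j A ((H.erase e).filter fun f => Rel s t j (H.erase e) (s f) (t f)) := by
  have hj1 : 1 ≤ j := by omega
  have hG : H.erase e ⊆ H := erase_subset _ _
  have hGw := hH.mono hG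
  set R := res (glap n s t H (roots n s t j H)) (s e) (t e) with hRdef
  set G := H.erase e with hGdef
  set G' := G.filter fun f => Rel s t j G (s f) (t f) with hG'
  have hpd : PD (glap n s t G (roots n s t j H)) := by
    refine (pd_glap_iff hGw entm_roots_subset).2 fun v hv => ⟨_, entm_can_mem_roots hv, ?_⟩
    obtain ⟨U, h1, h2, hU⟩ := rel_can (s := s) (t := t) (j := j) (F := H) v
    exact ⟨U, h1, h2, PC.erase (hU.mono Subset.rfl hj) e⟩
  have hsplit : glap n s t G (roots n s t j H) =
      glap n s t H (roots n s t j H) + (-1 : ℝ) • op (bv n (s e) (t e)) := by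
    unfold glap lap
    rw [← add_sum_erase H _ he, neg_one_smul]
    abel
  have h1 : tau n s t G' ≤ tau n s t H * (1 - R) := by
    refine (tau_mono hGw (filter_subset _ _)).trans ((tau_le entm_roots_subset hpd).trans ?_)
    rw [hsplit, (pd_roots hH hj1).det_add, ← tau_eq_roots hH hj1 ht]
    apply le_of_eq
    rw [hRdef, res]
    ring
  have h2 : 0 < tau n s t G' := tau_pos (hGw.mono (filter_subset _ _))
  have h3 : 0 < tau n s t H := tau_pos hH
  have h4 : 0 < 1 - R := by
    by_contra h
    have := mul_nonpos_of_nonneg_of_nonpos h3.le (not_lt.1 h)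
    linarith
  have h5 : Real.log (tau n s t G') ≤ Real.log (tau n s t H) - R := by
    have := Real.log_le_log h2 h1
    rw [Real.log_mul h3.ne' h4.ne'] at this
    have := Real.log_le_sub_one_of_pos h4
    linarith
  have h6 : can s t j G' = can s t j G := by
    funext u
    unfold can
    congr 1
    ext v
    exact rel_tidy
  have h7 := entm_removed_le hH ht hG
  have h8 : (G'.card : ℝ) + (G.filter fun f => ¬ Rel s t j G (s f) (t f)).card + 1 = H.card := by
    have := card_filter_add_card_filter_not (s := G) fun f => Rel s t j G (s f) (t f)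
    have h9 := card_erase_add_one he
    rw [← hGdef, ← this] at h9
    exact_mod_cast h9
  have h9 : (A : ℝ) * Real.log (tau n s t G') ≤ A * (Real.log (tau n s t H) - R) :=
    mul_le_mul_of_nonneg_left h5 (Nat.cast_nonneg _)
  unfold entP
  rw [h6]
  nlinarith

/-- a vertex without edges is alone in its class -/
theorem entm_rel_eq (hj : 1 ≤ j) {u v : ℕ} (hu : ∀ e ∈ H, s e ≠ u ∧ t e ≠ u)
    (h : Rel s t j H u v) : v = u := by
  obtain ⟨U, h1, h2, hU⟩ := h
  exact hU.conn hj (fun x => x = u) (fun e he _ _ => by simp [hu e he]) h1 h2 rfl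

theorem entP_empty (hj : 1 ≤ j) (A : ℕ) : entP n s t j A ∅ = 0 := by
  have h : can s t j ∅ = id := by
    funext u
    exact entm_rel_eq hj (by simp) (rel_can u)
  unfold entP
  rw [h, tau_empty]
  simp

theorem entm_sum_ev (w : ℕ → ℝ) {u : ℕ} (hu : u < n) :
    ∑ i : Fin n, ev n u i * ev n u i / w i = 1 / w u := by
  rw [Finset.sum_eq_single (⟨u, hu⟩ : Fin n)]
  · simp [ev]
  · intro b _ hb
    have : (b : ℕ) ≠ u := fun h => hb (Fin.ext h)
    simp [ev, this]
  · simp

theorem entm_sum_bv (w : ℕ → ℝ) {u v : ℕ} (hu : u < n) (hv : v < n) (h : u ≠ v) :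
    ∑ i : Fin n, bv n u v i * bv n u v i / w i = 1 / w u + 1 / w v := by
  rw [← entm_sum_ev w hu, ← entm_sum_ev w hv, ← sum_add_distrib]
  refine sum_congr rfl fun i _ => ?_
  rw [← add_div]
  congr 1
  simp only [bv, ev, Pi.sub_apply]
  split_ifs with h1 h2
  · exact absurd (h1.symm.trans h2) h
  all_goals norm_num

theorem entm_sum_diag (hH : WF s t n H) {ρ : Finset ℕ} (hρ : ρ ⊆ range n) (w : ℕ → ℝ) :
    ∑ i : Fin n, glap n s t H ρ i i / w i =
      ∑ e ∈ H, (1 / w (s e) + 1 / w (t e)) + ∑ r ∈ ρ, 1 / w r := by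
  have h1 : ∀ i : Fin n, glap n s t H ρ i i / w i =
      ∑ e ∈ H, bv n (s e) (t e) i * bv n (s e) (t e) i / w i +
        ∑ r ∈ ρ, ev n r i * ev n r i / w i := by
    intro i
    simp only [glap, lap, op, Matrix.add_apply, Matrix.sum_apply, vecMulVec_apply, add_div, sum_div]
  rw [sum_congr rfl fun i _ => h1 i, sum_add_distrib, sum_comm, sum_comm (t := ρ)]
  congr 1
  · exact sum_congr rfl fun e he => entm_sum_bv w (hH e he).1 (hH e he).2.1 (hH e he).2.2
  · exact sum_congr rfl fun r hr => entm_sum_ev w (mem_range.1 (hρ hr))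

theorem entm_log_tau_le (hH : WF s t n H) {W : Finset ℕ} (hW : W ⊆ range n) {w₀ : ℕ} (hw₀ : w₀ ∈ W)
    (hHW : ∀ e ∈ H, s e ∈ W ∧ t e ∈ W) (hPC : PC s t 1 H W) {a : ℝ} (ha : 0 < a) :
    Real.log (tau n s t H) ≤ (2 * H.card + 1) / a - W.card + W.card * Real.log a := by
  set ρ := insert w₀ (range n \ W) with hρ
  have hρn : ρ ⊆ range n := insert_subset (hW hw₀) sdiff_subset
  have hpd : PD (glap n s t H ρ) := by
    refine (pd_glap_iff hH hρn).2 fun v hv => ?_
    by_cases hvW : v ∈ W
    · exact ⟨w₀, mem_insert_self _ _, hPC.rel hvW hw₀⟩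
    · exact ⟨v, mem_insert_of_mem (mem_sdiff.2 ⟨mem_range.2 hv, hvW⟩), Rel.refl v⟩
  set w : ℕ → ℝ := fun v => if v ∈ W then a else 1 with hw
  have h1 := hpd.log_det_le (fun i => w i) fun i => by
    simp only [hw]
    split_ifs
    · exact ha
    · exact one_pos
  refine (Real.log_le_log (tau_pos hH) (tau_le hρn hpd)).trans (h1.trans (le_of_eq ?_))
  rw [sum_add_distrib, sum_sub_distrib, entm_sum_diag hH hρn w,
    Fin.sum_univ_eq_sum_range (fun i => Real.log (w i)) n]
  have e1 : ∑ e ∈ H, (1 / w (s e) + 1 / w (t e)) = H.card * (2 / a) := by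
    rw [← nsmul_eq_mul, ← sum_const]
    refine sum_congr rfl fun e he => ?_
    simp only [hw, if_pos (hHW e he).1, if_pos (hHW e he).2]
    ring
  have e2 : ∑ r ∈ ρ, 1 / w r = 1 / a + ((n : ℝ) - W.card) := by
    rw [hρ, sum_insert (by simp [hw₀])]
    congr 1
    · simp only [hw, if_pos hw₀]
    · rw [sum_congr rfl (g := fun _ => (1 : ℝ)) fun r hr => by
        simp only [hw, if_neg (mem_sdiff.1 hr).2, div_one]]
      rw [sum_const, nsmul_eq_mul, mul_one, card_sdiff_of_subset hW, Nat.cast_sub (card_le_card hW),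
        card_range]
  have e3 : ∑ i ∈ range n, Real.log (w i) = W.card * Real.log a := by
    rw [← sum_subset hW (fun x _ hx => by simp only [hw, if_neg hx, Real.log_one]),
      ← nsmul_eq_mul, ← sum_const]
    exact sum_congr rfl fun x hx => by simp only [hw, if_pos hx]
  rw [e1, e2, e3]
  simp only [sum_const, card_univ, Fintype.card_fin, nsmul_eq_mul, mul_one]
  ring

/-- Let `n' = |W| ≥ 2`, `d = |H| / (n' - 1) ≥ k`.  All of `W` is one class, the other vertices are singletons, so
the last term is `j (n' - 1)`.  Ground at one vertex of `W` and at all vertices outside `W`; `PD.log_det_le`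
with `a = 2 d + 1` on `W`, `a = 1` outside gives `log tau ≤ n' log (2 d + 1) ≤ 2 (n' - 1) log (2 d + 1)`.  Finally
`log (2 d + 1) ≤ log (2 k + 1) + (d - k) / k`. -/
theorem entP_init (hH : WF s t n H) (hj : 1 ≤ j) (A : ℕ) {W : Finset ℕ} (hW : W ⊆ range n)
    (h2 : 2 ≤ W.card) (hHW : ∀ e ∈ H, s e ∈ W ∧ t e ∈ W) (hPC : PC s t k H W) (hA : 2 * A ≤ k)
    (hk : (j : ℝ) + 2 * A * Real.log (2 * k + 1) < k) : 0 < entP n s t j A H := by
  have hk0 : (0 : ℝ) ≤ k := Nat.cast_nonneg _
  have hA0 : (0 : ℝ) ≤ A := Nat.cast_nonneg _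
  have hj' : (1 : ℝ) ≤ j := by exact_mod_cast hj
  have hL0 : 0 ≤ Real.log (2 * k + 1) := Real.log_nonneg (by linarith)
  have hk1 : (1 : ℝ) < k := by nlinarith [mul_nonneg hA0 hL0]
  have hk1' : 1 ≤ k := by exact_mod_cast hk1.le
  obtain ⟨w₀, hw₀⟩ : W.Nonempty := card_pos.1 (by omega)
  have hout : ∀ u, u ∉ W → ∀ v, Rel s t j H u v → v = u := fun u hu v h =>
    entm_rel_eq hj (fun e he =>
      ⟨fun h => hu (h ▸ (hHW e he).1), fun h => hu (h ▸ (hHW e he).2)⟩) h
  -- the number of classes
  have hp : (n : ℝ) - W.card + 1 ≤ ((range n).image (can s t j H)).card := by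
    have h1 : can s t j H w₀ ∈ W := by
      by_contra h
      exact h (hout _ h _ (rel_can w₀).symm ▸ hw₀)
    have h3 : insert (can s t j H w₀) (range n \ W) ⊆ (range n).image (can s t j H) := by
      refine insert_subset (mem_image_of_mem _ (hW hw₀)) fun v hv => ?_
      exact mem_image.2 ⟨v, (mem_sdiff.1 hv).1, hout v (mem_sdiff.1 hv).2 _ (rel_can v)⟩
    have h4 := card_le_card h3
    rw [card_insert_of_notMem (by simp [h1]), card_sdiff_of_subset hW, card_range] at h4
    have h5 : W.card ≤ n := by simpa using card_le_card hW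
    have h6 : ((n - W.card + 1 : ℕ) : ℝ) ≤ ((range n).image (can s t j H)).card := by
      exact_mod_cast h4
    rwa [Nat.cast_add, Nat.cast_sub h5, Nat.cast_one] at h6
  set q : ℝ := W.card - 1 with hq
  have hq1 : 1 ≤ q := by
    have : (2 : ℝ) ≤ W.card := by exact_mod_cast h2
    linarith
  have hm : k * q ≤ H.card := by
    have h1 := (hPC id).trans (card_le_card (cr_subset id))
    rw [image_id] at h1
    have h3 : ((k * (W.card - 1) : ℕ) : ℝ) ≤ H.card := by exact_mod_cast h1
    rwa [Nat.cast_mul, Nat.cast_sub (by omega), Nat.cast_one] at h3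
  set d : ℝ := H.card / q with hd
  have hmd : (H.card : ℝ) = d * q := by
    rw [hd, div_mul_cancel₀ _ (by linarith)]
  have hdk : (k : ℝ) ≤ d := by
    rw [hd, le_div_iff₀ (by linarith)]
    exact hm
  have h1 := entm_log_tau_le hH hW hw₀ hHW (hPC.mono Subset.rfl hk1') (a := 2 * d + 1) (by linarith)
  have hWq : (W.card : ℝ) = q + 1 := by rw [hq]; ring
  have h3 : (2 * (H.card : ℝ) + 1) / (2 * d + 1) ≤ W.card := by
    rw [div_le_iff₀ (by linarith), hmd, hWq]
    nlinarith
  have hL : 0 ≤ Real.log (2 * d + 1) := Real.log_nonneg (by linarith)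
  have h4 : Real.log (tau n s t H) ≤ 2 * q * Real.log (2 * d + 1) := by
    rw [hWq] at h1 h3
    nlinarith
  have h5 : Real.log (2 * d + 1) ≤ Real.log (2 * k + 1) + (d - k) / k := by
    have h6 := Real.log_le_sub_one_of_pos (x := (2 * d + 1) / (2 * k + 1))
      (div_pos (by linarith) (by linarith))
    rw [Real.log_div (by linarith) (by linarith)] at h6
    have h7 : (2 * d + 1) / (2 * k + 1) - 1 ≤ (d - k) / k := by
      rw [div_sub_one (by linarith), div_le_div_iff₀ (by linarith) (by linarith)]
      nlinarith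
    linarith
  have h6 : 2 * (A : ℝ) * ((d - k) / k) ≤ d - k := by
    have h7 : 2 * (A : ℝ) ≤ k := by exact_mod_cast hA
    rw [← mul_div_assoc, div_le_iff₀ (by linarith)]
    nlinarith
  have h7 : (A : ℝ) * Real.log (tau n s t H) ≤ q * (2 * A * Real.log (2 * k + 1) + (d - k)) := by
    calc (A : ℝ) * Real.log (tau n s t H) ≤ A * (2 * q * (Real.log (2 * k + 1) + (d - k) / k)) :=
          mul_le_mul_of_nonneg_left
            (h4.trans (mul_le_mul_of_nonneg_left h5 (by linarith))) hA0
      _ = q * (2 * A * Real.log (2 * k + 1) + 2 * A * ((d - k) / k)) := by ring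
      _ ≤ _ := mul_le_mul_of_nonneg_left (by linarith) (by linarith)
  have h8 : (j : ℝ) * (n - ((range n).image (can s t j H)).card) ≤ j * q :=
    mul_le_mul_of_nonneg_left (by linarith) (by linarith)
  have h9 : 0 < q * (k - j - 2 * A * Real.log (2 * k + 1)) := mul_pos (by linarith) (by linarith)
  unfold entP
  rw [hmd]
  nlinarith

/-- the indicators of the groups of a labelling of a closed set `U` -/
theorem entm_sum_qL {U : Finset ℕ} (hF : ∀ e ∈ F, s e ∈ U ↔ t e ∈ U) (β : ℕ → ℕ) :
    ∑ b ∈ U.image β, qL s t F (fun v => if v ∈ U ∧ β v = b then 1 else 0) =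
      2 * (cr s t F U β).card := by
  unfold qL cr
  rw [sum_comm, card_filter]
  push_cast
  rw [mul_sum]
  refine sum_congr rfl fun e he => ?_
  by_cases h1 : s e ∈ U
  · have h2 := (hF e he).1 h1
    by_cases h3 : β (s e) = β (t e)
    · simp [h1, h2, h3]
    · have : ∀ b, ((if s e ∈ U ∧ β (s e) = b then (1 : ℝ) else 0) -
          (if t e ∈ U ∧ β (t e) = b then 1 else 0)) ^ 2 =
          (if β (s e) = b then 1 else 0) + if β (t e) = b then 1 else 0 := by
        intro b
        simp only [h1, h2, true_and]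
        split_ifs with h4 h5
        · exact absurd (h4.trans h5.symm) h3
        all_goals norm_num
      rw [sum_congr rfl fun b _ => this b, sum_add_distrib, sum_ite_eq, sum_ite_eq,
        if_pos (mem_image_of_mem _ h1), if_pos (mem_image_of_mem _ h2), if_pos ⟨h1, h2, h3⟩]
      norm_num
  · have h2 : t e ∉ U := fun h => h1 ((hF e he).2 h)
    simp [h1, h2]

/-- A spectral bound on the deleted edges keeps the classes connected.  For a labelling `β` of a class `U`
with `q ≥ 2` labels apply `hx` to the indicator of each `U ∩ β⁻¹ a` and add up (`qL_indicator`, `sum_cut_eq`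
or a direct count; all edges of `H` with an end in `U` lie inside `U`, and `U` has one root):
`2 |cr (H \ H') U β| ≤ (1/2 + ε) (2 |cr H U β| + 1)`. -/
theorem pc_of_spectral (hH : WF s t n H) (hj : 1 ≤ j) (ht : ∀ e ∈ H, Rel s t j H (s e) (t e))
    {H' : Finset ℕ} (hH' : H' ⊆ H) {ε : ℝ} (hε : 0 ≤ ε) (hε' : ε ≤ 1 / 2)
    (hx : ∀ x : ℕ → ℝ, qL s t (H \ H') x ≤
      (1 / 2 + ε) * (qL s t H x + ∑ r ∈ roots n s t j H, x r ^ 2))
    {j' : ℕ} (hj' : (j' : ℝ) + 1 / 2 ≤ (1 / 2 - ε) * j) (a : ℕ) :
    PC s t j' H' ((range n).filter fun v => can s t j H v = a) := by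
  intro β
  have hPC := pc_class (j := j) hH a β
  set U := (range n).filter fun v => can s t j H v = a with hU
  by_cases hq : (U.image β).card ≤ 1
  · rw [Nat.sub_eq_zero_of_le hq]
    simp
  have hq1 : 1 ≤ (U.image β).card := by omega
  have hcl : ∀ e ∈ H, s e ∈ U ↔ t e ∈ U := by
    intro e he
    have := can_eq_iff.2 (ht e he)
    simp only [hU, mem_filter, mem_range, (hH e he).1, (hH e he).2.1, true_and, this]
  have h1 := entm_sum_qL hcl β
  have h2 := entm_sum_qL (F := H \ H') (fun e he => hcl e (mem_sdiff.1 he).1) β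
  have h3 : ∑ b ∈ U.image β, ∑ r ∈ roots n s t j H,
      (if r ∈ U ∧ β r = b then (1 : ℝ) else 0) ^ 2 ≤ 1 := by
    rw [sum_comm]
    calc _ ≤ ∑ r ∈ roots n s t j H, (if a = r then (1 : ℝ) else 0) := by
          refine sum_le_sum fun r hr => ?_
          by_cases hrU : r ∈ U
          · have : a = r := (mem_filter.1 hrU).2.symm.trans (mem_filter.1 hr).2
            rw [if_pos this]
            simp [hrU, mem_image_of_mem β hrU]
          · simp only [hrU, false_and, if_false]
            split_ifs <;> simp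
      _ ≤ 1 := by
          rw [sum_ite_eq]
          split_ifs <;> norm_num
  have h4 := sum_le_sum fun b (_ : b ∈ U.image β) =>
    hx fun v => if v ∈ U ∧ β v = b then 1 else 0
  rw [← mul_sum, sum_add_distrib, h1, h2] at h4
  have h5 : ((cr s t H U β).card : ℝ) ≤ (cr s t H' U β).card + (cr s t (H \ H') U β).card := by
    have : cr s t H U β ⊆ cr s t H' U β ∪ cr s t (H \ H') U β := by
      unfold cr
      rw [← filter_union, union_sdiff_of_subset hH']
    exact_mod_cast (card_le_card this).trans (card_union_le _ _)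
  have h6 : (j : ℝ) * (((U.image β).card : ℝ) - 1) ≤ (cr s t H U β).card := by
    have : ((j * ((U.image β).card - 1) : ℕ) : ℝ) ≤ (cr s t H U β).card := by exact_mod_cast hPC
    rwa [Nat.cast_mul, Nat.cast_sub hq1, Nat.cast_one] at this
  have h7 : (1 : ℝ) ≤ ((U.image β).card : ℝ) - 1 := by
    have : (2 : ℝ) ≤ (U.image β).card := by exact_mod_cast not_le.1 hq
    linarith
  have h8 : ((j' * ((U.image β).card - 1) : ℕ) : ℝ) ≤ (cr s t H' U β).card := by
    rw [Nat.cast_mul, Nat.cast_sub hq1, Nat.cast_one]
    have h9 := mul_le_mul_of_nonneg_left h6 (sub_nonneg.2 hε')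
    have h10 := mul_le_mul_of_nonneg_right hj' (zero_le_one.trans h7)
    have h11 := mul_le_mul_of_nonneg_left h3 (show 0 ≤ 1 / 2 + ε by linarith)
    nlinarith
  exact_mod_cast h8

end Crest.Agent.R37
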