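import Crest.Agent.R37.Main

/-!
# R37/Exist: the existence statement from the algorithm
-/

set_option autoImplicit false
open Finset

namespace Crest.Agent.R37

open Crest.CombinatoricsR.Multigraph

/-- Transport along `V ≃ Fin n`; `mult i j` is the number of edges with ends `{i, j}`; choose one edge for each pair of
the tree given by `algorithm`. -/
theorem existence :
    ∃ C : ℝ, 0 < C ∧ ∀ k : ℕ, 1 ≤ k →
      ∀ (V E : Type) [Fintype V] [DecidableEq V] [Fintype E] (src tgt : E → V),
        (∀ e, src e ≠ tgt e) → 2 ≤ Fintype.card V →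
        (∀ S : Finset V, S.Nonempty → S ≠ Finset.univ → k ≤ (cutEdges src tgt Finset.univ S).card) →
        ∃ T : Finset E, T.card + 1 = Fintype.card V ∧ (adjGraph src tgt T).Connected ∧
          ∀ S : Finset V, S.Nonempty → S ≠ Finset.univ →
            ((cutEdges src tgt T S).card : ℝ) ≤ C / k * (cutEdges src tgt Finset.univ S).card := by
  classical
  obtain ⟨C, hC, f, -, hf⟩ := algorithm
  refine ⟨C, hC, fun k hk V E _ _ _ src tgt hloop hV hcut => ?_⟩
  set n := Fintype.card V with hn
  let φ : V ≃ Fin n := Fintype.equivFin V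
  let J : Fin n → Fin n → Finset E := fun i j => univ.filter fun e =>
    (φ (src e) = i ∧ φ (tgt e) = j) ∨ (φ (src e) = j ∧ φ (tgt e) = i)
  have hsum : ∀ S : Finset V, ∑ i ∈ S.map φ.toEmbedding, ∑ j ∈ (S.map φ.toEmbedding)ᶜ, (J i j).card =
      (cutEdges src tgt univ S).card := by
    intro S
    rw [← sum_product', card_eq_sum_card_fiberwise (s := cutEdges src tgt univ S)
      (t := S.map φ.toEmbedding ×ˢ (S.map φ.toEmbedding)ᶜ)
      (f := fun e => if src e ∈ S then (φ (src e), φ (tgt e)) else (φ (tgt e), φ (src e)))]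
    · refine sum_congr rfl fun p hp => congrArg card ?_
      obtain ⟨h1, h2⟩ := mem_product.1 hp
      rw [mem_compl] at h2
      rw [mem_map_equiv] at h1 h2
      ext e
      simp only [J, cutEdges, mem_filter, mem_univ, true_and]
      constructor
      · rintro (⟨a, b⟩ | ⟨a, b⟩)
        · rw [← a, Equiv.symm_apply_apply] at h1
          rw [← b, Equiv.symm_apply_apply] at h2
          exact ⟨Or.inl ⟨h1, h2⟩, by rw [if_pos h1, a, b]⟩
        · rw [← b, Equiv.symm_apply_apply] at h1
          rw [← a, Equiv.symm_apply_apply] at h2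
          exact ⟨Or.inr ⟨h2, h1⟩, by rw [if_neg h2, a, b]⟩
      · rintro ⟨-, h⟩
        split_ifs at h
        · exact Or.inl (Prod.ext_iff.1 h)
        · exact Or.inr (Prod.ext_iff.1 h).symm
    · intro e he
      simp only [cutEdges, coe_filter, mem_univ, true_and, Set.mem_setOf_eq] at he
      rcases he with ⟨a, b⟩ | ⟨a, b⟩ <;> simp [a, b]
  have hmap : ∀ S : Finset V, S.Nonempty → S ≠ univ →
      (S.map φ.toEmbedding).Nonempty ∧ S.map φ.toEmbedding ≠ univ := fun S h1 h2 =>
    ⟨h1.map, fun h => h2 (map_injective φ.toEmbedding (h.trans (map_univ_equiv φ).symm))⟩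
  obtain ⟨h1, h2, h3, h4⟩ := hf n k (fun i j => (J i j).card) (by omega) hk
    (fun i j => congrArg card (filter_congr fun e _ => or_comm))
    (fun i => card_eq_zero.2 (filter_eq_empty_iff.2 fun e _ h => hloop e (φ.injective (by
      rcases h with ⟨a, b⟩ | ⟨a, b⟩ <;> rw [a, b]))))
    (fun S hS hS' => by
      have e : S = (S.map φ.symm.toEmbedding).map φ.toEmbedding := by
        ext x; simp [mem_map_equiv]
      rw [e, hsum]
      refine hcut _ hS.map fun h => hS' ?_
      rw [e, h, map_univ_equiv]) _ rfl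
  generalize decodePairs n _ = T at h1 h2 h3 h4
  have hch : ∀ p : T, ∃ e, e ∈ J p.1.1 p.1.2 := fun p => card_pos.1 (h1 p p.2).2
  choose g hg using hch
  have hg' : ∀ p : T, (φ (src (g p)) = p.1.1 ∧ φ (tgt (g p)) = p.1.2) ∨
      (φ (src (g p)) = p.1.2 ∧ φ (tgt (g p)) = p.1.1) := fun p => (mem_filter.1 (hg p)).2
  have hinj : Function.Injective g := by
    intro p q h
    have a := hg' p
    have b := hg' q
    have c := (h1 p p.2).1
    have d := (h1 q q.2).1
    rw [h] at a
    refine Subtype.ext (Prod.ext ?_ ?_) <;> rcases a with ⟨a, a'⟩ | ⟨a, a'⟩ <;>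
      rcases b with ⟨b, b'⟩ | ⟨b, b'⟩ <;> omega
  refine ⟨univ.image g, by rw [card_image_of_injective _ hinj, card_univ, Fintype.card_coe, h2],
    ?_, fun S hS hS' => ?_⟩
  · refine h3.map (f := ⟨φ.symm, ?_⟩) φ.symm.surjective
    rintro u v ⟨huv, p, hp, h⟩
    refine ⟨fun e => huv (φ.symm.injective e), g ⟨p, hp⟩, mem_image_of_mem _ (mem_univ _), ?_⟩
    simp only [Equiv.eq_symm_apply]
    rcases hg' ⟨p, hp⟩ with ⟨a, b⟩ | ⟨a, b⟩ <;> rcases h with ⟨c, d⟩ | ⟨c, d⟩ <;>
      simp only at a b c d <;> simp [a, b, c, d]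
  · have := h4 _ (hmap S hS hS').1 (hmap S hS hS').2
    rw [hsum] at this
    refine le_trans ?_ this
    have hle : (cutEdges src tgt (univ.image g) S).card ≤
        (cutEdges Prod.fst Prod.snd T (S.map φ.toEmbedding)).card := by
      refine (card_le_card (t := (univ.filter fun p : T =>
        p.1 ∈ cutEdges Prod.fst Prod.snd T (S.map φ.toEmbedding)).image g) fun e he => ?_).trans
        (card_image_le.trans (card_le_card_of_injOn Subtype.val
          (fun p hp => (mem_filter.1 hp).2) Subtype.val_injective.injOn))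
      obtain ⟨he1, he2⟩ := mem_filter.1 he
      obtain ⟨p, -, rfl⟩ := mem_image.1 he1
      refine mem_image_of_mem _ (mem_filter.2 ⟨mem_univ _, mem_filter.2 ⟨p.2, ?_⟩⟩)
      rcases hg' p with ⟨a, b⟩ | ⟨a, b⟩ <;> rw [← a, ← b] <;>
        simp only [mem_map_equiv, Equiv.symm_apply_apply] <;> tauto
    exact_mod_cast hle

end Crest.Agent.R37
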