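import Crest.Agent.R37.Comb

/-!
# R37/Foster: rungs touch many clusters; summing the savings over the scales
-/

set_option autoImplicit false
open Finset

namespace Crest.Agent.R37

variable {s t : ℕ → ℕ} {n j : ℕ} {F : Finset ℕ}

theorem foster_aux {ι : Type} [Fintype ι] (𝒲 : Submodule ℝ (EuclideanSpace ℝ ι)) :
    ∃ a : ι → ℝ, (∀ e, 0 ≤ a e) ∧ ∑ e, a e = Module.finrank ℝ 𝒲 ∧
      ∀ y ∈ 𝒲, ∀ e, y e ^ 2 ≤ a e * ∑ f, y f ^ 2 := by
  let b := stdOrthonormalBasis ℝ 𝒲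
  refine ⟨fun e => ∑ i, (b i : EuclideanSpace ℝ ι) e ^ 2, fun e => sum_nonneg fun _ _ => sq_nonneg _,
    ?_, fun y hy e => ?_⟩
  · rw [sum_comm]
    have : ∀ i, ∑ e, (b i : EuclideanSpace ℝ ι) e ^ 2 = 1 := fun i => by
      rw [← EuclideanSpace.real_norm_sq_eq, ← Submodule.coe_norm, b.orthonormal.1 i, one_pow]
    simp [this]
  · have h1 : y e = ∑ i, (b i : EuclideanSpace ℝ ι) e * b.repr ⟨y, hy⟩ i := by
      have := congrArg (fun z : 𝒲 => (z : EuclideanSpace ℝ ι) e) (b.sum_repr ⟨y, hy⟩)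
      simp only [Submodule.coe_sum, Submodule.coe_smul, WithLp.ofLp_sum, WithLp.ofLp_smul,
        Finset.sum_apply, Pi.smul_apply, smul_eq_mul] at this
      rw [← this]
      exact sum_congr rfl fun _ _ => mul_comm _ _
    have h2 : ∑ i, b.repr ⟨y, hy⟩ i ^ 2 = ∑ f, y f ^ 2 := by
      rw [← EuclideanSpace.real_norm_sq_eq, ← EuclideanSpace.real_norm_sq_eq, b.repr.norm_map]
      rfl
    rw [h1, ← h2]
    exact sum_mul_sq_le_sq_mul_sq _ _ _

/-- Choose a representative end `rep b ∈ W` for every label `b` of an end of a rung, and put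
`y e = X (rep (lab (s e))) - X (rep (lab (t e)))` in `EuclideanSpace ℝ F`.  Then `|y e e| ≥ √ω / 2`
(each end moves by at most `√(ω/16)` in the coordinate `e`), `‖y e‖² ≤ σ + ω / 8`, and all `y e` lie in the
span `𝒲` of the `q` vectors `X (rep b)`.  With an orthonormal basis `b` of `𝒲`:
`|R| √ω / 2 ≤ ∑_e |y e e| = ∑_e |∑_b ⟪b, y e⟫ b e| ≤ √(∑_e ‖y e‖²) √(∑_b ∑_e (b e)²) ≤ √(|R| (σ + ω/8)) √q`. -/
theorem foster {β : Type} [DecidableEq β] (R W : Finset ℕ) (hR : R ⊆ F) (X : ℕ → ℕ → ℝ)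
    (d : ℕ → ℕ → ℝ) (hd : IsPM d)
    (hX : ∀ u ∈ W, ∀ v ∈ W, ∑ f ∈ F, (X u f - X v f) ^ 2 ≤ d u v) (lab : ℕ → β) (ω σ : ℝ)
    (hω : 0 < ω) (hlab : ∀ u ∈ W, ∀ v ∈ W, lab u = lab v → d u v ≤ ω / 16)
    (hRW : ∀ e ∈ R, s e ∈ W ∧ t e ∈ W ∧ ω ≤ (X (s e) e - X (t e) e) ^ 2 ∧ d (s e) (t e) ≤ σ) :
    ω * R.card ≤ 4 * (σ + ω / 8) * ((R.image s ∪ R.image t).image lab).card := by
  classical
  set ends := R.image s ∪ R.image t with hends
  have hW : ∀ v ∈ ends, v ∈ W := by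
    intro v hv
    rcases mem_union.1 hv with hv | hv <;> obtain ⟨e, he, rfl⟩ := mem_image.1 hv
    · exact (hRW e he).1
    · exact (hRW e he).2.1
  have hrep : ∀ v ∈ ends, ∃ u ∈ ends, lab u = lab v := fun v hv => ⟨v, hv, rfl⟩
  obtain ⟨rep, hrep⟩ : ∃ rep : β → ℕ, ∀ v ∈ ends, rep (lab v) ∈ ends ∧ lab (rep (lab v)) = lab v := by
    have : ∀ b : β, ∃ u : ℕ, b ∈ ends.image lab → u ∈ ends ∧ lab u = b := fun b => by
      by_cases hb : b ∈ ends.image lab
      · obtain ⟨u, hu, e⟩ := mem_image.1 hb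
        exact ⟨u, fun _ => ⟨hu, e⟩⟩
      · exact ⟨0, fun h => absurd h hb⟩
    choose rep h using this
    exact ⟨rep, fun v hv => h _ (mem_image_of_mem _ hv)⟩
  let vec : ℕ → EuclideanSpace ℝ F := fun u => WithLp.toLp 2 fun f : F => X u f
  set G : Finset (EuclideanSpace ℝ F) := (ends.image lab).image fun b => vec (rep b) with hG
  obtain ⟨a, ha0, ha1, ha2⟩ := foster_aux (Submodule.span ℝ (G : Set (EuclideanSpace ℝ F)))
  have hrank : ∑ e, a e ≤ (ends.image lab).card := by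
    rw [ha1]
    exact_mod_cast (finrank_span_finset_le_card G).trans card_image_le
  have hmove : ∀ v ∈ ends, ∀ e ∈ F, d v (rep (lab v)) ≤ ω / 16 ∧
      (X v e - X (rep (lab v)) e) ^ 2 ≤ ω / 16 := by
    intro v hv e he
    have h1 := hlab v (hW v hv) _ (hW _ (hrep v hv).1) (hrep v hv).2.symm
    refine ⟨h1, le_trans ?_ ((hX v (hW v hv) _ (hW _ (hrep v hv).1)).trans h1)⟩
    exact single_le_sum (f := fun f => (X v f - X (rep (lab v)) f) ^ 2) (fun _ _ => sq_nonneg _) he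
  have key : ∀ e (he : e ∈ R), ω ≤ 4 * (σ + ω / 8) * a ⟨e, hR he⟩ := by
    intro e he
    obtain ⟨-, -, h3, h4⟩ := hRW e he
    have hs : s e ∈ ends := mem_union_left _ (mem_image_of_mem _ he)
    have ht : t e ∈ ends := mem_union_right _ (mem_image_of_mem _ he)
    have hmem : ∀ v ∈ ends, vec (rep (lab v)) ∈ Submodule.span ℝ (G : Set (EuclideanSpace ℝ F)) :=
      fun v hv => Submodule.subset_span (mem_coe.2 (mem_image_of_mem _ (mem_image_of_mem _ hv)))
    have h5 := ha2 _ (Submodule.sub_mem _ (hmem _ hs) (hmem _ ht)) ⟨e, hR he⟩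
    have h6 : ∑ f : F, (vec (rep (lab (s e))) - vec (rep (lab (t e)))) f ^ 2 ≤ σ + ω / 8 := by
      have := hX _ (hW _ (hrep _ hs).1) _ (hW _ (hrep _ ht).1)
      rw [← sum_coe_sort F] at this
      refine this.trans ?_
      have t1 := hd.2.2 (rep (lab (s e))) (s e) (rep (lab (t e)))
      have t2 := hd.2.2 (s e) (t e) (rep (lab (t e)))
      rw [hd.2.1 (rep (lab (s e))) (s e)] at t1
      linarith [(hmove _ hs e (hR he)).1, (hmove _ ht e (hR he)).1]
    have h7 : (vec (rep (lab (s e))) - vec (rep (lab (t e)))) ⟨e, hR he⟩ =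
      X (rep (lab (s e))) e - X (rep (lab (t e))) e := rfl
    rw [h7] at h5
    have h8 := h5.trans (mul_le_mul_of_nonneg_left h6 (ha0 _))
    have m1 := (hmove _ hs e (hR he)).2
    have m2 := (hmove _ ht e (hR he)).2
    generalize X (rep (lab (s e))) e = p at *
    generalize X (rep (lab (t e))) e = q at *
    generalize X (s e) e = p' at *
    generalize X (t e) e = q' at *
    nlinarith [sq_nonneg ((p - q) - 2 * (p' - p)), sq_nonneg ((p - q) + 2 * (q' - q)),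
      sq_nonneg ((p' - p) + (q' - q))]
  rcases R.eq_empty_or_nonempty with rfl | ⟨e₀, he₀⟩
  · simp [hends]
  have hσ : 0 ≤ 4 * (σ + ω / 8) := by
    have := (hd.nonneg _ _).trans (hRW e₀ he₀).2.2.2
    positivity
  calc ω * R.card = ∑ _e ∈ R.attach, ω := by simp [mul_comm]
    _ ≤ ∑ e ∈ R.attach, 4 * (σ + ω / 8) * a ⟨e, hR e.2⟩ := sum_le_sum fun e _ => key e e.2
    _ = 4 * (σ + ω / 8) * ∑ e ∈ R.attach.image fun e : R => (⟨e, hR e.2⟩ : F), a e := by
      rw [mul_sum, sum_image]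
      intro x _ y _ h
      exact Subtype.ext (Subtype.mk.inj h)
    _ ≤ _ := mul_le_mul_of_nonneg_left
      ((sum_le_sum_of_subset_of_nonneg (subset_univ _) fun _ _ _ => ha0 _).trans hrank) hσ

end Crest.Agent.R37
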