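import Crest.Agent.R37.Comb

/-!
# R37/Geo1: chain-connected finite sets in a normed space
-/

set_option autoImplicit false
open Finset

namespace Crest.Agent.R37

variable {Y : Type} [NormedAddCommGroup Y] [NormedSpace ℝ Y] [DecidableEq Y]

/-- every point of `K` is reached from `ρ` by unit steps inside `K` -/
def Reach (K ρ : Finset Y) : Prop :=
  ∀ P : Y → Prop, (∀ x ∈ K, ∀ y ∈ K, dist x y ≤ 1 → P x → P y) → (∀ o ∈ ρ, P o) → ∀ x ∈ K, P x

omit [NormedSpace ℝ Y] [DecidableEq Y] in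
theorem Conn.mono {a b : ℝ} {K : Finset Y} (h : Conn a K) (hab : a ≤ b) : Conn b K :=
  fun P hP => h P fun x hx y hy hd => hP x hx y hy (hd.trans hab)

omit [NormedSpace ℝ Y] [DecidableEq Y] in
/-- Apply `Reach` to `Q y := (P y ↔ P o)`. -/
theorem Reach.conn {K : Finset Y} {o : Y} (h : Reach K {o}) : Conn 1 K := by
  intro P hP x hx y hy hxP
  have key := h (fun z => (P z ↔ P o)) (fun u hu v hv hd e =>
    ⟨fun hv' => e.1 (hP v hv u hu (by rwa [dist_comm]) hv'), fun ho => hP u hu v hv hd (e.2 ho)⟩)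
    (fun o' ho' => by rw [mem_singleton.1 ho'])
  exact (key y hy).2 ((key x hx).1 hxP)

omit [NormedSpace ℝ Y] in
theorem Conn.union {a : ℝ} {K K' : Finset Y} (h : Conn a K) (h' : Conn a K') (ha : 0 ≤ a) {x : Y}
    (hx : x ∈ K) (hx' : x ∈ K') : Conn a (K ∪ K') := by
  intro P hP u hu v hv hPu
  have h1 := h P fun a ha b hb => hP a (mem_union_left _ ha) b (mem_union_left _ hb)
  have h2 := h' P fun a ha b hb => hP a (mem_union_right _ ha) b (mem_union_right _ hb)
  have hxP : P x := by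
    rcases mem_union.1 hu with hu | hu
    exacts [h1 u hu x hx hPu, h2 u hu x hx' hPu]
  rcases mem_union.1 hv with hv | hv
  exacts [h1 x hx v hv hxP, h2 x hx' v hv hxP]

omit [NormedSpace ℝ Y] in
/-- The points `a + (i / m) (b - a)`, `0 ≤ i ≤ m = ⌈dist a b⌉₊` (if `m = 0` then `a = b`). -/
theorem exists_chain [NormedSpace ℝ Y] (a b : Y) :
    ∃ K : Finset Y, a ∈ K ∧ b ∈ K ∧ Conn 1 K ∧ (K.card : ℝ) ≤ dist a b + 2 := by
  set m := ⌈dist a b⌉₊ with hm
  let p : ℕ → Y := fun i => a + ((i : ℝ) / m) • (b - a)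
  have p0 : p 0 = a := by simp [p]
  have pm : p m = b := by
    rcases Nat.eq_zero_or_pos m with h0 | h0
    · have : dist a b ≤ 0 := Nat.ceil_eq_zero.1 (hm ▸ h0)
      rw [h0, p0]
      exact dist_le_zero.1 this
    · have : (m : ℝ) ≠ 0 := by exact_mod_cast h0.ne'
      simp [p, div_self this]
  have hstep : ∀ i, dist (p i) (p (i + 1)) ≤ 1 := by
    intro i
    rcases Nat.eq_zero_or_pos m with h0 | h0
    · simp [p, h0]
    · have hm0 : (0 : ℝ) < m := by exact_mod_cast h0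
      have e : p (i + 1) - p i = (1 / (m : ℝ)) • (b - a) := by
        simp only [p, add_sub_add_left_eq_sub, ← sub_smul]
        congr 1
        push_cast
        ring
      rw [dist_comm, dist_eq_norm, e, norm_smul, Real.norm_of_nonneg (by positivity),
        ← dist_eq_norm, dist_comm, one_div, inv_mul_le_iff₀ hm0, mul_one]
      exact Nat.le_ceil _
  refine ⟨(range (m + 1)).image p, mem_image.2 ⟨0, by simp, p0⟩, mem_image.2 ⟨m, by simp, pm⟩,
    Reach.conn (o := a) ?_, ?_⟩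
  · intro P hP ho x hx
    obtain ⟨i, hi, rfl⟩ := mem_image.1 hx
    induction i with
    | zero => rw [p0]; exact ho a (by simp)
    | succ i ih =>
      have hi' : i ∈ range (m + 1) := by simp at hi ⊢; omega
      exact hP _ (mem_image_of_mem _ hi') _ hx (hstep i) (ih hi' (mem_image_of_mem _ hi'))
  · have h1 : (((range (m + 1)).image p).card : ℝ) ≤ m + 1 := by
      have := card_image_le (s := range (m + 1)) (f := p)
      rw [card_range] at this
      exact_mod_cast this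
    have h2 : (m : ℝ) < dist a b + 1 := Nat.ceil_lt_add_one dist_nonneg
    linarith

/-- Reconnecting.  Induction on `|ρ|`.  Fix `o ∈ ρ` (if `ρ = ∅` then `K = ∅`); let `C` be the points
reached from `o` by unit steps in `K`.  If `C = K` use `Reach.conn`.  Otherwise `Conn a K` gives
`x ∈ C`, `y ∈ K \ C` at distance `≤ a`, and `y` is reached from some `o' ∈ ρ`, `o' ≠ o`.  Add a chain
from `x` to `y` and erase `o'` from `ρ`. -/
theorem connect (K ρ : Finset Y) (a : ℝ) (ha : 1 ≤ a) (hρ : ρ ⊆ K) (hR : Reach K ρ)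
    (hK : Conn a K) :
    ∃ K' : Finset Y, K ⊆ K' ∧ Conn 1 K' ∧
      (K'.card : ℝ) ≤ K.card + ((ρ.card - 1 : ℕ) : ℝ) * (a + 1) := by
  classical
  induction hn : ρ.card using Nat.strong_induction_on generalizing K ρ with
  | _ n ih =>
  subst hn
  have hnn : (0 : ℝ) ≤ ((ρ.card - 1 : ℕ) : ℝ) * (a + 1) := by positivity
  rcases ρ.eq_empty_or_nonempty with rfl | ⟨o, ho⟩
  · refine ⟨K, subset_rfl, fun P hP x hx => ?_, by linarith⟩
    exact (hR (fun _ => False) (fun _ _ _ _ _ h => h) (by simp) x hx).elim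
  let R : Y → Y → Prop := fun o z =>
    ∀ P : Y → Prop, (∀ x ∈ K, ∀ y ∈ K, dist x y ≤ 1 → P x → P y) → P o → P z
  by_cases hall : ∀ z ∈ K, R o z
  · refine ⟨K, subset_rfl, Reach.conn (o := o) fun P hP h0 z hz => ?_, by linarith⟩
    exact hall z hz P hP (h0 o (by simp))
  have hxy : ∃ x ∈ K, ∃ y ∈ K, dist x y ≤ a ∧ R o x ∧ ¬ R o y := by
    by_contra hcon
    push Not at hcon
    exact hall fun z hz => hK (R o) hcon o (hρ ho) z hz fun P _ h => h
  obtain ⟨x, hx, y, hy, hd, hRx, hRy⟩ := hxy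
  obtain ⟨o', ho', hRo'⟩ : ∃ o' ∈ ρ, R o' y :=
    hR (fun z => ∃ o' ∈ ρ, R o' z)
      (fun u hu v hv huv ⟨o', h1, h2⟩ => ⟨o', h1, fun P hP h => hP u hu v hv huv (h2 P hP h)⟩)
      (fun o' h => ⟨o', h, fun P _ h => h⟩) y hy
  have hne : o' ≠ o := by rintro rfl; exact hRy hRo'
  obtain ⟨C, hxC, hyC, hC, hcard⟩ := exists_chain x y
  have hρ2 : 2 ≤ ρ.card := one_lt_card.2 ⟨o', ho', o, ho, hne⟩
  suffices hR' : Reach (K ∪ C) (ρ.erase o') by
    have hsub : ρ.erase o' ⊆ K ∪ C := (erase_subset _ _).trans (hρ.trans subset_union_left)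
    obtain ⟨K', h1, h2, h3⟩ := ih (ρ.erase o').card (card_erase_lt_of_mem ho') (K ∪ C)
      (ρ.erase o') hsub hR' (hK.union (hC.mono ha) (by linarith) hx hxC) rfl
    refine ⟨K', subset_union_left.trans h1, h2, h3.trans ?_⟩
    have e1 : (K ∪ C).card + 1 ≤ K.card + C.card := by
      rw [← card_union_add_card_inter K C]
      exact Nat.add_le_add_left (card_pos.2 ⟨x, mem_inter.2 ⟨hx, hxC⟩⟩) _
    have e1' : ((K ∪ C).card : ℝ) + 1 ≤ K.card + C.card := by exact_mod_cast e1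
    have e2 : ((ρ.card - 1 : ℕ) : ℝ) = (((ρ.erase o').card - 1 : ℕ) : ℝ) + 1 := by
      rw [card_erase_of_mem ho']
      have : ρ.card - 1 = ρ.card - 1 - 1 + 1 :=
        (Nat.sub_add_cancel (Nat.le_sub_one_of_lt hρ2)).symm
      exact_mod_cast this
    rw [e2]
    nlinarith
  · intro P hP h0
    have hPK : ∀ u ∈ K, ∀ v ∈ K, dist u v ≤ 1 → P u → P v := fun u hu v hv =>
      hP u (mem_union_left _ hu) v (mem_union_left _ hv)
    have hPx : P x := hRx P hPK (h0 o (mem_erase.2 ⟨hne.symm, ho⟩))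
    have hPC : ∀ z ∈ C, P z := fun z hz =>
      hC P (fun u hu v hv => hP u (mem_union_right _ hu) v (mem_union_right _ hv)) x hxC z hz hPx
    have hPo' : P o' := by
      by_contra hno
      exact hRo' (fun z => ¬ P z)
        (fun u hu v hv huv h1 h2 => h1 (hPK v hv u hu (by rwa [dist_comm]) h2)) hno (hPC y hyC)
    intro z hz
    rcases mem_union.1 hz with hz | hz
    · refine hR P hPK (fun w hw => ?_) z hz
      by_cases e : w = o'
      · exact e ▸ hPo'
      · exact h0 w (mem_erase.2 ⟨e, hw⟩)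
    · exact hPC z hz

omit [NormedSpace ℝ Y] [DecidableEq Y] in
/-- Breadth-first tree: `dep x` is the least number of unit steps from `o` to `x` inside `K`. -/
theorem exists_rooted {K : Finset Y} (hK : Conn 1 K) {o : Y} (ho : o ∈ K) :
    ∃ (par : Y → Y) (dep : Y → ℕ), par o = o ∧ dep o = 0 ∧
      (∀ x ∈ K, par x ∈ K ∧ dist x (par x) ≤ 1) ∧ ∀ x ∈ K, x ≠ o → dep x = dep (par x) + 1 := by
  classical
  let S : ℕ → Y → Prop := fun n => Nat.rec (fun x => x = o)
    (fun _ T x => ∃ y ∈ K, T y ∧ dist x y ≤ 1) n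
  have S0 : ∀ x, S 0 x ↔ x = o := fun x => Iff.rfl
  have Ss : ∀ n x, S (n + 1) x ↔ ∃ y ∈ K, S n y ∧ dist x y ≤ 1 := fun n x => Iff.rfl
  have hex : ∀ x ∈ K, ∃ n, S n x := fun x hx =>
    hK (fun x => ∃ n, S n x)
      (fun u hu v hv huv ⟨n, hn⟩ => ⟨n + 1, (Ss n v).2 ⟨u, hu, hn, by rwa [dist_comm]⟩⟩)
      o ho x hx ⟨0, rfl⟩
  let dep : Y → ℕ := fun x => sInf {n | S n x}
  have hdep : ∀ x ∈ K, S (dep x) x := fun x hx => Nat.sInf_mem (hex x hx)
  have hle : ∀ x n, S n x → dep x ≤ n := fun x n h => Nat.sInf_le h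
  have hpar : ∀ x, ∃ y, (x = o → y = o) ∧ (x ∈ K → (y ∈ K ∧ dist x y ≤ 1) ∧
      (x ≠ o → dep x = dep y + 1)) := by
    intro x
    by_cases e : x = o
    · exact ⟨o, fun _ => rfl, fun _ => ⟨⟨ho, by simp [e]⟩, fun h => absurd e h⟩⟩
    by_cases hx : x ∈ K
    swap
    · exact ⟨o, fun _ => rfl, fun h => absurd h hx⟩
    have h1 := hdep x hx
    rcases hd : dep x with _ | m
    · rw [hd] at h1
      exact absurd h1 e
    · rw [hd] at h1
      obtain ⟨y, hy, h2, h3⟩ := (Ss m x).1 h1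
      refine ⟨y, fun h => absurd h e, fun _ => ⟨⟨hy, h3⟩, fun _ => ?_⟩⟩
      have a1 := hle y m h2
      have a2 := hle x (dep y + 1) ((Ss _ x).2 ⟨y, hy, hdep y hy, h3⟩)
      omega
  choose par h1 h2 using hpar
  exact ⟨par, dep, h1 o rfl, Nat.le_zero.1 (hle o 0 rfl), fun x hx => (h2 x hx).1,
    fun x hx => (h2 x hx).2⟩

/-- The first cover of a partition-connected set: the points themselves and a chain along every edge
of the tree of `kruskal` (with `c = id`, `ℓ e = dist (ι (s e)) (ι (t e))`). -/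
theorem init_cover {s t : ℕ → ℕ} {j : ℕ} {F W : Finset ℕ} (h : PC s t j F W) (hj : 1 ≤ j)
    (hW : W.Nonempty) (ι : ℕ → Y) :
    ∃ K : Finset Y, Conn 1 K ∧ (∀ v ∈ W, ι v ∈ K) ∧
      (K.card : ℝ) ≤ 2 * W.card + (∑ e ∈ cr s t F W id, dist (ι (s e)) (ι (t e))) / j := by
  classical
  obtain ⟨T, hT, hcard, hsum, hconn⟩ := kruskal h hj hW id
    (fun e => dist (ι (s e)) (ι (t e))) (fun e _ => dist_nonneg)
  choose C hC1 hC2 hC3 hC4 using fun e : ℕ => exists_chain (ι (s e)) (ι (t e))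
  have hTW : ∀ e ∈ T, s e ∈ W ∧ t e ∈ W := fun e he => by
    have := hT he
    simp only [cr, mem_filter] at this
    exact ⟨this.2.1, this.2.2.1⟩
  let K : Finset Y := W.image ι ∪ T.biUnion fun e => (C e).erase (ι (s e))
  have hWK : ∀ v ∈ W, ι v ∈ K := fun v hv => mem_union_left _ (mem_image_of_mem _ hv)
  have hCK : ∀ e ∈ T, C e ⊆ K := fun e he z hz => by
    by_cases e1 : z = ι (s e)
    · exact e1 ▸ hWK _ (hTW e he).1
    · exact mem_union_right _ (mem_biUnion.2 ⟨e, he, mem_erase.2 ⟨e1, hz⟩⟩)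
  obtain ⟨o, ho⟩ := hW
  refine ⟨K, Reach.conn (o := ι o) fun P hP h0 => ?_, hWK, ?_⟩
  · have hPC : ∀ e ∈ T, ∀ x ∈ C e, ∀ y ∈ C e, P x → P y := fun e he =>
      hC3 e P fun u hu v hv => hP u (hCK e he hu) v (hCK e he hv)
    have hPW : ∀ v ∈ W, P (ι v) := fun v hv =>
      hconn (fun v => P (ι v)) (fun u _ v _ e h => by rw [show v = u from e.symm]; exact h)
        (fun e he => ⟨hPC e he _ (hC1 e) _ (hC2 e), hPC e he _ (hC2 e) _ (hC1 e)⟩)
        o ho v hv (h0 _ (by simp))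
    intro z hz
    rcases mem_union.1 hz with hz | hz
    · obtain ⟨v, hv, rfl⟩ := mem_image.1 hz
      exact hPW v hv
    · obtain ⟨e, he, hz⟩ := mem_biUnion.1 hz
      exact hPC e he _ (hC1 e) z (mem_of_mem_erase hz) (hPW _ (hTW e he).1)
  · have h1 : K.card ≤ W.card + ∑ e ∈ T, ((C e).erase (ι (s e))).card :=
      (card_union_le _ _).trans (add_le_add card_image_le card_biUnion_le)
    have h2 : ∀ e ∈ T, (((C e).erase (ι (s e))).card : ℝ) ≤ dist (ι (s e)) (ι (t e)) + 1 := by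
      intro e _
      have := card_erase_add_one (hC1 e)
      have h3 : (((C e).erase (ι (s e))).card : ℝ) + 1 = (C e).card := by exact_mod_cast this
      linarith [hC4 e]
    have h3 : (K.card : ℝ) ≤ W.card + ∑ e ∈ T, (dist (ι (s e)) (ι (t e)) + 1) := by
      refine le_trans ?_ (add_le_add le_rfl (sum_le_sum h2))
      exact_mod_cast h1
    rw [sum_add_distrib, sum_const, nsmul_eq_mul, mul_one] at h3
    rw [image_id] at hcard
    have h4 : (T.card : ℝ) + 1 = W.card := by exact_mod_cast hcard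
    have hj0 : (0 : ℝ) < j := by exact_mod_cast hj
    have h5 : ∑ e ∈ T, dist (ι (s e)) (ι (t e)) ≤
        (∑ e ∈ cr s t F W id, dist (ι (s e)) (ι (t e))) / j := by
      rw [le_div_iff₀ hj0, mul_comm]
      exact hsum
    linarith

end Crest.Agent.R37
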