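import Crest.Agent.R37.Comb

/-!
# R37/SP: shortest paths
-/

set_option autoImplicit false
open Finset

namespace Crest.Agent.R37

open Crest.Agent.Lib.PT

/-! ### walks -/

/-- walks from `u`: end point, edges (last one first), earlier vertices -/
inductive sp_Wk (s t : ℕ → ℕ) (F : List ℕ) (u : ℕ) : ℕ → List ℕ → List ℕ → Prop
  | nil : sp_Wk s t F u u [] []
  | cons {a x y : ℕ} {p vs : List ℕ} : a ∈ F → (s a = x ∧ t a = y ∨ s a = y ∧ t a = x) →
      sp_Wk s t F u x p vs → sp_Wk s t F u y (a :: p) (x :: vs)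

def sp_cost (ℓ : Vec) (p : List ℕ) : ℚ := (p.map (vg ℓ)).sum

theorem sp_cost_nil (ℓ : Vec) : sp_cost ℓ [] = 0 := rfl

theorem sp_cost_cons (ℓ : Vec) (a : ℕ) (p : List ℕ) : sp_cost ℓ (a :: p) = vg ℓ a + sp_cost ℓ p := by
  simp [sp_cost]

theorem sp_cost_append (ℓ : Vec) (p q : List ℕ) : sp_cost ℓ (p ++ q) = sp_cost ℓ p + sp_cost ℓ q := by
  simp [sp_cost]

theorem sp_cost_reverse (ℓ : Vec) (p : List ℕ) : sp_cost ℓ p.reverse = sp_cost ℓ p := by
  simp [sp_cost]

theorem sp_cost_cast (ℓ : Vec) (p : List ℕ) :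
    (p.map fun a => (vg ℓ a : ℝ)).sum = (sp_cost ℓ p : ℝ) := by
  induction p with
  | nil => simp [sp_cost]
  | cons a p ih => rw [List.map_cons, List.sum_cons, ih, sp_cost_cons, Rat.cast_add]

section walks

variable {s t : ℕ → ℕ} {F : List ℕ} {u v w n : ℕ} {p q vs ws : List ℕ} {ℓ : Vec}

theorem sp_Wk.mem (h : sp_Wk s t F u v p vs) : ∀ a ∈ p, a ∈ F := by
  induction h with
  | nil => simp
  | cons ha _ _ ih => simpa using ⟨ha, ih⟩

theorem sp_Wk.length (h : sp_Wk s t F u v p vs) : p.length = vs.length := by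
  induction h with
  | nil => rfl
  | cons _ _ _ ih => simp [ih]

theorem sp_Wk.cost_nonneg (h : sp_Wk s t F u v p vs) (hℓ : ∀ a ∈ F, 0 ≤ vg ℓ a) : 0 ≤ sp_cost ℓ p := by
  induction h with
  | nil => exact le_rfl
  | cons ha _ _ ih => rw [sp_cost_cons]; exact add_nonneg (hℓ _ ha) ih

theorem sp_Wk.lt (h : sp_Wk s t F u v p vs) (hF : WF s t n F.toFinset) (hu : u < n) :
    ∀ y ∈ v :: vs, y < n := by
  induction h with
  | nil => simpa using hu
  | cons ha hadj _ ih =>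
    obtain ⟨h1, h2, -⟩ := hF _ (List.mem_toFinset.2 ha)
    intro z hz
    rcases List.mem_cons.1 hz with rfl | hz
    · rcases hadj with h | h
      · exact h.2 ▸ h2
      · exact h.1 ▸ h1
    · exact ih z hz

theorem sp_Wk.append (h : sp_Wk s t F u v p vs) (h' : sp_Wk s t F v w q ws) :
    sp_Wk s t F u w (q ++ p) (ws ++ vs) := by
  induction h' with
  | nil => exact h
  | cons ha hadj _ ih => exact sp_Wk.cons ha hadj ih

theorem sp_Wk.reverse (h : sp_Wk s t F u v p vs) : ∃ ws, sp_Wk s t F v u p.reverse ws := by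
  induction h with
  | nil => exact ⟨[], sp_Wk.nil⟩
  | cons ha hadj _ ih =>
    obtain ⟨ws, ih⟩ := ih
    rw [List.reverse_cons]
    exact ⟨_, (sp_Wk.cons ha hadj.symm sp_Wk.nil).append ih⟩

theorem sp_Wk.pm (h : sp_Wk s t F u v p vs) {d : ℕ → ℕ → ℝ} (hd : IsPM d) :
    d u v ≤ (p.map fun a => d (s a) (t a)).sum := by
  induction h with
  | nil => simp [hd.1]
  | @cons a x y p vs ha hadj _ ih =>
    rw [List.map_cons, List.sum_cons]
    have h1 := hd.2.2 u x y
    have h2 : d (s a) (t a) = d x y := by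
      rcases hadj with h | h
      · rw [h.1, h.2]
      · rw [h.1, h.2, hd.2.1]
    linarith

theorem sp_Wk.cut (h : sp_Wk s t F u v p vs) (hℓ : ∀ a ∈ F, 0 ≤ vg ℓ a) : ∀ y ∈ v :: vs,
    ∃ p' vs', sp_Wk s t F u y p' vs' ∧ sp_cost ℓ p' ≤ sp_cost ℓ p ∧ (y :: vs') <:+ (v :: vs) := by
  induction h with
  | nil =>
    intro y hy
    obtain rfl : y = u := by simpa using hy
    exact ⟨[], [], sp_Wk.nil, le_rfl, List.suffix_rfl⟩
  | @cons a x z p vs ha hadj hw ih =>
    intro y hy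
    rcases List.mem_cons.1 hy with rfl | hy
    · exact ⟨_, _, sp_Wk.cons ha hadj hw, le_rfl, List.suffix_rfl⟩
    · obtain ⟨p', vs', h1, h2, h3⟩ := ih y hy
      refine ⟨p', vs', h1, ?_, h3.trans (List.suffix_cons _ _)⟩
      rw [sp_cost_cons]
      linarith [hℓ a ha]

theorem sp_Wk.simple (h : sp_Wk s t F u v q ws) (hℓ : ∀ a ∈ F, 0 ≤ vg ℓ a) :
    ∃ p vs, sp_Wk s t F u v p vs ∧ (v :: vs).Nodup ∧ sp_cost ℓ p ≤ sp_cost ℓ q := by
  induction h with
  | nil => exact ⟨[], [], sp_Wk.nil, by simp, le_rfl⟩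
  | @cons a x y q ws ha hadj _ ih =>
    obtain ⟨p, vs, h1, h2, h3⟩ := ih
    rw [sp_cost_cons]
    by_cases hy : y ∈ x :: vs
    · obtain ⟨p', vs', k1, k2, k3⟩ := h1.cut hℓ y hy
      exact ⟨p', vs', k1, h2.sublist k3.sublist, by linarith [hℓ a ha]⟩
    · refine ⟨_, _, sp_Wk.cons ha hadj h1, List.nodup_cons.2 ⟨hy, h2⟩, ?_⟩
      rw [sp_cost_cons]
      linarith

theorem sp_Wk.short (h : sp_Wk s t F u v q ws) (hℓ : ∀ a ∈ F, 0 ≤ vg ℓ a) (hF : WF s t n F.toFinset)
    (hu : u < n) : ∃ p vs, sp_Wk s t F u v p vs ∧ p.length ≤ n ∧ sp_cost ℓ p ≤ sp_cost ℓ q := by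
  obtain ⟨p, vs, h1, h2, h3⟩ := h.simple hℓ
  refine ⟨p, vs, h1, ?_, h3⟩
  have h4 : (v :: vs).length ≤ (List.range n).length :=
    (h2.subperm fun y hy => List.mem_range.2 (h1.lt hF hu y hy)).length_le
  rw [List.length_cons, List.length_range] at h4
  have := h1.length
  omega

theorem sp_exists_walk (hc : PC s t 1 F.toFinset (range n)) (hu : u < n) (hv : v < n) :
    ∃ p vs, sp_Wk s t F u v p vs := by
  refine hc.conn le_rfl (fun x => ∃ p vs, sp_Wk s t F u x p vs) (fun e he _ _ => ?_) (mem_range.2 hu)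
    (mem_range.2 hv) ⟨[], [], sp_Wk.nil⟩
  have he' := List.mem_toFinset.1 he
  constructor
  · rintro ⟨p, vs, h⟩; exact ⟨_, _, sp_Wk.cons he' (Or.inl ⟨rfl, rfl⟩) h⟩
  · rintro ⟨p, vs, h⟩; exact ⟨_, _, sp_Wk.cons he' (Or.inr ⟨rfl, rfl⟩) h⟩

end walks

/-! ### the algorithm -/

abbrev sp_Tab := List (Option (List ℕ))

def sp_cand (E : Gr) (F : List ℕ) (D : sp_Tab) (v : ℕ) : List (List ℕ) :=
  (D.getD v none).toList ++ F.flatMap fun a =>
    (if tgt E a = v then ((D.getD (src E a) none).map fun p => a :: p).toList else []) ++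
      (if src E a = v then ((D.getD (tgt E a) none).map fun p => a :: p).toList else [])

def sp_round (n : ℕ) (E : Gr) (F : List ℕ) (ℓ : Vec) (D : sp_Tab) : sp_Tab :=
  (List.range n).map fun v => (sp_cand E F D v).argmin (sp_cost ℓ)

def sp_init (n u : ℕ) : sp_Tab := (List.range n).map fun v => if v = u then some [] else none

def sp_alg (x : Un × Gr × List ℕ × Vec × ℕ × ℕ) : List ℕ :=
  (((sp_round x.1.n x.2.1 x.2.2.1 x.2.2.2.1)^[x.1.n] (sp_init x.1.n x.2.2.2.2.1)).getD x.2.2.2.2.2 none).getD []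

theorem sp_getD {n v : ℕ} (f : ℕ → Option (List ℕ)) :
    ((List.range n).map f).getD v none = if v < n then f v else none := by
  split_ifs with h
  · simp [List.getD_eq_getElem?_getD, h]
  · rw [List.getD_eq_default _ _ (by simpa using h)]

theorem sp_mem_cand {E : Gr} {F : List ℕ} {D : sp_Tab} {v : ℕ} {p : List ℕ} :
    p ∈ sp_cand E F D v ↔ D.getD v none = some p ∨ ∃ a ∈ F, ∃ x p',
      (src E a = x ∧ tgt E a = v ∨ src E a = v ∧ tgt E a = x) ∧ D.getD x none = some p' ∧ p = a :: p' := by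
  unfold sp_cand
  rw [List.mem_append, Option.mem_toList, List.mem_flatMap]
  refine or_congr Iff.rfl (exists_congr fun a => and_congr Iff.rfl ?_)
  rw [List.mem_append]
  constructor
  · rintro (h | h)
    · split_ifs at h with h1
      · obtain ⟨p', h2, h3⟩ := Option.map_eq_some_iff.1 (Option.mem_toList.1 h)
        exact ⟨_, p', Or.inl ⟨rfl, h1⟩, h2, h3.symm⟩
      · simp at h
    · split_ifs at h with h1
      · obtain ⟨p', h2, h3⟩ := Option.map_eq_some_iff.1 (Option.mem_toList.1 h)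
        exact ⟨_, p', Or.inr ⟨h1, rfl⟩, h2, h3.symm⟩
      · simp at h
  · rintro ⟨x, p', h1 | h1, h2, rfl⟩
    · left; rw [if_pos h1.2, h1.1, h2]; simp
    · right; rw [if_pos h1.1, h1.2, h2]; simp

theorem sp_sound (n : ℕ) (E : Gr) (F : List ℕ) (ℓ : Vec) (u k : ℕ) : ∀ v p,
    ((sp_round n E F ℓ)^[k] (sp_init n u)).getD v none = some p →
      p.length ≤ k ∧ ∃ vs, sp_Wk (src E) (tgt E) F u v p vs := by
  induction k with
  | zero =>
    intro v p h
    rw [Function.iterate_zero_apply, sp_init, sp_getD] at h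
    split_ifs at h with h1 h2
    obtain rfl : [] = p := Option.some.inj h
    exact ⟨le_rfl, [], h2 ▸ sp_Wk.nil⟩
  | succ k ih =>
    intro v p h
    rw [Function.iterate_succ_apply', sp_round, sp_getD] at h
    split_ifs at h with h1
    rcases sp_mem_cand.1 (List.argmin_mem h) with h2 | ⟨a, ha, x, p', h2, h3, rfl⟩
    · obtain ⟨k1, k2⟩ := ih v p h2
      exact ⟨k1.trans (Nat.le_succ _), k2⟩
    · obtain ⟨k1, vs, k2⟩ := ih x p' h3
      exact ⟨Nat.succ_le_succ k1, _, sp_Wk.cons ha h2 k2⟩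

theorem sp_argmin {ℓ : Vec} {L : List (List ℕ)} {q : List ℕ} (h : q ∈ L) :
    ∃ p, L.argmin (sp_cost ℓ) = some p ∧ sp_cost ℓ p ≤ sp_cost ℓ q := by
  cases e : L.argmin (sp_cost ℓ) with
  | none => rw [List.argmin_eq_none] at e; simp [e] at h
  | some p => exact ⟨p, rfl, List.le_of_mem_argmin h e⟩

theorem sp_opt {n : ℕ} {E : Gr} {F : List ℕ} (ℓ : Vec) (hF : WF (src E) (tgt E) n F.toFinset) {u : ℕ}
    (hu : u < n) (k : ℕ) : ∀ v q ws, sp_Wk (src E) (tgt E) F u v q ws → q.length ≤ k →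
      ∃ p, ((sp_round n E F ℓ)^[k] (sp_init n u)).getD v none = some p ∧ sp_cost ℓ p ≤ sp_cost ℓ q := by
  induction k with
  | zero =>
    intro v q ws h hq
    cases h with
    | nil => exact ⟨[], by rw [Function.iterate_zero_apply, sp_init, sp_getD, if_pos hu, if_pos rfl], le_rfl⟩
    | cons => simp at hq
  | succ k ih =>
    intro v q ws h hq
    have hv : v < n := h.lt hF hu v List.mem_cons_self
    rw [Function.iterate_succ_apply', sp_round, sp_getD, if_pos hv]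
    cases h with
    | nil =>
      obtain ⟨p, h1, h2⟩ := ih u [] [] sp_Wk.nil (Nat.zero_le _)
      obtain ⟨p', k1, k2⟩ := sp_argmin (ℓ := ℓ) (sp_mem_cand.2 (Or.inl h1))
      exact ⟨p', k1, k2.trans h2⟩
    | @cons a x _ q vs ha hadj hw =>
      obtain ⟨p, h1, h2⟩ := ih x q vs hw (by simpa using hq)
      obtain ⟨p', k1, k2⟩ := sp_argmin (ℓ := ℓ) (sp_mem_cand.2 (Or.inr ⟨a, ha, x, p, hadj, h1, rfl⟩))
      refine ⟨p', k1, k2.trans ?_⟩
      rw [sp_cost_cons, sp_cost_cons]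
      linarith

theorem sp_spec {n : ℕ} {E : Gr} {F : List ℕ} {ℓ : Vec} (hF : WF (src E) (tgt E) n F.toFinset)
    (hc : PC (src E) (tgt E) 1 F.toFinset (range n)) (hℓ : ∀ a ∈ F, 0 ≤ vg ℓ a) {u v : ℕ} (hu : u < n)
    (hv : v < n) :
    (sp_alg (⟨n⟩, E, F, ℓ, u, v)).length ≤ n ∧
      (∃ vs, sp_Wk (src E) (tgt E) F u v (sp_alg (⟨n⟩, E, F, ℓ, u, v)) vs) ∧
      ∀ q ws, sp_Wk (src E) (tgt E) F u v q ws → sp_cost ℓ (sp_alg (⟨n⟩, E, F, ℓ, u, v)) ≤ sp_cost ℓ q := by
  have key : ∀ q ws, sp_Wk (src E) (tgt E) F u v q ws →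
      ∃ p, ((sp_round n E F ℓ)^[n] (sp_init n u)).getD v none = some p ∧ sp_cost ℓ p ≤ sp_cost ℓ q := by
    intro q ws h
    obtain ⟨q', vs, h1, h2, h3⟩ := h.short hℓ hF hu
    obtain ⟨p, k1, k2⟩ := sp_opt ℓ hF hu n v q' vs h1 h2
    exact ⟨p, k1, k2.trans h3⟩
  obtain ⟨q, ws, h⟩ := sp_exists_walk hc hu hv
  obtain ⟨p, h1, -⟩ := key q ws h
  have e : sp_alg (⟨n⟩, E, F, ℓ, u, v) = p := by
    unfold sp_alg
    dsimp only
    rw [h1]; rfl
  rw [e]
  obtain ⟨k1, k2⟩ := sp_sound n E F ℓ u n v p h1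
  refine ⟨k1, k2, fun q' ws' h' => ?_⟩
  obtain ⟨p', h2, h3⟩ := key q' ws' h'
  rw [h1] at h2
  obtain rfl := Option.some.inj h2
  exact h3

theorem sp_sz (n : ℕ) (E : Gr) (F : List ℕ) (ℓ : Vec) (u k : ℕ) (hk : k ≤ n) :
    sz ((sp_round n E F ℓ)^[k] (sp_init n u)) ≤ n * (n * (sz F + 1) + 4) + 1 := by
  have hl : ((sp_round n E F ℓ)^[k] (sp_init n u)).length = n := by
    cases k with
    | zero => simp [sp_init]
    | succ k => rw [Function.iterate_succ_apply']; simp [sp_round]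
  have h := sp_sound n E F ℓ u k
  generalize (sp_round n E F ℓ)^[k] (sp_init n u) = D at hl h
  have h1 : ∀ o ∈ D, sz o ≤ n * (sz F + 1) + 3 := by
    intro o ho
    cases o with
    | none => simp
    | some p =>
      obtain ⟨i, hi, e⟩ := List.getElem_of_mem ho
      obtain ⟨k1, vs, k2⟩ := h i p (by rw [List.getD_eq_getElem _ _ hi, e])
      have k3 := sz_list_le (l := p) (B := sz F) fun a ha => sz_le_of_mem (k2.mem a ha)
      have k4 : p.length * (sz F + 1) ≤ n * (sz F + 1) := Nat.mul_le_mul_right _ (k1.trans hk)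
      rw [sz_some]
      omega
  have := sz_list_le h1
  rwa [hl] at this

section pt

variable {α : Type} [Enc α] {n u v : α → ℕ} {E : α → Gr} {F p : α → List ℕ} {ℓ : α → Vec} {D : α → sp_Tab}

@[fun_prop] theorem sp_cost_pt (hℓ : PT ℓ) (hp : PT p) : PT fun a => sp_cost (ℓ a) (p a) := by
  unfold sp_cost; fun_prop

@[fun_prop] theorem sp_cand_pt (hE : PT E) (hF : PT F) (hD : PT D) (hv : PT v) :
    PT fun a => sp_cand (E a) (F a) (D a) (v a) := by
  unfold sp_cand; fun_prop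

theorem sp_round_pt (hn : PT n) (hb : PB n) (hE : PT E) (hF : PT F) (hℓ : PT ℓ) (hD : PT D) :
    PT fun a => sp_round (n a) (E a) (F a) (ℓ a) (D a) := by
  unfold sp_round
  refine PT.map (hn.range hb) ?_
  exact PT.argmin (by fun_prop) (by fun_prop) (by fun_prop)

theorem sp_init_pt (hn : PT n) (hb : PB n) (hu : PT u) : PT fun a => sp_init (n a) (u a) := by
  unfold sp_init; fun_prop

end pt

theorem sp_alg_pt : PT sp_alg := by
  unfold sp_alg
  refine PT.option_getD (PT.getD ?_ (by fun_prop) (by fun_prop)) (by fun_prop)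
  refine PT.iterate (f := fun x : Un × Gr × List ℕ × Vec × ℕ × ℕ => sp_round x.1.n x.2.1 x.2.2.1 x.2.2.2.1)
    (by fun_prop) (by fun_prop) (sp_init_pt (by fun_prop) (by fun_prop) (by fun_prop))
    (sp_round_pt (by fun_prop) (by fun_prop) (by fun_prop) (by fun_prop) (by fun_prop) (by fun_prop))
    (B := fun x => x.1.n * (x.1.n * (sz x.2.2.1 + 1) + 4) + 1) (by fun_prop) fun x k hk => ?_
  exact sp_sz _ _ _ _ _ k hk

/-- Bellman-Ford from `u`: a table `D : List (Option (List ℕ))` holds for each vertex the best walk from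
`u` found so far (a list of edges); one round relaxes all edges of `F` in both directions with respect
to the table of the previous round, so after `i` rounds the entry of `v` is a cheapest walk among
those with at most `i` edges.  Let `d u v` be the infimum of the lengths of all walks between
`u, v < n` (treat vertices `≥ n` as the vertex `0`, or `min u (n-1)`); walks exist by `PC.conn`.  A walk with
more than `n - 1` edges repeats a vertex and can be shortened, so `n` rounds (or `n - 1`) find a walk of length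
`d u v`.  Any other correct algorithm is fine. -/
theorem exists_sp : ∃ sp : Un × Gr × List ℕ × Vec × ℕ × ℕ → List ℕ, PT sp ∧
    ∀ (n : ℕ) (E : Gr) (F : List ℕ) (ℓ : Vec), WF (src E) (tgt E) n F.toFinset →
      PC (src E) (tgt E) 1 F.toFinset (range n) → (∀ a ∈ F, 0 ≤ vg ℓ a) →
      ∃ d, IsPM d ∧ (∀ a ∈ F, d (src E a) (tgt E a) ≤ vg ℓ a) ∧ ∀ u < n, ∀ v < n,
        (sp (⟨n⟩, E, F, ℓ, u, v)).length ≤ n ∧ (∀ a ∈ sp (⟨n⟩, E, F, ℓ, u, v), a ∈ F) ∧
        ((sp (⟨n⟩, E, F, ℓ, u, v)).map fun a => (vg ℓ a : ℝ)).sum ≤ d u v ∧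
        ∀ d', IsPM d' →
          d' u v ≤ ((sp (⟨n⟩, E, F, ℓ, u, v)).map fun a => d' (src E a) (tgt E a)).sum := by
  refine ⟨sp_alg, sp_alg_pt, fun n E F ℓ hF hc hℓ => ?_⟩
  rcases Nat.eq_zero_or_pos n with rfl | hn
  · exact ⟨fun _ _ => 0, ⟨fun _ => rfl, fun _ _ => rfl, fun _ _ _ => by simp⟩,
      fun a ha => by dsimp only; exact_mod_cast hℓ a ha, fun u hu => absurd hu (Nat.not_lt_zero _)⟩
  obtain ⟨m, hm, hm'⟩ : ∃ m : ℕ → ℕ, (∀ u, m u < n) ∧ ∀ u < n, m u = u :=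
    ⟨fun u => if u < n then u else 0, fun u => by dsimp only; split_ifs <;> assumption,
      fun u hu => if_pos hu⟩
  have H := fun u v => sp_spec hF hc hℓ (hm u) (hm v)
  have hsym : ∀ u v, sp_cost ℓ (sp_alg (⟨n⟩, E, F, ℓ, m u, m v)) ≤
      sp_cost ℓ (sp_alg (⟨n⟩, E, F, ℓ, m v, m u)) := by
    intro u v
    obtain ⟨vs, h⟩ := (H v u).2.1
    obtain ⟨ws, h'⟩ := h.reverse
    exact ((H u v).2.2 _ _ h').trans (sp_cost_reverse _ _).le
  refine ⟨fun u v => (sp_cost ℓ (sp_alg (⟨n⟩, E, F, ℓ, m u, m v)) : ℝ), ⟨fun u => ?_, fun u v => ?_,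
    fun u v w => ?_⟩, fun a ha => ?_, fun u hu v hv => ?_⟩
  · obtain ⟨vs, h⟩ := (H u u).2.1
    have := le_antisymm ((H u u).2.2 _ _ sp_Wk.nil) (h.cost_nonneg hℓ)
    simp only [this, sp_cost_nil, Rat.cast_zero]
  · simp only [le_antisymm (hsym u v) (hsym v u)]
  · obtain ⟨vs, h⟩ := (H u v).2.1
    obtain ⟨ws, h'⟩ := (H v w).2.1
    have := (H u w).2.2 _ _ (h.append h')
    rw [sp_cost_append, add_comm] at this
    dsimp only
    exact_mod_cast this
  · obtain ⟨h1, h2, -⟩ := hF a (List.mem_toFinset.2 ha)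
    have := (H (src E a) (tgt E a)).2.2 _ _
      (sp_Wk.cons ha (Or.inl ⟨(hm' _ h1).symm, (hm' _ h2).symm⟩) sp_Wk.nil)
    rw [sp_cost_cons, sp_cost_nil, add_zero] at this
    dsimp only
    exact_mod_cast this
  · obtain ⟨h1, ⟨vs, h2⟩, -⟩ := sp_spec hF hc hℓ hu hv
    refine ⟨h1, h2.mem, ?_, fun d' hd' => h2.pm hd'⟩
    simp only [hm' u hu, hm' v hv, sp_cost_cast, le_refl]

end Crest.Agent.R37
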