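import Crest.Agent.R37.LA

/-!
# R37/Sweep: exact inverse of a positive definite rational matrix, or a non-positive direction
-/

set_option autoImplicit false
open Finset Matrix

namespace Crest.Agent.R37

open Crest.Agent.Lib.PT

section la
variable {N : ℕ}

theorem sweep_border {L G A : Matrix (Fin N) (Fin N) ℝ} {e b : Fin N → ℝ} {m : ℝ}
    (hL : PD L) (hG : L * G = 1) (hAs : A.IsSymm) (he : L *ᵥ e = e) (hee : e ⬝ᵥ e = 1)
    (heb : e ⬝ᵥ b = 0)
    (hA : ∀ x, A *ᵥ x = L *ᵥ x + (b ⬝ᵥ x) • e + (e ⬝ᵥ x) • b + ((m - 1) * (e ⬝ᵥ x)) • e) :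
    e ⬝ᵥ (e - G *ᵥ b) = 1 ∧ qf A (e - G *ᵥ b) = m - b ⬝ᵥ G *ᵥ b ∧
      (0 < m - b ⬝ᵥ G *ᵥ b →
        PD A ∧ A * (G - op e + (m - b ⬝ᵥ G *ᵥ b)⁻¹ • op (e - G *ᵥ b)) = 1) := by
  have hLG : ∀ x, L *ᵥ (G *ᵥ x) = x := fun x => by rw [mulVec_mulVec, hG, one_mulVec]
  have heG : ∀ x, e ⬝ᵥ G *ᵥ x = e ⬝ᵥ x := fun x => by
    have h := dot_mulVec_comm hL.1 (G *ᵥ x) e
    rw [he, hLG, dotProduct_comm] at h
    exact h
  have hbG : ∀ x, b ⬝ᵥ G *ᵥ x = (G *ᵥ b) ⬝ᵥ x := fun x => by
    have h := dot_mulVec_comm hL.1 (G *ᵥ x) (G *ᵥ b)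
    rw [hLG, hLG, dotProduct_comm] at h
    exact h
  have hbe : b ⬝ᵥ e = 0 := by rw [dotProduct_comm, heb]
  have hLy := hLG b
  have hey : e ⬝ᵥ G *ᵥ b = 0 := by rw [heG, heb]
  obtain ⟨y, hy⟩ : ∃ y, y = G *ᵥ b := ⟨_, rfl⟩
  rw [← hy] at hLy hey hbG ⊢
  have hev : e ⬝ᵥ (e - y) = 1 := by rw [dotProduct_sub, hee, hey, sub_zero]
  have hAv : A *ᵥ (e - y) = (m - b ⬝ᵥ y) • e := by
    rw [hA, hev, mulVec_sub, he, hLy, dotProduct_sub, hbe]
    ext i
    simp only [Pi.add_apply, Pi.sub_apply, Pi.smul_apply, smul_eq_mul]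
    ring
  have hvx : ∀ x, (e - y) ⬝ᵥ x = e ⬝ᵥ x - y ⬝ᵥ x := fun x => sub_dotProduct _ _ _
  generalize e - y = v at hev hAv hvx ⊢
  generalize m - b ⬝ᵥ y = σ at hAv ⊢
  have hq : qf A v = σ := by
    rw [qf, hAv, dotProduct_smul, dotProduct_comm, hev, smul_eq_mul, mul_one]
  refine ⟨hev, hq, fun hσ => ⟨⟨hAs, fun x hx => ?_⟩, ?_⟩⟩
  · obtain ⟨c, hc⟩ : ∃ c, c = e ⬝ᵥ x := ⟨_, rfl⟩
    obtain ⟨z, hz⟩ : ∃ z, z = x - c • v := ⟨_, rfl⟩
    have hez : e ⬝ᵥ z = 0 := by
      rw [hz, dotProduct_sub, dotProduct_smul, hev, hc, smul_eq_mul, mul_one, sub_self]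
    have hxz : x = z + c • v := by rw [hz]; abel
    have h1 : z ⬝ᵥ A *ᵥ v = 0 := by
      rw [hAv, dotProduct_smul, dotProduct_comm, hez, smul_zero]
    have h2 : v ⬝ᵥ A *ᵥ z = 0 := by rw [dot_mulVec_comm hAs, h1]
    have h3 : z ⬝ᵥ A *ᵥ z = qf L z := by
      rw [hA, hez, qf]
      simp [dotProduct_comm z e, hez]
    have h4 : qf A x = qf L z + c ^ 2 * σ := by
      rw [← hq, ← h3, hxz]
      simp only [qf, mulVec_add, mulVec_smul, add_dotProduct, dotProduct_add, smul_dotProduct,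
        dotProduct_smul, smul_eq_mul, h1, h2]
      ring
    rw [h4]
    by_cases h0 : c = 0
    · have : z ≠ 0 := by
        rw [hz, h0, zero_smul, sub_zero]; exact hx
      have := hL.2 z this
      positivity
    · have := hL.nonneg z
      positivity
  · refine ext_iff_mulVec.2 fun x => ?_
    rw [← mulVec_mulVec, one_mulVec, add_mulVec, sub_mulVec, smul_mulVec, op_mulVec, op_mulVec,
      mulVec_add, mulVec_sub, mulVec_smul, mulVec_smul, mulVec_smul, hAv, hA, hA, hLG, he, hbG, heG,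
      hbe, hee, hvx]
    ext i
    simp only [Pi.add_apply, Pi.sub_apply, Pi.smul_apply, smul_eq_mul]
    field_simp
    ring

/-- leading block of `f`, identity elsewhere -/
def sweepLead (N : ℕ) (f : ℕ → ℕ → ℝ) (j : ℕ) : Matrix (Fin N) (Fin N) ℝ :=
  Matrix.of fun a c => if (a : ℕ) < j ∧ (c : ℕ) < j then f a c else if (a : ℕ) = c then 1 else 0

/-- the border -/
def sweepBor (N : ℕ) (f : ℕ → ℕ → ℝ) (j : ℕ) : Fin N → ℝ := fun a => if (a : ℕ) < j then f a j else 0

theorem sweepLead_zero (f : ℕ → ℕ → ℝ) : sweepLead N f 0 = 1 := by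
  ext a c
  simp [sweepLead, one_apply, Fin.ext_iff]

theorem sweepLead_top (f : ℕ → ℕ → ℝ) : sweepLead N f N = Matrix.of fun a c : Fin N => f a c := by
  ext a c
  simp [sweepLead]

theorem sweepLead_symm {f : ℕ → ℕ → ℝ} (hf : ∀ a c, f a c = f c a) (j : ℕ) :
    (sweepLead N f j).IsSymm := by
  ext a c
  simp only [sweepLead, transpose_apply, of_apply, hf c a, and_comm, eq_comm]

theorem sweepLead_row (f : ℕ → ℕ → ℝ) {j : ℕ} (x : Fin N → ℝ) {a : Fin N} (ha : j ≤ a) :
    (sweepLead N f j *ᵥ x) a = x a := by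
  simp [sweepLead, mulVec, dotProduct, not_lt.2 ha, ← Fin.ext_iff]

theorem sweepLead_succ {f : ℕ → ℕ → ℝ} (hf : ∀ a c, f a c = f c a) (j : ℕ) :
    sweepLead N f (j + 1) = sweepLead N f j + vecMulVec (ev N j) (sweepBor N f j) +
      vecMulVec (sweepBor N f j) (ev N j) + (f j j - 1) • vecMulVec (ev N j) (ev N j) := by
  ext a c
  simp only [sweepLead, sweepBor, of_apply, Matrix.add_apply, Matrix.smul_apply, vecMulVec_apply, ev,
    smul_eq_mul]
  rcases lt_trichotomy (a : ℕ) j with ha | ha | ha <;>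
    rcases lt_trichotomy (c : ℕ) j with hc | hc | hc <;>
    split_ifs <;> first | omega | simp [ha, hc, hf j]

theorem sweep_step {f : ℕ → ℕ → ℝ} (hf : ∀ a c, f a c = f c a) {j : ℕ} (hj : j < N)
    {G : Matrix (Fin N) (Fin N) ℝ} (hL : PD (sweepLead N f j)) (hG : sweepLead N f j * G = 1) :
    ev N j - G *ᵥ sweepBor N f j ≠ 0 ∧
      qf (Matrix.of fun a c : Fin N => f a c) (ev N j - G *ᵥ sweepBor N f j) =
        f j j - sweepBor N f j ⬝ᵥ G *ᵥ sweepBor N f j ∧
      (0 < f j j - sweepBor N f j ⬝ᵥ G *ᵥ sweepBor N f j → PD (sweepLead N f (j + 1)) ∧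
        sweepLead N f (j + 1) * (G - op (ev N j) +
          (f j j - sweepBor N f j ⬝ᵥ G *ᵥ sweepBor N f j)⁻¹ • op (ev N j - G *ᵥ sweepBor N f j)) = 1) := by
  have hev : ∀ x : Fin N → ℝ, ev N j ⬝ᵥ x = x ⟨j, hj⟩ := fun x => ext_fin x ⟨j, hj⟩
  have he : sweepLead N f j *ᵥ ev N j = ev N j := by
    ext a
    have h := dot_mulVec_comm (sweepLead_symm (N := N) hf j) (ev N a) (ev N j)
    rw [hev, sweepLead_row f (j := j) _ (a := ⟨j, hj⟩) le_rfl] at h
    refine (ext_fin _ a).symm.trans (h.trans ?_)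
    simp only [ev, eq_comm]
  obtain ⟨h1, h2, h3⟩ := sweep_border (m := f j j) (b := sweepBor N f j) hL hG
    (sweepLead_symm hf (j + 1)) he (ev_dot_ev hj) (by rw [hev]; simp [sweepBor]) (fun x => by
      rw [sweepLead_succ hf, add_mulVec, add_mulVec, add_mulVec, smul_mulVec, vecMulVec_mulVec,
        vecMulVec_mulVec, vecMulVec_mulVec, op_smul_eq_smul, op_smul_eq_smul, op_smul_eq_smul,
        smul_smul])
  refine ⟨fun h => ?_, ?_, h3⟩
  · rw [h, dotProduct_zero] at h1
    exact zero_ne_one h1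
  · rw [← h2]
    have hz : ∀ a : Fin N, ¬ (a : ℕ) < j + 1 → (ev N j - G *ᵥ sweepBor N f j) a = 0 := by
      intro a ha
      have h := sweepLead_row f (j := j) (G *ᵥ sweepBor N f j) (a := a) (by omega)
      rw [mulVec_mulVec, hG, one_mulVec] at h
      rw [Pi.sub_apply, ← h, ev, sweepBor, if_neg (by omega), if_neg (by omega), sub_zero]
    generalize ev N j - G *ᵥ sweepBor N f j = v at hz
    simp only [qf, dotProduct, mulVec, Finset.mul_sum]
    refine Finset.sum_congr rfl fun a _ => Finset.sum_congr rfl fun c _ => ?_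
    by_cases ha : (a : ℕ) < j + 1
    · by_cases hc : (c : ℕ) < j + 1
      · simp only [sweepLead, of_apply, if_pos (And.intro ha hc)]
      · simp [hz c hc]
    · simp [hz a ha]

end la

/-- Cramer's rule (copied from `R62/Size`) -/
theorem sweep_cramer {V : Type} [Fintype V] [DecidableEq V] (H G : Matrix V V ℝ) (hG : H * G = 1)
    (Δ : ℕ) (hΔ : Δ ≠ 0) (M : Matrix V V ℤ) (hM : ∀ i j, (M i j : ℝ) = Δ * H i j) (B : ℕ) (hB1 : 1 ≤ B)
    (hB : ∀ i j, |M i j| ≤ B) (i j : V) : ∃ z D : ℤ, G i j = (z : ℝ) / D ∧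
      z.natAbs ≤ Δ * ((Fintype.card V).factorial * B ^ Fintype.card V) ∧
      D.natAbs ≤ (Fintype.card V).factorial * B ^ Fintype.card V := by
  have hdet : ∀ A : Matrix V V ℤ, (∀ i j, |A i j| ≤ B) →
      A.det.natAbs ≤ (Fintype.card V).factorial * B ^ Fintype.card V := by
    intro A hA
    have := Matrix.det_le (A := A) (abv := AbsoluteValue.abs) (x := (B : ℤ)) hA
    rw [AbsoluteValue.abs_apply, nsmul_eq_mul, ← Int.natCast_natAbs] at this
    exact_mod_cast this
  set M' : Matrix V V ℝ := (Int.castRingHom ℝ).mapMatrix M with hM'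
  have e1 : M' = (Δ : ℝ) • H := by
    ext a b; simp [hM', hM]
  have e2 : M' * G = (Δ : ℝ) • (1 : Matrix V V ℝ) := by rw [e1, Matrix.smul_mul, hG]
  have e3 : M'.det ≠ 0 := by
    intro h0
    have := congrArg Matrix.det e2
    rw [Matrix.det_mul, h0, zero_mul, Matrix.det_smul, Matrix.det_one, mul_one] at this
    exact pow_ne_zero _ (by exact_mod_cast hΔ) this.symm
  have e4 : M'.det • G = (Δ : ℝ) • M'.adjugate := by
    have := congrArg (fun X => M'.adjugate * X) e2
    simp only [← Matrix.mul_assoc, Matrix.adjugate_mul, Matrix.smul_mul, Matrix.one_mul,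
      Matrix.mul_smul, Matrix.mul_one] at this
    exact this
  have e5 : M'.det = ((M.det : ℤ) : ℝ) := by
    rw [hM', ← RingHom.map_det]; rfl
  have e6 : M'.adjugate i j = ((M.adjugate i j : ℤ) : ℝ) := by
    rw [hM', ← RingHom.map_adjugate]; rfl
  refine ⟨Δ * M.adjugate i j, M.det, ?_, ?_, hdet M hB⟩
  · have := congrFun (congrFun e4 i) j
    simp only [Matrix.smul_apply, smul_eq_mul] at this
    rw [e6] at this
    rw [← e5, eq_div_iff e3]
    push_cast; linarith
  · rw [Int.natAbs_mul, Int.natAbs_natCast]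
    refine Nat.mul_le_mul_left _ ?_
    rw [Matrix.adjugate_apply]
    refine hdet _ fun a b => ?_
    rw [Matrix.updateRow_apply]
    split_ifs
    · rw [Pi.single_apply]
      split_ifs
      · simpa using hB1
      · simp
    · exact hB a b

theorem sweep_height {N s : ℕ} (hN : N ≤ s) (h : ℕ → ℕ → ℚ) (hs : ∀ a c, ratH (h a c) ≤ 2 ^ s)
    (G : Matrix (Fin N) (Fin N) ℝ) (hG : (Matrix.of fun a c : Fin N => (h a c : ℝ)) * G = 1)
    (i j : Fin N) (q : ℚ) (hq : G i j = q) : ratH q < 2 ^ (10 * (s + 1) ^ 4) := by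
  obtain ⟨Δ, hΔ⟩ : ∃ Δ : ℕ, Δ = ∏ p : Fin N × Fin N, (h p.1 p.2).den := ⟨_, rfl⟩
  have hΔ0 : Δ ≠ 0 := hΔ ▸ Finset.prod_ne_zero_iff.2 fun p _ => Rat.den_nz _
  have hΔle : Δ ≤ 2 ^ (s * s * s) := by
    have h1 := Finset.prod_le_pow_card Finset.univ (fun p : Fin N × Fin N => (h p.1 p.2).den) (2 ^ s)
      fun p _ => le_trans (Nat.le_add_left _ _) (hs p.1 p.2)
    rw [← hΔ, Finset.card_univ, Fintype.card_prod, Fintype.card_fin, ← pow_mul] at h1
    refine h1.trans (Nat.pow_le_pow_right (by norm_num) ?_)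
    rw [mul_assoc]
    exact Nat.mul_le_mul_left _ (Nat.mul_le_mul hN hN)
  have hdvd : ∀ a c : Fin N, (h a c).den ∣ Δ := fun a c =>
    hΔ ▸ Finset.dvd_prod_of_mem (fun p : Fin N × Fin N => (h p.1 p.2).den) (Finset.mem_univ (a, c))
  obtain ⟨z, D, h1, h2, h3⟩ := sweep_cramer _ G hG Δ hΔ0
    (Matrix.of fun a c : Fin N => ((Δ / (h a c).den : ℕ) : ℤ) * (h a c).num) (fun a c => by
      obtain ⟨t, ht⟩ := hdvd a c
      have hd : ((h a c).den : ℝ) ≠ 0 := by exact_mod_cast Rat.den_nz _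
      rw [of_apply, of_apply, ht, Nat.mul_div_cancel_left _ (h a c).den_pos, Rat.cast_def]
      push_cast
      field_simp) (2 ^ (s * s * s + s)) Nat.one_le_two_pow (fun a c => by
      rw [of_apply, abs_mul, Nat.abs_cast, ← Int.natCast_natAbs, ← Nat.cast_mul, Nat.cast_le, pow_add]
      exact Nat.mul_le_mul ((Nat.div_le_self _ _).trans hΔle)
        (le_trans (Nat.le_add_right _ _) (hs a c))) i j
  rw [Fintype.card_fin] at h2 h3
  have h4 : N.factorial * (2 ^ (s * s * s + s)) ^ N ≤ 2 ^ (s * s + (s * s * s + s) * s) := by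
    rw [pow_add 2 (s * s), pow_mul 2 s s, pow_mul 2 _ s]
    refine Nat.mul_le_mul ((Nat.factorial_le_pow N).trans ?_) (Nat.pow_le_pow_right (by positivity) hN)
    exact (Nat.pow_le_pow_left (hN.trans Nat.lt_two_pow_self.le) _).trans
      (Nat.pow_le_pow_right (by positivity) hN)
  have h5 : z.natAbs ≤ 2 ^ (s * s * s + (s * s + (s * s * s + s) * s)) := by
    rw [pow_add]
    exact h2.trans (Nat.mul_le_mul hΔle h4)
  have h6 := h3.trans h4
  have e : q = (z : ℚ) / (D : ℚ) := by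
    rw [hq] at h1
    exact_mod_cast h1
  have hp : ∀ a k : ℕ, a ≤ 2 ^ k → a + 1 ≤ 2 ^ (k + 1) := fun a k hk => by
    have : 0 < 2 ^ k := by positivity
    rw [pow_succ]; omega
  rw [e]
  refine (ratH_div_le _ _).trans_lt ?_
  rw [ratH_intCast, ratH_intCast]
  refine (Nat.mul_le_mul (hp _ _ h5) (hp _ _ h6)).trans_lt ?_
  rw [← pow_add]
  refine Nat.pow_lt_pow_right (by norm_num) ?_
  ring_nf
  omega

theorem sweep_ratH_mg (C : Mat) (a c : ℕ) : ratH (mg C a c) ≤ 2 ^ sz C := by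
  unfold mg
  rcases lt_or_ge a C.length with ha | ha
  · rw [List.getD_eq_getElem _ _ ha]
    rcases lt_or_ge c C[a].length with hc | hc
    · rw [List.getD_eq_getElem _ _ hc]
      exact (ratH_lt_two_pow_sz _).le.trans (Nat.pow_le_pow_right (by norm_num)
        ((sz_le_of_mem (List.getElem_mem hc)).trans (sz_le_of_mem (List.getElem_mem ha))))
    · rw [List.getD_eq_default _ _ hc]; exact Nat.one_le_two_pow
  · rw [List.getD_eq_default _ _ ha]; exact Nat.one_le_two_pow

/-! ### The algorithm -/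

/-- symmetrised entries -/
def sweepE (C : Mat) (a c : ℕ) : ℚ := mg C (min a c) (max a c)
def sweepB (C : Mat) (j : ℕ) : Vec := mkV C.length fun a => if a < j then sweepE C a j else 0
def sweepS (C G : Mat) (j : ℕ) : ℚ := sweepE C j j - bil C.length G (sweepB C j) (sweepB C j)
def sweepV (C G : Mat) (j : ℕ) : Vec :=
  mkV C.length fun a => (if a = j then 1 else 0) - ∑ l ∈ range C.length, mg G a l * vg (sweepB C j) l
def sweepG (C G : Mat) (j : ℕ) : Mat :=
  mkM C.length fun a c => mg G a c - (if a = j then 1 else 0) * (if c = j then 1 else 0) +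
    (sweepS C G j)⁻¹ * (vg (sweepV C G j) a * vg (sweepV C G j) c)
def sweepStep (C : Mat) (p : Mat × ℕ) : Mat × ℕ :=
  if p.2 < C.length ∧ 0 < sweepS C p.1 p.2 then (sweepG C p.1 p.2, p.2 + 1) else p
def sweepInit (C : Mat) : Mat × ℕ := (mkM C.length fun a c => if a = c then 1 else 0, 0)
def sweepRun (C : Mat) : Mat × ℕ := (sweepStep C)^[C.length] (sweepInit C)

theorem sweepE_symm (C : Mat) (a c : ℕ) : (sweepE C a c : ℝ) = sweepE C c a := by
  rw [sweepE, sweepE, min_comm, max_comm]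

theorem sweep_toV_B (C : Mat) (j : ℕ) :
    toV C.length (sweepB C j) = sweepBor C.length (fun a c => sweepE C a c) j := by
  rw [sweepB, toV_mkV]
  funext a
  simp only [sweepBor]
  split_ifs <;> simp

theorem sweep_cast_S (C G : Mat) (j : ℕ) : (sweepS C G j : ℝ) = sweepE C j j -
    sweepBor C.length (fun a c => sweepE C a c) j ⬝ᵥ
      toM C.length G *ᵥ sweepBor C.length (fun a c => sweepE C a c) j := by
  rw [sweepS, Rat.cast_sub, cast_bil, sweep_toV_B]

theorem sweep_toV_V (C G : Mat) (j : ℕ) : toV C.length (sweepV C G j) =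
    ev C.length j - toM C.length G *ᵥ sweepBor C.length (fun a c => sweepE C a c) j := by
  rw [sweepV, toV_mkV, ← sweep_toV_B]
  funext a
  simp only [Pi.sub_apply, ev, mulVec, dotProduct, toM, toV, of_apply, Finset.sum_range]
  push_cast
  split_ifs <;> simp

theorem sweep_toM_G (C G : Mat) (j : ℕ) : toM C.length (sweepG C G j) =
    toM C.length G - op (ev C.length j) +
      (sweepS C G j : ℝ)⁻¹ • op (toV C.length (sweepV C G j)) := by
  rw [sweepG, toM_mkM]
  ext a c
  simp only [of_apply, Matrix.add_apply, Matrix.sub_apply, Matrix.smul_apply, op, vecMulVec_apply, ev,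
    toM, toV, smul_eq_mul]
  push_cast
  split_ifs <;> simp

/-- the invariant -/
def SweepInv (C : Mat) (k : ℕ) (p : Mat × ℕ) : Prop :=
  p.2 ≤ C.length ∧ (∃ g, p.1 = mkM C.length g) ∧
    PD (sweepLead C.length (fun a c => sweepE C a c) p.2) ∧
    sweepLead C.length (fun a c => sweepE C a c) p.2 * toM C.length p.1 = 1 ∧
    (k ≤ p.2 ∨ ¬ (p.2 < C.length ∧ 0 < sweepS C p.1 p.2))

theorem sweepInv_init (C : Mat) : SweepInv C 0 (sweepInit C) := by
  refine ⟨Nat.zero_le _, ⟨_, rfl⟩, ?_, ?_, Or.inl (Nat.zero_le _)⟩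
  · simp only [sweepInit, sweepLead_zero]
    refine ⟨isSymm_one, fun x hx => ?_⟩
    rw [qf_one]
    exact lt_of_le_of_ne (Finset.sum_nonneg fun i _ => mul_self_nonneg (x i))
      fun h => hx (dotProduct_self_eq_zero.1 h.symm)
  · simp only [sweepInit, sweepLead_zero, Matrix.one_mul, toM_mkM]
    ext a c
    simp only [of_apply, one_apply, Fin.ext_iff]
    split_ifs <;> simp

theorem sweepInv_step {C : Mat} {k : ℕ} {p : Mat × ℕ} (h : SweepInv C k p) :
    SweepInv C (k + 1) (sweepStep C p) := by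
  obtain ⟨h1, h2, h3, h4, h5⟩ := h
  unfold sweepStep
  split_ifs with hc
  · obtain ⟨-, -, h6⟩ := sweep_step (sweepE_symm C) hc.1 h3 h4
    rw [← sweep_toV_V, ← sweep_cast_S, ← sweep_toM_G] at h6
    obtain ⟨h7, h8⟩ := h6 (by exact_mod_cast hc.2)
    exact ⟨hc.1, ⟨_, rfl⟩, h7, h8, Or.inl (Nat.succ_le_succ (h5.resolve_right (not_not.2 hc)))⟩
  · exact ⟨h1, h2, h3, h4, Or.inr hc⟩

theorem sweepInv_iter (C : Mat) (k : ℕ) : SweepInv C k ((sweepStep C)^[k] (sweepInit C)) := by
  induction k with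
  | zero => exact sweepInv_init C
  | succ k ih => rw [Function.iterate_succ_apply']; exact sweepInv_step ih

theorem sweepInv_sz {C : Mat} {k : ℕ} {p : Mat × ℕ} (h : SweepInv C k p) :
    sz p ≤ sz C * (sz C * (80 * (sz C + 1) ^ 4 + 8) + 2) + 4 * sz C + 3 := by
  obtain ⟨h1, ⟨g, hg⟩, -, h4, -⟩ := h
  have hN : C.length ≤ sz C := by have := length_le_sz C; omega
  have hs : 1 ≤ sz C := one_le_sz C
  have e : sweepLead C.length (fun a c => sweepE C a c) p.2 = Matrix.of fun a c : Fin C.length =>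
      (((fun a c : ℕ => if a < p.2 ∧ c < p.2 then sweepE C a c else if a = c then 1 else 0) a c : ℚ) : ℝ) := by
    ext a c
    simp only [sweepLead, of_apply]
    split_ifs <;> simp
  rw [e, hg, toM_mkM] at h4
  have h5 : ∀ a < C.length, ∀ c < C.length, sz (g a c) ≤ 80 * (sz C + 1) ^ 4 + 7 := by
    intro a ha c hc
    have := sz_rat_le_of_lt (sweep_height hN
      (fun a c : ℕ => if a < p.2 ∧ c < p.2 then sweepE C a c else if a = c then 1 else 0) (fun a c => by
      split_ifs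
      · exact sweep_ratH_mg C _ _
      · exact (pow_one 2).symm.le.trans (Nat.pow_le_pow_right (by norm_num) hs)
      · exact Nat.one_le_two_pow) _ h4 ⟨a, ha⟩ ⟨c, hc⟩ (g a c) rfl)
    omega
  have h6 : sz p.1 ≤ C.length * (C.length * (80 * (sz C + 1) ^ 4 + 7 + 1) + 1 + 1) + 1 := by
    rw [hg]
    refine (sz_list_le fun r hr => ?_).trans (by rw [length_mkM])
    obtain ⟨a, ha, rfl⟩ := List.mem_map.1 hr
    refine (sz_list_le fun q hq => ?_).trans (by rw [List.length_map, List.length_range])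
    obtain ⟨c, hc, rfl⟩ := List.mem_map.1 hq
    exact h5 a (List.mem_range.1 ha) c (List.mem_range.1 hc)
  have h7 : C.length * (C.length * (80 * (sz C + 1) ^ 4 + 7 + 1) + 1 + 1) ≤
      sz C * (sz C * (80 * (sz C + 1) ^ 4 + 8) + 2) :=
    Nat.mul_le_mul hN (Nat.add_le_add_right (Nat.mul_le_mul_right _ hN) 2)
  have h8 := sz_nat_le_self p.2
  rw [sz_prod]
  omega

section pt
variable {α : Type} [Enc α] {C G : α → Mat} {a c j : α → ℕ}

@[fun_prop] theorem sweepE_pt (hC : PT C) (ha : PT a) (hc : PT c) :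
    PT fun x => sweepE (C x) (a x) (c x) := by
  unfold sweepE; fun_prop
@[fun_prop] theorem sweepB_pt (hC : PT C) (hj : PT j) : PT fun x => sweepB (C x) (j x) :=
  mkV_pt (by fun_prop) (by fun_prop) (by fun_prop)
@[fun_prop] theorem sweepS_pt (hC : PT C) (hG : PT G) (hj : PT j) :
    PT fun x => sweepS (C x) (G x) (j x) := by
  unfold sweepS; fun_prop
@[fun_prop] theorem sweepV_pt (hC : PT C) (hG : PT G) (hj : PT j) :
    PT fun x => sweepV (C x) (G x) (j x) :=
  mkV_pt (by fun_prop) (by fun_prop) (by fun_prop)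
@[fun_prop] theorem sweepG_pt (hC : PT C) (hG : PT G) (hj : PT j) :
    PT fun x => sweepG (C x) (G x) (j x) :=
  mkM_pt (by fun_prop) (by fun_prop) (by fun_prop)

end pt

theorem sweepRun_pt : PT sweepRun := by
  refine PT.iterate (by fun_prop) (by fun_prop) ?_ ?_
    (B := fun C => sz C * (sz C * (80 * (sz C + 1) ^ 4 + 8) + 2) + 4 * sz C + 3) (by fun_prop)
    fun C k _ => sweepInv_sz (sweepInv_iter C k)
  · exact PT.pair (mkM_pt (by fun_prop) (by fun_prop) (by fun_prop)) (by fun_prop)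
  · unfold sweepStep; fun_prop

/-- Bordering.  Let `N = C.length`, `M = toM N C`, and let `M^(k)` agree with `M` on the leading `k × k`
block and with the identity elsewhere.  The state after `k` rounds is either `(G, [], true)` with
`G = (M^(k))⁻¹` and `M^(k)` positive definite, or `(_, v, false)` with `v ≠ 0`, `vᵀ M v ≤ 0` (then it is
kept).  Round `k`: let `b i = M i k` for `i < k` (else `0`), `y = G b`, `σ = M k k - b ⬝ y`,
`v = e_k - y`; then `vᵀ M v = σ`.  If `σ ≤ 0` fail with `v`.  Otherwise the new inverse is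
`G - e_k e_kᵀ + v vᵀ / σ` (check by multiplying; for positivity write `x = x_k v + x'` with `x'_k = 0`:
`qf M^(k+1) x = σ x_k² + qf M^(k) x'`).

Size bound for `PT.iterate_inv` / `PT.foldl_inv`: use an invariant that does not need symmetry
(`M^(k) G = 1`, or replace `C` by its symmetrisation at the start, or clamp the state by a size test
as in `R62.nextC`); the entries of an inverse of a rational matrix are quotients of determinants of
the integer matrix `Δ • M^(k)`, `Δ` = product of all denominators (`Crest.Agent.R62.size_cramer` in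
`R62/Size.lean` is that bound; copy it rather than import it). -/
theorem exists_sweep : ∃ sw : Mat → Mat × Vec × Bool, PT sw ∧ ∀ C : Mat,
    (toM C.length C).IsSymm →
      ((sw C).2.2 = true → PD (toM C.length C) ∧ toM C.length (sw C).1 = (toM C.length C)⁻¹) ∧
      ((sw C).2.2 = false → toV C.length (sw C).2.1 ≠ 0 ∧
        qf (toM C.length C) (toV C.length (sw C).2.1) ≤ 0) := by
  refine ⟨fun C => ((sweepRun C).1, sweepV C (sweepRun C).1 (sweepRun C).2,
    decide (C.length ≤ (sweepRun C).2)), ?_, fun C hC => ?_⟩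
  · have := sweepRun_pt
    generalize sweepRun = R at this
    fun_prop
  have e : toM C.length C = Matrix.of fun a c : Fin C.length => (sweepE C a c : ℝ) := by
    ext a c
    rcases le_total (a : ℕ) c with h | h
    · simp only [toM, of_apply, sweepE, min_eq_left h, max_eq_right h]
    · rw [← hC.apply a c]
      simp only [toM, of_apply, sweepE, min_eq_right h, max_eq_left h]
  obtain ⟨h1, -, h3, h4, h5⟩ : SweepInv C C.length (sweepRun C) := sweepInv_iter C _
  refine ⟨fun h => ?_, fun h => ?_⟩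
  · have h6 : (sweepRun C).2 = C.length := le_antisymm h1 (of_decide_eq_true h)
    rw [h6, sweepLead_top, ← e] at h3 h4
    exact ⟨h3, (inv_eq_right_inv h4).symm⟩
  · have h6 : (sweepRun C).2 < C.length := not_le.1 (of_decide_eq_false h)
    obtain ⟨h7, h8, -⟩ := sweep_step (sweepE_symm C) h6 h3 h4
    rw [← sweep_toV_V] at h7 h8
    rw [← sweep_cast_S, ← e] at h8
    refine ⟨h7, h8.le.trans ?_⟩
    have h9 := not_and.1 (h5.resolve_left (not_le.2 h6)) h6
    exact_mod_cast not_lt.1 h9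

end Crest.Agent.R37
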