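import Crest.Agent.R37.OptM
import Crest.Agent.R37.Sweep
import Crest.Agent.R37.SP

/-!
# R37/OptA: computing a near-stationary point
-/

set_option autoImplicit false
open Finset Matrix

namespace Crest.Agent.R37

open Crest.Agent.Lib.PT

abbrev opta_In := Un × Un × Gr × List ℕ × List ℕ

section defs
variable (sw : Mat → Mat × Vec × Bool) (sp : Un × Gr × List ℕ × Vec × ℕ × ℕ → List ℕ)

def opta_P (x : opta_In) : ℕ := 2 * x.2.1.n + 3

def opta_tau (x : opta_In) : ℚ := ((opta_P x ^ 8 : ℕ) : ℚ)⁻¹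

def opta_D (x : opta_In) (C : Mat) : Mat :=
  sumOp x.1.n (x.2.2.2.1.map (fun e => (1, bvL x.1.n (src x.2.2.1 e) (tgt x.2.2.1 e))) ++ [(1, evL x.1.n 0)] ++
    (List.range x.1.n).flatMap fun u => (List.range x.1.n).map fun v => (mg C u v, bvL x.1.n u v))

def opta_F (x : opta_In) (st : Mat × Vec) : ℚ :=
  (x.2.2.2.1.map fun e => (x.2.2.2.2.getD e 0 : ℚ) * bil x.1.n (sw (opta_D x st.1)).1
    (bvL x.1.n (src x.2.2.1 e) (tgt x.2.2.1 e)) (bvL x.1.n (src x.2.2.1 e) (tgt x.2.2.1 e))).sum +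
  (x.2.2.2.1.map fun a => 1 / (1 - vg st.2 a)).sum

def opta_l (x : opta_In) (g : Vec) : Vec := mkV x.2.2.1.length fun a => 1 / (1 - vg g a) ^ 2

def opta_sc (x : opta_In) (st : Mat × Vec) : Mat × Vec :=
  (mkM x.1.n fun u v => (1 - opta_tau x) * mg st.1 u v, mkV x.2.2.1.length fun a => (1 - opta_tau x) * vg st.2 a)

def opta_mv (x : opta_In) (st : Mat × Vec) (u v : ℕ) (W : List ℕ) : Mat × Vec :=
  (mkM x.1.n fun a b => mg st.1 a b + if a = u ∧ b = v then opta_tau x else 0,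
    mkV x.2.2.1.length fun a => vg st.2 a + opta_tau x * (min (W.count a) x.1.n : ℕ))

def opta_cs (x : opta_In) (st : Mat × Vec) : List (Mat × Vec) :=
  opta_sc x st :: (List.range x.1.n).flatMap fun u => (List.range x.1.n).map fun v =>
    opta_mv x st u v (sp (x.1, x.2.2.1, x.2.2.2.1, opta_l x st.2, u, v))

def opta_step (x : opta_In) (st : Mat × Vec) : Mat × Vec :=
  ((opta_cs sp x st).find? fun c =>
    decide (opta_F sw x c ≤ opta_F sw x st - ((opta_P x ^ 10 : ℕ) : ℚ)⁻¹)).getD st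

def opta_init (x : opta_In) : Mat × Vec := (mkM x.1.n fun _ _ => 0, mkV x.2.2.1.length fun _ => 0)

end defs

section pt
variable {α : Type} [Enc α] {x : α → opta_In} {st : α → Mat × Vec} {sw : Mat → Mat × Vec × Bool}
  {sp : Un × Gr × List ℕ × Vec × ℕ × ℕ → List ℕ}

@[fun_prop] theorem opta_P_pt (hx : PT x) : PT fun a => opta_P (x a) := by
  unfold opta_P; fun_prop
@[fun_prop] theorem opta_P_pb (hx : PT x) : PB fun a => opta_P (x a) := by
  unfold opta_P; fun_prop
attribute [local irreducible] opta_P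
@[fun_prop] theorem opta_tau_pt (hx : PT x) : PT fun a => opta_tau (x a) := by
  unfold opta_tau; fun_prop
attribute [local irreducible] opta_tau sumOp bil bvL evL mkM mkV mg vg src tgt
@[fun_prop] theorem opta_D_pt {C : α → Mat} (hx : PT x) (hC : PT C) : PT fun a => opta_D (x a) (C a) :=
  sumOp_pt (by fun_prop) (by fun_prop) (PT.append (PT.append (PT.map (by fun_prop) (by fun_prop)) (by fun_prop))
    (PT.flatMap (by fun_prop) (PT.map (by fun_prop) (by fun_prop))))
attribute [local irreducible] opta_D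
theorem opta_F_pt (hsw : PT sw) (hx : PT x) (hs : PT st) : PT fun a => opta_F sw (x a) (st a) := by
  have h : PT fun p : opta_In × Mat × Vec => (p.1.2.2.2.1.map fun e => (p.1.2.2.2.2.getD e 0 : ℚ) * bil p.1.1.n p.2.1
      (bvL p.1.1.n (src p.1.2.2.1 e) (tgt p.1.2.2.1 e)) (bvL p.1.1.n (src p.1.2.2.1 e) (tgt p.1.2.2.1 e))).sum +
      (p.1.2.2.2.1.map fun a => 1 / (1 - vg p.2.2 a)).sum := by fun_prop
  exact h.comp_eq (fun a => (x a, (sw (opta_D (x a) (st a).1)).1, (st a).2))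
    (hx.pair ((hsw.comp (opta_D_pt hx hs.fst)).fst.pair hs.snd))
@[fun_prop] theorem opta_l_pt {g : α → Vec} (hx : PT x) (hg : PT g) : PT fun a => opta_l (x a) (g a) :=
  mkV_pt (by fun_prop) (by fun_prop) (by fun_prop)
theorem opta_sc_pt (hx : PT x) (hs : PT st) : PT fun a => opta_sc (x a) (st a) :=
  PT.pair (mkM_pt (by fun_prop) (by fun_prop) (by fun_prop)) (mkV_pt (by fun_prop) (by fun_prop) (by fun_prop))
theorem opta_mv_pt {u v : α → ℕ} {W : α → List ℕ} (hx : PT x) (hs : PT st) (hu : PT u) (hv : PT v)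
    (hW : PT W) : PT fun a => opta_mv (x a) (st a) (u a) (v a) (W a) :=
  PT.pair (mkM_pt (by fun_prop) (by fun_prop) (by fun_prop)) (mkV_pt (by fun_prop) (by fun_prop) (by fun_prop))
theorem opta_cs_pt (hsp : PT sp) (hx : PT x) (hs : PT st) : PT fun a => opta_cs sp (x a) (st a) :=
  PT.cons (opta_sc_pt hx hs) (PT.flatMap (by fun_prop) (PT.map (by fun_prop)
    (opta_mv_pt (by fun_prop) (by fun_prop) (by fun_prop) (by fun_prop) (by fun_prop))))
theorem opta_step_pt (hsw : PT sw) (hsp : PT sp) (hx : PT x) (hs : PT st) :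
    PT fun a => opta_step sw sp (x a) (st a) := by
  have h2 : PT fun p : α × Mat × Vec => opta_F sw (x p.1) p.2 := opta_F_pt hsw (hx.comp PT.id.fst) PT.id.snd
  have h3 : PT fun p : α × Mat × Vec => opta_F sw (x p.1) (st p.1) :=
    opta_F_pt hsw (hx.comp PT.id.fst) (hs.comp PT.id.fst)
  have h4 : PT fun p : α × Mat × Vec => ((opta_P (x p.1) ^ 10 : ℕ) : ℚ)⁻¹ := by fun_prop
  exact PT.option_getD (PT.find? (f := fun a c => decide (opta_F sw (x a) c ≤ opta_F sw (x a) (st a) -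
    ((opta_P (x a) ^ 10 : ℕ) : ℚ)⁻¹)) (opta_cs_pt hsp hx hs) (PT.decide (h2.rat_le (h3.rat_sub h4)))) hs

theorem opta_iter_pt (hsw : PT sw) (hsp : PT sp) {I : opta_In → ℕ → Mat × Vec → Prop}
    (h0 : ∀ x, I x 0 (opta_init x)) (h1 : ∀ x k c, I x k c → I x (k + 1) (opta_step sw sp x c))
    {B : opta_In → ℕ} (hB : PB B) (h2 : ∀ x k c, k ≤ opta_P x ^ 11 + 1 → I x k c → sz c ≤ B x) :
    PT fun x => (opta_step sw sp x)^[opta_P x ^ 11 + 1] (opta_init x) :=
  PT.iterate_inv I (by fun_prop) (by fun_prop) (PT.pair (mkM_pt (by fun_prop) (by fun_prop) (by fun_prop))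
    (mkV_pt (by fun_prop) (by fun_prop) (by fun_prop))) h0 (fun x k c _ => h1 x k c)
    ((opta_step_pt hsw hsp PT.id.fst PT.id.snd).restrict _) hB h2

end pt

theorem opta_vg (N i : ℕ) (f : ℕ → ℚ) : vg (mkV N f) i = if i < N then f i else 0 := by
  split_ifs with h
  · exact vg_mkV f h
  · simp [vg, mkV, List.getD_eq_getElem?_getD, h]

theorem opta_mg (N k l : ℕ) (f : ℕ → ℕ → ℚ) : mg (mkM N f) k l = if k < N ∧ l < N then f k l else 0 := by
  split_ifs with h
  · exact mg_mkM f h.1 h.2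
  · by_cases hk : k < N
    · simp [mg, mkM, List.getD_eq_getElem?_getD, hk, (show ¬ l < N from fun h' => h ⟨hk, h'⟩)]
    · simp [mg, mkM, List.getD_eq_getElem?_getD, hk]

theorem opta_mem {sp : Un × Gr × List ℕ × Vec × ℕ × ℕ → List ℕ} {x : opta_In} {st c : Mat × Vec} :
    c ∈ opta_cs sp x st ↔ c = opta_sc x st ∨ ∃ u < x.1.n, ∃ v < x.1.n,
      opta_mv x st u v (sp (x.1, x.2.2.1, x.2.2.2.1, opta_l x st.2, u, v)) = c := by
  simp [opta_cs]

theorem opta_step_cases (sw : Mat → Mat × Vec × Bool) (sp : Un × Gr × List ℕ × Vec × ℕ × ℕ → List ℕ)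
    (x : opta_In) (st : Mat × Vec) :
    (opta_step sw sp x st = st ∧ ∀ c ∈ opta_cs sp x st,
      opta_F sw x st - ((opta_P x ^ 10 : ℕ) : ℚ)⁻¹ < opta_F sw x c) ∨
    (opta_step sw sp x st ∈ opta_cs sp x st ∧
      opta_F sw x (opta_step sw sp x st) ≤ opta_F sw x st - ((opta_P x ^ 10 : ℕ) : ℚ)⁻¹) := by
  unfold opta_step
  rcases h : (opta_cs sp x st).find? _ with _ | c
  · exact Or.inl ⟨rfl, fun c hc => by simpa using List.find?_eq_none.1 h c hc⟩
  · exact Or.inr ⟨List.mem_of_find?_eq_some h, by simpa using List.find?_some h⟩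

def opta_K (x : opta_In) : ℕ := 2 * (opta_P x ^ 8 + 1) * (x.1.n + 1)

def opta_I (x : opta_In) (k : ℕ) (st : Mat × Vec) : Prop :=
  ∃ f g, st = (mkM x.1.n f, mkV x.2.2.1.length g) ∧ (∀ i j, ratH (f i j) ≤ opta_K x ^ k) ∧
    ∀ a, ratH (g a) ≤ opta_K x ^ k

theorem opta_I_step (sw : Mat → Mat × Vec × Bool) (sp : Un × Gr × List ℕ × Vec × ℕ × ℕ → List ℕ)
    (x : opta_In) (k : ℕ) (st : Mat × Vec) (h : opta_I x k st) : opta_I x (k + 1) (opta_step sw sp x st) := by
  obtain ⟨f, g, e, hf, hg⟩ := h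
  have K1 : 1 ≤ opta_K x := Nat.succ_le_of_lt (by unfold opta_K; positivity)
  have K2 : 1 ≤ opta_K x ^ k := Nat.one_le_pow _ _ K1
  have h1 : ∀ i j, ratH (mg st.1 i j) ≤ opta_K x ^ k := fun i j => by
    rw [e, opta_mg]
    split_ifs
    exacts [hf i j, K2]
  have h2 : ∀ i, ratH (vg st.2 i) ≤ opta_K x ^ k := fun i => by
    rw [e, opta_vg]
    split_ifs
    exacts [hg i, K2]
  have h3 : ratH (opta_tau x) ≤ opta_P x ^ 8 + 1 := (ratH_inv_le _).trans_eq (ratH_natCast _)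
  have h4 : ratH (1 - opta_tau x) ≤ opta_K x := (ratH_sub_le _ _).trans (by rw [ratH_one, opta_K]; nlinarith)
  rcases opta_step_cases sw sp x st with ⟨h5, -⟩ | ⟨h5, -⟩
  · have h6 : opta_K x ^ k ≤ opta_K x ^ (k + 1) := Nat.pow_le_pow_right K1 k.le_succ
    exact ⟨f, g, h5.trans e, fun i j => (hf i j).trans h6, fun a => (hg a).trans h6⟩
  rcases opta_mem.1 h5 with h6 | ⟨u, -, v, -, h6⟩
  · exact ⟨_, _, h6, fun i j => (ratH_mul_le _ _).trans ((Nat.mul_le_mul h4 (h1 i j)).trans_eq (pow_succ' _ k).symm),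
      fun i => (ratH_mul_le _ _).trans ((Nat.mul_le_mul h4 (h2 i)).trans_eq (pow_succ' _ k).symm)⟩
  · refine ⟨_, _, h6.symm, fun i j => (ratH_add_le _ _).trans (Nat.mul_le_mul (h1 i j) ?_),
      fun i => (ratH_add_le _ _).trans (Nat.mul_le_mul (h2 i) ((ratH_mul_le _ _).trans ?_))⟩
    · split_ifs
      · exact h3.trans (by rw [opta_K]; nlinarith)
      · exact K1
    · rw [ratH_natCast, opta_K]
      exact Nat.mul_le_mul (by omega) (by omega)

theorem opta_I_sz (x : opta_In) (k N : ℕ) (hk : k ≤ N) (st : Mat × Vec) (h : opta_I x k st) :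
    sz st ≤ (x.1.n * (x.1.n * (8 * (opta_K x * N + 1) + 7 + 1) + 1 + 1) + 1) +
      (x.2.2.1.length * (8 * (opta_K x * N + 1) + 7 + 1) + 1) + 1 := by
  obtain ⟨f, g, rfl, hf, hg⟩ := h
  have h0 : opta_K x ^ k < 2 ^ (opta_K x * N + 1) :=
    calc _ ≤ (2 ^ opta_K x) ^ k := Nat.pow_le_pow_left Nat.lt_two_pow_self.le k
      _ < _ := by
        rw [← pow_mul]
        exact Nat.pow_lt_pow_right one_lt_two (Nat.lt_succ_of_le (Nat.mul_le_mul_left _ hk))
  have h1 : ∀ (M : ℕ) (g : ℕ → ℚ), (∀ a, ratH (g a) ≤ opta_K x ^ k) →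
      sz (mkV M g) ≤ M * (8 * (opta_K x * N + 1) + 7 + 1) + 1 := fun M g hg => by
    refine (sz_list_le fun a ha => ?_).trans_eq (by rw [length_mkV])
    obtain ⟨i, -, rfl⟩ := List.mem_map.1 ha
    exact sz_rat_le_of_lt ((hg i).trans_lt h0)
  rw [sz_mk]
  refine Nat.succ_le_succ (add_le_add ((sz_list_le fun a ha => ?_).trans_eq (by rw [length_mkM])) (h1 _ g hg))
  obtain ⟨i, -, rfl⟩ := List.mem_map.1 ha
  exact h1 _ _ (hf i)

theorem opta_toM (n Z : ℕ) (E : Gr) {F : List ℕ} (lam : List ℕ) (hF : F.Nodup) (C : Mat) :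
    toM n (opta_D (⟨n⟩, ⟨Z⟩, E, F, lam) C) = Dm n (src E) (tgt E) F.toFinset fun u v => mg C u v := by
  have h : ∀ g : ℕ → Matrix (Fin n) (Fin n) ℝ, ((List.range n).map g).sum = ∑ u ∈ range n, g u := fun _ => rfl
  simp only [opta_D, toM_sumOp, List.map_append, List.sum_append, List.map_map, Function.comp_def, toV_bvL, toV_evL,
    Rat.cast_one, one_smul, List.map_cons, List.map_nil, List.sum_cons, List.sum_nil, add_zero, Dm, glap, lap,
    Finset.sum_singleton, List.sum_toFinset _ hF, List.flatMap_def, List.map_flatten, List.sum_flatten, h]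

theorem opta_cast {sw : Mat → Mat × Vec × Bool} (hsw : ∀ C : Mat, (toM C.length C).IsSymm →
      ((sw C).2.2 = true → PD (toM C.length C) ∧ toM C.length (sw C).1 = (toM C.length C)⁻¹) ∧
      ((sw C).2.2 = false → toV C.length (sw C).2.1 ≠ 0 ∧ qf (toM C.length C) (toV C.length (sw C).2.1) ≤ 0))
    {n : ℕ} (Z : ℕ) {E : Gr} {F : List ℕ} (lam : List ℕ) (hF : F.Nodup) (hW : WF (src E) (tgt E) n F.toFinset)
    (hPC : PC (src E) (tgt E) 1 F.toFinset (range n)) {st : Mat × Vec} (hc : ∀ u v, (0 : ℝ) ≤ mg st.1 u v) :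
    (opta_F sw (⟨n⟩, ⟨Z⟩, E, F, lam) st : ℝ) = Fv n (src E) (tgt E) F.toFinset (fun e => lam.getD e 0)
      (fun u v => mg st.1 u v) fun a => vg st.2 a := by
  have h1 : ∀ (n : ℕ) (D : Mat), D.length = n → PD (toM n D) → toM n (sw D).1 = (toM n D)⁻¹ := by
    rintro _ D rfl h
    rcases h2 : (sw D).2.2 with _ | _
    · obtain ⟨h3, h4⟩ := (hsw D h.1).2 h2
      exact absurd (h.2 _ h3) h4.not_gt
    · exact ((hsw D h.1).1 h2).2
  have h2 := h1 n (opta_D (⟨n⟩, ⟨Z⟩, E, F, lam) st.1) (length_sumOp _ _)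
    (by rw [opta_toM n Z E lam hF]; exact pd_Dm hW hPC hc)
  rw [opta_toM n Z E lam hF] at h2
  simp only [opta_F, Fv, List.sum_toFinset _ hF, Rat.cast_add, Rat.cast_list_sum, List.map_map, Function.comp_def,
    Rat.cast_mul, cast_bil, h2, toV_bvL, Rat.cast_natCast, Rat.cast_div, Rat.cast_sub, Rat.cast_one, res, qf]

/-- Local search.  State `(C, g) : Mat × Vec` (`C = mkM n _`, `g = mkV E.length _`; edges of `F` are below
`E.length` by `WF`), start at zero.  `P = 2 Z + 3`, `τ = 1 / P^8`.  The exact value `Fv` is computed over `ℚ`: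
`Dm` is `toM n (sumOp n _)` (`toM_sumOp`, `toV_bvL`, `toV_evL`), its inverse comes from `exists_sweep`
(it succeeds by `pd_Dm`), `res` is `bil` (`cast_bil`).  Candidates: the state itself, the scaled state, and for
`u, v < n` the move along `sp (n, E, F, ℓ, u, v)` with `ℓ a = 1 / (1 - g a)²`.  All are `Valid`
(`move_path`, `move_scale`); go to one with least `Fv` (`List.argmin`).  If the state is not `NS (1/Z)`, then
with the metric `d` of `exists_sp` one of the two last conditions fails and some candidate gains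
`τ / Z - τ² P^6 ≥ 1 / P^10`.  As `0 ≤ Fv ≤ P`, not all of `P^11 + 1` rounds gain that much; to make the final state
near-stationary move only when the best candidate gains at least `1 / P^10` (then a state without such a
candidate is fixed).  Sizes: after `i` rounds every entry has `ratH ≤ (4 P^8 (n + 1))^i`, on all inputs
(clamp `W.count a` by `n`, or use `ratH_add_le`, `ratH_mul_le` and `PB` of the length of `W`). -/
theorem exists_opt : ∃ opt : Un × Un × Gr × List ℕ × List ℕ → Mat × Vec, PT opt ∧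
    ∀ (n Z : ℕ) (E : Gr) (F lam : List ℕ), F.Nodup → WF (src E) (tgt E) n F.toFinset →
      PC (src E) (tgt E) 1 F.toFinset (range n) → 1 ≤ Z → n ≤ Z → F.length ≤ Z →
      ∑ e ∈ F.toFinset, lam.getD e 0 ≤ Z →
      Valid n (src E) (tgt E) F.toFinset (fun u v => mg (opt (⟨n⟩, ⟨Z⟩, E, F, lam)).1 u v)
        (fun a => vg (opt (⟨n⟩, ⟨Z⟩, E, F, lam)).2 a) ∧
      NS n (src E) (tgt E) F.toFinset (fun e => lam.getD e 0)
        (fun u v => mg (opt (⟨n⟩, ⟨Z⟩, E, F, lam)).1 u v)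
        (fun a => vg (opt (⟨n⟩, ⟨Z⟩, E, F, lam)).2 a) (1 / Z) := by

  obtain ⟨sw, sw1, sw2⟩ := exists_sweep
  obtain ⟨sp, sp1, sp2⟩ := exists_sp
  refine ⟨fun x => (opta_step sw sp x)^[opta_P x ^ 11 + 1] (opta_init x), opta_iter_pt sw1 sp1 (I := opta_I)
    (fun x => ⟨_, _, rfl, by simp, by simp⟩) (opta_I_step sw sp) (by unfold opta_K; fun_prop)
    fun x k c hk => opta_I_sz x k _ hk c, ?_⟩
  intro n Z E F lam hF hW hPC hZ hn hFl hl
  set x : opta_In := (⟨n⟩, ⟨Z⟩, E, F, lam) with hx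
  obtain ⟨P, hP⟩ : ∃ P : ℝ, P = 2 * Z + 3 := ⟨_, rfl⟩
  have Z1 : (1 : ℝ) ≤ Z := by exact_mod_cast hZ
  have P3 : 3 ≤ P := by linarith
  have P0 : 0 < P := by linarith
  have hP' : (opta_P x : ℝ) = P := by simp [opta_P, hx, hP]
  have hτ : (opta_tau x : ℝ) = 1 / P ^ 8 := by simp [opta_tau, hP']
  have τ0 : (0 : ℝ) ≤ opta_tau x := by rw [hτ]; positivity
  have τ1 : (opta_tau x : ℝ) ≤ 1 / P ^ 3 := by
    rw [hτ]
    exact one_div_le_one_div_of_le (by positivity) (pow_le_pow_right₀ (by linarith) (by norm_num))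
  have hl' : ∑ e ∈ F.toFinset, (lam.getD e 0 : ℝ) ≤ Z := by exact_mod_cast hl
  have hn' : (n : ℝ) ≤ Z := by exact_mod_cast hn
  have hm : (F.toFinset.card : ℝ) ≤ Z := by exact_mod_cast (List.toFinset_card_le F).trans hFl
  have hE : ∀ a ∈ F, a < E.length := fun a ha => by
    by_contra h
    exact (hW a (List.mem_toFinset.2 ha)).2.2 (by simp [src, tgt, List.getD_eq_getElem?_getD, h])
  have key : ∀ y z w : ℝ, y - 1 / P ^ 10 < y - opta_tau x * (z - w) + opta_tau x ^ 2 * P ^ 6 → z ≤ w + 1 / Z := by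
    intro y z w h
    have h1 : z - w < 2 / P ^ 2 := by
      refine lt_of_mul_lt_mul_left (a := 1 / P ^ 8) ?_ (by positivity)
      have : 1 / P ^ 8 * (2 / P ^ 2) = 1 / P ^ 10 + (1 / P ^ 8) ^ 2 * P ^ 6 := by
        field_simp
        norm_num
      rw [hτ] at h
      linarith
    have h2 : 2 / P ^ 2 ≤ 1 / Z := by
      rw [div_le_div_iff₀ (by positivity) (by positivity)]
      nlinarith
    linarith
  let V : Mat × Vec → Prop := fun st => Valid n (src E) (tgt E) F.toFinset (fun u v => mg st.1 u v)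
    (fun a => vg st.2 a) ∧ ∀ u v, ¬ (u < n ∧ v < n) → mg st.1 u v = 0
  let Φ : Mat × Vec → ℝ := fun st => Fv n (src E) (tgt E) F.toFinset (fun e => lam.getD e 0)
    (fun u v => mg st.1 u v) fun a => vg st.2 a
  let N : Mat × Vec → Prop := fun st => NS n (src E) (tgt E) F.toFinset (fun e => lam.getD e 0)
    (fun u v => mg st.1 u v) (fun a => vg st.2 a) (1 / Z)
  have step : ∀ st, V st → Φ st ≤ P → V (opta_step sw sp x st) ∧
      (opta_step sw sp x st = st ∧ N st ∨ Φ (opta_step sw sp x st) ≤ Φ st - 1 / P ^ 10) := by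
    rintro st ⟨h1, h2⟩ h3
    have hℓ : ∀ a ∈ F, (vg (opta_l x st.2) a : ℝ) = 1 / (1 - vg st.2 a) ^ 2 := fun a ha => by
      rw [opta_l, vg_mkV _ (hE a ha)]
      push_cast
      rfl
    obtain ⟨d, d1, d2, d3⟩ := sp2 n E F (opta_l x st.2) hW hPC fun a ha => by
      rw [← Rat.cast_nonneg (K := ℝ), hℓ a ha]
      positivity
    have m1 := move_scale (c' := fun u v => mg (opta_sc x st).1 u v) (g' := fun a => vg (opta_sc x st).2 a)
      hW hPC h1 P (opta_tau x) P3 h3 (by linarith) τ0 τ1 (fun u v => by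
        rw [opta_sc, opta_mg]
        split_ifs with h
        · simp
        · simp [h2 u v h]) fun a ha => by
        rw [opta_sc, vg_mkV _ (hE a (List.mem_toFinset.1 ha))]
        simp
    have m2 := fun u (hu : u < n) v (hv : v < n) => move_path
      (c' := fun a b => mg (opta_mv x st u v (sp (x.1, x.2.2.1, x.2.2.2.1, opta_l x st.2, u, v))).1 a b)
      (g' := fun a => vg (opta_mv x st u v (sp (x.1, x.2.2.1, x.2.2.2.1, opta_l x st.2, u, v))).2 a)
      hW hPC h1 P (opta_tau x) P3 h3 (by linarith) (by linarith) τ0 τ1 hu hv _ (d3 u hu v hv).1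
      (fun a ha => List.mem_toFinset.2 ((d3 u hu v hv).2.1 a ha)) (d3 u hu v hv).2.2.2 (fun a b => by
        rw [opta_mv, opta_mg]
        split_ifs with h h' h'
        · simp
        · simp
        · exact absurd ⟨h'.1 ▸ hu, h'.2 ▸ hv⟩ h
        · simp [h2 a b h]) fun a ha => by
        rw [opta_mv, vg_mkV _ (hE a (List.mem_toFinset.1 ha)),
          min_eq_left (List.count_le_length.trans (d3 u hu v hv).1)]
        push_cast
        rfl
    have m3 : ∀ c ∈ opta_cs sp x st, V c := fun c hc => by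
      rcases opta_mem.1 hc with rfl | ⟨u, hu, v, hv, rfl⟩
      · exact ⟨m1.1, fun u v h => (opta_mg _ _ _ _).trans (if_neg h)⟩
      · exact ⟨(m2 u hu v hv).1, fun u v h => (opta_mg _ _ _ _).trans (if_neg h)⟩
    have m4 : ∀ c, V c → (opta_F sw x c : ℝ) = Φ c := fun c hc => opta_cast sw2 Z lam hF hW hPC hc.1.c_nonneg
    have m5 : ((opta_F sw x st - ((opta_P x ^ 10 : ℕ) : ℚ)⁻¹ : ℚ) : ℝ) = Φ st - 1 / P ^ 10 := by
      push_cast
      rw [m4 st ⟨h1, h2⟩, hP', one_div]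
    rcases opta_step_cases sw sp x st with ⟨h5, h6⟩ | ⟨h5, h6⟩
    · have h7 : ∀ c ∈ opta_cs sp x st, Φ st - 1 / P ^ 10 < Φ c := fun c hc => by
        rw [← m5, ← m4 c (m3 c hc)]
        exact Rat.cast_lt.2 (h6 c hc)
      refine ⟨h5.symm ▸ ⟨h1, h2⟩, Or.inl ⟨h5, d, d1, fun a ha => ?_, fun u hu v hv => ?_,
        key _ _ _ ((h7 _ (opta_mem.2 (Or.inl rfl))).trans_le m1.2)⟩⟩
      · exact hℓ a (List.mem_toFinset.1 ha) ▸ d2 a (List.mem_toFinset.1 ha)
      · refine (key _ _ _ ((h7 _ (opta_mem.2 (Or.inr ⟨u, hu, v, hv, rfl⟩))).trans_le (m2 u hu v hv).2)).trans ?_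
        rw [← List.map_congr_left fun a ha => hℓ a ((d3 u hu v hv).2.1 a ha)]
        linarith [(d3 u hu v hv).2.2.1]
    · refine ⟨m3 _ h5, Or.inr ?_⟩
      rw [← m5, ← m4 _ (m3 _ h5)]
      exact Rat.cast_le.2 h6
  have δ0 : 0 < 1 / P ^ 10 := by positivity
  have main : ∀ k : ℕ, V ((opta_step sw sp x)^[k] (opta_init x)) ∧ Φ ((opta_step sw sp x)^[k] (opta_init x)) ≤ P ∧
      (opta_step sw sp x ((opta_step sw sp x)^[k] (opta_init x)) = (opta_step sw sp x)^[k] (opta_init x) ∧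
        N ((opta_step sw sp x)^[k] (opta_init x)) ∨
      Φ ((opta_step sw sp x)^[k] (opta_init x)) ≤ P - k * (1 / P ^ 10)) := fun k => by
    induction k with
    | zero =>
      have e1 : (fun u v => (mg (opta_init x).1 u v : ℝ)) = fun _ _ => 0 := by
        funext u v
        simp [opta_init, opta_mg]
      have e2 : (fun a => (vg (opta_init x).2 a : ℝ)) = fun _ => 0 := by
        funext a
        simp [opta_init, opta_vg]
      have e3 : Φ (opta_init x) ≤ P := by
        simp only [Φ, e1, e2]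
        linarith [Fv_zero_le (lam := fun e => lam.getD e 0) hW hPC]
      exact ⟨⟨by rw [Function.iterate_zero_apply, e1, e2]; exact valid_zero,
        fun u v h => (opta_mg _ _ _ _).trans (if_neg h)⟩, e3, Or.inr (by simpa using e3)⟩
    | succ k ih =>
      rw [Function.iterate_succ_apply']
      obtain ⟨h1, h2, h3 | h3⟩ := ih
      · rw [h3.1]
        exact ⟨h1, h2, Or.inl h3⟩
      obtain ⟨h4, h5 | h5⟩ := step _ h1 h2
      · rw [h5.1]
        exact ⟨h1, h2, Or.inl h5⟩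
      · exact ⟨h4, by linarith, Or.inr (by push_cast; linarith)⟩
  obtain ⟨h1, -, h2 | h2⟩ := main (opta_P x ^ 11 + 1)
  · exact ⟨h1.1, h2.2⟩
  have h3 := (Fv_nonneg hW hPC h1.1).trans h2
  have h4 : P ^ 11 * (1 / P ^ 10) = P := by field_simp
  push_cast at h3
  rw [hP'] at h3
  linarith

end Crest.Agent.R37
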