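import Crest.Agent.R37.Upper
import Crest.Agent.R37.OptA
import Crest.Agent.R37.Canon

/-!
# R37/Good: a highly connected set of edges of small resistance
-/

set_option autoImplicit false
open Finset Matrix

namespace Crest.Agent.R37

open Crest.Agent.Lib.PT

/-- the matrix `Dm` as a list -/
def good_D (n : ℕ) (E : Gr) (F : List ℕ) (C : Mat) : Mat :=
  sumOp n (F.map (fun e => ((1 : ℚ), bvL n (src E e) (tgt E e))) ++ ([((1 : ℚ), evL n 0)] ++
    (List.range n).flatMap fun u => (List.range n).map fun v => (mg C u v, bvL n u v)))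

/-- the edges of small resistance -/
def good_G (sw : Mat → Mat × Vec × Bool) (n y : ℕ) (E : Gr) (F : List ℕ) (C : Mat) : List ℕ :=
  F.filter fun e => bil n (sw (good_D n E F C)).1 (bvL n (src E e) (tgt E e))
    (bvL n (src E e) (tgt E e)) ≤ 40 / y

/-- the other edges between different classes -/
def good_bad (cn : Un × ℕ × Gr × List ℕ → List ℕ) (n j : ℕ) (E : Gr) (F G : List ℕ) : List ℕ :=
  F.filter fun e => e ∉ G ∧
    (cn (⟨n⟩, j, E, G)).getD (src E e) 0 ≠ (cn (⟨n⟩, j, E, G)).getD (tgt E e) 0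

/-- doubling the lightest entry among `B` -/
def good_dbl (B lam : List ℕ) : List ℕ :=
  (B.argmin fun e => lam.getD e 0).elim lam fun e => lam.set e (2 * lam.getD e 0)

def good_Z (n k : ℕ) (F : List ℕ) : ℕ := 8 * (k * k) * (F.length + 1) * (n + 1)

section defs
variable (opt : Un × Un × Gr × List ℕ × List ℕ → Mat × Vec) (sw : Mat → Mat × Vec × Bool)
  (cn : Un × ℕ × Gr × List ℕ → List ℕ) (n k j y : ℕ) (E : Gr) (F : List ℕ)

def good_C (lam : List ℕ) : Mat := (opt (⟨n⟩, ⟨good_Z n k F⟩, E, F, lam)).1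

def good_B (lam : List ℕ) : List ℕ :=
  good_bad cn n j E F (good_G sw n y E F (good_C opt n k E F lam))

def good_step (lam : List ℕ) : List ℕ := good_dbl (good_B opt sw cn n k j y E F lam) lam

def good_lam : List ℕ :=
  (good_step opt sw cn n k j y E F)^[good_Z n k F + 1] (List.replicate E.length 1)

end defs

section pt
variable {opt : Un × Un × Gr × List ℕ × List ℕ → Mat × Vec} {sw : Mat → Mat × Vec × Bool}
  {cn : Un × ℕ × Gr × List ℕ → List ℕ} {α : Type} [Enc α] {n k j y : α → ℕ} {E : α → Gr}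
  {F G B lam : α → List ℕ} {C : α → Mat}

theorem good_D_pt (hn : PT n) (bn : PB n) (hE : PT E) (hF : PT F) (hC : PT C) :
    PT fun a => good_D (n a) (E a) (F a) (C a) := by
  unfold good_D
  fun_prop

theorem good_G_pt (hsw : PT sw) (hn : PT n) (bn : PB n) (hy : PT y) (hE : PT E) (hF : PT F)
    (hC : PT C) : PT fun a => good_G sw (n a) (y a) (E a) (F a) (C a) := by
  have := (hsw.comp (good_D_pt hn bn hE hF hC)).fst
  unfold good_G
  generalize hM : (fun a => (sw (good_D (n a) (E a) (F a) (C a))).1) = M at this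
  refine PT.of_eq (g := fun a => (F a).filter fun e => bil (n a) (M a)
    (bvL (n a) (src (E a) e) (tgt (E a) e)) (bvL (n a) (src (E a) e) (tgt (E a) e)) ≤ 40 / y a)
    (by fun_prop) fun a => by rw [← hM]

theorem good_bad_pt (hcn : PT cn) (hn : PT n) (bn : PB n) (hk : PT k) (hE : PT E) (hF : PT F)
    (hG : PT G) : PT fun a => good_bad cn (n a) (k a) (E a) (F a) (G a) := by
  unfold good_bad
  fun_prop

theorem good_dbl_pt (hB : PT B) (hl : PT lam) : PT fun a => good_dbl (B a) (lam a) := by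
  unfold good_dbl
  exact PT.option_elim (PT.argmin hB (by fun_prop) (by fun_prop)) hl (by fun_prop)

theorem good_C_pt (ho : PT opt) (hn : PT n) (bn : PB n) (hk : PT k) (bk : PB k) (hE : PT E)
    (hF : PT F) (hl : PT lam) : PT fun a => good_C opt (n a) (k a) (E a) (F a) (lam a) := by
  unfold good_C good_Z
  fun_prop

theorem good_step_pt (ho : PT opt) (hsw : PT sw) (hcn : PT cn) (hn : PT n) (bn : PB n) (hk : PT k)
    (bk : PB k) (hj : PT j) (hy : PT y) (hE : PT E) (hF : PT F) (hl : PT lam) :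
    PT fun a => good_step opt sw cn (n a) (k a) (j a) (y a) (E a) (F a) (lam a) :=
  good_dbl_pt (good_bad_pt hcn hn bn hj hE hF
    (good_G_pt hsw hn bn hy hE hF (good_C_pt ho hn bn hk bk hE hF hl))) hl

theorem good_sz_two_mul (x : ℕ) : sz (2 * x) ≤ sz x + 4 := by
  rcases Nat.eq_zero_or_pos x with rfl | hx
  · simp
  · rw [sz_nat, sz_nat, Nat.bit0_bits _ hx.ne', sz_cons]
    have : sz false ≤ 3 := by decide
    omega

theorem good_sz_set (l : List ℕ) (e : ℕ) : sz (l.set e (2 * l.getD e 0)) ≤ sz l + 4 := by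
  induction l generalizing e with
  | nil => simp
  | cons a l ih =>
    cases e with
    | zero => have := good_sz_two_mul a; simp; omega
    | succ e => have := ih e; simp at this ⊢; omega

theorem good_sz_dbl (B l : List ℕ) : sz (good_dbl B l) ≤ sz l + 4 := by
  unfold good_dbl
  cases B.argmin fun e => l.getD e 0 with
  | none => simp
  | some e => exact good_sz_set l e

theorem good_lam_pt (ho : PT opt) (hsw : PT sw) (hcn : PT cn) (hn : PT n) (bn : PB n) (hk : PT k)
    (bk : PB k) (hj : PT j) (hy : PT y) (hE : PT E) (hF : PT F) :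
    PT fun a => good_lam opt sw cn (n a) (k a) (j a) (y a) (E a) (F a) := by
  unfold good_lam
  exact PT.iterate_grow (by unfold good_Z; fun_prop) (by unfold good_Z; fun_prop) (by fun_prop)
    (good_step_pt ho hsw hcn (hn.comp PT.id.fst) (by fun_prop) (hk.comp PT.id.fst) (by fun_prop)
      (hj.comp PT.id.fst) (hy.comp PT.id.fst) (hE.comp PT.id.fst) (hF.comp PT.id.fst) PT.id.snd)
    (G := fun _ => 4) (by fun_prop) fun a c => good_sz_dbl _ _

end pt

theorem good_flat {α β M : Type} [AddMonoid M] (l : List α) (f : α → List β) (g : β → M) :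
    ((l.flatMap f).map g).sum = (l.map fun a => ((f a).map g).sum).sum := by
  induction l with
  | nil => simp
  | cons a l ih => simp [ih]

theorem good_range {M : Type} [AddCommMonoid M] (n : ℕ) (g : ℕ → M) :
    ((List.range n).map g).sum = ∑ i ∈ range n, g i := by
  rw [← List.sum_toFinset _ List.nodup_range, List.toFinset_range]

theorem good_toM (n : ℕ) (E : Gr) {F : List ℕ} (C : Mat) (hF : F.Nodup) :
    toM n (good_D n E F C) = Dm n (src E) (tgt E) F.toFinset fun u v => mg C u v := by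
  rw [good_D, toM_sumOp, Dm, glap, lap, List.sum_toFinset _ hF, sum_singleton, add_assoc]
  simp only [List.map_append, List.sum_append, good_flat, List.map_map, Function.comp_def,
    good_range, toV_bvL, toV_evL, Rat.cast_one, one_smul, List.map_cons, List.map_nil,
    List.sum_cons, List.sum_nil, add_zero]

theorem good_mem_G {sw : Mat → Mat × Vec × Bool} (hsw : ∀ C : Mat, (toM C.length C).IsSymm →
      ((sw C).2.2 = true → PD (toM C.length C) ∧ toM C.length (sw C).1 = (toM C.length C)⁻¹) ∧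
      ((sw C).2.2 = false → toV C.length (sw C).2.1 ≠ 0 ∧
        qf (toM C.length C) (toV C.length (sw C).2.1) ≤ 0))
    {n : ℕ} (y : ℕ) {E : Gr} {F : List ℕ} {C : Mat} (hF : F.Nodup)
    (hPD : PD (Dm n (src E) (tgt E) F.toFinset fun u v => mg C u v)) (e : ℕ) :
    e ∈ good_G sw n y E F C ↔ e ∈ F ∧
      res (Dm n (src E) (tgt E) F.toFinset fun u v => mg C u v) (src E e) (tgt E e) ≤ 40 / y := by
  have h := hsw (good_D n E F C)
  rw [show (good_D n E F C).length = n from length_sumOp _ _, good_toM n E C hF] at h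
  replace h := h hPD.1
  have h1 : (sw (good_D n E F C)).2.2 = true := by
    by_contra h2
    obtain ⟨h3, h4⟩ := h.2 (by simpa using h2)
    exact absurd (hPD.2 _ h3) (not_lt.2 h4)
  rw [good_G, List.mem_filter, decide_eq_true_iff, ← Rat.cast_le (K := ℝ), cast_bil, (h.1 h1).2,
    toV_bvL]
  push_cast
  rfl

theorem good_mem_bad {cn : Un × ℕ × Gr × List ℕ → List ℕ}
    (hcn : ∀ (n j : ℕ) (E : Gr) (F : List ℕ), 1 ≤ j → F.Nodup → WF (src E) (tgt E) n F.toFinset →
      (cn (⟨n⟩, j, E, F)).length = n ∧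
      ∀ u < n, (cn (⟨n⟩, j, E, F)).getD u 0 = can (src E) (tgt E) j F.toFinset u)
    {n j : ℕ} {E : Gr} {F G : List ℕ} (hj : 1 ≤ j) (hG : G.Nodup) (hGF : G.toFinset ⊆ F.toFinset)
    (hW : WF (src E) (tgt E) n F.toFinset) (e : ℕ) :
    e ∈ good_bad cn n j E F G ↔ e ∈ F.toFinset ∧ e ∉ G.toFinset ∧
      ¬ Rel (src E) (tgt E) j G.toFinset (src E e) (tgt E e) := by
  have h := (hcn n j E G hj hG (hW.mono hGF)).2
  rw [good_bad, List.mem_filter, decide_eq_true_iff, ← List.mem_toFinset, ← List.mem_toFinset]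
  refine and_congr_right fun he => and_congr_right fun _ => ?_
  rw [h _ (hW e he).1, h _ (hW e he).2.1, Ne, can_eq_iff]

theorem good_lt {n : ℕ} {E : Gr} {F : Finset ℕ} (hW : WF (src E) (tgt E) n F) {e : ℕ} (he : e ∈ F) :
    e < E.length := by
  by_contra h
  refine (hW e he).2.2 ?_
  rw [src, tgt, List.getD_eq_default _ _ (not_lt.1 h)]

theorem good_num {n k y m : ℕ} (hy : 1 ≤ y) (hk : y * y ≤ k) {L : ℝ}
    (h : 28 / y * (L - m) ≤ 12 / y * L + (3 * y * (2 * m + 1 + n * k) + 4 * m + 2)) :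
    2 * L ≤ (8 * (k * k) * (m + 1) * (n + 1) : ℕ) := by
  have hy' : (1 : ℝ) ≤ y := by exact_mod_cast hy
  have hk' : (y : ℝ) * y ≤ k := by exact_mod_cast hk
  have hm : (0 : ℝ) ≤ m := Nat.cast_nonneg _
  have hn : (0 : ℝ) ≤ n := Nat.cast_nonneg _
  have hyk : (y : ℝ) ≤ k := by nlinarith
  have hk1 : (1 : ℝ) ≤ k := by linarith
  have h1 : 28 * (L - m) ≤ 12 * L + y * (3 * y * (2 * m + 1 + n * k) + 4 * m + 2) := by
    have := mul_le_mul_of_nonneg_left h (show (0 : ℝ) ≤ y by linarith)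
    field_simp at this
    linarith
  have h2 : (y : ℝ) * (3 * y * (2 * m + 1 + n * k) + 4 * m + 2) ≤
      3 * k * (2 * m + 1 + n * k) + k * (4 * m + 2) := by
    rw [show (y : ℝ) * (3 * y * (2 * m + 1 + n * k) + 4 * m + 2) =
      3 * (y * y) * (2 * m + 1 + n * k) + y * (4 * m + 2) by ring]
    gcongr
  have h3 : (k : ℝ) ≤ k * k := by nlinarith
  have h4 : (k : ℝ) * m ≤ k * k * m := by gcongr
  have h5 : (m : ℝ) ≤ k * k * m := by nlinarith
  have h6 : 0 ≤ (k : ℝ) * k * m * n := by positivity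
  have h7 : 0 ≤ (k : ℝ) * k * n := by positivity
  push_cast
  nlinarith

theorem good_dbl_spec (B lam : List ℕ) : (B = [] ∧ good_dbl B lam = lam) ∨
    ∃ e ∈ B, (∀ f ∈ B, lam.getD e 0 ≤ lam.getD f 0) ∧
      good_dbl B lam = lam.set e (2 * lam.getD e 0) := by
  unfold good_dbl
  cases h : B.argmin fun e => lam.getD e 0 with
  | none => exact Or.inl ⟨List.argmin_eq_none.1 h, rfl⟩
  | some e =>
    exact Or.inr ⟨e, List.argmin_mem h, fun f hf =>
      not_lt.1 (List.not_lt_of_mem_argmin (f := fun e => lam.getD e 0) hf h), rfl⟩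

/-- the invariant -/
structure good_Inv (n k j y : ℕ) (E : Gr) (F lam : List ℕ) : Prop where
  len : lam.length = E.length
  al : Aligned (src E) (tgt E) F.toFinset j fun e => lam.getD e 0
  le : ∑ e ∈ F.toFinset, lam.getD e 0 ≤ good_Z n k F
  low : ∀ c g, Valid n (src E) (tgt E) F.toFinset c g →
    28 / y * (∑ e ∈ F.toFinset, (lam.getD e 0 : ℝ) - F.length) ≤
      Fv n (src E) (tgt E) F.toFinset (fun e => lam.getD e 0) c g

theorem good_Z_ge {n k : ℕ} (F : List ℕ) (hk : 1 ≤ k) : 1 ≤ good_Z n k F ∧ n ≤ good_Z n k F ∧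
    F.length ≤ good_Z n k F ∧ k * (F.length + 1) ≤ good_Z n k F := by
  have h1 : k * (F.length + 1) * (n + 1) ≤ good_Z n k F := by
    unfold good_Z
    gcongr
    nlinarith
  have h2 : (F.length + 1) * (n + 1) ≤ k * (F.length + 1) * (n + 1) := by
    rw [mul_assoc]; exact Nat.le_mul_of_pos_left _ hk
  refine ⟨by nlinarith, by nlinarith, by nlinarith, by nlinarith⟩

theorem good_inv_zero {n k j y : ℕ} {E : Gr} {F : List ℕ} (hk : 1 ≤ k) (hF : F.Nodup)
    (hW : WF (src E) (tgt E) n F.toFinset) (hP : PC (src E) (tgt E) 1 F.toFinset (range n)) :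
    good_Inv n k j y E F (List.replicate E.length 1) := by
  have h1 : ∀ e ∈ F.toFinset, (List.replicate E.length 1).getD e 0 = 1 := fun e he =>
    List.getD_replicate _ (good_lt hW he)
  have h2 : ∑ e ∈ F.toFinset, (List.replicate E.length 1).getD e 0 = F.length := by
    rw [sum_congr rfl h1, sum_const, List.toFinset_card_of_nodup hF, smul_eq_mul, mul_one]
  refine ⟨List.length_replicate, fun e he => ⟨⟨0, h1 e he⟩, fun h => ?_⟩,
    h2.trans_le (good_Z_ge F hk).2.2.1, fun c g h => ?_⟩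
  · exact absurd (h.trans_eq (h1 e he)) (by norm_num)
  · rw [← Nat.cast_sum, h2, sub_self, mul_zero]
    exact Fv_nonneg hW hP h

section main
variable {opt : Un × Un × Gr × List ℕ × List ℕ → Mat × Vec} {sw : Mat → Mat × Vec × Bool}
  {cn : Un × ℕ × Gr × List ℕ → List ℕ}
  (ho : ∀ (n Z : ℕ) (E : Gr) (F lam : List ℕ), F.Nodup → WF (src E) (tgt E) n F.toFinset →
      PC (src E) (tgt E) 1 F.toFinset (range n) → 1 ≤ Z → n ≤ Z → F.length ≤ Z →
      ∑ e ∈ F.toFinset, lam.getD e 0 ≤ Z →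
      Valid n (src E) (tgt E) F.toFinset (fun u v => mg (opt (⟨n⟩, ⟨Z⟩, E, F, lam)).1 u v)
        (fun a => vg (opt (⟨n⟩, ⟨Z⟩, E, F, lam)).2 a) ∧
      NS n (src E) (tgt E) F.toFinset (fun e => lam.getD e 0)
        (fun u v => mg (opt (⟨n⟩, ⟨Z⟩, E, F, lam)).1 u v)
        (fun a => vg (opt (⟨n⟩, ⟨Z⟩, E, F, lam)).2 a) (1 / Z))
  (hsw : ∀ C : Mat, (toM C.length C).IsSymm →
      ((sw C).2.2 = true → PD (toM C.length C) ∧ toM C.length (sw C).1 = (toM C.length C)⁻¹) ∧
      ((sw C).2.2 = false → toV C.length (sw C).2.1 ≠ 0 ∧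
        qf (toM C.length C) (toV C.length (sw C).2.1) ≤ 0))
  (hcn : ∀ (n j : ℕ) (E : Gr) (F : List ℕ), 1 ≤ j → F.Nodup → WF (src E) (tgt E) n F.toFinset →
      (cn (⟨n⟩, j, E, F)).length = n ∧
      ∀ u < n, (cn (⟨n⟩, j, E, F)).getD u 0 = can (src E) (tgt E) j F.toFinset u)
  {n k j y : ℕ} {E : Gr} {F : List ℕ} (hy : 1 ≤ y) (hk : y * y ≤ k) (hj : 1 ≤ j) (hF : F.Nodup)
  (hW : WF (src E) (tgt E) n F.toFinset) (hP : PC (src E) (tgt E) 1 F.toFinset (range n))
  (hup : ∀ (lam : ℕ → ℕ) (c : ℕ → ℕ → ℝ) (g : ℕ → ℝ) (ξ : ℝ),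
    Aligned (src E) (tgt E) F.toFinset j lam → Valid n (src E) (tgt E) F.toFinset c g → 0 ≤ ξ →
    ξ ≤ 1 → NS n (src E) (tgt E) F.toFinset lam c g ξ →
    Fv n (src E) (tgt E) F.toFinset lam c g ≤ 12 / y * ∑ e ∈ F.toFinset, (lam e : ℝ) +
      (3 * y * (2 * F.toFinset.card + 1 + n * k) + 4 * F.toFinset.card + 2))

theorem good_G_sub (C : Mat) : (good_G sw n y E F C).toFinset ⊆ F.toFinset := fun _ he =>
  List.mem_toFinset.2 (List.mem_of_mem_filter (List.mem_toFinset.1 he))

include ho hsw hcn hy hk hj hF hW hP hup in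
theorem good_inv_step {lam : List ℕ} (h : good_Inv n k j y E F lam) :
    good_Inv n k j y E F (good_step opt sw cn n k j y E F lam) ∧
    ((good_B opt sw cn n k j y E F lam = [] ∧ good_step opt sw cn n k j y E F lam = lam) ∨
      ∑ e ∈ F.toFinset, lam.getD e 0 <
        ∑ e ∈ F.toFinset, (good_step opt sw cn n k j y E F lam).getD e 0) := by
  rcases good_dbl_spec (good_B opt sw cn n k j y E F lam) lam with ⟨h1, h2⟩ | ⟨e, he, hmin, h2⟩
  · rw [good_step, h2]
    exact ⟨h, Or.inl ⟨h1, rfl⟩⟩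
  rw [good_step, h2]
  have hk1 : 1 ≤ k := le_trans (Nat.mul_pos hy hy) hk
  obtain ⟨z1, z2, z3, z4⟩ := good_Z_ge (n := n) F hk1
  obtain ⟨hV, hN⟩ := ho n (good_Z n k F) E F lam hF hW hP z1 z2 z3 h.le
  have hPD := pd_Dm hW hP hV.c_nonneg
  have hG := good_mem_G hsw y (C := good_C opt n k E F lam) hF hPD
  have hB := good_mem_bad hcn (G := good_G sw n y E F (good_C opt n k E F lam)) hj (hF.filter _)
    (good_G_sub _) hW
  obtain ⟨e1, e2, e3⟩ := (hB e).1 he
  have hr : 40 / (y : ℝ) < res (Dm n (src E) (tgt E) F.toFinset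
      fun u v => mg (good_C opt n k E F lam) u v) (src E e) (tgt E e) := by
    by_contra hr
    exact e2 (List.mem_toFinset.2 ((hG e).2 ⟨List.mem_toFinset.1 e1, not_lt.1 hr⟩))
  have l1 : (lam.set e (2 * lam.getD e 0)).getD e 0 = 2 * lam.getD e 0 := by
    rw [List.getD_eq_getElem?_getD, List.getElem?_set_self (h.len ▸ good_lt hW e1), Option.getD_some]
  have l2 : ∀ f ∈ F.toFinset, f ≠ e → (lam.set e (2 * lam.getD e 0)).getD f 0 = lam.getD f 0 :=
    fun f _ hf => by
      rw [List.getD_eq_getElem?_getD, List.getElem?_set_ne hf.symm, ← List.getD_eq_getElem?_getD]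
  have l3 : ∑ f ∈ F.toFinset, (lam.set e (2 * lam.getD e 0)).getD f 0 =
      ∑ f ∈ F.toFinset, lam.getD f 0 + lam.getD e 0 := by
    rw [← add_sum_erase _ _ e1, ← add_sum_erase _ (fun f => lam.getD f 0) e1, l1,
      sum_congr rfl fun f hf => l2 f (mem_of_mem_erase hf) (ne_of_mem_erase hf)]
    ring
  have l4 : 1 ≤ lam.getD e 0 := by
    obtain ⟨a, ha⟩ := (h.al e e1).1
    exact ha.ge.trans' Nat.one_le_two_pow
  have l5 : lam.getD e 0 ≤ ∑ f ∈ F.toFinset, lam.getD f 0 :=
    single_le_sum (f := fun f => lam.getD f 0) (fun _ _ => Nat.zero_le _) e1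
  have zR : (1 : ℝ) ≤ good_Z n k F := by exact_mod_cast z1
  have x0 : (0 : ℝ) ≤ 1 / good_Z n k F := by positivity
  have hm : F.toFinset.card = F.length := List.toFinset_card_of_nodup hF
  have hu := (h.low _ _ hV).trans (hup _ _ _ _ h.al hV x0 (by rw [div_le_one (by linarith)]; exact zR) hN)
  rw [hm] at hu
  replace hu := good_num hy hk hu
  rw [← Nat.cast_sum] at hu
  replace hu : 2 * ∑ f ∈ F.toFinset, lam.getD f 0 ≤ good_Z n k F := by
    unfold good_Z
    exact_mod_cast hu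
  refine ⟨⟨List.length_set.trans h.len, h.al.double hW hj (good_G_sub _) e1 e3
    (fun f f1 f2 f3 => hmin f ((hB f).2 ⟨f1, f2, f3⟩)) _ l1 l2, by omega, fun c g hc => ?_⟩,
    Or.inr (by omega)⟩
  refine le_trans ?_ (lower_bound hW hP hV hc x0 hN e1 _ l1 l2)
  have a1 := h.low _ _ hV
  rw [← Nat.cast_sum, l3, Nat.cast_add, Nat.cast_sum, hm]
  have yR : (1 : ℝ) ≤ y := by exact_mod_cast hy
  have a2 : (1 : ℝ) ≤ lam.getD e 0 := by exact_mod_cast l4
  have a3 : 1 / (good_Z n k F : ℝ) * (F.length + 1) ≤ 4 / y := by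
    rw [one_div_mul_eq_div, div_le_div_iff₀ (by linarith) (by linarith)]
    have : (F.length + 1) * y ≤ 4 * good_Z n k F := by nlinarith
    exact_mod_cast this
  have a4 := mul_le_mul_of_nonneg_left hr.le (show (0 : ℝ) ≤ 4 / 5 * lam.getD e 0 by positivity)
  have a5 : 4 / (y : ℝ) ≤ 4 / y * lam.getD e 0 := le_mul_of_one_le_right (by positivity) a2
  have a6 : 4 / 5 * (lam.getD e 0 : ℝ) * (40 / y) =
    28 / y * lam.getD e 0 + 4 / y * lam.getD e 0 := by ring
  unfold good_C at a4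
  rw [add_sub_right_comm, mul_add]
  linarith

include ho hsw hcn hy hk hj hF hW hP hup in
theorem good_final : good_Inv n k j y E F (good_lam opt sw cn n k j y E F) ∧
    good_B opt sw cn n k j y E F (good_lam opt sw cn n k j y E F) = [] := by
  have key : ∀ i, ∀ lam, lam = (good_step opt sw cn n k j y E F)^[i] (List.replicate E.length 1) →
      good_Inv n k j y E F lam ∧ (good_B opt sw cn n k j y E F lam = [] ∨
        i ≤ ∑ e ∈ F.toFinset, lam.getD e 0) := by
    intro i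
    induction i with
    | zero =>
      rintro _ rfl
      exact ⟨good_inv_zero (le_trans (Nat.mul_pos hy hy) hk) hF hW hP, Or.inr (Nat.zero_le _)⟩
    | succ i ih =>
      rintro _ rfl
      rw [Function.iterate_succ_apply']
      obtain ⟨h1, h2⟩ := ih _ rfl
      generalize (good_step opt sw cn n k j y E F)^[i] (List.replicate E.length 1) = lam at h1 h2
      obtain ⟨h3, h4⟩ := good_inv_step ho hsw hcn hy hk hj hF hW hP hup h1
      refine ⟨h3, ?_⟩
      rcases h4 with ⟨h4, h5⟩ | h4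
      · rw [h5]; exact Or.inl h4
      · rcases h2 with h2 | h2
        · rw [good_step, h2] at h4
          exact absurd h4 (lt_irrefl _)
        · exact Or.inr (h2.trans_lt h4)
  obtain ⟨h1, h2⟩ := key (good_Z n k F + 1) _ rfl
  exact ⟨h1, h2.resolve_right (not_le.2 (Nat.lt_succ_of_le h1.le))⟩

end main

/-- The doubling process.  `m = |F|`, `k' = k - y^35`, `θ = 40 / y`, `Z = 8 k² (m + 1) (n + 1)`.  State: the list
`lam` (length `E.length`, initially all `1`).  One round: `(C, g) = opt (n, Z, E, F, lam)`,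
`G = F.filter (res ≤ θ)` (computed with `exists_sweep`, as in `OptA`), `cn (n, k', E, G)`; if some `e ∈ F \ G` has ends with
different labels double `lam e` for such an `e` with least `lam e` (`List.argmin`), else keep `lam`.
Invariant: `Aligned k' lam`, `Λ = ∑ lam ≤ Z`, and `0.7 θ (Λ - m) ≤ Fv lam c' g'` for all valid `(c', g')`
(`lower_bound` with `ξ (m + 1) ≤ θ / 10`).  `upper_bound` then gives `0.4 θ Λ ≤ Q + 0.7 θ m`, so `Λ ≤ Z / 2` and the
doubled weights still have sum `≤ Z`.  Each doubling raises `Λ`, so after `Z` rounds no bad edge crosses, and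
`exists_bad` gives `PC k' G`.  Output `G` and `C` for the final `lam`; use `PD.sq_dot_le`, `qf_Dm`,
`ext_restrict`, `bv_dot`, `Valid.cut_le`, `Valid.total_le`.  Size: `PT.iterate_grow` (doubling one entry adds at most `4`). -/
theorem exists_good : ∃ gd : Un × Un × ℕ × Gr × List ℕ → List ℕ × Mat, PT gd ∧
    ∀ (n k y : ℕ) (E : Gr) (F : List ℕ), 1 ≤ n → 1000 ≤ y → y ^ 40 ≤ k → k ≤ 2 * y ^ 40 → F.Nodup →
      WF (src E) (tgt E) n F.toFinset → PC (src E) (tgt E) k F.toFinset (range n) →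
      ∀ (G : List ℕ) (C : Mat), gd (⟨n⟩, ⟨k⟩, y, E, F) = (G, C) →
      G.Nodup ∧ G ⊆ F ∧ PC (src E) (tgt E) (k - y ^ 35) G.toFinset (range n) ∧
      (∀ u v, 0 ≤ mg C u v) ∧
      ∑ u ∈ range n, ∑ v ∈ range n, (if u = v then 0 else (mg C u v : ℝ)) ≤ F.length ∧
      (∀ S : Finset ℕ, ∑ u ∈ range n, ∑ v ∈ range n, (mg C u v : ℝ) *
        ((if u ∈ S then (1 : ℝ) else 0) - (if v ∈ S then 1 else 0)) ^ 2 ≤
          (cut (src E) (tgt E) F.toFinset S : ℝ)) ∧
      ∀ e ∈ G, ∀ x : ℕ → ℝ, (x (src E e) - x (tgt E e)) ^ 2 ≤ 40 / y *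
        (qL (src E) (tgt E) F.toFinset x + x 0 ^ 2 +
          ∑ u ∈ range n, ∑ v ∈ range n, (mg C u v : ℝ) * (x u - x v) ^ 2) := by
  obtain ⟨opt, po, ho⟩ := exists_opt
  obtain ⟨sw, ps, hsw⟩ := exists_sweep
  obtain ⟨cn, pc, hcn⟩ := exists_canon
  refine ⟨fun a => (fun C => (good_G sw a.1.n a.2.2.1 a.2.2.2.1 a.2.2.2.2 C, C))
    (good_C opt a.1.n a.2.1.n a.2.2.2.1 a.2.2.2.2 (good_lam opt sw cn a.1.n a.2.1.n
      (a.2.1.n - a.2.2.1 ^ 35) a.2.2.1 a.2.2.2.1 a.2.2.2.2)), ?_, ?_⟩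
  · have hC : PT fun a : Un × Un × ℕ × Gr × List ℕ =>
        good_C opt a.1.n a.2.1.n a.2.2.2.1 a.2.2.2.2 (good_lam opt sw cn a.1.n a.2.1.n
        (a.2.1.n - a.2.2.1 ^ 35) a.2.2.1 a.2.2.2.1 a.2.2.2.2) :=
      good_C_pt po (by fun_prop) (by fun_prop) (by fun_prop) (by fun_prop) (by fun_prop)
        (by fun_prop) (good_lam_pt po ps pc (by fun_prop) (by fun_prop) (by fun_prop) (by fun_prop)
          (by fun_prop) (by fun_prop) (by fun_prop) (by fun_prop))
    exact (good_G_pt ps (by fun_prop) (by fun_prop) (by fun_prop) (by fun_prop) (by fun_prop)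
      hC).pair hC
  intro n k y E F hn hy hk1 hk2 hF hW hP G C h
  have hup := fun lam c g ξ h1 h2 h3 h4 h5 => upper_bound (lam := lam) (c := c) (g := g) (ξ := ξ)
    hW hn y hy hk1 hk2 hP h1 h2 h3 h4 h5
  have hy1 : 1 < y := lt_of_lt_of_le (by norm_num) hy
  have hk : y * y ≤ k := by
    rw [← sq]; exact (Nat.pow_le_pow_right hy1.le (by norm_num)).trans hk1
  have hj : 1 ≤ k - y ^ 35 :=
    Nat.sub_pos_of_lt ((Nat.pow_lt_pow_right hy1 (by norm_num)).trans_le hk1)
  have hjk : k - y ^ 35 ≤ k := Nat.sub_le _ _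
  dsimp only at h
  generalize k - y ^ 35 = j at h hup hj hjk ⊢
  clear hk1 hk2
  have hP1 := hP.mono Subset.rfl (hj.trans hjk)
  obtain ⟨hI, hB⟩ := good_final ho hsw hcn hy1.le hk hj hF hW hP1 hup
  generalize good_lam opt sw cn n k j y E F = lam at h hI hB
  obtain ⟨z1, z2, z3, -⟩ := good_Z_ge (n := n) F (hj.trans hjk)
  obtain ⟨hV, -⟩ := ho n (good_Z n k F) E F lam hF hW hP1 z1 z2 z3 hI.le
  obtain ⟨h1, h2⟩ := Prod.mk.inj h
  rw [good_B, h1] at hB
  rw [h2] at h1
  rw [show (opt (⟨n⟩, ⟨good_Z n k F⟩, E, F, lam)).1 = C from h2] at hV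
  have hPD := pd_Dm hW hP1 hV.c_nonneg
  have hG := good_mem_G hsw y hF hPD
  have hGF := good_G_sub (sw := sw) (n := n) (y := y) (E := E) (F := F) C
  have hN : G.Nodup := h1 ▸ hF.filter _
  rw [h1] at hG hGF
  refine ⟨hN, fun e he => ((hG e).1 he).1, ?_, fun u v => by exact_mod_cast hV.c_nonneg u v,
    hV.total_le.trans (by rw [List.toFinset_card_of_nodup hF]), hV.cut_le, fun e he x => ?_⟩
  · by_contra hc
    obtain ⟨e, e1, e2, e3⟩ := exists_bad hW hP hj hjk hGF hc
    have := (good_mem_bad hcn hj hN hGF hW e).2 ⟨e1, e2, e3⟩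
    rw [hB] at this
    exact List.not_mem_nil this
  · obtain ⟨e1, e2⟩ := (hG e).1 he
    obtain ⟨a1, a2, -⟩ := hW e (List.mem_toFinset.2 e1)
    have h3 := hPD.sq_dot_le (bv n (src E e) (tgt E e)) fun i => x i
    have h4 := hPD.nonneg fun i => x i
    replace h3 := h3.trans (mul_le_mul_of_nonneg_right e2 h4)
    have hx : ∀ u < n, ext (fun i : Fin n => x i) u = x u := fun u hu => ext_restrict x hu
    rw [bv_dot, qf_Dm, hx _ a1, hx _ a2, hx 0 hn] at h3
    refine h3.trans_eq ?_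
    congr 2
    · congr 1
      exact sum_congr rfl fun f hf => by rw [hx _ (hW f hf).1, hx _ (hW f hf).2.1]
    · exact sum_congr rfl fun u hu => sum_congr rfl fun v hv => by
        rw [hx u (mem_range.1 hu), hx v (mem_range.1 hv)]

end Crest.Agent.R37
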