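import Crest.Agent.R37.KSAAux1

/-!
# R37/KSAAux2: the meaning of the rational quantities
-/

set_option autoImplicit false
open Finset Matrix

namespace Crest.Agent.R37.KSA

open Crest.Agent.Lib.PT KS

def Vr (a : In) : Ix → Fin (nN a) → ℝ := fun i => toV (nN a) (Vq a i)
def zr (z : Vec) : ℕ → ℝ := fun t => (vg z t : ℝ)
noncomputable def M0 (a : In) (ch : List Ix) : Matrix (Fin (nN a)) (Fin (nN a)) ℝ :=
  (1 / 2 + 135 * (a.2.2.2 : ℝ)) • toM (nN a) a.2.1 - (ch.map fun i => op (Vr a i)).sum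
def alF (a : In) (ch : List Ix) : Finset ℕ := (alL a ch).toFinset
noncomputable def MR (a : In) (s : St) : Matrix (Fin (nN a)) (Fin (nN a)) ℝ :=
  MM (M0 a s.1) (Vr a) (alF a s.1) (cξ (zr s.2)) (cω (zr s.2))
def Adm (a : In) (s : St) : Prop :=
  Ok (M0 a s.1) (Vr a) (alF a s.1) (cξ (zr s.2)) (cω (zr s.2))
noncomputable def Val (a : In) (s : St) : ℝ :=
  Pot (M0 a s.1) (Vr a) (alF a s.1) (cξ (zr s.2)) (cω (zr s.2)) + (alF a s.1).card
def cr (L : List ℕ) : ℕ → ℝ := fun t => (cq L t : ℝ)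

variable {a : In} {s : St} {ch : List Ix}

theorem mem_alF {p : ℕ} : p ∈ alF a ch ↔ p < nm a ∧ p ∉ ch.map Prod.fst := by
  rw [alF, List.mem_toFinset, mem_alL]

theorem mem_sides {al : Finset ℕ} {i : Ix} : i ∈ sides al ↔ i.1 ∈ al := by
  simp [sides]

theorem mem_sl' {i : Ix} : i ∈ sl a ch ↔ i ∈ sides (alF a ch) := by
  rw [mem_sl, mem_sides, alF, List.mem_toFinset]

theorem nodup_alL : (alL a ch).Nodup := List.nodup_range.filter _

theorem alF_sub : alF a ch ⊆ range (nm a) := fun _ h => mem_range.2 (mem_alF.1 h).1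

theorem sum_sl {β : Type} [AddCommMonoid β] (f : Ix → β) :
    ((sl a ch).map f).sum = ∑ i ∈ sides (alF a ch), f i := by
  have h : (sl a ch).Nodup := nodup_alL.product (by decide)
  rw [← List.sum_toFinset f h]
  exact sum_congr (Finset.ext fun i => List.mem_toFinset.trans mem_sl') fun _ _ => rfl

theorem cast_xq (z : Vec) (i : Ix) : (xq z i : ℝ) = xs (cξ (zr z)) i := by
  unfold xq xs cξ zr
  split_ifs <;> push_cast <;> rfl

theorem cast_w (z : Vec) (i : Ix) : (vg z (ix i) : ℝ) = cω (zr z) i := rfl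

theorem cast_sq (i : Ix) : (sq i : ℝ) = sg i := by
  unfold sq sg
  split_ifs <;> push_cast <;> rfl

theorem cast_pq (x : ℚ) : (pq x : ℝ) = psi x := by
  unfold pq psi
  push_cast
  rfl

theorem cast_c1 (L : List ℕ) (p : ℕ) : (cq L (3 * p) : ℝ) = cξ (cr L) p := rfl
theorem cast_c2 (L : List ℕ) (i : Ix) : (cq L (ix i) : ℝ) = cω (cr L) i := rfl

theorem cr_one (k : ℕ) : cr [k] = un k := by
  funext t
  simp only [cr, cq, un, List.count_cons, List.count_nil, beq_iff_eq, eq_comm (a := t)]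
  split_ifs <;> simp

theorem cr_two (k l : ℕ) : cr [k, l] = un k + un l := by
  funext t
  simp only [cr, cq, un, List.count_cons, List.count_nil, beq_iff_eq, eq_comm (a := t), Pi.add_apply]
  split_ifs <;> norm_num

theorem toM_Mq : toM (nN a) (Mq a s) = MR a s := by
  have e : toM (nN a) (Mq a s) = (1 / 2 + 135 * (a.2.2.2 : ℝ)) • toM (nN a) a.2.1 -
      toM (nN a) (sumOp (nN a) (s.1.map fun i => (1, Vq a i))) -
      toM (nN a) (sumOp (nN a) ((sl a s.1).map fun i =>
        (xq s.2 i + pq (xq s.2 i) * vg s.2 (ix i), Vq a i))) := by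
    rw [Mq, toM_mkM]
    ext k l
    simp only [toM, Matrix.of_apply, Matrix.sub_apply, Matrix.smul_apply, smul_eq_mul]
    push_cast
    rfl
  rw [e, toM_sumOp, toM_sumOp, List.map_map, List.map_map, sum_sl, MR, MM, M0]
  congr 2
  · congr 1
    exact List.map_congr_left fun i _ => by simp [Vr]
  · funext i
    simp only [Function.comp, Rat.cast_add, Rat.cast_mul, cast_pq, cast_xq, cast_w, aw, Vr]

theorem MR_symm (hB : (toM (nN a) a.2.1).IsSymm) : (MR a s).IsSymm := by
  have h1 := isSymm_sumOp (N := nN a) (s.1.map fun i => (1, Vq a i))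
  rw [toM_sumOp, List.map_map] at h1
  refine ((hB.smul _).sub ?_).sub (isSymm_sum _ fun i _ => (op_symm _).smul _)
  convert h1 using 2
  exact List.map_congr_left fun i _ => by simp [Vr]

theorem Mq_spec (hB : (toM (nN a) a.2.1).IsSymm) :
    ((sw (Mq a s)).2.2 = true ↔ PD (MR a s)) ∧
      (PD (MR a s) → toM (nN a) (Gq a s) = (MR a s)⁻¹) := by
  have h := sw_spec (Mq a s)
  rw [show (Mq a s).length = nN a from length_mkM _ _, toM_Mq] at h
  obtain ⟨h1, h2⟩ := h (MR_symm hB)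
  have h3 : PD (MR a s) → (sw (Mq a s)).2.2 = true := fun hp => by
    by_contra hn
    obtain ⟨h4, h5⟩ := h2 (by simpa using hn)
    exact (hp.2 _ h4).not_ge h5
  exact ⟨⟨fun h => (h1 h).1, h3⟩, fun hp => (h1 (h3 hp)).2⟩

theorem cast_aq (z : Vec) (L : List ℕ) (i : Ix) :
    (aq z L i : ℝ) = alp (cω (zr z)) (cξ (zr z)) (cξ (cr L)) (cω (cr L)) i := by
  unfold aq alp
  push_cast
  rw [cast_pq, cast_xq, cast_w, cast_sq, cast_c1, cast_c2]

section cast
variable (hG : toM (nN a) (Gq a s) = (MR a s)⁻¹)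
include hG

theorem cast_gq (i j : Ix) : (gq a s i j : ℝ) = Gm (MR a s) (Vr a) i j := by
  rw [gq, cast_bil, hG]
  rfl

theorem cast_lq (i : Ix) : (lq a s i : ℝ) = ell (MR a s) (Vr a) (cω (zr s.2)) i := by
  unfold lq ell
  push_cast
  rw [cast_gq hG, cast_w]

theorem cast_uq (j k : Ix) :
    (uq a s j k : ℝ) = Up (MR a s) (Vr a) (sides (alF a s.1)) (cω (zr s.2)) j k := by
  unfold uq Up
  rw [sum_sl]
  push_cast
  simp only [cast_gq hG, cast_lq hG, cast_bil, hG, toV_evL]
  rw [Finset.sum_range, dotProduct]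
  congr 1
  exact sum_congr rfl fun r _ => congrArg₂ (· * ·) (ext_fin _ r) (ext_fin _ r)

theorem cast_Hr (L : List ℕ) : (Hr a s L : ℝ) = Hq (MR a s) (Vr a) (sides (alF a s.1))
    (cω (zr s.2)) (cξ (zr s.2)) (cξ (cr L)) (cω (cr L)) := by
  unfold Hr Hq Qq Qf Kq Kv
  simp only [sum_sl]
  push_cast
  simp only [cast_gq hG, cast_lq hG, cast_uq hG, cast_aq, cast_xq, cast_w, cast_sq, cast_c1,
    cast_c2]

theorem cast_valq : (valq a s : ℝ) = Val a s := by
  unfold valq Val Pot pot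
  rw [sum_sl, alF, List.toFinset_card_of_nodup nodup_alL]
  push_cast
  simp only [cast_gq hG, cast_w]
  rw [Finset.sum_range]
  congr 2
  rw [trace]
  exact sum_congr rfl fun r _ => congrFun (congrFun hG r) r

end cast

theorem admq_iff (hB : (toM (nN a) a.2.1).IsSymm) : admq a s = true ↔ Adm a s := by
  obtain ⟨h1, h2⟩ := Mq_spec (s := s) hB
  simp only [admq, Bool.and_eq_true, List.all_eq_true, decide_eq_true_eq, h1]
  constructor
  · rintro ⟨⟨hp, hx⟩, hw⟩
    refine ⟨hp, fun p h => ?_, fun i h => ?_, fun i h => ?_⟩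
    · have := hx p (List.mem_toFinset.1 h)
      exact ⟨Rat.cast_nonneg.2 this.1, by unfold cξ zr; exact_mod_cast this.2⟩
    · have := (Rat.cast_lt (K := ℝ)).2 (hw i (mem_sl'.2 h)).1
      rwa [cast_gq (h2 hp)] at this
    · rw [← cast_w]
      exact_mod_cast (hw i (mem_sl'.2 h)).2
  · intro hk
    refine ⟨⟨hk.pd, fun p h => ?_⟩, fun i h => ⟨?_, ?_⟩⟩
    · have := hk.x01 p (List.mem_toFinset.2 h)
      unfold cξ zr at this
      exact_mod_cast this
    · rw [← Rat.cast_lt (K := ℝ), cast_gq (h2 hk.pd)]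
      exact hk.lt i (mem_sl'.1 h)
    · have := hk.le i (mem_sl'.1 h)
      rw [← cast_w] at this
      exact_mod_cast this

theorem good_iff (hB : (toM (nN a) a.2.1).IsSymm) (hs : Adm a s) (s' : St) :
    good a s s' = true ↔ Adm a s' ∧ Val a s' ≤ Val a s - 1 / (nP a : ℝ) ^ 51 := by
  rw [good, Bool.and_eq_true, admq_iff hB, decide_eq_true_eq]
  refine and_congr_right fun hs' => ?_
  rw [← Rat.cast_le (K := ℝ)]
  push_cast
  rw [cast_valq ((Mq_spec hB).2 hs.pd), cast_valq ((Mq_spec hB).2 hs'.pd)]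

/-- the form of `Hm` -/
theorem qf_Hm (hB : (toM (nN a) a.2.1).IsSymm) (hp : PD (MR a s)) (z : ℕ → ℝ) :
    qf (toM (3 * nm a) (Hm a s)) (fun t => z t) =
      Hq (MR a s) (Vr a) (sides (alF a s.1)) (cω (zr s.2)) (cξ (zr s.2)) (cξ z) (cω z) +
        1 / (2 * (nP a : ℝ) ^ 9) * ∑ t ∈ range (3 * nm a), z t ^ 2 := by
  have hG := (Mq_spec (s := s) hB).2 hp
  rw [Hq_polar hp (nm a) alF_sub, Hm, toM_mkM, qf, mul_sum, ← sum_add_distrib, Finset.sum_range,
    dotProduct]
  refine sum_congr rfl fun k _ => ?_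
  rw [Finset.sum_range, mulVec, dotProduct, mul_sum]
  simp only [Matrix.of_apply, Rat.cast_add, Rat.cast_div, Rat.cast_sub, cast_Hr hG, cr_one, cr_two,
    add_mul, mul_add, sum_add_distrib, Rat.cast_ofNat]
  congr 1
  · exact sum_congr rfl fun l _ => by ring
  · rw [sum_eq_single k (fun l _ h => by rw [if_neg fun e => h (Fin.ext e).symm]; simp) (by simp),
      if_pos rfl]
    push_cast
    ring

theorem Hm_symm : (toM (3 * nm a) (Hm a s)).IsSymm := by
  have e : ∀ k l, Hr a s [k, l] = Hr a s [l, k] := fun k l => by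
    have : cq [k, l] = cq [l, k] := funext fun t => by
      rw [cq, cq, (List.Perm.swap l k []).count_eq]
    unfold Hr Qq Kq aq
    rw [this]
  rw [Hm, toM_mkM]
  ext k l
  simp only [Matrix.transpose_apply, Matrix.of_apply, e l k, eq_comm (a := (l : ℕ))]
  rw [sub_right_comm]

end Crest.Agent.R37.KSA
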