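import Crest.Agent.R37.KSNeg
import Crest.Agent.R37.KSAAux2

/-!
# R37/KSA: Kadison-Singer for pairs of vectors, in polynomial time
-/

set_option autoImplicit false
open Finset Matrix

namespace Crest.Agent.R37

open Crest.Agent.Lib.PT

namespace KSA

open KS

variable {a : In} {s : St} {ch : List Ix}

/-- what the local search needs from the input -/
structure Hyp (a : In) : Prop where
  sy : (toM (nN a) a.2.1).IsSymm
  h4 : (10 : ℝ) ^ 4 ≤ nP a
  hm : (nm a : ℝ) ≤ nP a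
  hM : Le ((1 / 2 + 135 * (a.2.2.2 : ℝ)) • toM (nN a) a.2.1) ((136 * (nP a : ℝ)) • 1)
  hV : ∀ i : Ix, i.1 < nm a → 1 ≤ Vr a i ⬝ᵥ Vr a i

theorem rq_spec {G : ℕ} (hG : 0 < G) {q : ℚ} (h0 : (0 : ℝ) ≤ q) (h1 : (q : ℝ) ≤ 1) :
    |(rq G q : ℝ) - q| ≤ 1 / G ∧ (0 : ℝ) ≤ rq G q ∧ (rq G q : ℝ) ≤ 1 := by
  have hG' : (0 : ℚ) < G := Nat.cast_pos.2 hG
  have h0' : 0 ≤ q := by exact_mod_cast h0
  have h1' : q ≤ 1 := by exact_mod_cast h1
  have a1 := Nat.floor_le (mul_nonneg h0' hG'.le)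
  have a2 := Nat.lt_floor_add_one (q * G)
  have a3 : q * G ≤ G := mul_le_of_le_one_left hG'.le h1'
  have key : |rq G q - q| ≤ 1 / G ∧ 0 ≤ rq G q ∧ rq G q ≤ 1 := by
    rw [rq, min_eq_left (by exact_mod_cast a1.trans a3)]
    refine ⟨?_, by positivity, (div_le_one hG').2 (a1.trans a3)⟩
    rw [div_sub' hG'.ne', abs_div, abs_of_pos hG', div_le_div_iff_of_pos_right hG', abs_le]
    constructor <;> linarith
  refine ⟨?_, by exact_mod_cast key.2.1, by exact_mod_cast key.2.2⟩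
  have := (Rat.cast_le (K := ℝ)).2 key.1
  push_cast at this
  exact this

theorem ix_lt {i : Ix} {m : ℕ} (h : i.1 < m) : ix i < 3 * m := by
  unfold ix
  split_ifs <;> omega

theorem ix_inj {i j : Ix} : ix i = ix j ↔ i = j := by
  obtain ⟨p, b⟩ := i
  obtain ⟨q, c⟩ := j
  cases b <;> cases c <;> simp [ix] <;> omega

theorem ne_ix (p : ℕ) (i : Ix) : 3 * p ≠ ix i := by
  unfold ix
  split_ifs <;> omega

theorem Hyp.card_le (H : Hyp a) : ((alF a ch).card : ℝ) ≤ nP a :=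
  (Nat.cast_le.2 ((card_le_card alF_sub).trans (card_range _).le)).trans H.hm

theorem round_ok (H : Hyp a) {u : Vec} {x : ℕ → ℝ} {w : Ix → ℝ}
    (hk : Ok (M0 a ch) (Vr a) (alF a ch) x w) (hP : Pot (M0 a ch) (Vr a) (alF a ch) x w ≤ nP a)
    (hx : ∀ p < nm a, x p = vg u (3 * p)) (hw : ∀ i : Ix, i.1 < nm a → w i = vg u (ix i)) :
    Adm a (ch, rn a u) ∧ Val a (ch, rn a u) ≤
      Pot (M0 a ch) (Vr a) (alF a ch) x w + (alF a ch).card + 1 / (nP a : ℝ) ^ 53 := by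
  have hp : 0 < nP a ^ 60 := pow_pos (Nat.cast_pos.1 (lt_of_lt_of_le (by norm_num) H.h4)) _
  have e : ∀ t < 3 * nm a, zr (rn a u) t = rq (nP a ^ 60) (vg u t) := fun t ht =>
    congrArg _ (vg_mkV _ ht)
  have := round_le (x' := cξ (zr (rn a u))) (w' := cω (zr (rn a u))) hk H.h4 H.card_le hP
    (fun p h => by
      have h1 := (mem_alF.1 h).1
      have h2 := hk.x01 p h
      rw [hx p h1] at h2 ⊢
      rw [cξ, e _ (by omega), ← Nat.cast_pow]
      exact rq_spec hp h2.1 h2.2)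
    (fun i h => by
      have h1 := (mem_alF.1 (mem_sides.1 h)).1
      have h2 := ((Gm_nonneg hk.pd i).trans_lt (hk.lt i h)).le
      have h3 := hk.le i h
      rw [hw i h1] at h2 h3 ⊢
      have := rq_spec hp h2 h3
      rw [← e _ (ix_lt h1), Nat.cast_pow] at this
      exact ⟨this.1, this.2.2⟩)
  exact ⟨this.1, by have := this.2; unfold Val; linarith⟩

theorem Hq_congr {N : ℕ} {M : Matrix (Fin N) (Fin N) ℝ} {V : Ix → Fin N → ℝ} {I : Finset Ix}
    {w ω ω' : Ix → ℝ} {x ξ ξ' : ℕ → ℝ} (h1 : ∀ i ∈ I, ξ i.1 = ξ' i.1) (h2 : ∀ i ∈ I, ω i = ω' i) :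
    Hq M V I w x ξ ω = Hq M V I w x ξ' ω' := by
  have h3 : ∀ i ∈ I, alp w x ξ ω i = alp w x ξ' ω' i := fun i hi => by
    rw [alp, alp, h1 i hi, h2 i hi]
  unfold Hq Qf Kv
  congr 2
  · exact sum_congr rfl fun i hi => by rw [h1 i hi, h2 i hi]
  · congr 1
    exact sum_congr rfl fun i hi => sum_congr rfl fun j hj => by rw [h3 i hi, h3 j hj]
  · refine sum_congr rfl fun i hi => ?_
    rw [h2 i hi, sum_congr rfl fun j hj => by rw [h3 j hj]]

theorem sum_three (f : ℕ → ℝ) (m : ℕ) :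
    ∑ t ∈ range (3 * m), f t = ∑ p ∈ range m, (f (3 * p) + (f (3 * p + 2) + f (3 * p + 1))) := by
  induction m with
  | zero => simp
  | succ m ih =>
    rw [Nat.mul_succ, sum_range_succ, sum_range_succ, sum_range_succ, ih, sum_range_succ]
    ring

/-- the sweep finds a direction of negative curvature -/
theorem sweep_neg (H : Hyp a) (hs : Adm a s) {ξ : ℕ → ℝ} {ω : Ix → ℝ}
    (h0 : 0 < ∑ p ∈ alF a s.1, ξ p ^ 2 + ∑ i ∈ sides (alF a s.1), ω i ^ 2)
    (h1 : Hq (MR a s) (Vr a) (sides (alF a s.1)) (cω (zr s.2)) (cξ (zr s.2)) ξ ω ≤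
      -(1 / (nP a : ℝ) ^ 9) * (∑ p ∈ alF a s.1, ξ p ^ 2 + ∑ i ∈ sides (alF a s.1), ω i ^ 2)) :
    ∃ t₀ < 3 * nm a, ∃ z : ℕ → ℝ, (∀ t < 3 * nm a, |z t| ≤ 1) ∧
      (∀ t, z t = vg (sw (Hm a s)).2.1 t / vg (sw (Hm a s)).2.1 t₀) ∧
      Hq (MR a s) (Vr a) (sides (alF a s.1)) (cω (zr s.2)) (cξ (zr s.2)) (cξ z) (cω z) ≤
        -(1 / (2 * (nP a : ℝ) ^ 9)) := by
  have hP : (0 : ℝ) < nP a := lt_of_lt_of_le (by norm_num) H.h4
  have hc : 0 < 1 / (2 * (nP a : ℝ) ^ 9) := by positivity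
  have h := sw_spec (Hm a s)
  rw [show (Hm a s).length = 3 * nm a from length_mkM _ _] at h
  obtain ⟨h2, h3⟩ := h Hm_symm
  have hf : (sw (Hm a s)).2.2 = false := by
    by_contra hn
    have hp := (h2 (by simpa using hn)).1
    let z : ℕ → ℝ := fun t => if t / 3 ∈ alF a s.1 then
      (if t % 3 = 0 then ξ (t / 3) else ω (t / 3, decide (t % 3 = 2))) else 0
    have e0 : ∀ p, z (3 * p) = if p ∈ alF a s.1 then ξ p else 0 := fun p => by simp [z]
    have e1 : ∀ p, z (3 * p + 1) = if p ∈ alF a s.1 then ω (p, false) else 0 := fun p => by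
      simp [z, show (3 * p + 1) / 3 = p by omega]
    have e2 : ∀ p, z (3 * p + 2) = if p ∈ alF a s.1 then ω (p, true) else 0 := fun p => by
      simp [z, show (3 * p + 2) / 3 = p by omega]
    have e3 : ∑ t ∈ range (3 * nm a), z t ^ 2 =
        ∑ p ∈ alF a s.1, ξ p ^ 2 + ∑ i ∈ sides (alF a s.1), ω i ^ 2 := by
      rw [sum_three, sides, sum_product, ← sum_add_distrib]
      refine (sum_subset_zero_on_sdiff alF_sub (fun p h => ?_) fun p h => ?_).symm
      · simp [e0, e1, e2, (mem_sdiff.1 h).2]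
      · simp [e0, e1, e2, h]
    have h4 := hp.nonneg fun t => z t
    rw [qf_Hm H.sy hs.pd, e3, Hq_congr (ξ' := ξ) (ω' := ω)
      (fun i hi => (e0 _).trans (if_pos (mem_sides.1 hi))) (fun i hi => by
        obtain ⟨p, b⟩ := i
        cases b
        · exact (e1 _).trans (if_pos (mem_sides.1 hi))
        · exact (e2 _).trans (if_pos (mem_sides.1 hi)))] at h4
    have h5 : 1 / (nP a : ℝ) ^ 9 = 2 * (1 / (2 * (nP a : ℝ) ^ 9)) := by field_simp
    have h6 := mul_pos hc h0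
    rw [h5] at h1
    linarith
  obtain ⟨h4, h5⟩ := h3 hf
  generalize (sw (Hm a s)).2.1 = v at h4 h5 ⊢
  obtain ⟨t₁, h6⟩ := Function.ne_iff.1 h4
  obtain ⟨t₀, h7, h8⟩ := exists_max_image (range (3 * nm a)) (fun t => |zr v t|)
    ⟨t₁, mem_range.2 t₁.2⟩
  have h9 : 0 < |zr v t₀| := (abs_pos.2 h6).trans_le (h8 t₁ (mem_range.2 t₁.2))
  refine ⟨t₀, mem_range.1 h7, fun t => zr v t / zr v t₀, fun t ht => ?_, fun _ => rfl, ?_⟩
  · rw [abs_div]
    exact (div_le_one h9).2 (h8 t (mem_range.2 ht))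
  · have e := qf_Hm H.sy hs.pd fun t => zr v t / zr v t₀
    have e' : (fun t : Fin (3 * nm a) => zr v t / zr v t₀) = (zr v t₀)⁻¹ • toV (3 * nm a) v :=
      funext fun t => div_eq_inv_mul _ _
    rw [e', qf_smul_vec] at e
    have b1 := mul_nonpos_of_nonneg_of_nonpos (sq_nonneg (zr v t₀)⁻¹) h5
    have b2 := single_le_sum (f := fun t => (zr v t / zr v t₀) ^ 2) (fun _ _ => sq_nonneg _) h7
    simp only [div_self (abs_pos.1 h9), one_pow] at b2
    have b3 := mul_le_mul_of_nonneg_left b2 hc.le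
    linarith

theorem M0_le (H : Hyp a) : Le (M0 a ch) ((136 * (nP a : ℝ)) • 1) := fun y => by
  refine le_trans ?_ (H.hM y)
  rw [M0, qf_sub, qf_listSum, List.map_map]
  refine sub_le_self _ (List.sum_nonneg fun r hr => ?_)
  obtain ⟨i, -, rfl⟩ := List.mem_map.1 hr
  exact (sq_nonneg _).trans (qf_op _ y).ge

theorem progress (H : Hyp a) (hs : Adm a s) (hv : Val a s ≤ nP a) (hne : (alF a s.1).Nonempty) :
    ∃ s' ∈ cand a s, good a s s' = true := by
  have h1 : (1 : ℝ) ≤ nP a := le_trans (by norm_num) H.h4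
  have hP0 : (0 : ℝ) < nP a := one_pos.trans_le h1
  have hP : Pot (M0 a s.1) (Vr a) (alF a s.1) (cξ (zr s.2)) (cω (zr s.2)) ≤ nP a :=
    (le_add_of_nonneg_right (Nat.cast_nonneg _)).trans hv
  have n0 : 0 < 1 / (nP a : ℝ) ^ 50 := by positivity
  have n1 : 1 / (nP a : ℝ) ^ 50 ≤ 1 / (nP a : ℝ) ^ 21 :=
    one_div_le_one_div_of_le (by positivity) (pow_le_pow_right₀ h1 (by norm_num))
  have n2 : 1 / (nP a : ℝ) ^ 50 ≤ 1 := (div_le_one (by positivity)).2 (one_le_pow₀ h1)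
  have n3 : 1 / (nP a : ℝ) ^ 53 ≤ 1 / (nP a : ℝ) ^ 51 :=
    one_div_le_one_div_of_le (by positivity) (pow_le_pow_right₀ h1 (by norm_num))
  have n4 : 2 * (1 / (nP a : ℝ) ^ 51) ≤ 1 / (nP a : ℝ) ^ 50 := by
    rw [pow_succ (nP a : ℝ) 50, ← div_div, mul_div_assoc', div_le_iff₀ hP0, mul_comm]
    exact mul_le_mul_of_nonneg_left (le_trans (by norm_num) H.h4) n0.le
  simp only [good_iff H.sy hs, cand, List.mem_append, List.mem_map]
  by_cases c1 : ∃ i ∈ sides (alF a s.1), 1 ≤ aw (xs (cξ (zr s.2)) i) (cω (zr s.2) i)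
  · obtain ⟨i, hi, h⟩ := c1
    have e1 : M0 a s.1 - op (Vr a i) = M0 a (i :: s.1) := by
      rw [M0, M0, List.map_cons, List.sum_cons, sub_sub, add_comm (op _)]
    have e2 : (alF a s.1).erase i.1 = alF a (i :: s.1) := by
      ext p
      simp only [mem_erase, mem_alF, List.map_cons, List.mem_cons, not_or]
      tauto
    have e3 : ((alF a (i :: s.1)).card : ℝ) + 1 = (alF a s.1).card := by
      rw [← e2]
      exact_mod_cast card_erase_add_one (mem_sides.1 hi)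
    obtain ⟨k1, k2⟩ := decide_ok hs hi h
    rw [e1, e2] at k1 k2
    obtain ⟨k3, k4⟩ := round_ok (u := s.2) H k1 (k2.trans hP) (fun _ _ => rfl) fun _ _ => rfl
    exact ⟨_, Or.inl (Or.inl ⟨i, mem_sl'.2 hi, rfl⟩), k3, k4.trans (by unfold Val; linarith)⟩
  push Not at c1
  by_cases c2 : ∃ i ∈ sides (alF a s.1), 2 * ell (MR a s) (Vr a) (cω (zr s.2)) i <
      psi (xs (cξ (zr s.2)) i) * Up (MR a s) (Vr a) (sides (alF a s.1)) (cω (zr s.2)) i i
  · obtain ⟨i, hi, h⟩ := c2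
    obtain ⟨k1, k2⟩ := lower_w hs H.h4 H.card_le hP hi h _ fun _ _ => rfl
    obtain ⟨k3, k4⟩ := round_ok (u := low a s.2 i) H k1 (k2.trans (by linarith))
      (fun p hp => by
        rw [low, vg_mkV _ (by omega), if_neg (ne_ix p i), sub_zero]
        rfl)
      (fun j hj => by
        rw [low, vg_mkV _ (ix_lt hj), ← cast_w]
        simp only [ix_inj]
        split_ifs <;> push_cast <;> rfl)
    exact ⟨_, Or.inl (Or.inr ⟨i, mem_sl'.2 hi, rfl⟩), k3, k4.trans (by unfold Val; linarith)⟩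
  push Not at c2
  obtain ⟨ξ, ω, g0, g1⟩ := neg hs H.h4 H.card_le hP hne (M0_le H)
    (fun i hi => H.hV i (mem_alF.1 (mem_sides.1 hi)).1) c1 c2
  obtain ⟨t₀, ht, z, g2, g3, g4⟩ := sweep_neg H hs g0 g1
  obtain ⟨σ, hσ, k1, k2⟩ := move_neg hs H.h4 H.card_le hP c1
    (fun p hp => g2 _ (by have := (mem_alF.1 hp).1; omega))
    (fun i hi => g2 _ (ix_lt (mem_alF.1 (mem_sides.1 hi)).1)) g4
  obtain ⟨τ, hτ, rfl⟩ : ∃ τ ∈ [(1 : ℚ), -1], (τ : ℝ) = σ := by
    rcases hσ with rfl | rfl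
    · exact ⟨1, by simp, by simp⟩
    · exact ⟨-1, by simp, by simp⟩
  obtain ⟨k3, k4⟩ := round_ok (u := mov a s.2 (sw (Hm a s)).2.1 t₀ τ) H k1 (k2.trans (by linarith))
    (fun p hp => by
      rw [mov, vg_mkV _ (by omega)]
      push_cast
      rw [← g3]
      rfl)
    (fun j hj => by
      rw [mov, vg_mkV _ (ix_lt hj)]
      push_cast
      rw [← g3]
      rfl)
  exact ⟨_, Or.inr ⟨(t₀, τ), List.mem_product.2 ⟨List.mem_range.2 ht, hτ⟩, rfl⟩, k3,
    k4.trans (by unfold Val; linarith)⟩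

theorem iter (H : Hyp a) (h0 : Adm a (ini a)) (h1 : Val a (ini a) ≤ nP a) (k : ℕ) :
    Adm a ((nxt a)^[k] (ini a)) ∧ Val a ((nxt a)^[k] (ini a)) ≤ nP a ∧
      ((cand a ((nxt a)^[k] (ini a))).find? (good a ((nxt a)^[k] (ini a))) = none ∨
        Val a ((nxt a)^[k] (ini a)) ≤ nP a - k * (1 / (nP a : ℝ) ^ 51)) := by
  induction k with
  | zero => exact ⟨h0, h1, Or.inr (by simpa using h1)⟩
  | succ k ih =>
    rw [Function.iterate_succ_apply']
    generalize (nxt a)^[k] (ini a) = s at ih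
    obtain ⟨a1, a2, a3⟩ := ih
    cases h : (cand a s).find? (good a s) with
    | none =>
      rw [show nxt a s = s by rw [nxt, h]; rfl]
      exact ⟨a1, a2, Or.inl h⟩
    | some c =>
      rw [show nxt a s = c by rw [nxt, h]; rfl]
      obtain ⟨b1, b2⟩ := (good_iff H.sy a1 c).1 (List.find?_some h)
      have a4 := a3.resolve_left (by rw [h]; simp)
      have : 0 ≤ 1 / (nP a : ℝ) ^ 51 := by positivity
      refine ⟨b1, by linarith, Or.inr ?_⟩
      push_cast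
      linarith

theorem fin_spec (H : Hyp a) (h0 : Adm a (ini a)) (h1 : Val a (ini a) ≤ nP a) :
    Adm a (fin a) ∧ alF a (fin a).1 = ∅ := by
  obtain ⟨a1, a2, a3⟩ := iter H h0 h1 (nP a ^ 52 + 1)
  refine ⟨a1, not_nonempty_iff_eq_empty.1 fun hne => ?_⟩
  obtain ⟨c, b1, b2⟩ := progress H a1 a2 hne
  have hP : (0 : ℝ) < nP a := lt_of_lt_of_le (by norm_num) H.h4
  have a4 := a3.resolve_left fun h => List.find?_eq_none.1 h c b1 b2
  have a5 := add_nonneg a1.pot_nonneg (Nat.cast_nonneg (alF a (fin a).1).card)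
  have a6 : ((nP a ^ 52 + 1 : ℕ) : ℝ) * (1 / (nP a : ℝ) ^ 51) = nP a + 1 / (nP a : ℝ) ^ 51 := by
    push_cast
    field_simp
  have a7 : 0 < 1 / (nP a : ℝ) ^ 51 := by positivity
  have a8 := a5.trans a4
  linarith

theorem sum_toFinset_le (f : Ix → ℝ) (hf : ∀ i, 0 ≤ f i) (l : List Ix) :
    ∑ i ∈ l.toFinset, f i ≤ (l.map f).sum := by
  induction l with
  | nil => simp
  | cons i l ih =>
    rw [List.toFinset_cons, List.map_cons, List.sum_cons]
    by_cases h : i ∈ l.toFinset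
    · rw [insert_eq_of_mem h]
      exact ih.trans (le_add_of_nonneg_left (hf i))
    · rw [sum_insert h]
      exact add_le_add_right ih _

theorem out_le (hs : Adm a s) (he : alF a s.1 = ∅) (y : Fin (nN a) → ℝ) :
    ∑ p ∈ range (nm a), (Vr a (p, s.1.contains (p, true)) ⬝ᵥ y) ^ 2 ≤
      (1 / 2 + 135 * (a.2.2.2 : ℝ)) * qf (toM (nN a) a.2.1) y := by
  have h1 := hs.pd.nonneg y
  rw [MM, he, sides, empty_product, sum_empty, sub_zero, M0, qf_sub, qf_smul, qf_listSum,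
    List.map_map, sub_nonneg] at h1
  refine le_trans ?_ h1
  refine le_trans ?_ (sum_toFinset_le _ (fun i => (sq_nonneg _).trans (qf_op _ y).ge) _)
  simp only [qf_op]
  rw [← sum_image (g := fun p => ((p, s.1.contains (p, true)) : Ix))
    (f := fun i => (Vr a i ⬝ᵥ y) ^ 2) fun _ _ _ _ h => congrArg Prod.fst h]
  refine sum_le_sum_of_subset_of_nonneg (fun i hi => ?_) fun _ _ _ => sq_nonneg _
  obtain ⟨p, hp, rfl⟩ := mem_image.1 hi
  have h2 : p ∈ s.1.map Prod.fst := by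
    by_contra h
    exact notMem_empty p (he ▸ mem_alF.2 ⟨mem_range.1 hp, h⟩)
  obtain ⟨⟨_, b⟩, h3, rfl⟩ := List.mem_map.1 h2
  rw [List.mem_toFinset]
  cases h : s.1.contains (_, true)
  · cases b
    · exact h3
    · simp [h3] at h
  · simpa using h

end KSA

/-- Local search.  `m = Vs.length`, `N = B.length`, `P = 10^4 Z²`, `V (p, b)` = the `b`-side of `Vs.getD p`.
State: `st : List (Option Bool)` (length `m`; `none` = undecided, `al = {p < m | st p = none}`), `x : Vec`, and two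
lists `w₀ w₁ : Vec`; `M₀ = (1/2 + 135 ω) • B - ∑_{decided} op (V (p, choice))`.  Over `ℚ` compute `MM`, its inverse
`G` by `exists_sweep`, and from `G` the rational copies of `Gm, ell, Up, Qf, Kv, alp, Hq, pot` (`bil`, `cast_bil`; one cast
lemma per definition).  A state is admissible if the sweep succeeds and the inequalities of `Ok` hold
(decidable over `ℚ`); its value is `Pot + |al|`.  Candidates, each followed by rounding all entries with
`q ↦ (min (max ⌊q Γ⌋ 0) Γ) / Γ`, `Γ = P^60` (this gives the size bound of the loop on all inputs): decide a side `i`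
(only if `1 ≤ aw`); lower `w i` by `1 / P^20`; move by `± (1 / P^20) v / max |v a|` where `v` is the vector returned by
`exists_sweep` on the `3 m × 3 m` matrix of `Hq_polar` plus `1 / (2 P^9)` times the identity.  One round: go to an admissible
state of least value among the current state and the candidates.  If `al ≠ ∅` the value drops by `1 / P^51`:
`decide_ok` (the value drops by `1`), or `lower_w`, or else by `neg` (extend `(ξ, ω)` by zero to `z`) that matrix is not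
positive definite, the sweep returns `v ≠ 0` with `Hq v ≤ - |v|² / (2 P^9)`, and `move_neg` applies; then `round_le`.
The value starts below `5 Z² + Z ≤ P` (`init`; the initial state need not be rounded) and stays `≥ 0`, so after `P^52 + 1` rounds
`al = ∅` and `M₀ = MM` is positive definite.  For `neg`: `M₀ ⪯ 136 B ⪯ 136 Z` (`qf_le_trace`). -/
theorem exists_ks : ∃ ks : Un × Mat × List (Vec × Vec) × ℚ → List Bool, PT ks ∧
    ∀ (Z : ℕ) (B : Mat) (Vs : List (Vec × Vec)) (ω : ℚ), PD (toM B.length B) → 0 < ω → ω ≤ 1 →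
      1 / (ω : ℝ) ≤ Z → Vs.length ≤ Z → trace (toM B.length B) ≤ Z → trace (toM B.length B)⁻¹ ≤ Z →
      (∀ p ∈ Vs, 1 ≤ toV B.length p.1 ⬝ᵥ toV B.length p.1 ∧ 1 ≤ toV B.length p.2 ⬝ᵥ toV B.length p.2 ∧
        qf (toM B.length B)⁻¹ (toV B.length p.1) ≤ (ω : ℝ) ^ 2 ∧
        qf (toM B.length B)⁻¹ (toV B.length p.2) ≤ (ω : ℝ) ^ 2) →
      (∀ y, ∑ p ∈ range Vs.length, ((toV B.length (Vs.getD p ([], [])).1 ⬝ᵥ y) ^ 2 +
        (toV B.length (Vs.getD p ([], [])).2 ⬝ᵥ y) ^ 2) ≤ qf (toM B.length B) y) →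
      ∀ y, ∑ p ∈ range Vs.length, (if (ks (⟨Z⟩, B, Vs, ω)).getD p false then
          (toV B.length (Vs.getD p ([], [])).2 ⬝ᵥ y) ^ 2 else
          (toV B.length (Vs.getD p ([], [])).1 ⬝ᵥ y) ^ 2) ≤
        (1 / 2 + 135 * ω) * qf (toM B.length B) y := by
  refine ⟨KSA.ks, KSA.ks_pt, fun Z B Vs ω hB h0 h1 hZ hm ht hti hV hS y => ?_⟩
  let a : KSA.In := (⟨Z⟩, B, Vs, ω)
  have h0' : (0 : ℝ) < ω := by exact_mod_cast h0
  have h1' : (ω : ℝ) ≤ 1 := by exact_mod_cast h1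
  have hm' : (Vs.length : ℝ) ≤ Z := by exact_mod_cast hm
  have hZ1 : (1 : ℝ) ≤ Z := (one_le_one_div h0' h1').trans hZ
  have eP : (KSA.nP a : ℝ) = 10 ^ 4 * (Z : ℝ) ^ 2 := by
    rw [KSA.nP, Nat.cast_mul, Nat.cast_pow, Nat.cast_pow, Nat.cast_ofNat]
  have hZ2 : (Z : ℝ) ≤ Z ^ 2 := by nlinarith
  have hV' : ∀ i : KS.Ix, i.1 < Vs.length → 1 ≤ KSA.Vr a i ⬝ᵥ KSA.Vr a i ∧
      qf (toM B.length B)⁻¹ (KSA.Vr a i) ≤ (ω : ℝ) ^ 2 := by
    rintro ⟨p, b⟩ hp
    have := hV (Vs.getD p ([], [])) (by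
      rw [List.getD_eq_getElem _ _ hp]
      exact List.getElem_mem hp)
    cases b
    · exact ⟨this.1, this.2.2.1⟩
    · exact ⟨this.2.1, this.2.2.2⟩
  have H : KSA.Hyp a := by
    refine ⟨hB.1, by rw [eP]; linarith, by rw [eP]; exact hm'.trans (by linarith), fun y => ?_,
      fun i hi => (hV' i hi).1⟩
    have b1 := qf_le_trace hB.1 hB.nonneg y
    have b2 : 0 ≤ y ⬝ᵥ y := sum_nonneg fun _ _ => mul_self_nonneg _
    have b3 := mul_le_mul_of_nonneg_right (ht.trans (hZ2.trans (show _ ≤ (KSA.nP a : ℝ) by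
      rw [eP]; linarith))) b2
    have b4 := mul_le_mul (show 1 / 2 + 135 * (ω : ℝ) ≤ 136 by linarith) (b1.trans b3) (hB.nonneg y)
      (by norm_num)
    rw [qf_smul, qf_smul, qf_one, mul_assoc]
    exact b4
  obtain ⟨k1, k2⟩ := KS.init (N := KSA.nN a) (B := toM (KSA.nN a) B) (V := KSA.Vr a) hB Vs.length h0' h1' hZ hm' hti (fun y => by
    refine le_trans (le_of_eq ?_) (hS y)
    rw [qf_sum, KS.sides, sum_product]
    refine sum_congr rfl fun p _ => ?_
    rw [Fintype.sum_bool, qf_op, qf_op, add_comm]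
    rfl) fun i hi => (hV' i (mem_range.1 (KSA.mem_sides.1 hi))).2
  have e1 : (1 / 2 + 135 * (ω : ℝ)) • toM (KSA.nN a) B = KSA.M0 a [] := (sub_zero _).symm
  have e2 : range Vs.length = KSA.alF a [] := by
    ext p
    rw [KSA.mem_alF, mem_range]
    exact (and_iff_left List.not_mem_nil).symm
  rw [e1, e2] at k1 k2
  obtain ⟨k3, k4⟩ := KSA.round_ok
    (u := mkV (3 * KSA.nm a) fun t => if t % 3 = 0 then 1 / 2 else ω) H k1
    (k2.trans (by rw [eP]; linarith))
    (fun p hp => by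
      rw [vg_mkV _ (by omega), if_pos (by omega)]
      norm_num)
    (fun i hi => by
      rw [vg_mkV _ (KSA.ix_lt hi), if_neg (by unfold KSA.ix; split_ifs <;> omega)])
  have k5 : 1 / (KSA.nP a : ℝ) ^ 53 ≤ 1 :=
    div_le_one_of_le₀ (one_le_pow₀ (le_trans (by norm_num) H.h4)) (by positivity)
  rw [← e2, card_range] at k4
  obtain ⟨k6, k7⟩ := KSA.fin_spec H k3 (k4.trans (by rw [← e2] at k2; rw [eP] at k5 ⊢; linarith))
  refine le_trans (le_of_eq (sum_congr rfl fun p hp => ?_)) (KSA.out_le k6 k7 y)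
  have e3 : (KSA.ks a).getD p false = (KSA.fin a).1.contains (p, true) := by
    simp [KSA.ks, List.getD_eq_getElem?_getD, show p < KSA.nm a from mem_range.1 hp]
  rw [e3]
  cases (KSA.fin a).1.contains (p, true) <;> rfl

end Crest.Agent.R37
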