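import Crest.Agent.R37.Good
import Crest.Agent.R37.EntA
import Crest.Agent.R37.KSA

/-!
# R37/Halve: one halving step
-/

set_option autoImplicit false
open Finset Matrix

namespace Crest.Agent.R37

open Crest.Agent.Lib.PT

/-- the rank one terms of the budget matrix -/
def halve_L (n : ℕ) (η : ℚ) (E : Gr) (F : List ℕ) (C : Mat) (H : List ℕ) (E₀ : Gr) (ρ : List ℕ) :
    List (ℚ × Vec) :=
  F.map (fun e => ((1 : ℚ), bvL (n + n * n) (src E e) (tgt E e))) ++ ([(η, evL (n + n * n) 0)] ++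
    (((List.range n).flatMap fun u => (List.range n).map fun v =>
      (η * mg C u v, bvL (n + n * n) u v)) ++
    (H.map (fun e => ((1 : ℚ), bvL (n + n * n) (n + src E₀ e) (n + tgt E₀ e))) ++
      ρ.map fun r => ((1 : ℚ), evL (n + n * n) (n + r)))))

def halve_V (n : ℕ) (E : Gr) (H : List ℕ) (E₀ : Gr) : List (Vec × Vec) :=
  H.map fun e => (bvL (n + n * n) (n + src E₀ e) (n + tgt E₀ e), bvL (n + n * n) (src E e) (tgt E e))

def halve_out (ks : Un × Mat × List (Vec × Vec) × ℚ → List Bool) (n k t : ℕ) (E : Gr) (F : List ℕ)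
    (C : Mat) (X : List ℕ × Gr × List ℕ) : List ℕ :=
  X.1.filter fun e => (ks (⟨(F.length + n + k + 10) ^ 4⟩,
    sumOp (n + n * n) (halve_L n (1 / t) E F C X.1 X.2.1 X.2.2), halve_V n E X.1 X.2.1,
      7 / t)).getD (X.1.idxOf e) false

theorem halve_out_pt {ks : Un × Mat × List (Vec × Vec) × ℚ → List Bool} (hks : PT ks)
    {α : Type} [Enc α] {n k t : α → ℕ} {E : α → Gr} {F : α → List ℕ} {C : α → Mat}
    {X : α → List ℕ × Gr × List ℕ} (hn : PT n) (bn : PB n) (hk : PT k) (bk : PB k) (ht : PT t)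
    (hE : PT E) (hF : PT F) (hC : PT C) (hX : PT X) :
    PT fun a => halve_out ks (n a) (k a) (t a) (E a) (F a) (C a) (X a) := by
  unfold halve_out halve_L halve_V
  fun_prop

theorem halve_flat {α β M : Type} [AddMonoid M] (l : List α) (f : α → List β) (g : β → M) :
    ((l.flatMap f).map g).sum = (l.map fun a => ((f a).map g).sum).sum := by
  induction l with
  | nil => simp
  | cons a l ih => simp [ih]

theorem halve_range {M : Type} [AddCommMonoid M] (n : ℕ) (g : ℕ → M) :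
    ((List.range n).map g).sum = ∑ i ∈ range n, g i := by
  rw [← List.sum_toFinset _ List.nodup_range, List.toFinset_range]

theorem halve_toM (n : ℕ) (η : ℚ) (E : Gr) {F : List ℕ} (C : Mat) {H : List ℕ} (E₀ : Gr) {ρ : List ℕ}
    (hF : F.Nodup) (hH : H.Nodup) (hρ : ρ.Nodup) :
    toM (n + n * n) (sumOp (n + n * n) (halve_L n η E F C H E₀ ρ)) =
      lap _ (src E) (tgt E) F.toFinset + ((η : ℝ) • op (ev _ 0) +
        (∑ u ∈ range n, ∑ v ∈ range n, ((η : ℝ) * mg C u v) • op (bv _ u v) +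
        (lap _ (fun e => n + src E₀ e) (fun e => n + tgt E₀ e) H.toFinset +
          ∑ r ∈ ρ.toFinset, op (ev _ (n + r))))) := by
  rw [toM_sumOp, lap, lap, List.sum_toFinset _ hF, List.sum_toFinset _ hH, List.sum_toFinset _ hρ]
  simp only [halve_L, List.map_append, List.sum_append, halve_flat, List.map_map, Function.comp_def,
    halve_range, toV_bvL, toV_evL, Rat.cast_one, one_smul, Rat.cast_mul, List.map_cons, List.map_nil,
    List.sum_cons, List.sum_nil, add_zero]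

/-- the form on the first block -/
def halve_Q1 (n : ℕ) (η : ℝ) (E : Gr) (F : List ℕ) (C : Mat) (x : ℕ → ℝ) : ℝ :=
  qL (src E) (tgt E) F.toFinset x +
    η * (x 0 ^ 2 + ∑ u ∈ range n, ∑ v ∈ range n, (mg C u v : ℝ) * (x u - x v) ^ 2)

/-- the form on the second block -/
def halve_Q0 (H : List ℕ) (E₀ : Gr) (ρ : List ℕ) (x : ℕ → ℝ) : ℝ :=
  qL (src E₀) (tgt E₀) H.toFinset x + ∑ r ∈ ρ.toFinset, x r ^ 2

theorem halve_qf (n : ℕ) (η : ℚ) (E : Gr) {F : List ℕ} (C : Mat) {H : List ℕ} (E₀ : Gr) {ρ : List ℕ}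
    (hF : F.Nodup) (hH : H.Nodup) (hρ : ρ.Nodup) (y : Fin (n + n * n) → ℝ) :
    qf (toM (n + n * n) (sumOp (n + n * n) (halve_L n η E F C H E₀ ρ))) y =
      halve_Q1 n η E F C (ext y) + halve_Q0 H E₀ ρ fun v => ext y (n + v) := by
  rw [halve_toM n η E C E₀ hF hH hρ]
  simp only [qf_add, qf_sum, qf_smul, qf_op, qf_lap, bv_dot, halve_Q1, halve_Q0, mul_add, mul_sum,
    mul_assoc, add_assoc]
  rfl

theorem halve_qL_nonneg (s t : ℕ → ℕ) (F : Finset ℕ) (x : ℕ → ℝ) : 0 ≤ qL s t F x :=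
  sum_nonneg fun _ _ => sq_nonneg _

theorem halve_qL_congr {s t : ℕ → ℕ} {n : ℕ} {F : Finset ℕ} (h : WF s t n F) {x a : ℕ → ℝ}
    (hx : ∀ u < n, x u = a u) : qL s t F x = qL s t F a :=
  sum_congr rfl fun e he => by rw [hx _ (h e he).1, hx _ (h e he).2.1]

theorem halve_trace_lap (N : ℕ) (s t : ℕ → ℕ) (F : List ℕ) :
    trace (lap N s t F.toFinset) ≤ 2 * F.length := by
  rw [lap, trace_sum]
  refine (sum_le_card_nsmul _ _ 2 fun e _ => (trace_op _).trans_le (bv_dot_bv_le _ _)).trans ?_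
  rw [nsmul_eq_mul, mul_comm]
  gcongr
  exact F.toFinset_card_le

theorem halve_trace (n : ℕ) {η : ℚ} (E : Gr) {F : List ℕ} {C : Mat} {H : List ℕ} (E₀ : Gr)
    {ρ : List ℕ} (hF : F.Nodup) (hH : H.Nodup) (hρ : ρ.Nodup) (hn : 1 ≤ n) (h0 : (0 : ℝ) ≤ η)
    (h1 : (η : ℝ) ≤ 1) (hρ' : ∀ r ∈ ρ, r < n * n) (hC : ∀ u v, 0 ≤ mg C u v)
    (hC' : ∑ u ∈ range n, ∑ v ∈ range n, (if u = v then 0 else (mg C u v : ℝ)) ≤ F.length) :
    trace (toM (n + n * n) (sumOp (n + n * n) (halve_L n η E F C H E₀ ρ))) ≤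
      4 * F.length + 2 * H.length + 1 + n * n := by
  rw [halve_toM n η E C E₀ hF hH hρ]
  simp only [trace_add, trace_smul, trace_sum, trace_op, smul_eq_mul]
  have a1 := halve_trace_lap (n + n * n) (src E) (tgt E) F
  have a2 := halve_trace_lap (n + n * n) (fun e => n + src E₀ e) (fun e => n + tgt E₀ e) H
  have a3 : ∑ r ∈ ρ.toFinset, ev (n + n * n) (n + r) ⬝ᵥ ev (n + n * n) (n + r) ≤ n * n := by
    rw [sum_congr rfl fun r hr => ev_dot_ev (Nat.add_lt_add_left (hρ' r (List.mem_toFinset.1 hr)) n),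
      sum_const, nsmul_eq_mul, mul_one]
    have := card_le_card (show ρ.toFinset ⊆ range (n * n) from fun r hr =>
      mem_range.2 (hρ' r (List.mem_toFinset.1 hr)))
    rw [card_range] at this
    exact_mod_cast this
  have a4 : ∑ u ∈ range n, ∑ v ∈ range n, (η : ℝ) * mg C u v *
      (bv (n + n * n) u v ⬝ᵥ bv (n + n * n) u v) ≤ 2 * F.length := by
    refine le_trans ?_ (mul_le_mul_of_nonneg_left hC' zero_le_two)
    simp only [mul_sum]
    refine sum_le_sum fun u _ => sum_le_sum fun v _ => ?_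
    split_ifs with h
    · simp [h]
    · have h2 : (0 : ℝ) ≤ mg C u v := by exact_mod_cast hC u v
      calc _ ≤ (η : ℝ) * mg C u v * 2 :=
            mul_le_mul_of_nonneg_left (bv_dot_bv_le _ _) (mul_nonneg h0 h2)
        _ ≤ _ := by nlinarith
  rw [ev_dot_ev (by omega)]
  linarith

theorem halve_sum {H : List ℕ} (hH : H.Nodup) (φ : ℕ → ℝ) :
    ∑ p ∈ range H.length, φ p = ∑ e ∈ H.toFinset, φ (H.idxOf e) := by
  symm
  refine sum_bij (fun e _ => H.idxOf e) (fun e he => ?_) (fun a ha b _ h => ?_) (fun p hp => ?_)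
    fun _ _ => rfl
  · exact mem_range.2 (List.idxOf_lt_length_of_mem (List.mem_toFinset.1 he))
  · exact (List.idxOf_inj (List.mem_toFinset.1 ha)).1 h
  · exact ⟨H[p]'(mem_range.1 hp), List.mem_toFinset.2 (List.getElem_mem _), hH.idxOf_getElem _ _⟩

theorem halve_getD (n : ℕ) (E : Gr) {H : List ℕ} (E₀ : Gr) {e : ℕ} (he : e ∈ H.toFinset) :
    (halve_V n E H E₀).getD (H.idxOf e) ([], []) =
      (bvL (n + n * n) (n + src E₀ e) (n + tgt E₀ e), bvL (n + n * n) (src E e) (tgt E e)) := by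
  have h := List.idxOf_lt_length_of_mem (List.mem_toFinset.1 he)
  rw [halve_V, List.getD_eq_getElem _ _ (by simpa using h), List.getElem_map, List.getElem_idxOf]

/-- the spectral conclusion -/
theorem halve_core {ks : Un × Mat × List (Vec × Vec) × ℚ → List Bool}
    (hks : ∀ (Z : ℕ) (B : Mat) (Vs : List (Vec × Vec)) (ω : ℚ), PD (toM B.length B) → 0 < ω → ω ≤ 1 →
      1 / (ω : ℝ) ≤ Z → Vs.length ≤ Z → trace (toM B.length B) ≤ Z → trace (toM B.length B)⁻¹ ≤ Z →
      (∀ p ∈ Vs, 1 ≤ toV B.length p.1 ⬝ᵥ toV B.length p.1 ∧ 1 ≤ toV B.length p.2 ⬝ᵥ toV B.length p.2 ∧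
        qf (toM B.length B)⁻¹ (toV B.length p.1) ≤ (ω : ℝ) ^ 2 ∧
        qf (toM B.length B)⁻¹ (toV B.length p.2) ≤ (ω : ℝ) ^ 2) →
      (∀ y, ∑ p ∈ range Vs.length, ((toV B.length (Vs.getD p ([], [])).1 ⬝ᵥ y) ^ 2 +
        (toV B.length (Vs.getD p ([], [])).2 ⬝ᵥ y) ^ 2) ≤ qf (toM B.length B) y) →
      ∀ y, ∑ p ∈ range Vs.length, (if (ks (⟨Z⟩, B, Vs, ω)).getD p false then
          (toV B.length (Vs.getD p ([], [])).2 ⬝ᵥ y) ^ 2 else
          (toV B.length (Vs.getD p ([], [])).1 ⬝ᵥ y) ^ 2) ≤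
        (1 / 2 + 135 * ω) * qf (toM B.length B) y)
    {n k t : ℕ} {E : Gr} {F : List ℕ} {C : Mat} {H : List ℕ} {E₀ : Gr} {ρ : List ℕ} (hn : 1 ≤ n)
    (ht : 10 ^ 4 ≤ t) (htk : t ≤ k) (hF : F.Nodup) (hW : WF (src E) (tgt E) n F.toFinset)
    (hP : PC (src E) (tgt E) k F.toFinset (range n)) (hC : ∀ u v, 0 ≤ mg C u v)
    (hC' : ∑ u ∈ range n, ∑ v ∈ range n, (if u = v then 0 else (mg C u v : ℝ)) ≤ F.length)
    (hres : ∀ e ∈ H, ∀ x : ℕ → ℝ, (x (src E e) - x (tgt E e)) ^ 2 ≤ 40 / (t ^ 3 : ℕ) *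
      (qL (src E) (tgt E) F.toFinset x + x 0 ^ 2 +
        ∑ u ∈ range n, ∑ v ∈ range n, (mg C u v : ℝ) * (x u - x v) ^ 2))
    (hH : H.Nodup) (hHF : H ⊆ F) (hρ : ρ.Nodup) (hρ' : ∀ r ∈ ρ, r < n * n)
    (hW₀ : WF (src E₀) (tgt E₀) (n * n) H.toFinset)
    (hres₀ : ∀ e ∈ H, ∀ x : ℕ → ℝ, (t ^ 2 : ℕ) * (x (src E₀ e) - x (tgt E₀ e)) ^ 2 ≤
      halve_Q0 H E₀ ρ x) (hv₀ : ∀ v < n * n, ∀ x : ℕ → ℝ, x v ^ 2 ≤ n * halve_Q0 H E₀ ρ x)
    (a b : ℕ → ℝ) : qL (src E) (tgt E) (halve_out ks n k t E F C (H, E₀, ρ)).toFinset a +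
      qL (src E₀) (tgt E₀) (H.toFinset \ (halve_out ks n k t E F C (H, E₀, ρ)).toFinset) b ≤
      (1 / 2 + 945 / t) * (halve_Q1 n (1 / t) E F C a + halve_Q0 H E₀ ρ b) := by
  have htR : (10 : ℝ) ^ 4 ≤ t := by exact_mod_cast ht
  have ht0 : (0 : ℝ) < t := by linarith
  have hHF' : H.toFinset ⊆ F.toFinset := fun e he =>
    List.mem_toFinset.2 (hHF (List.mem_toFinset.1 he))
  have hlen : H.length ≤ F.length := (hH.subperm hHF).length_le
  have hq := halve_qf n (1 / t) E C E₀ hF hH hρ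
  have htr := halve_trace n (η := 1 / t) E E₀ hF hH hρ hn (by push_cast; positivity)
    (by push_cast; rw [div_le_one ht0]; linarith) hρ' hC hC'
  have key := hks ((F.length + n + k + 10) ^ 4) (sumOp (n + n * n) (halve_L n (1 / t) E F C H E₀ ρ))
    (halve_V n E H E₀) (7 / t)
  have hsym := isSymm_sumOp (N := n + n * n) (halve_L n (1 / t) E F C H E₀ ρ)
  rw [length_sumOp, show (halve_V n E H E₀).length = H.length from List.length_map _] at key
  simp only [halve_sum hH, hq] at key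
  generalize toM (n + n * n) (sumOp (n + n * n) (halve_L n (1 / t) E F C H E₀ ρ)) = B at *
  push_cast at hq hres hres₀ key
  have s0 : ∀ x : ℕ → ℝ, 0 ≤ ∑ u ∈ range n, ∑ v ∈ range n, (mg C u v : ℝ) * (x u - x v) ^ 2 :=
    fun x => sum_nonneg fun u _ => sum_nonneg fun v _ =>
      mul_nonneg (by exact_mod_cast hC u v) (sq_nonneg _)
  have q0 : ∀ x, 0 ≤ halve_Q0 H E₀ ρ x := fun x =>
    add_nonneg (halve_qL_nonneg _ _ _ _) (sum_nonneg fun _ _ => sq_nonneg _)
  have q1 : ∀ x, qL (src E) (tgt E) F.toFinset x ≤ halve_Q1 n (1 / t) E F C x := fun x =>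
    le_add_of_nonneg_right (mul_nonneg (by positivity) (add_nonneg (sq_nonneg _) (s0 x)))
  have q1' : ∀ x, 0 ≤ halve_Q1 n (1 / t) E F C x := fun x => (halve_qL_nonneg _ _ _ _).trans (q1 x)
  have q2 : ∀ x : ℕ → ℝ, qL (src E) (tgt E) F.toFinset x + x 0 ^ 2 + ∑ u ∈ range n, ∑ v ∈ range n,
      (mg C u v : ℝ) * (x u - x v) ^ 2 ≤ t * halve_Q1 n (1 / t) E F C x := fun x => by
    rw [halve_Q1, mul_add, ← mul_assoc, mul_one_div_cancel ht0.ne', one_mul]
    nlinarith [halve_qL_nonneg (src E) (tgt E) F.toFinset x]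
  have hB0 : ∀ y, 0 ≤ qf B y := fun y => by rw [hq]; exact add_nonneg (q1' _) (q0 _)
  have hco : ∀ (y : Fin (n + n * n) → ℝ) (i : Fin (n + n * n)), ext y i ^ 2 ≤ n * t * qf B y := by
    intro y i
    have h1 := q0 fun v => ext y (n + v)
    have h2 := q1' (ext y)
    rw [hq, mul_assoc]
    rcases lt_or_ge (i : ℕ) n with hi | hi
    · refine (Rel.sq_le hW (by omega) (hP.rel (mem_range.2 hi) (mem_range.2 hn)) hi _).trans ?_
      gcongr
      nlinarith [q2 (ext y), s0 (ext y)]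
    · have h3 := hv₀ (i - n) (by have := i.2; omega) fun v => ext y (n + v)
      rw [Nat.add_sub_cancel' hi] at h3
      refine h3.trans ?_
      gcongr
      nlinarith
  have hPD : PD B := pd_of_coord hsym (n * t) (fun y i => ext_fin y i ▸ hco y i) hB0
  obtain ⟨S, hS⟩ : ∃ S : ℝ, S = F.length + n + k + 10 := ⟨_, rfl⟩
  have hk : (t : ℝ) ≤ k := by exact_mod_cast htk
  have hl : (H.length : ℝ) ≤ F.length := by exact_mod_cast hlen
  have hm : (0 : ℝ) ≤ F.length := Nat.cast_nonneg _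
  have hn0 : (0 : ℝ) ≤ n := Nat.cast_nonneg _
  have hS1 : S ^ 2 ≤ S ^ 4 := pow_le_pow_right₀ (by linarith) (by norm_num)
  have hS0 : 0 ≤ S := by linarith
  rw [← hS] at key
  have key := key hPD (by positivity) (by rw [div_le_one (by positivity)]; exact_mod_cast (by omega))
    (by rw [one_div_div]; nlinarith)
    (hlen.trans (le_trans (by omega) (Nat.le_self_pow (by norm_num) _))) (by nlinarith)
    (by
      rw [trace_eq_sum_qf]
      refine (sum_le_card_nsmul _ _ ((n : ℝ) * t) fun i _ =>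
        hPD.qf_inv_le (by positivity) fun y => hco y i).trans ?_
      rw [card_univ, Fintype.card_fin, nsmul_eq_mul]
      push_cast
      calc _ = (n : ℝ) * (n + 1) * n * t := by ring
        _ ≤ S * S * S * S := by gcongr <;> linarith
        _ = _ := by ring)
    (fun p hp => by
      obtain ⟨e, he, rfl⟩ := List.mem_map.1 hp
      obtain ⟨a1, a2, a3⟩ := hW e (List.mem_toFinset.2 (hHF he))
      obtain ⟨b1, b2, b3⟩ := hW₀ e (List.mem_toFinset.2 he)
      simp only [toV_bvL]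
      refine ⟨by rw [bv_dot_bv (by omega) (by omega) (by omega)]; norm_num,
        by rw [bv_dot_bv (by omega) (by omega) a3]; norm_num,
        hPD.qf_inv_le (by positivity) fun y => ?_, hPD.qf_inv_le (by positivity) fun y => ?_⟩
      · rw [bv_dot, div_pow, div_mul_eq_mul_div, le_div_iff₀ (by positivity), hq]
        linarith [hres₀ e he fun v => ext y (n + v), q1' (ext y), q0 fun v => ext y (n + v)]
      · rw [bv_dot]
        refine (hres e he _).trans ((mul_le_mul_of_nonneg_left (q2 _) (by positivity)).trans ?_)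
        rw [← mul_assoc, hq]
        refine mul_le_mul ?_ (le_add_of_nonneg_right (q0 _)) (q1' _) (by positivity)
        rw [div_pow, div_mul_eq_mul_div, div_le_div_iff₀ (by positivity) (by positivity)]
        nlinarith [pow_pos ht0 3])
    (fun y => by
      rw [sum_congr rfl fun e he => by rw [halve_getD n E E₀ he], sum_add_distrib, add_comm]
      simp only [toV_bvL, bv_dot]
      exact add_le_add (le_trans (sum_le_sum_of_subset_of_nonneg hHF' fun _ _ _ => sq_nonneg _)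
        (q1 _)) (le_add_of_nonneg_right (sum_nonneg fun _ _ => sq_nonneg _)))
    fun i => if (i : ℕ) < n then a i else b (i - n)
  have x1 : ∀ u < n, ext (fun i : Fin (n + n * n) => if (i : ℕ) < n then a i else b (i - n)) u =
      a u := fun u hu => by
    rw [ext_restrict (fun i => if i < n then a i else b (i - n)) (by omega), if_pos hu]
  have x2 : ∀ v < n * n, ext (fun i : Fin (n + n * n) => if (i : ℕ) < n then a i else b (i - n))
      (n + v) = b v := fun v hv => by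
    rw [ext_restrict (fun i => if i < n then a i else b (i - n)) (by omega), if_neg (by omega),
      Nat.add_sub_cancel_left]
  rw [sum_congr rfl fun e he => by rw [halve_getD n E E₀ he], sum_ite] at key
  simp only [toV_bvL, bv_dot] at key
  generalize ext (fun i : Fin (n + n * n) => if (i : ℕ) < n then a i else b (i - n)) = x at *
  convert key using 2
  · rw [halve_out, List.toFinset_filter]
    exact (halve_qL_congr (hW.mono ((filter_subset _ _).trans hHF')) x1).symm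
  · rw [halve_out, List.toFinset_filter, filter_not]
    exact (halve_qL_congr (x := fun v => x (n + v)) (hW₀.mono sdiff_subset) x2).symm
  · ring
  · rw [halve_Q1, halve_Q1, halve_Q0, halve_Q0, halve_qL_congr hW x1, halve_qL_congr hW₀ x2, x1 0 hn]
    congr 2
    · congr 2
      exact sum_congr rfl fun u hu => sum_congr rfl fun v hv => by
        rw [x1 u (mem_range.1 hu), x1 v (mem_range.1 hv)]
    · exact sum_congr rfl fun r hr => by rw [x2 r (hρ' r (List.mem_toFinset.1 hr))]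

theorem halve_num {k t : ℕ} (ht : 10 ^ 4 ≤ t) (h1 : t ^ 120 ≤ k) (h2 : k < (t + 1) ^ 120) :
    k ≤ 2 * t ^ 120 ∧ t * ((t ^ 3) ^ 35 + t ^ 4 + 2 * t ^ 2 + 2) ≤ k ∧
      2 * (t : ℝ) ^ 2 * Real.log (2 * k + 1) < (t : ℝ) ^ 4 := by
  have a1 : k ≤ 2 * t ^ 120 := by
    have b1 : (10000 * (t + 1)) ^ 120 ≤ (10001 * t) ^ 120 := Nat.pow_le_pow_left (by omega) _
    have b2 : 10001 ^ 120 ≤ 2 * 10000 ^ 120 := by norm_num
    rw [mul_pow, mul_pow] at b1
    refine h2.le.trans (Nat.le_of_mul_le_mul_left (b1.trans ?_) (by positivity : 0 < 10000 ^ 120))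
    rw [← mul_assoc, mul_comm _ 2]
    exact Nat.mul_le_mul_right _ b2
  have a2 : ∀ i ≤ 118, t ^ i ≤ t ^ 118 := fun i hi => Nat.pow_le_pow_right (by omega) hi
  refine ⟨a1, le_trans ?_ h1, ?_⟩
  · have := a2 105 (by norm_num); have := a2 4 (by norm_num); have := a2 2 (by norm_num)
    have : 1 ≤ t ^ 118 := Nat.one_le_pow _ _ (by omega)
    rw [show t ^ 120 = t * (t * t ^ 118) by ring, show (t ^ 3) ^ 35 = t ^ 105 by ring]
    refine Nat.mul_le_mul_left _ (le_trans ?_ (Nat.mul_le_mul_right _ ht))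
    omega
  · have htR : (10 : ℝ) ^ 4 ≤ t := by exact_mod_cast ht
    have b1 : 2 * k + 1 ≤ t ^ 121 := by
      have : 1 ≤ t ^ 120 := Nat.one_le_pow _ _ (by omega)
      rw [show t ^ 121 = t * t ^ 120 by ring]
      have := Nat.mul_le_mul_right (t ^ 120) ht
      omega
    replace b1 : 2 * (k : ℝ) + 1 ≤ (t : ℝ) ^ 121 := by
      generalize 121 = i at b1 ⊢
      exact_mod_cast b1
    have b0 : 0 < 2 * (k : ℝ) + 1 := by linarith [Nat.cast_nonneg (α := ℝ) k]
    replace b1 := Real.log_le_log b0 b1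
    rw [Real.log_pow, Nat.cast_ofNat] at b1
    clear h1 h2 a1 a2
    have b2 : Real.log (2 * k + 1) ≤ 121 * t := by
      calc _ ≤ _ := b1
        _ ≤ _ := by gcongr; exact Real.log_le_self (by positivity)
    have b3 : (0 : ℝ) < t ^ 3 := by positivity
    calc _ ≤ 2 * (t : ℝ) ^ 2 * (121 * t) := by gcongr
      _ = 242 * t ^ 3 := by ring
      _ < t * t ^ 3 := by gcongr; linarith
      _ = _ := by ring

/-- Put `y = t³` (`k ≤ 2 y^40` since `(t+1)^120 ≤ 2 t^120`), `k' = k - t^105`, `A = t²`, `j = k' - t⁴`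
(`log (2 k' + 1) ≤ 121 log (t + 1) + 1 ≤ 122 t`), `η = 1 / t`, `ω = 7 / t`, `N = n + n n`, `m = |F|`, `Z = (m + n + k + 10)^4`.
Let `(G, C) = gd (n, k, y, E, F)` and `(H, E₀, ρ) = en (n, j, A, E, G)`.  Let `B = sumOp N L` where `L` lists
`(1, bvL N (s e) (t e))` for `e ∈ F`, `(η, evL N 0)`, `(η C u v, bvL N u v)` for `u, v < n`,
`(1, bvL N (n + src E₀ e) (n + tgt E₀ e))` for `e ∈ H`, and `(1, evL N (n + r))` for `r ∈ ρ`.  With `x = ext y`,
`x' v = x (n + v)`: `qf B y = q¹ x + q⁰ x'`, `q¹ x = qL F x + η (x 0 ² + ∑ C u v (x u - x v)²)`, `q⁰ x' = qL E₀ H x' + ∑_ρ x' r ²`.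
`Vs = H.map (bvL N (n + src E₀ e) (n + tgt E₀ e), bvL N (s e) (t e))`.  The hypotheses of `exists_ks` follow from
`pd_of_coord`, `PD.qf_inv_le` (`40 / y / η ≤ ω²`, `1 / A ≤ ω²`; `x v ² ≤ n t · q¹ x` by `Rel.sq_le`), `trace_eq_sum_qf`, `trace_op`.
Output the `e = H[p]` with `ks … p = true`.  Testing the conclusion with the indicator of `S ∩ range n` in the
first block gives `cut F' S ≤ (1/2 + 945/t) (cut F S + η + η cut F S)` (if `cut F S = 0` use `F' ⊆ F`); testing it with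
vectors supported on the second block gives the hypothesis of the last clause of `exists_ent`, `ε = 945 / t`. -/
theorem exists_halve : ∃ hv : Un × Un × ℕ × Gr × List ℕ → List ℕ, PT hv ∧
    ∀ (n k t : ℕ) (E : Gr) (F : List ℕ), 1 ≤ n → 10 ^ 4 ≤ t → t ^ 120 ≤ k → k < (t + 1) ^ 120 →
      F.Nodup → WF (src E) (tgt E) n F.toFinset → PC (src E) (tgt E) k F.toFinset (range n) →
      ∀ F' : List ℕ, hv (⟨n⟩, ⟨k⟩, t, E, F) = F' →
      F'.Nodup ∧ F' ⊆ F ∧
      (∀ j : ℕ, (j : ℝ) ≤ (1 / 2 - 1000 / t) * k → PC (src E) (tgt E) j F'.toFinset (range n)) ∧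
      ∀ S : Finset ℕ, (cut (src E) (tgt E) F'.toFinset S : ℝ) ≤
        (1 / 2 + 1000 / t) * cut (src E) (tgt E) F.toFinset S := by
  obtain ⟨gd, hgd, hgd'⟩ := exists_good
  obtain ⟨en, hen, hen'⟩ := exists_ent
  obtain ⟨ks, hks, hks'⟩ := exists_ks
  refine ⟨fun z => halve_out ks z.1.n z.2.1.n z.2.2.1 z.2.2.2.1 z.2.2.2.2
    (gd (z.1, z.2.1, z.2.2.1 ^ 3, z.2.2.2)).2 (en (z.1, z.2.1.n - (z.2.2.1 ^ 3) ^ 35 - z.2.2.1 ^ 4,
      z.2.2.1 ^ 2, z.2.2.2.1, (gd (z.1, z.2.1, z.2.2.1 ^ 3, z.2.2.2)).1)),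
    by apply halve_out_pt hks <;> fun_prop, fun n k t E F hn ht h1 h2 hF hW hP F' hF' => ?_⟩
  obtain ⟨a1, a2, a3⟩ := halve_num ht h1 h2
  have htR : (10 : ℝ) ^ 4 ≤ t := by exact_mod_cast ht
  have ht0 : (0 : ℝ) < t := by linarith
  have a4 := (Nat.le_mul_of_pos_left _ (by omega : 0 < t)).trans a2
  dsimp only at hF'
  rcases hg : gd (⟨n⟩, ⟨k⟩, t ^ 3, E, F) with ⟨G, C⟩
  obtain ⟨g1, g2, g3, g4, g5, g6, g7⟩ := hgd' n k (t ^ 3) E F hn
    (le_trans (by omega) (Nat.le_self_pow (by norm_num) t)) (by rwa [← pow_mul])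
    (by rwa [← pow_mul]) hF hW hP G C hg
  rw [hg] at hF'
  clear h1 h2 a1
  generalize (t ^ 3) ^ 35 = T at *
  have hGF : G.toFinset ⊆ F.toFinset := fun e he => List.mem_toFinset.2 (g2 (List.mem_toFinset.1 he))
  have hj : ((k - T - t ^ 4 : ℕ) : ℝ) = k - T - t ^ 4 := by
    rw [Nat.cast_sub (by omega), Nat.cast_sub (by omega)]; push_cast; ring
  rcases he : en (⟨n⟩, k - T - t ^ 4, t ^ 2, E, G) with ⟨H, E₀, ρ⟩
  obtain ⟨e1, e2, e3, e4, e5, e6, e7, e8⟩ := hen' n (k - T - t ^ 4) (t ^ 2) (k - T) E G hn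
    (by omega) (Nat.one_le_pow _ _ (by omega)) (by omega) (by
      have b1 : Real.log (2 * ((k - T : ℕ) : ℝ) + 1) ≤ Real.log (2 * k + 1) := by
        gcongr; exact Nat.sub_le _ _
      have b2 := mul_le_mul_of_nonneg_left b1 (show 0 ≤ 2 * (t : ℝ) ^ 2 by positivity)
      rw [hj, Nat.cast_pow]
      nth_rewrite 2 [Nat.cast_sub (by omega)]
      linarith) g1 (hW.mono hGF) g3 H E₀ ρ he
  rw [he] at hF'
  have key := halve_core hks' hn ht ((Nat.le_mul_of_pos_right _ (by omega)).trans a2) hF hW hP g4 g5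
    (fun e h => g7 e (e2 h)) e1 (fun _ h => g2 (e2 h)) e3 e4 e5 e6 e7
  rw [hF'] at key
  have hs : F' ⊆ H := hF' ▸ List.filter_subset_self _
  have hs' : F'.toFinset ⊆ H.toFinset := fun e he => List.mem_toFinset.2 (hs (List.mem_toFinset.1 he))
  refine ⟨hF' ▸ e1.filter _, fun _ h => g2 (e2 (hs h)), fun j hj' => ?_, fun S => ?_⟩
  · refine e8 _ (945 / t) j hs' (by positivity) (by rw [div_le_iff₀ ht0]; linarith) ?_ fun x => ?_
    · have b1 : (T : ℝ) + t ^ 4 + 2 * t ^ 2 + 2 ≤ k / t := by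
        rw [le_div_iff₀' ht0]; exact_mod_cast a2
      have b2 : (0 : ℝ) ≤ 945 / t * (T + t ^ 4) := by positivity
      have b3 : (0 : ℝ) ≤ k / t := by positivity
      have b4 : (0 : ℝ) ≤ t ^ 2 := by positivity
      rw [hj]
      calc (j : ℝ) + 1 / 2 ≤ (1 / 2 - 1000 / t) * k + 1 / 2 := by linarith
        _ = (1 / 2 - 945 / t) * (k - T - t ^ 4) - 945 / t * (T + t ^ 4) -
          55 * (k / t) + (T + t ^ 4 + 1) / 2 := by ring
        _ ≤ _ := by linarith
    · simpa [qL, halve_Q1, halve_Q0] using key 0 x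
  · rcases Nat.eq_zero_or_pos (cut (src E) (tgt E) F.toFinset S) with h0 | h0
    · have : cut (src E) (tgt E) F'.toFinset S ≤ cut (src E) (tgt E) F.toFinset S :=
        card_le_card (filter_subset_filter _ fun e he =>
          List.mem_toFinset.2 (g2 (e2 (hs (List.mem_toFinset.1 he)))))
      rw [h0] at this ⊢
      simpa using this
    · have b1 := key (fun v => if v ∈ S then 1 else 0) 0
      have b2 := g6 S
      have b3 : (if 0 ∈ S then (1 : ℝ) else 0) ^ 2 ≤ cut (src E) (tgt E) F.toFinset S :=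
        le_trans (by split_ifs <;> norm_num) (Nat.one_le_cast.2 h0)
      rw [halve_Q1, qL_indicator, qL_indicator] at b1
      simp only [qL, halve_Q0, Pi.zero_apply, sub_self, zero_pow two_ne_zero, sum_const_zero,
        add_zero] at b1
      generalize (cut (src E) (tgt E) F.toFinset S : ℝ) = c at *
      have b4 : 0 ≤ c := (sq_nonneg _).trans b3
      calc _ ≤ (1 / 2 + 945 / t) * (c + 1 / t * (c + c)) := b1.trans (by gcongr)
        _ = (1 / 2 + (946 + 1890 / t) / t) * c := by ring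
        _ ≤ _ := by
          have : 1890 / (t : ℝ) ≤ 54 := by rw [div_le_iff₀ ht0]; linarith
          gcongr
          linarith

end Crest.Agent.R37
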