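import Crest.Agent.R37.KSMove
import Crest.Agent.R37.Sweep

/-!
# R37/KSAAux1: the local search for Kadison-Singer as a rational algorithm
-/

set_option autoImplicit false
open Finset Matrix

namespace Crest.Agent.R37.KSA

open Crest.Agent.Lib.PT KS

/-- inputs -/
abbrev In := Un × Mat × List (Vec × Vec) × ℚ
/-- states: the decided sides and the coordinates -/
abbrev St := List Ix × Vec

noncomputable def sw : Mat → Mat × Vec × Bool := exists_sweep.choose

def nN (a : In) : ℕ := a.2.1.length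
def nm (a : In) : ℕ := a.2.2.1.length
def nP (a : In) : ℕ := 10 ^ 4 * a.1.n ^ 2
def Vq (a : In) (i : Ix) : Vec :=
  if i.2 = true then (a.2.2.1.getD i.1 ([], [])).2 else (a.2.2.1.getD i.1 ([], [])).1
def alL (a : In) (ch : List Ix) : List ℕ :=
  (List.range (nm a)).filter fun p => !(ch.map Prod.fst).contains p
def sl (a : In) (ch : List Ix) : List Ix := alL a ch ×ˢ [false, true]
def ix (i : Ix) : ℕ := 3 * i.1 + if i.2 = true then 2 else 1
def xq (z : Vec) (i : Ix) : ℚ := if i.2 = true then vg z (3 * i.1) else 1 - vg z (3 * i.1)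
def sq (i : Ix) : ℚ := if i.2 = true then 1 else -1
def pq (x : ℚ) : ℚ := 76 * (2 - x ^ 2)
def Mq (a : In) (s : St) : Mat := mkM (nN a) fun k l => (1 / 2 + 135 * a.2.2.2) * mg a.2.1 k l -
  mg (sumOp (nN a) (s.1.map fun i => (1, Vq a i))) k l -
  mg (sumOp (nN a) ((sl a s.1).map fun i => (xq s.2 i + pq (xq s.2 i) * vg s.2 (ix i), Vq a i))) k l
noncomputable def Gq (a : In) (s : St) : Mat := (sw (Mq a s)).1
noncomputable def gq (a : In) (s : St) (i j : Ix) : ℚ := bil (nN a) (Gq a s) (Vq a i) (Vq a j)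
noncomputable def lq (a : In) (s : St) (i : Ix) : ℚ := 1 / (vg s.2 (ix i) - gq a s i i) ^ 2
noncomputable def uq (a : In) (s : St) (j k : Ix) : ℚ :=
  ∑ r ∈ range (nN a), bil (nN a) (Gq a s) (evL (nN a) r) (Vq a j) *
    bil (nN a) (Gq a s) (evL (nN a) r) (Vq a k) +
  ((sl a s.1).map fun i => lq a s i * (gq a s i j * gq a s i k)).sum
def cq (L : List ℕ) (t : ℕ) : ℚ := L.count t
def aq (z : Vec) (L : List ℕ) (i : Ix) : ℚ :=
  (1 - 152 * xq z i * vg z (ix i)) * (sq i * cq L (3 * i.1)) + pq (xq z i) * cq L (ix i)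
noncomputable def Qq (a : In) (s : St) (L : List ℕ) : ℚ :=
  ((sl a s.1).map fun j => ((sl a s.1).map fun k =>
    aq s.2 L j * aq s.2 L k * (gq a s j k * uq a s j k)).sum).sum
noncomputable def Kq (a : In) (s : St) (L : List ℕ) (i : Ix) : ℚ :=
  ((sl a s.1).map fun j => gq a s i j ^ 2 * aq s.2 L j).sum
noncomputable def Hr (a : In) (s : St) (L : List ℕ) : ℚ :=
  ((sl a s.1).map fun i => uq a s i i * (-(76 * vg s.2 (ix i) * cq L (3 * i.1) ^ 2) -
    152 * xq s.2 i * (sq i * cq L (3 * i.1)) * cq L (ix i))).sum + 4 * Qq a s L +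
  8 * ((sl a s.1).map fun i => lq a s i / (vg s.2 (ix i) - gq a s i i) *
    (cq L (ix i) - Kq a s L i) ^ 2).sum
noncomputable def Hm (a : In) (s : St) : Mat := mkM (3 * nm a) fun k l =>
  (Hr a s [k, l] - Hr a s [k] - Hr a s [l]) / 2 + if k = l then 1 / (2 * (nP a : ℚ) ^ 9) else 0
noncomputable def valq (a : In) (s : St) : ℚ := ∑ r ∈ range (nN a), mg (Gq a s) r r +
  ((sl a s.1).map fun i => 1 / (vg s.2 (ix i) - gq a s i i)).sum + (alL a s.1).length
noncomputable def admq (a : In) (s : St) : Bool := (sw (Mq a s)).2.2 &&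
  ((alL a s.1).all fun p => decide (0 ≤ vg s.2 (3 * p)) && decide (vg s.2 (3 * p) ≤ 1)) &&
  ((sl a s.1).all fun i => decide (gq a s i i < vg s.2 (ix i)) && decide (vg s.2 (ix i) ≤ 1))
def rq (G : ℕ) (q : ℚ) : ℚ := (min ⌊q * G⌋₊ G : ℕ) / G
def rn (a : In) (u : Vec) : Vec := mkV (3 * nm a) fun t => rq (nP a ^ 60) (vg u t)
def low (a : In) (z : Vec) (i : Ix) : Vec :=
  mkV (3 * nm a) fun t => vg z t - if t = ix i then 1 / (nP a : ℚ) ^ 20 else 0
def mov (a : In) (z v : Vec) (t₀ : ℕ) (σ : ℚ) : Vec :=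
  mkV (3 * nm a) fun t => vg z t + σ / (nP a : ℚ) ^ 20 * (vg v t / vg v t₀)
noncomputable def cand (a : In) (s : St) : List St :=
  ((sl a s.1).map fun i => (i :: s.1, rn a s.2)) ++
  ((sl a s.1).map fun i => (s.1, rn a (low a s.2 i))) ++
  ((List.range (3 * nm a) ×ˢ [(1 : ℚ), -1]).map fun p =>
    (s.1, rn a (mov a s.2 (sw (Hm a s)).2.1 p.1 p.2)))
noncomputable def good (a : In) (s s' : St) : Bool :=
  admq a s' && decide (valq a s' ≤ valq a s - 1 / (nP a : ℚ) ^ 51)
noncomputable def nxt (a : In) (s : St) : St := ((cand a s).find? (good a s)).getD s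
def ini (a : In) : St := ([], rn a (mkV (3 * nm a) fun t => if t % 3 = 0 then 1 / 2 else a.2.2.2))
noncomputable def fin (a : In) : St := (nxt a)^[nP a ^ 52 + 1] (ini a)
noncomputable def ks (a : In) : List Bool :=
  (List.range (nm a)).map fun p => (fin a).1.contains (p, true)

/-! ### polynomial time -/

section pt
variable {α : Type} [Enc α] {a : α → In} {s s' : α → St} {ch : α → List Ix} {i j : α → Ix}
  {z v : α → Vec} {L : α → List ℕ} {t : α → ℕ} {q : α → ℚ}

@[fun_prop] theorem sw_pt {C : α → Mat} (hC : PT C) : PT fun x => sw (C x) :=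
  exists_sweep.choose_spec.1.comp hC

attribute [irreducible] sw

@[fun_prop] theorem nN_pt (ha : PT a) : PT fun x => nN (a x) := by unfold nN; fun_prop
@[fun_prop] theorem nN_pb (ha : PT a) : PB fun x => nN (a x) := by unfold nN; fun_prop
@[fun_prop] theorem nm_pt (ha : PT a) : PT fun x => nm (a x) := by unfold nm; fun_prop
@[fun_prop] theorem nm_pb (ha : PT a) : PB fun x => nm (a x) := by unfold nm; fun_prop
@[fun_prop] theorem nP_pt (ha : PT a) : PT fun x => nP (a x) := by unfold nP; fun_prop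
@[fun_prop] theorem nP_pb (ha : PT a) : PB fun x => nP (a x) := by unfold nP; fun_prop
@[fun_prop] theorem Vq_pt (ha : PT a) (hi : PT i) : PT fun x => Vq (a x) (i x) := by
  unfold Vq; fun_prop
@[fun_prop] theorem alL_pt (ha : PT a) (hc : PT ch) : PT fun x => alL (a x) (ch x) := by
  unfold alL; fun_prop
@[fun_prop] theorem sl_pt (ha : PT a) (hc : PT ch) : PT fun x => sl (a x) (ch x) := by
  unfold sl; fun_prop
@[fun_prop] theorem ix_pt (hi : PT i) : PT fun x => ix (i x) := by unfold ix; fun_prop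
@[fun_prop] theorem xq_pt (hz : PT z) (hi : PT i) : PT fun x => xq (z x) (i x) := by
  unfold xq; fun_prop
@[fun_prop] theorem sq_pt (hi : PT i) : PT fun x => sq (i x) := by unfold sq; fun_prop
@[fun_prop] theorem pq_pt (hq : PT q) : PT fun x => pq (q x) := by unfold pq; fun_prop
@[fun_prop] theorem Mq_pt (ha : PT a) (hs : PT s) : PT fun x => Mq (a x) (s x) :=
  mkM_pt (by fun_prop) (by fun_prop) (by fun_prop)
@[fun_prop] theorem Gq_pt (ha : PT a) (hs : PT s) : PT fun x => Gq (a x) (s x) := by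
  unfold Gq; fun_prop
@[fun_prop] theorem gq_pt (ha : PT a) (hs : PT s) (hi : PT i) (hj : PT j) :
    PT fun x => gq (a x) (s x) (i x) (j x) := by unfold gq; fun_prop
@[fun_prop] theorem lq_pt (ha : PT a) (hs : PT s) (hi : PT i) :
    PT fun x => lq (a x) (s x) (i x) := by unfold lq; fun_prop
@[fun_prop] theorem uq_pt (ha : PT a) (hs : PT s) (hi : PT i) (hj : PT j) :
    PT fun x => uq (a x) (s x) (i x) (j x) := by unfold uq; fun_prop
@[fun_prop] theorem cq_pt (hL : PT L) (ht : PT t) : PT fun x => cq (L x) (t x) := by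
  unfold cq; fun_prop
@[fun_prop] theorem aq_pt (hz : PT z) (hL : PT L) (hi : PT i) :
    PT fun x => aq (z x) (L x) (i x) := by unfold aq; fun_prop
@[fun_prop] theorem Qq_pt (ha : PT a) (hs : PT s) (hL : PT L) :
    PT fun x => Qq (a x) (s x) (L x) := by unfold Qq; fun_prop
@[fun_prop] theorem Kq_pt (ha : PT a) (hs : PT s) (hL : PT L) (hi : PT i) :
    PT fun x => Kq (a x) (s x) (L x) (i x) := by unfold Kq; fun_prop
@[fun_prop] theorem Hr_pt (ha : PT a) (hs : PT s) (hL : PT L) :
    PT fun x => Hr (a x) (s x) (L x) := by unfold Hr; fun_prop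
@[fun_prop] theorem Hm_pt (ha : PT a) (hs : PT s) : PT fun x => Hm (a x) (s x) :=
  mkM_pt (by fun_prop) (by fun_prop) (by fun_prop)
@[fun_prop] theorem valq_pt (ha : PT a) (hs : PT s) : PT fun x => valq (a x) (s x) := by
  unfold valq; fun_prop
@[fun_prop] theorem admq_pt (ha : PT a) (hs : PT s) : PT fun x => admq (a x) (s x) := by
  unfold admq; fun_prop
@[fun_prop] theorem rq_pt (ht : PT t) (hq : PT q) : PT fun x => rq (t x) (q x) := by
  unfold rq; fun_prop
@[fun_prop] theorem rn_pt (ha : PT a) (hz : PT z) : PT fun x => rn (a x) (z x) :=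
  mkV_pt (by fun_prop) (by fun_prop) (by fun_prop)
@[fun_prop] theorem low_pt (ha : PT a) (hz : PT z) (hi : PT i) :
    PT fun x => low (a x) (z x) (i x) :=
  mkV_pt (by fun_prop) (by fun_prop) (by fun_prop)
@[fun_prop] theorem mov_pt (ha : PT a) (hz : PT z) (hv : PT v) (ht : PT t) (hq : PT q) :
    PT fun x => mov (a x) (z x) (v x) (t x) (q x) :=
  mkV_pt (by fun_prop) (by fun_prop) (by fun_prop)
@[fun_prop] theorem cand_pt (ha : PT a) (hs : PT s) : PT fun x => cand (a x) (s x) := by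
  unfold cand; fun_prop
@[fun_prop] theorem good_pt (ha : PT a) (hs : PT s) (hs' : PT s') :
    PT fun x => good (a x) (s x) (s' x) := by unfold good; fun_prop
theorem nxt_pt (ha : PT a) (hs : PT s) : PT fun x => nxt (a x) (s x) := by
  unfold nxt; fun_prop
theorem ini_pt (ha : PT a) : PT fun x => ini (a x) :=
  PT.pair (PT.const _) (rn_pt ha (mkV_pt (by fun_prop) (by fun_prop) (by fun_prop)))

end pt

theorem mem_alL {a : In} {ch : List Ix} {p : ℕ} :
    p ∈ alL a ch ↔ p < nm a ∧ p ∉ ch.map Prod.fst := by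
  simp only [alL, List.mem_filter, List.mem_range, Bool.not_eq_eq_eq_not, Bool.not_true,
    List.contains_eq_mem, decide_eq_false_iff_not]

theorem mem_sl {a : In} {ch : List Ix} {i : Ix} : i ∈ sl a ch ↔ i.1 ∈ alL a ch := by
  obtain ⟨p, b⟩ := i
  cases b <;> simp [sl]

theorem sz_rn (a : In) (u : Vec) :
    sz (rn a u) ≤ 3 * nm a * (8 * sz ((nP a ^ 60 + 1) * (nP a ^ 60 + 1)) + 7 + 1) + 1 := by
  have := sz_list_le (l := rn a u) (B := 8 * sz ((nP a ^ 60 + 1) * (nP a ^ 60 + 1)) + 7)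
    fun q hq => by
      obtain ⟨t, -, rfl⟩ := List.mem_map.1 hq
      refine sz_rat_le_of_lt (lt_of_le_of_lt ((ratH_div_le _ _).trans ?_) (lt_two_pow_sz _))
      rw [ratH_natCast, ratH_natCast]
      exact Nat.mul_le_mul_right _ (Nat.succ_le_succ (min_le_right _ _))
  rwa [rn, length_mkV] at this

theorem fin_pt : PT fin := by
  refine PT.iterate_grow (f := nxt) (by fun_prop) (by fun_prop) (ini_pt PT.id)
    (nxt_pt PT.id.fst PT.id.snd) (G := fun a => 4 * nm a + 6 +
      (3 * nm a * (8 * sz ((nP a ^ 60 + 1) * (nP a ^ 60 + 1)) + 7 + 1) + 1)) (by fun_prop)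
    fun a s => ?_
  unfold nxt
  cases h : (cand a s).find? (good a s) with
  | none => exact Nat.le_add_right _ _
  | some c =>
    have hc := List.mem_of_find?_eq_some h
    simp only [cand, List.mem_append, List.mem_map] at hc
    rw [Option.getD_some, sz_prod s]
    rcases hc with (⟨i, hi, rfl⟩ | ⟨i, -, rfl⟩) | ⟨p, -, rfl⟩
    · have h1 := (mem_alL.1 (mem_sl.1 hi)).1
      have h2 := sz_nat_le_self i.1
      have h3 := sz_bool_le i.2
      have := sz_rn a s.2
      rw [sz_mk, sz_cons, sz_prod i]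
      omega
    · have := sz_rn a (low a s.2 i)
      rw [sz_mk]
      omega
    · have := sz_rn a (mov a s.2 (sw (Hm a s)).2.1 p.1 p.2)
      rw [sz_mk]
      omega

theorem ks_pt : PT ks := by
  have := fin_pt
  unfold ks
  exact PT.map (by fun_prop) (PT.contains (fin_pt.comp PT.id.fst).fst (by fun_prop))

theorem sw_spec (C : Mat) (h : (toM C.length C).IsSymm) :
    ((sw C).2.2 = true → PD (toM C.length C) ∧ toM C.length (sw C).1 = (toM C.length C)⁻¹) ∧
      ((sw C).2.2 = false → toV C.length (sw C).2.1 ≠ 0 ∧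
        qf (toM C.length C) (toV C.length (sw C).2.1) ≤ 0) := by
  unfold sw
  exact exists_sweep.choose_spec.2 C h

end Crest.Agent.R37.KSA
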