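import Crest.Agent.R37.LA

/-!
# R37/KSDefs: the self-energy barrier (definitions)

A pair `p` has two sides `(p, false)`, `(p, true)` with vectors `V (p, b)`.  A state consists of a symmetric
matrix `M₀` (budget minus the chosen vectors of the decided pairs), the set `al` of undecided pairs,
fractional values `x p` (the share of the side `true`) and self-energies `w i`.
-/

set_option autoImplicit false
open Finset Matrix

namespace Crest.Agent.R37.KS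

abbrev Ix := ℕ × Bool

def sides (al : Finset ℕ) : Finset Ix := al ×ˢ univ
def xs (x : ℕ → ℝ) (i : Ix) : ℝ := if i.2 then x i.1 else 1 - x i.1
def sg (i : Ix) : ℝ := if i.2 then 1 else -1
def psi (x : ℝ) : ℝ := 76 * (2 - x ^ 2)
/-- effective weight -/
def aw (x w : ℝ) : ℝ := x + psi x * w

section
variable {N : ℕ} (M : Matrix (Fin N) (Fin N) ℝ) (V : Ix → Fin N → ℝ) (I : Finset Ix) (w : Ix → ℝ)

/-- `Vᵢᵀ G Vⱼ`, `G = M⁻¹` -/
noncomputable def Gm (i j : Ix) : ℝ := V i ⬝ᵥ M⁻¹ *ᵥ V j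
noncomputable def ell (i : Ix) : ℝ := 1 / (w i - Gm M V i i) ^ 2
/-- `Vⱼᵀ G Ω G Vₖ` with `Ω = 1 + ∑ ℓᵢ Vᵢ Vᵢᵀ` -/
noncomputable def Up (j k : Ix) : ℝ :=
  (M⁻¹ *ᵥ V j) ⬝ᵥ (M⁻¹ *ᵥ V k) + ∑ i ∈ I, ell M V w i * (Gm M V i j * Gm M V i k)
/-- `tr (Ω G A G A G)` with `A = ∑ αⱼ Vⱼ Vⱼᵀ` -/
noncomputable def Qf (α : Ix → ℝ) : ℝ :=
  ∑ j ∈ I, ∑ k ∈ I, α j * α k * (Gm M V j k * Up M V I w j k)
noncomputable def Kv (α : Ix → ℝ) (i : Ix) : ℝ := ∑ j ∈ I, Gm M V i j ^ 2 * α j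
noncomputable def pot : ℝ := trace M⁻¹ + ∑ i ∈ I, 1 / (w i - Gm M V i i)

variable (x : ℕ → ℝ) (ξ : ℕ → ℝ) (ω : Ix → ℝ)

/-- first-order change of the effective weights -/
def alp (i : Ix) : ℝ := (1 - 152 * xs x i * w i) * (sg i * ξ i.1) + psi (xs x i) * ω i
noncomputable def Lin : ℝ :=
  ∑ i ∈ I, Up M V I w i i * alp w x ξ ω i - ∑ i ∈ I, ell M V w i * ω i
noncomputable def Hq : ℝ :=
  ∑ i ∈ I, Up M V I w i i * (-(76 * w i * ξ i.1 ^ 2) - 152 * xs x i * (sg i * ξ i.1) * ω i) +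
    4 * Qf M V I w (alp w x ξ ω) +
    8 * ∑ i ∈ I, ell M V w i / (w i - Gm M V i i) * (ω i - Kv M V I (alp w x ξ ω) i) ^ 2

end

section
variable {N : ℕ} (M₀ : Matrix (Fin N) (Fin N) ℝ) (V : Ix → Fin N → ℝ) (al : Finset ℕ) (x : ℕ → ℝ)
  (w : Ix → ℝ)

/-- the matrix of a state -/
def MM : Matrix (Fin N) (Fin N) ℝ := M₀ - ∑ i ∈ sides al, aw (xs x i) (w i) • op (V i)

/-- admissible states -/
structure Ok : Prop where
  pd : PD (MM M₀ V al x w)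
  x01 : ∀ p ∈ al, 0 ≤ x p ∧ x p ≤ 1
  lt : ∀ i ∈ sides al, Gm (MM M₀ V al x w) V i i < w i
  le : ∀ i ∈ sides al, w i ≤ 1

/-- the potential of a state -/
noncomputable def Pot : ℝ := pot (MM M₀ V al x w) V (sides al) w

end

end Crest.Agent.R37.KS
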