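import Crest.Agent.R37.KSStep

/-!
# R37/KSMove: the improving moves; polarisation
-/

set_option autoImplicit false
open Finset Matrix

namespace Crest.Agent.R37.KS

variable {N : ℕ} {M₀ : Matrix (Fin N) (Fin N) ℝ} {V : Ix → Fin N → ℝ} {al : Finset ℕ} {x ξ : ℕ → ℝ}
  {w ω : Ix → ℝ} {P : ℝ}

/-- Lowering one self-energy by `h = 1 / P^20`: `Lin = - h (ψ u - ℓ) ≤ - h ℓ ≤ - h`; `step`, `crude`, `interior`. -/
theorem lower_w (hk : Ok M₀ V al x w) (h4 : 10 ^ 4 ≤ P) (hal : (al.card : ℝ) ≤ P)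
    (hP : Pot M₀ V al x w ≤ P) {i : Ix} (hi : i ∈ sides al)
    (hu : 2 * ell (MM M₀ V al x w) V w i <
      psi (xs x i) * Up (MM M₀ V al x w) V (sides al) w i i)
    (w' : Ix → ℝ) (hw' : ∀ j ∈ sides al, w' j = w j - if j = i then 1 / P ^ 20 else 0) :
    Ok M₀ V al x w' ∧ Pot M₀ V al x w' ≤ Pot M₀ V al x w - 1 / P ^ 21 := by
  have hP0 : 0 < P := by linarith
  have hP1 : 1 ≤ P := by linarith
  have h0 : 0 < 1 / P ^ 20 := by positivity
  have hω : ∀ j ∈ sides al, (w' - w) j = -if j = i then 1 / P ^ 20 else 0 := fun j hj => by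
    rw [Pi.sub_apply, hw' j hj]; ring
  have hω' : ∀ j ∈ sides al, |(w' - w) j| ≤ 1 / P ^ 20 := fun j hj => by
    rw [hω j hj, abs_neg]
    split_ifs
    · exact (abs_of_pos h0).le
    · rw [abs_zero]; exact h0.le
  have hξ : ∀ p ∈ al, |(0 : ℕ → ℝ) p| ≤ 1 / P ^ 20 := fun p _ => by simpa using h0.le
  obtain ⟨p1, p2, p3⟩ := step hk h4 hal hP h0.le
    (one_div_le_one_div_of_le (by positivity) (pow_le_pow_right₀ hP1 (by norm_num))) hξ hω'
  obtain ⟨-, c2⟩ := crude hk h4 hal hP h0.le hξ hω'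
  rw [add_zero, add_sub_cancel] at p1 p2 p3
  refine ⟨⟨p1, hk.x01, p2, fun j hj => ?_⟩, p3.trans ?_⟩
  · have := hk.le j hj
    rw [hw' j hj]
    split_ifs <;> linarith
  have e0 : Lin (MM M₀ V al x w) V (sides al) w x 0 (w' - w) =
      -(1 / P ^ 20) * (psi (xs x i) * Up (MM M₀ V al x w) V (sides al) w i i -
        ell (MM M₀ V al x w) V w i) := by
    unfold Lin
    rw [← sum_sub_distrib, sum_eq_single_of_mem i hi fun j hj hji => ?_]
    · simp only [alp, hω i hi, if_true, Pi.zero_apply]; ring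
    · simp only [alp, hω j hj, if_neg hji, Pi.zero_apply]; ring
  have e1 : 1 ≤ ell (MM M₀ V al x w) V w i := by
    obtain ⟨g0, -, -, w1⟩ := ksstep_g hk hi
    have h1 := sub_pos.2 (hk.lt i hi)
    unfold ell
    rw [le_div_iff₀ (by positivity), one_mul]
    exact pow_le_one₀ h1.le (by linarith)
  have e2 : P ^ 9 * (1 / P ^ 20) ^ 2 = 1 / P ^ 31 := by field_simp
  have e3 : P ^ 10 * (1 / P ^ 20) ^ 3 = 1 / P ^ 50 := by field_simp
  have e4 : 1 / P ^ 20 = P * (1 / P ^ 21) := by field_simp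
  have b1 : 1 / P ^ 31 ≤ 1 / P ^ 21 :=
    one_div_le_one_div_of_le (by positivity) (pow_le_pow_right₀ hP1 (by norm_num))
  have b2 : 1 / P ^ 50 ≤ 1 / P ^ 21 :=
    one_div_le_one_div_of_le (by positivity) (pow_le_pow_right₀ hP1 (by norm_num))
  have b3 : 10 ^ 4 * (1 / P ^ 21) ≤ P * (1 / P ^ 21) := by gcongr
  have b4 : 0 ≤ 1 / P ^ 21 := by positivity
  have b5 : 1 / P ^ 20 * 1 ≤ 1 / P ^ 20 * (psi (xs x i) * Up (MM M₀ V al x w) V (sides al) w i i -
      ell (MM M₀ V al x w) V w i) := mul_le_mul_of_nonneg_left (by linarith) h0.le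
  rw [e2] at c2
  rw [e0, e3]
  linarith

theorem ksmove_hom {M : Matrix (Fin N) (Fin N) ℝ} {I : Finset Ix} (t : ℝ) :
    Lin M V I w x (fun p => t * ξ p) (fun i => t * ω i) = t * Lin M V I w x ξ ω ∧
      Hq M V I w x (fun p => t * ξ p) (fun i => t * ω i) = t ^ 2 * Hq M V I w x ξ ω := by
  have e : ∀ i, alp w x (fun p => t * ξ p) (fun i => t * ω i) i = t * alp w x ξ ω i := fun i => by
    unfold alp; ring
  have e' : ∀ i, Kv M V I (alp w x (fun p => t * ξ p) (fun i => t * ω i)) i =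
      t * Kv M V I (alp w x ξ ω) i := fun i => by
    simp only [Kv, e, mul_sum, mul_left_comm t]
  constructor
  · simp only [Lin, e, mul_sub, mul_sum, mul_left_comm t]
  · simp only [Hq, Qf, e, e', mul_add, mul_sum]
    congr 1
    · congr 1
      · exact sum_congr rfl fun i _ => by ring
      · exact sum_congr rfl fun i _ => sum_congr rfl fun j _ => by ring
    · exact sum_congr rfl fun i _ => by ring

/-- Moving by `± h (ξ, ω)`, `h = 1 / P^20`: `Lin` is odd and `Hq` is homogeneous of degree two. -/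
theorem move_neg (hk : Ok M₀ V al x w) (h4 : 10 ^ 4 ≤ P) (hal : (al.card : ℝ) ≤ P)
    (hP : Pot M₀ V al x w ≤ P) (ha : ∀ i ∈ sides al, aw (xs x i) (w i) < 1)
    (hξ : ∀ p ∈ al, |ξ p| ≤ 1) (hω : ∀ i ∈ sides al, |ω i| ≤ 1)
    (hH : Hq (MM M₀ V al x w) V (sides al) w x ξ ω ≤ -(1 / (2 * P ^ 9))) :
    ∃ σ : ℝ, (σ = 1 ∨ σ = -1) ∧
      Ok M₀ V al (fun p => x p + σ / P ^ 20 * ξ p) (fun i => w i + σ / P ^ 20 * ω i) ∧
      Pot M₀ V al (fun p => x p + σ / P ^ 20 * ξ p) (fun i => w i + σ / P ^ 20 * ω i) ≤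
        Pot M₀ V al x w - 1 / P ^ 50 := by
  have hP0 : 0 < P := by linarith
  have hP1 : 1 ≤ P := by linarith
  have h0 : 0 < 1 / P ^ 20 := by positivity
  obtain ⟨σ, hσ, hL⟩ : ∃ σ : ℝ, (σ = 1 ∨ σ = -1) ∧ σ * Lin (MM M₀ V al x w) V (sides al) w x ξ ω ≤ 0 := by
    rcases le_total (Lin (MM M₀ V al x w) V (sides al) w x ξ ω) 0 with h | h
    · exact ⟨1, Or.inl rfl, by linarith⟩
    · exact ⟨-1, Or.inr rfl, by linarith⟩
  have ht : |σ / P ^ 20| = 1 / P ^ 20 := by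
    rw [abs_div, abs_of_pos (by positivity : 0 < P ^ 20)]
    rcases hσ with rfl | rfl <;> simp
  have hb : ∀ y : ℝ, |y| ≤ 1 → |σ / P ^ 20 * y| ≤ 1 / P ^ 20 := fun y hy => by
    rw [abs_mul, ht]; exact mul_le_of_le_one_right h0.le hy
  obtain ⟨p1, p2, p3⟩ := step (ξ := fun p => σ / P ^ 20 * ξ p) (ω := fun i => σ / P ^ 20 * ω i)
    hk h4 hal hP h0.le
    (one_div_le_one_div_of_le (by positivity) (pow_le_pow_right₀ hP1 (by norm_num)))
    (fun p hp => hb _ (hξ p hp)) fun i hi => hb _ (hω i hi)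
  obtain ⟨i1, i2⟩ := interior hk h4 hP ha
  have b0 : 1 / P ^ 20 ≤ 1 / P := one_div_le_one_div_of_le hP0 (le_self_pow₀ hP1 (by norm_num))
  have b0' : 1 / P ≤ 1 / 2 := one_div_le_one_div_of_le (by norm_num) (by linarith)
  refine ⟨σ, hσ, ⟨p1, fun p hp => ?_, p2, fun i hi => ?_⟩, le_trans p3 ?_⟩
  · have h1 := abs_le.1 (hb _ (hξ p hp))
    have h2 := i1 p hp
    constructor <;> linarith
  · have h1 := abs_le.1 (hb _ (hω i hi))
    have h2 := i2 i hi
    linarith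
  rw [(ksmove_hom _).1, (ksmove_hom _).2, ← sq_abs (σ / P ^ 20), ht]
  have c1 : σ / P ^ 20 * Lin (MM M₀ V al x w) V (sides al) w x ξ ω ≤ 0 := by
    rw [div_mul_eq_mul_div]
    exact div_nonpos_of_nonpos_of_nonneg hL (by positivity)
  have c2 := mul_le_mul_of_nonneg_left hH (sq_nonneg (1 / P ^ 20))
  have e2 : (1 / P ^ 20) ^ 2 * -(1 / (2 * P ^ 9)) = -(P / 2 * (1 / P ^ 50)) := by field_simp
  have e3 : P ^ 10 * (1 / P ^ 20) ^ 3 = 1 / P ^ 50 := by field_simp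
  have b3 : 2 * (1 / P ^ 50) ≤ P / 2 * (1 / P ^ 50) :=
    mul_le_mul_of_nonneg_right (by linarith) (by positivity)
  rw [e2] at c2
  rw [e3]
  linarith

/-- coordinates: `3 p ↦ ξ p`, `3 p + 1 ↦ ω (p, false)`, `3 p + 2 ↦ ω (p, true)` -/
def cξ (z : ℕ → ℝ) (p : ℕ) : ℝ := z (3 * p)
def cω (z : ℕ → ℝ) (i : Ix) : ℝ := z (3 * i.1 + if i.2 then 2 else 1)

/-- unit vectors -/
def un (a : ℕ) : ℕ → ℝ := fun b => if b = a then 1 else 0

/-- quadratic forms -/
def ksmove_Q (H : (ℕ → ℝ) → ℝ) : Prop :=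
  ∃ β : (ℕ → ℝ) →ₗ[ℝ] (ℕ → ℝ) →ₗ[ℝ] ℝ, ∀ z, H z = β z z

theorem ksmove_Q.congr {H H' : (ℕ → ℝ) → ℝ} (h : ksmove_Q H) (e : ∀ z, H' z = H z) : ksmove_Q H' := by
  rwa [funext e]

theorem ksmove_Q.add {H H' : (ℕ → ℝ) → ℝ} (h : ksmove_Q H) (h' : ksmove_Q H') :
    ksmove_Q fun z => H z + H' z := by
  obtain ⟨β, hβ⟩ := h
  obtain ⟨β', hβ'⟩ := h'
  exact ⟨β + β', fun z => by simp [hβ, hβ']⟩

theorem ksmove_Q.smul (c : ℝ) {H : (ℕ → ℝ) → ℝ} (h : ksmove_Q H) : ksmove_Q fun z => c * H z := by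
  obtain ⟨β, hβ⟩ := h
  exact ⟨c • β, fun z => by simp [hβ]⟩

theorem ksmove_Q.sum {ι : Type} {s : Finset ι} {H : ι → (ℕ → ℝ) → ℝ} (h : ∀ i ∈ s, ksmove_Q (H i)) :
    ksmove_Q fun z => ∑ i ∈ s, H i z := by
  choose! β hβ using h
  exact ⟨∑ i ∈ s, β i, fun z => by
    rw [LinearMap.sum_apply, LinearMap.sum_apply]; exact sum_congr rfl fun i hi => hβ i hi z⟩

theorem ksmove_Q.mul {f g : (ℕ → ℝ) → ℝ} (hf : IsLinearMap ℝ f) (hg : IsLinearMap ℝ g) :
    ksmove_Q fun z => f z * g z :=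
  ⟨(LinearMap.mul ℝ ℝ).compl₁₂ (hf.mk' f) (hg.mk' g), fun _ => rfl⟩

theorem ksmove_congr {M : Matrix (Fin N) (Fin N) ℝ} {I : Finset Ix} {ξ' : ℕ → ℝ} {ω' : Ix → ℝ}
    (h1 : ∀ i ∈ I, ξ i.1 = ξ' i.1) (h2 : ∀ i ∈ I, ω i = ω' i) :
    Hq M V I w x ξ ω = Hq M V I w x ξ' ω' := by
  have e : ∀ i ∈ I, alp w x ξ ω i = alp w x ξ' ω' i := fun i hi => by
    unfold alp; rw [h1 i hi, h2 i hi]
  have e' : ∀ i, Kv M V I (alp w x ξ ω) i = Kv M V I (alp w x ξ' ω') i := fun i =>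
    sum_congr rfl fun j hj => by rw [e j hj]
  unfold Hq Qf
  congr 1
  · congr 1
    · exact sum_congr rfl fun i hi => by rw [h1 i hi, h2 i hi]
    · congr 1
      exact sum_congr rfl fun i hi => sum_congr rfl fun j hj => by rw [e i hi, e j hj]
  · congr 1
    exact sum_congr rfl fun i hi => by rw [h2 i hi, e']

/-- `Hq` is a quadratic form in the coordinates `z a`, `a < 3 m`: polarisation recovers it.  (Show that
`H z := Hq (cξ z) (cω z)` is `β z z` for a map `β` that is symmetric and linear in each argument, and that it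
depends only on the coordinates below `3 m`.) -/
theorem Hq_polar {M : Matrix (Fin N) (Fin N) ℝ} (hM : PD M) (m : ℕ) (hm : al ⊆ range m) (z : ℕ → ℝ) :
    Hq M V (sides al) w x (cξ z) (cω z) = ∑ a ∈ range (3 * m), ∑ b ∈ range (3 * m), z a * z b *
      ((Hq M V (sides al) w x (cξ (un a + un b)) (cω (un a + un b)) -
        Hq M V (sides al) w x (cξ (un a)) (cω (un a)) -
        Hq M V (sides al) w x (cξ (un b)) (cω (un b))) / 2) := by
  have hL : ∀ a : ℕ, IsLinearMap ℝ fun z : ℕ → ℝ => z a := fun a => ⟨fun _ _ => rfl, fun _ _ => rfl⟩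
  have hα : ∀ i, IsLinearMap ℝ fun z : ℕ → ℝ => alp w x (cξ z) (cω z) i := fun i =>
    ⟨fun _ _ => by simp only [alp, cξ, cω, Pi.add_apply]; ring,
      fun _ _ => by simp only [alp, cξ, cω, Pi.smul_apply, smul_eq_mul]; ring⟩
  have hK : ∀ i, IsLinearMap ℝ fun z : ℕ → ℝ =>
      cω z i - Kv M V (sides al) (alp w x (cξ z) (cω z)) i := fun i =>
    ⟨fun a b => by
      simp only [Kv, (hα _).map_add a b, mul_add, sum_add_distrib]
      simp only [cω, Pi.add_apply]; ring,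
    fun c a => by
      simp only [Kv, (hα _).map_smul c a, smul_eq_mul, mul_sub, mul_sum, mul_left_comm c]
      rfl⟩
  have hT : ∀ i, IsLinearMap ℝ fun z : ℕ → ℝ => -(76 * w i * cξ z i.1) - 152 * xs x i * sg i * cω z i :=
    fun i => ⟨fun _ _ => by simp only [cξ, cω, Pi.add_apply]; ring,
      fun _ _ => by simp only [cξ, cω, Pi.smul_apply, smul_eq_mul]; ring⟩
  obtain ⟨β, hβ⟩ : ksmove_Q fun z => Hq M V (sides al) w x (cξ z) (cω z) := by
    unfold Hq Qf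
    refine ((ksmove_Q.sum fun i _ => ?_).add (ksmove_Q.smul 4 (ksmove_Q.sum fun j _ =>
      ksmove_Q.sum fun k _ => ?_))).add (ksmove_Q.smul 8 (ksmove_Q.sum fun i _ => ?_))
    · exact (((ksmove_Q.mul (hL (3 * i.1)) (hT i))).smul (Up M V (sides al) w i i)).congr
        fun z => by simp only [cξ]; ring
    · exact ((ksmove_Q.mul (hα j) (hα k)).smul (Gm M V j k * Up M V (sides al) w j k)).congr
        fun z => by ring
    · exact ((ksmove_Q.mul (hK i) (hK i)).smul (ell M V w i / (w i - Gm M V i i))).congr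
        fun z => by ring
  have hz : ∀ b, b < 3 * m → z b = (∑ a ∈ range (3 * m), z a • un a) b := fun b hb => by
    simp [un, Finset.sum_apply, hb]
  have e1 : Hq M V (sides al) w x (cξ z) (cω z) = Hq M V (sides al) w x
      (cξ (∑ a ∈ range (3 * m), z a • un a)) (cω (∑ a ∈ range (3 * m), z a • un a)) := by
    refine ksmove_congr (fun i hi => hz _ ?_) fun i hi => hz _ ?_
    · have := mem_range.1 (hm (ksstep_mem.1 hi)); omega
    · have := mem_range.1 (hm (ksstep_mem.1 hi))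
      split_ifs <;> omega
  rw [e1]
  simp only [hβ, map_add, LinearMap.add_apply, map_sum, LinearMap.sum_apply, map_smul,
    LinearMap.smul_apply, smul_eq_mul, mul_sum]
  have e2 : ∑ a ∈ range (3 * m), ∑ b ∈ range (3 * m), z a * (z b * β (un b) (un a)) =
      ∑ a ∈ range (3 * m), ∑ b ∈ range (3 * m), z a * (z b * β (un a) (un b)) := by
    rw [sum_comm]
    exact sum_congr rfl fun a _ => sum_congr rfl fun b _ => by ring
  have e3 : ∑ a ∈ range (3 * m), ∑ b ∈ range (3 * m), z a * z b *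
      ((β (un a) (un a) + β (un b) (un a) + (β (un a) (un b) + β (un b) (un b)) - β (un a) (un a) -
        β (un b) (un b)) / 2) =
      (∑ a ∈ range (3 * m), ∑ b ∈ range (3 * m), z a * (z b * β (un b) (un a)) +
        ∑ a ∈ range (3 * m), ∑ b ∈ range (3 * m), z a * (z b * β (un a) (un b))) / 2 := by
    simp only [← sum_add_distrib, sum_div]
    exact sum_congr rfl fun a _ => sum_congr rfl fun b _ => by ring
  rw [e3, e2]
  ring

end Crest.Agent.R37.KS
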