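import Crest.Agent.R37.KSStep

/-!
# R37/KSNeg: a direction of negative curvature; every undecided state can be improved
-/

set_option autoImplicit false
open Finset Matrix

namespace Crest.Agent.R37.KS

variable {N : ℕ} {M₀ : Matrix (Fin N) (Fin N) ℝ} {V : Ix → Fin N → ℝ} {al : Finset ℕ} {x ξ : ℕ → ℝ}
  {w ω : Ix → ℝ} {P : ℝ}

theorem ksneg_small {ι κ : Type} (I : Finset ι) (J : Finset κ) (T : ι → ι → ℝ)
    (hT : ∀ i j, T i j = T j i) (h0 : ∀ α : ι → ℝ, 0 ≤ ∑ i ∈ I, ∑ j ∈ I, α i * α j * T i j)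
    (ν : ι → ℝ) (hν : ∀ i ∈ I, 0 < ν i) (K : ℝ) (hK : ∀ i ∈ I, T i i ≤ K * ν i) (L : κ → ι → ℝ)
    (hr : I.card = 2 * J.card) (hι : 0 < I.card) :
    ∃ α : ι → ℝ, (∃ i ∈ I, α i ≠ 0) ∧ (∀ p ∈ J, ∑ i ∈ I, L p i * α i = 0) ∧
      ∑ i ∈ I, ∑ j ∈ I, α i * α j * T i j ≤ 2 * K * ∑ i ∈ I, ν i * α i ^ 2 := by
  classical
  set E : (I → ℝ) → ι → ℝ := fun α i => if h : i ∈ I then α ⟨i, h⟩ else 0 with hE
  have hE' : ∀ (α : I → ℝ) (i : I), E α i = α i := fun α i => by simp only [hE, dif_pos i.2]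
  have hq : ∀ α : I → ℝ, ∑ i ∈ I, ∑ j ∈ I, E α i * E α j * T i j =
      ∑ i : I, ∑ j : I, α i * α j * T i j := fun α => by
    rw [← sum_coe_sort I]
    refine sum_congr rfl fun i _ => ?_
    rw [← sum_coe_sort I]
    simp only [hE']
  obtain ⟨α, h1, h2, h3⟩ := exists_small (ι := I) (κ := J) (fun i j => T i j) (fun i j => hT i j)
    (fun α => by rw [← hq]; exact h0 _) (fun i => ν i) (fun i => hν i i.2) K (fun i => hK i i.2)
    (fun p i => L p i) (by simpa using hr) (by rw [Fintype.card_coe]; exact hι)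
  refine ⟨E α, ?_, fun p hp => ?_, ?_⟩
  · obtain ⟨i, hi⟩ := Function.ne_iff.1 h1
    exact ⟨i, i.2, by rw [hE']; exact hi⟩
  · rw [← sum_coe_sort I]
    simp only [hE']
    exact h2 ⟨p, hp⟩
  · rw [hq, ← sum_coe_sort I]
    simp only [hE']
    exact h3

theorem ksneg_mem {i : Ix} : i ∈ sides al ↔ i.1 ∈ al := by simp [sides]

theorem ksneg_card (al : Finset ℕ) : (sides al).card = 2 * al.card := by
  simp [sides, mul_comm]

theorem ksneg_sg (i : Ix) : sg i ^ 2 = 1 := by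
  unfold sg; split_ifs <;> norm_num

/-- the pointwise inequality -/
theorem ksneg_pt {u w x ψ n l a o e : ℝ} (hu : 0 ≤ u) (hw : 0 < w) (hx0 : 0 ≤ x) (hx1 : x ≤ 1)
    (hψ : 76 ≤ ψ) (hψw : ψ * w ≤ 1) (hn0 : 0 < n) (hn1 : n ≤ 1) (hl : ψ * u ≤ 2 * l)
    (he : n * e + ψ * o = a) :
    u * (-(76 * w * e ^ 2) - 152 * x * e * o) ≤ -19 * (u * w * a ^ 2) + 5 * (l / w * o ^ 2) := by
  set q := o ^ 2 / w with hq
  have hq0 : 0 ≤ q := by positivity
  have hqw : o ^ 2 = q * w := by rw [hq]; field_simp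
  have h1 : -(152 * x * e * o) ≤ 38 * w * e ^ 2 + 152 * q := by
    refine le_of_mul_le_mul_left ?_ hw
    have h2 : (x * o) ^ 2 ≤ o ^ 2 := by
      rw [mul_pow]; exact mul_le_of_le_one_left (sq_nonneg o) (pow_le_one₀ hx0 hx1)
    nlinarith [sq_nonneg (w * e + 2 * (x * o))]
  have h2 : (n * e) ^ 2 ≤ e ^ 2 := by
    rw [mul_pow]; exact mul_le_of_le_one_left (sq_nonneg e) (pow_le_one₀ hn0.le hn1)
  have h3 : a ^ 2 ≤ 2 * e ^ 2 + 2 * (ψ * o) ^ 2 := by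
    rw [← he]; nlinarith [sq_nonneg (n * e - ψ * o)]
  have h4 : w * (ψ * o) ^ 2 ≤ q := by
    have : w * (ψ * o) ^ 2 = (ψ * w) ^ 2 * q := by rw [mul_pow, hqw]; ring
    rw [this]
    exact mul_le_of_le_one_left hq0 (pow_le_one₀ (by positivity) hψw)
  have h5 : -(76 * w * e ^ 2) - 152 * x * e * o ≤ -19 * (w * a ^ 2) + 190 * q := by
    nlinarith [mul_le_mul_of_nonneg_left h3 hw.le]
  have h6 : 190 * u ≤ 5 * l := by nlinarith
  have h7 : l / w * o ^ 2 = l * q := by rw [hq]; ring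
  rw [h7]
  nlinarith [mul_le_mul_of_nonneg_left h5 hu, mul_le_mul_of_nonneg_right h6 hq0]

theorem ksneg_up {M : Matrix (Fin N) (Fin N) ℝ} (hM : PD M) {c : ℝ} (hc : 0 < c)
    (hle : Le M (c • 1)) {v : Fin N → ℝ} (hv : 1 ≤ v ⬝ᵥ v) :
    1 ≤ c ^ 2 * ((M⁻¹ *ᵥ v) ⬝ᵥ (M⁻¹ *ᵥ v)) := by
  have h1 := hM.sq_dot_le v v
  have h2 := hle v
  rw [qf_smul, qf_one] at h2
  have h3 := hM.inv.nonneg v
  have h4 : qf M⁻¹ v ^ 2 ≤ (v ⬝ᵥ v) * ((M⁻¹ *ᵥ v) ⬝ᵥ (M⁻¹ *ᵥ v)) := by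
    have := Finset.sum_mul_sq_le_sq_mul_sq univ v (M⁻¹ *ᵥ v)
    simpa only [qf, dotProduct, sq] using this
  set s := v ⬝ᵥ v
  set g := qf M⁻¹ v
  set y := (M⁻¹ *ᵥ v) ⬝ᵥ (M⁻¹ *ᵥ v)
  have hs : 0 < s := by linarith
  have h5 : s ≤ c * g := by
    refine le_of_mul_le_mul_left ?_ hs
    nlinarith [mul_le_mul_of_nonneg_left h2 h3]
  have h6 : s ^ 2 ≤ c ^ 2 * (s * y) := by
    calc s ^ 2 ≤ (c * g) ^ 2 := pow_le_pow_left₀ hs.le h5 2
      _ = c ^ 2 * g ^ 2 := by ring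
      _ ≤ _ := mul_le_mul_of_nonneg_left h4 (by positivity)
  refine hv.trans (le_of_mul_le_mul_left ?_ hs)
  nlinarith

/-- Write `M = MM`, `I = sides al`, `uᵢ = Up i i`, `ψᵢ = psi (xs x i)`, `Nᵢ = 1 - 152 xs x i · wᵢ ∈ [1/2, 1]` (as
`76 wᵢ ≤ ψᵢ wᵢ < 1 - xs x i`), `νᵢ = uᵢ wᵢ ≥ 1 / P⁵` (`uᵢ ≥ |G Vᵢ|² ≥ 1 / (136 P)²` because `M ⪯ M₀ ⪯ 136 P`, e.g. from
`1 ≤ V ⬝ V ≤ 136 P · qf G V` and `(qf G V)² ≤ |V|² |G V|²`).  Apply `exists_small` on the subtypes of `I` and `al` to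
`T α = 5 ∑ᵢ ℓᵢ (Kv α i)² / wᵢ + 4 Qf α`, whose diagonal is `T j j ≤ 9 νⱼ` (`Gm i j ² ≤ wᵢ wⱼ`, `∑ᵢ ℓᵢ Gm i j ² ≤ uⱼ`), with the equations
`∑_{b} (α (p,b) - ψ Kv α (p,b)) / N (p,b) = 0`.  Put `ω = Kv α`, `ξ p = (α - ψ ω) / N` at `(p, true)`; then
`sg i * ξ i.1 = (αᵢ - ψᵢ ωᵢ) / Nᵢ` and `alp = α` on `I`.  Using `- 152 x ξ' ω ≤ 38 w ξ² + 152 ω² / w`,
`ξ² ≥ (α - ψ ω)² ≥ α² / 2 - ψ² ω²`, `ψ w ≤ 1` and `76 u ≤ ψ u ≤ 2 ℓ`:
`Hq ≤ - 19 ∑ ν α² + T α ≤ - ∑ ν α²`.  And `∑ ξ² + ∑ ω² ≤ P⁴ ∑ α²`; it is positive since `α ≠ 0` and `alp = α`. -/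
theorem neg (hk : Ok M₀ V al x w) (h4 : 10 ^ 4 ≤ P) (hal : (al.card : ℝ) ≤ P)
    (hP : Pot M₀ V al x w ≤ P) (hne : al.Nonempty) (hM : Le M₀ ((136 * P) • 1))
    (hV : ∀ i ∈ sides al, 1 ≤ V i ⬝ᵥ V i) (ha : ∀ i ∈ sides al, aw (xs x i) (w i) < 1)
    (hu : ∀ i ∈ sides al, psi (xs x i) * Up (MM M₀ V al x w) V (sides al) w i i ≤
      2 * ell (MM M₀ V al x w) V w i) :
    ∃ (ξ : ℕ → ℝ) (ω : Ix → ℝ), 0 < ∑ p ∈ al, ξ p ^ 2 + ∑ i ∈ sides al, ω i ^ 2 ∧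
      Hq (MM M₀ V al x w) V (sides al) w x ξ ω ≤
        -(1 / P ^ 9) * (∑ p ∈ al, ξ p ^ 2 + ∑ i ∈ sides al, ω i ^ 2) := by
  set M := MM M₀ V al x w with hMdef
  set I := sides al with hI
  have hpd : PD M := hk.pd
  have hP0 : 0 < P := by linarith
  set g := Gm M V with hg
  set l := ell M V w with hl
  set u : Ix → ℝ := fun i => Up M V I w i i with hu'
  set ψ : Ix → ℝ := fun i => psi (xs x i) with hψ
  set n : Ix → ℝ := fun i => 1 - 152 * xs x i * w i with hn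
  have hl0 : ∀ i, 0 ≤ l i := fun i => by simp only [hl, ell]; positivity
  have hx : ∀ i ∈ I, 0 ≤ xs x i ∧ xs x i ≤ 1 := fun i hi => by
    obtain ⟨h1, h2⟩ := hk.x01 i.1 (ksneg_mem.1 hi)
    unfold xs; split_ifs <;> constructor <;> linarith
  have hg0 : ∀ i, 0 ≤ g i i := fun i => Gm_nonneg hpd i
  have hgw : ∀ i ∈ I, g i i ≤ w i := fun i hi => (hk.lt i hi).le
  have hwP : ∀ i ∈ I, 1 / P ≤ w i := fun i hi => by
    have := hk.slack hP hi
    linarith [hg0 i]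
  have hw0 : ∀ i ∈ I, 0 < w i := fun i hi => lt_of_lt_of_le (by positivity) (hwP i hi)
  have hψ1 : ∀ i ∈ I, 76 ≤ ψ i ∧ ψ i ≤ 152 := fun i hi => by
    obtain ⟨h1, h2⟩ := hx i hi
    simp only [hψ, psi]; constructor <;> nlinarith
  have hψw : ∀ i ∈ I, ψ i * w i ≤ 1 - xs x i := fun i hi => by
    have := ha i hi
    unfold aw at this
    simp only [hψ]; linarith
  have hn1 : ∀ i ∈ I, 1 / 2 ≤ n i ∧ n i ≤ 1 := fun i hi => by
    obtain ⟨h1, h2⟩ := hx i hi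
    have h3 : 76 * w i ≤ 1 - xs x i :=
      (mul_le_mul_of_nonneg_right (hψ1 i hi).1 (hw0 i hi).le).trans (hψw i hi)
    have h4 := mul_nonneg h1 (hw0 i hi).le
    simp only [hn]
    constructor
    · nlinarith [mul_le_mul_of_nonneg_left h3 h1, sq_nonneg (xs x i - 1 / 2)]
    · nlinarith
  have hg2 : ∀ i ∈ I, ∀ j ∈ I, g i j ^ 2 ≤ w i * w j := fun i hi j hj =>
    (Gm_sq_le hpd i j).trans (mul_le_mul (hgw i hi) (hgw j hj) (hg0 j) (hw0 i hi).le)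
  have hMle : Le M ((136 * P) • 1) := fun y => by
    refine le_trans ?_ (hM y)
    rw [hMdef, MM, qf_sub, qf_sum]
    refine sub_le_self _ (sum_nonneg fun i hi => ?_)
    rw [qf_smul, qf_op]
    refine mul_nonneg ?_ (sq_nonneg _)
    have := mul_nonneg (le_trans (by norm_num) (hψ1 i hi).1) (hw0 i hi).le
    unfold aw
    linarith [(hx i hi).1]
  have hsq0 : ∀ i, 0 ≤ (M⁻¹ *ᵥ V i) ⬝ᵥ (M⁻¹ *ᵥ V i) := fun i =>
    sum_nonneg fun k _ => mul_self_nonneg _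
  have hu0 : ∀ i, 0 ≤ u i := fun i => Up_nonneg i
  have hν : ∀ i ∈ I, 1 / P ^ 5 ≤ u i * w i := fun i hi => by
    have h1 := ksneg_up hpd (by positivity) hMle (hV i hi)
    have h2 : (M⁻¹ *ᵥ V i) ⬝ᵥ (M⁻¹ *ᵥ V i) ≤ u i :=
      le_add_of_nonneg_right (sum_nonneg fun k _ => mul_nonneg (hl0 k) (mul_self_nonneg _))
    have h3 : 1 ≤ P ^ 4 * u i := by
      refine h1.trans (mul_le_mul ?_ h2 (hsq0 i) (by positivity))
      have : 136 ≤ P := by linarith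
      calc (136 * P) ^ 2 ≤ (P * P) ^ 2 := by gcongr
        _ = P ^ 4 := by ring
    have h4 : 1 ≤ P * w i := by
      have := hwP i hi
      rwa [div_le_iff₀ hP0, mul_comm] at this
    rw [div_le_iff₀ (by positivity)]
    calc (1 : ℝ) ≤ (P ^ 4 * u i) * (P * w i) := one_le_mul_of_one_le_of_one_le h3 h4
      _ = _ := by ring
  set T : Ix → Ix → ℝ := fun j k =>
    5 * ∑ i ∈ I, l i / w i * (g i j ^ 2 * g i k ^ 2) + 4 * (g j k * Up M V I w j k) with hT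
  have hTq : ∀ α : Ix → ℝ, ∑ j ∈ I, ∑ k ∈ I, α j * α k * T j k =
      5 * ∑ i ∈ I, l i / w i * Kv M V I α i ^ 2 + 4 * Qf M V I w α := fun α => by
    have e1 : ∑ i ∈ I, l i / w i * Kv M V I α i ^ 2 =
        ∑ j ∈ I, ∑ k ∈ I, α j * α k * ∑ i ∈ I, l i / w i * (g i j ^ 2 * g i k ^ 2) := by
      simp only [Kv, sq (∑ j ∈ I, _), sum_mul_sum]
      simp only [mul_sum]
      rw [sum_comm]
      refine sum_congr rfl fun j _ => ?_
      rw [sum_comm]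
      exact sum_congr rfl fun k _ => sum_congr rfl fun i _ => by simp only [hg]; ring
    rw [e1, Qf, mul_sum, mul_sum, ← sum_add_distrib]
    refine sum_congr rfl fun j _ => ?_
    rw [mul_sum, mul_sum, ← sum_add_distrib]
    exact sum_congr rfl fun k _ => by simp only [hT, hg]; ring
  set L : ℕ → Ix → ℝ := fun p j =>
    ((if j = (p, true) then 1 else 0) - ψ (p, true) * g (p, true) j ^ 2) / n (p, true) +
      ((if j = (p, false) then 1 else 0) - ψ (p, false) * g (p, false) j ^ 2) / n (p, false) with hL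
  obtain ⟨α, hα0, hαL, hαT⟩ := ksneg_small I al T
    (fun j k => by
      simp only [hT, hg, Gm_comm hpd j k, Up_comm j k, mul_comm (Gm M V _ j ^ 2)])
    (fun α => by
      rw [hTq]
      exact add_nonneg (mul_nonneg (by norm_num) (sum_nonneg fun i hi =>
        mul_nonneg (div_nonneg (hl0 i) (hw0 i hi).le) (sq_nonneg _)))
        (mul_nonneg (by norm_num) (Qf_nonneg hpd α)))
    (fun i => u i * w i) (fun i hi => lt_of_lt_of_le (by positivity) (hν i hi)) 9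
    (fun j hj => by
      have h1 : ∑ i ∈ I, l i / w i * (g i j ^ 2 * g i j ^ 2) ≤
          (∑ i ∈ I, l i * (g i j * g i j)) * w j := by
        rw [sum_mul]
        refine sum_le_sum fun i hi => ?_
        have := hw0 i hi
        calc l i / w i * (g i j ^ 2 * g i j ^ 2) ≤ l i / w i * (g i j ^ 2 * (w i * w j)) :=
              mul_le_mul_of_nonneg_left (mul_le_mul_of_nonneg_left (hg2 i hi j hj) (sq_nonneg _))
                (div_nonneg (hl0 i) this.le)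
          _ = _ := by field_simp
      have h2 : ∑ i ∈ I, l i * (g i j * g i j) ≤ u j := le_add_of_nonneg_left (hsq0 j)
      have h3 := mul_le_mul_of_nonneg_right h2 (hw0 j hj).le
      have h4 := mul_le_mul_of_nonneg_right (hgw j hj) (hu0 j)
      change 5 * _ + 4 * (g j j * u j) ≤ _
      linarith)
    L (ksneg_card al) (by rw [ksneg_card]; have := hne.card_pos; omega)
  set o := Kv M V I α with ho
  set e : Ix → ℝ := fun i => (α i - ψ i * o i) / n i with he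
  have hLe : ∀ i ∈ I, ∑ j ∈ I, ((if j = i then 1 else 0) - ψ i * g i j ^ 2) / n i * α j = e i :=
    fun i hi => by
      have : ∀ j, ((if j = i then 1 else 0) - ψ i * g i j ^ 2) / n i * α j =
          ((if j = i then α j else 0) - ψ i * (g i j ^ 2 * α j)) / n i := fun j => by
        split_ifs <;> ring
      simp only [this]
      rw [← sum_div, sum_sub_distrib, sum_ite_eq' I i, if_pos hi, ← mul_sum]
      rfl
  set ξ : ℕ → ℝ := fun p => e (p, true) with hξ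
  have hsg : ∀ i ∈ I, sg i * ξ i.1 = e i := by
    rintro ⟨p, b⟩ hi
    have hp : p ∈ al := ksneg_mem.1 hi
    have h1 := hαL p hp
    simp only [hL, add_mul, sum_add_distrib] at h1
    rw [hLe _ (ksneg_mem.2 hp), hLe _ (ksneg_mem.2 hp)] at h1
    cases b
    · simp only [sg, hξ]; simp; linarith
    · simp [sg, hξ]
  have hne' : ∀ i ∈ I, n i * e i + ψ i * o i = α i := fun i hi => by
    have : n i ≠ 0 := by linarith [(hn1 i hi).1]
    simp only [he]; field_simp; ring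
  have halp : ∀ i ∈ I, alp w x ξ o i = α i := fun i hi => by
    rw [alp, hsg i hi]; exact hne' i hi
  have hξ2 : ∀ i ∈ I, ξ i.1 ^ 2 = e i ^ 2 := fun i hi => by
    rw [← hsg i hi, mul_pow, ksneg_sg, one_mul]
  set S := ∑ i ∈ I, α i ^ 2 with hS
  have hS0 : 0 ≤ S := sum_nonneg fun i _ => sq_nonneg _
  have hHq : Hq M V I w x ξ o ≤ -(1 / P ^ 5) * S := by
    have e1 : Qf M V I w (alp w x ξ o) = Qf M V I w α :=
      sum_congr rfl fun j hj => sum_congr rfl fun k hk => by rw [halp j hj, halp k hk]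
    have e2 : ∀ i, Kv M V I (alp w x ξ o) i = o i := fun i =>
      sum_congr rfl fun j hj => by rw [halp j hj]
    have e3 : ∑ i ∈ I, Up M V I w i i *
        (-(76 * w i * ξ i.1 ^ 2) - 152 * xs x i * (sg i * ξ i.1) * o i) ≤
        -19 * ∑ i ∈ I, u i * w i * α i ^ 2 + 5 * ∑ i ∈ I, l i / w i * o i ^ 2 := by
      rw [mul_sum, mul_sum, ← sum_add_distrib]
      refine sum_le_sum fun i hi => ?_
      rw [hξ2 i hi, hsg i hi]
      exact ksneg_pt (hu0 i) (hw0 i hi) (hx i hi).1 (hx i hi).2 (hψ1 i hi).1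
        (by linarith [hψw i hi, (hx i hi).1]) (by linarith [(hn1 i hi).1]) (hn1 i hi).2 (hu i hi)
        (hne' i hi)
    have e4 : 1 / P ^ 5 * S ≤ ∑ i ∈ I, u i * w i * α i ^ 2 := by
      rw [hS, mul_sum]
      exact sum_le_sum fun i hi => mul_le_mul_of_nonneg_right (hν i hi) (sq_nonneg _)
    rw [hTq] at hαT
    unfold Hq
    simp only [e1, e2, sub_self, ne_eq, OfNat.ofNat_ne_zero, not_false_eq_true, zero_pow, mul_zero,
      sum_const_zero, add_zero]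
    linarith
  have hIc : (I.card : ℝ) ≤ 2 * P := by rw [hI, ksneg_card]; push_cast; linarith
  have ho2 : ∀ i ∈ I, o i ^ 2 ≤ 2 * P * S := fun i hi => by
    have h1 := Finset.sum_mul_sq_le_sq_mul_sq I (fun j => g i j ^ 2) α
    have h2 : ∑ j ∈ I, (g i j ^ 2) ^ 2 ≤ I.card := by
      have := sum_le_card_nsmul I (fun j => (g i j ^ 2) ^ 2) 1 fun j hj =>
        pow_le_one₀ (sq_nonneg _) ((hg2 i hi j hj).trans
          (mul_le_one₀ (hk.le i hi) (hw0 j hj).le (hk.le j hj)))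
      simpa using this
    exact h1.trans (mul_le_mul_of_nonneg_right (h2.trans hIc) hS0)
  have he2 : ∀ i ∈ I, e i ^ 2 ≤ 400000 * P * S := fun i hi => by
    have h1 : α i ^ 2 ≤ S := single_le_sum (f := fun i => α i ^ 2) (fun _ _ => sq_nonneg _) hi
    have h2 : (ψ i * o i) ^ 2 ≤ 152 ^ 2 * (2 * P * S) := by
      rw [mul_pow]
      exact mul_le_mul (pow_le_pow_left₀ (by linarith [(hψ1 i hi).1]) (hψ1 i hi).2 2) (ho2 i hi)
        (sq_nonneg _) (by norm_num)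
    have h3 : (1 / 2) ^ 2 * e i ^ 2 ≤ (n i * e i) ^ 2 := by
      rw [mul_pow]
      exact mul_le_mul_of_nonneg_right (pow_le_pow_left₀ (by norm_num) (hn1 i hi).1 2) (sq_nonneg _)
    have h4 : n i * e i = α i - ψ i * o i := by linarith [hne' i hi]
    have h5 : S ≤ P * S := le_mul_of_one_le_left hS0 (by linarith)
    rw [h4] at h3
    nlinarith [sq_nonneg (α i + ψ i * o i)]
  have hsum : ∑ p ∈ al, ξ p ^ 2 + ∑ i ∈ I, o i ^ 2 ≤ P ^ 4 * S := by
    have h1 := sum_le_card_nsmul al (fun p => ξ p ^ 2) (400000 * P * S) fun p hp =>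
      he2 (p, true) (ksneg_mem.2 hp)
    have h2 := sum_le_card_nsmul I (fun i => o i ^ 2) (2 * P * S) ho2
    rw [nsmul_eq_mul] at h1 h2
    have h3 := mul_le_mul_of_nonneg_right hal (by positivity : 0 ≤ 400000 * P * S)
    have h4' := mul_le_mul_of_nonneg_right hIc (by positivity : 0 ≤ 2 * P * S)
    have h5 : 400004 ≤ P ^ 2 := by nlinarith
    have h6 := mul_le_mul_of_nonneg_right h5 (by positivity : 0 ≤ P ^ 2 * S)
    nlinarith
  refine ⟨ξ, o, ?_, hHq.trans ?_⟩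
  · obtain ⟨i, hi, hαi⟩ := hα0
    have h1 : ξ i.1 ^ 2 ≤ ∑ p ∈ al, ξ p ^ 2 :=
      single_le_sum (f := fun p => ξ p ^ 2) (fun _ _ => sq_nonneg _) (ksneg_mem.1 hi)
    have h2 : o i ^ 2 ≤ ∑ i ∈ I, o i ^ 2 :=
      single_le_sum (f := fun i => o i ^ 2) (fun _ _ => sq_nonneg _) hi
    by_contra hc
    rw [hξ2 i hi] at h1
    have h3 : e i = 0 := pow_eq_zero_iff two_ne_zero |>.1
      (le_antisymm (by nlinarith [sq_nonneg (o i)]) (sq_nonneg _))
    have h4 : o i = 0 := pow_eq_zero_iff two_ne_zero |>.1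
      (le_antisymm (by nlinarith [sq_nonneg (e i)]) (sq_nonneg _))
    apply hαi
    rw [← hne' i hi, h3, h4]; ring
  · have := mul_le_mul_of_nonneg_left hsum (by positivity : 0 ≤ 1 / P ^ 9)
    have e1 : 1 / P ^ 9 * (P ^ 4 * S) = 1 / P ^ 5 * S := by field_simp
    linarith

end Crest.Agent.R37.KS
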