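import Crest.Agent.R37.KSDefs

/-!
# R37/KSPert: second-order bound for the potential
-/

set_option autoImplicit false
open Finset Matrix

namespace Crest.Agent.R37.KS

variable {N : ℕ} {M : Matrix (Fin N) (Fin N) ℝ} {V : Ix → Fin N → ℝ} {I : Finset Ix} {w : Ix → ℝ}

theorem Gm_comm (hM : PD M) (i j : Ix) : Gm M V i j = Gm M V j i :=
  dot_mulVec_comm hM.inv.1 _ _

theorem Gm_nonneg (hM : PD M) (i : Ix) : 0 ≤ Gm M V i i := hM.inv.nonneg (V i)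

/-- `cs_psd` for `M⁻¹` -/
theorem Gm_sq_le (hM : PD M) (i j : Ix) : Gm M V i j ^ 2 ≤ Gm M V i i * Gm M V j j :=
  cs_psd hM.inv.1 hM.inv.nonneg _ _

theorem kspert_ell (i : Ix) : 0 ≤ ell M V w i := by
  unfold ell; positivity

theorem Up_nonneg (i : Ix) : 0 ≤ Up M V I w i i :=
  add_nonneg (sum_nonneg fun _ _ => mul_self_nonneg _)
    (sum_nonneg fun j _ => mul_nonneg (kspert_ell j) (mul_self_nonneg _))

theorem Up_comm (i j : Ix) : Up M V I w i j = Up M V I w j i := by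
  unfold Up
  rw [dotProduct_comm]
  congr 1
  exact sum_congr rfl fun k _ => by ring

theorem kspert_qf (Δ : Ix → ℝ) (y : Fin N → ℝ) :
    qf (∑ i ∈ I, Δ i • op (V i)) y = ∑ i ∈ I, Δ i * (V i ⬝ᵥ y) ^ 2 := by
  rw [qf_sum]
  exact sum_congr rfl fun i _ => by rw [qf_smul, qf_op]

theorem kspert_mulVec (Δ : Ix → ℝ) (y : Fin N → ℝ) :
    (∑ i ∈ I, Δ i • op (V i)) *ᵥ y = ∑ i ∈ I, (Δ i * (V i ⬝ᵥ y)) • V i := by
  rw [Matrix.sum_mulVec]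
  exact sum_congr rfl fun i _ => by rw [Matrix.smul_mulVec, op_mulVec, smul_smul]

theorem kspert_symm (Δ : Ix → ℝ) : (∑ i ∈ I, Δ i • op (V i)).IsSymm :=
  isSymm_sum _ fun i _ => (op_symm (V i)).smul _

theorem kspert_qf2 (Δ : Ix → ℝ) (y : Fin N → ℝ) :
    qf M⁻¹ ((∑ i ∈ I, Δ i • op (V i)) *ᵥ y)
      = ∑ j ∈ I, ∑ k ∈ I, Δ j * Δ k * (Gm M V j k * ((V j ⬝ᵥ y) * (V k ⬝ᵥ y))) := by
  rw [kspert_mulVec, qf, sum_dotProduct]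
  refine sum_congr rfl fun j _ => ?_
  rw [Matrix.mulVec_sum, dotProduct_sum]
  refine sum_congr rfl fun k _ => ?_
  rw [Matrix.mulVec_smul, smul_dotProduct, dotProduct_smul, Gm, smul_eq_mul, smul_eq_mul]
  ring

theorem kspert_ev (hM : PD M) (j k : Ix) :
    ∑ l : Fin N, (V j ⬝ᵥ M⁻¹ *ᵥ ev N l) * (V k ⬝ᵥ M⁻¹ *ᵥ ev N l) = (M⁻¹ *ᵥ V j) ⬝ᵥ (M⁻¹ *ᵥ V k) := by
  refine sum_congr rfl fun l _ => ?_
  rw [dot_mulVec_comm hM.inv.1 (V j), dot_mulVec_comm hM.inv.1 (V k)]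
  exact congrArg₂ (· * ·) (ext_fin _ l) (ext_fin _ l)

/-- `|(A y) ⬝ y| ≤ η qf M y` for `A = ∑ Δ i • op (V i)`, `η = ∑ |Δ i| gᵢ` (`PD.sq_dot_le`). -/
theorem abs_qf_le (hM : PD M) (Δ : Ix → ℝ) (y : Fin N → ℝ) :
    |qf (∑ i ∈ I, Δ i • op (V i)) y| ≤ (∑ i ∈ I, |Δ i| * Gm M V i i) * qf M y := by
  rw [kspert_qf, sum_mul]
  refine (abs_sum_le_sum_abs _ _).trans (sum_le_sum fun i _ => ?_)
  rw [abs_mul, abs_of_nonneg (sq_nonneg (V i ⬝ᵥ y)), mul_assoc]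
  exact mul_le_mul_of_nonneg_left (hM.sq_dot_le (V i) y) (abs_nonneg _)

/-- `Qf α = ∑_l qf G (A G e_l) + ∑_i ℓᵢ qf G (A G Vᵢ)` with `A = ∑ α j • op (V j)`, `G = M⁻¹`. -/
theorem Qf_eq (hM : PD M) (α : Ix → ℝ) :
    Qf M V I w α =
      ∑ l : Fin N, qf M⁻¹ ((∑ j ∈ I, α j • op (V j)) *ᵥ (M⁻¹ *ᵥ ev N l)) +
        ∑ i ∈ I, ell M V w i * qf M⁻¹ ((∑ j ∈ I, α j • op (V j)) *ᵥ (M⁻¹ *ᵥ V i)) := by
  simp only [kspert_qf2, mul_sum]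
  rw [sum_comm, sum_comm (s := I) (t := I), ← sum_add_distrib]
  refine sum_congr rfl fun j _ => ?_
  rw [sum_comm, sum_comm (s := I) (t := I), ← sum_add_distrib]
  refine sum_congr rfl fun k _ => ?_
  rw [Up, ← kspert_ev hM, mul_add, mul_add, mul_sum, mul_sum, mul_sum, mul_sum]
  congr 1
  refine sum_congr rfl fun i _ => ?_
  rw [Gm_comm hM i j, Gm_comm hM i k]
  unfold Gm
  ring

theorem Qf_nonneg (hM : PD M) (α : Ix → ℝ) : 0 ≤ Qf M V I w α := by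
  rw [Qf_eq hM]
  exact add_nonneg (sum_nonneg fun _ _ => hM.inv.nonneg _)
    (sum_nonneg fun i _ => mul_nonneg (kspert_ell i) (hM.inv.nonneg _))

theorem kspert_par {G : Matrix (Fin N) (Fin N) ℝ} (hG : PD G) (a b : Fin N → ℝ) :
    qf G (a + b) ≤ 2 * qf G a + 2 * qf G b := by
  have h := hG.nonneg (a - b)
  unfold qf at *
  simp only [Matrix.mulVec_add, Matrix.mulVec_sub, add_dotProduct, dotProduct_add, sub_dotProduct,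
    dotProduct_sub] at *
  linarith

/-- `qf G (a + b) ≤ 2 qf G a + 2 qf G b` in `Qf_eq`. -/
theorem Qf_add_le (hM : PD M) (α β : Ix → ℝ) :
    Qf M V I w (α + β) ≤ 2 * Qf M V I w α + 2 * Qf M V I w β := by
  have e : ∑ j ∈ I, (α + β) j • op (V j) = ∑ j ∈ I, α j • op (V j) + ∑ j ∈ I, β j • op (V j) := by
    rw [← sum_add_distrib]
    exact sum_congr rfl fun j _ => by rw [Pi.add_apply, add_smul]
  rw [Qf_eq hM, Qf_eq hM, Qf_eq hM, e]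
  generalize ∑ j ∈ I, α j • op (V j) = A
  generalize ∑ j ∈ I, β j • op (V j) = B
  have h1 : ∑ l : Fin N, qf M⁻¹ ((A + B) *ᵥ (M⁻¹ *ᵥ ev N l)) ≤
      ∑ l : Fin N, (2 * qf M⁻¹ (A *ᵥ (M⁻¹ *ᵥ ev N l)) + 2 * qf M⁻¹ (B *ᵥ (M⁻¹ *ᵥ ev N l))) :=
    sum_le_sum fun l _ => by rw [Matrix.add_mulVec]; exact kspert_par hM.inv _ _
  have h2 : ∑ i ∈ I, ell M V w i * qf M⁻¹ ((A + B) *ᵥ (M⁻¹ *ᵥ V i)) ≤
      ∑ i ∈ I, (2 * (ell M V w i * qf M⁻¹ (A *ᵥ (M⁻¹ *ᵥ V i))) +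
        2 * (ell M V w i * qf M⁻¹ (B *ᵥ (M⁻¹ *ᵥ V i)))) :=
    sum_le_sum fun i _ => by
      rw [Matrix.add_mulVec]
      have := mul_le_mul_of_nonneg_left (kspert_par hM.inv (A *ᵥ (M⁻¹ *ᵥ V i)) (B *ᵥ (M⁻¹ *ᵥ V i)))
        (kspert_ell (M := M) (V := V) (w := w) i)
      linarith
  rw [sum_add_distrib, ← mul_sum, ← mul_sum] at h1 h2
  linarith

/-- If `±A ⪯ η M` then `qf G (A y) ≤ η² qf M y` (`PD.qf_inv_le`: `(A y ⬝ z)² ≤ η² qf M y · qf M z`, by polarisation or by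
`cs_psd`-type bounds `|∑ Δ i (Vᵢ ⬝ y)(Vᵢ ⬝ z)| ≤ ∑ |Δ i| gᵢ √(qf M y) √(qf M z)`). -/
theorem qf_inv_mulVec_le (hM : PD M) (Δ : Ix → ℝ) (y : Fin N → ℝ) :
    qf M⁻¹ ((∑ i ∈ I, Δ i • op (V i)) *ᵥ y) ≤ (∑ i ∈ I, |Δ i| * Gm M V i i) ^ 2 * qf M y := by
  refine hM.qf_inv_le (mul_nonneg (sq_nonneg _) (hM.nonneg y)) fun z => ?_
  have h0 : ∀ (x : Fin N → ℝ), ∀ i ∈ I, 0 ≤ |Δ i| * Gm M V i i * qf M x := fun x i _ =>
    mul_nonneg (mul_nonneg (abs_nonneg _) (Gm_nonneg hM i)) (hM.nonneg x)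
  have h := sum_sq_le_sum_mul_sum_of_sq_le_mul I (r := fun i => ((Δ i * (V i ⬝ᵥ y)) • V i) ⬝ᵥ z)
    (h0 y) (h0 z) fun i _ => by
      have h1 : (V i ⬝ᵥ y) ^ 2 * (V i ⬝ᵥ z) ^ 2 ≤ (Gm M V i i * qf M y) * (Gm M V i i * qf M z) :=
        mul_le_mul (hM.sq_dot_le (V i) y) (hM.sq_dot_le (V i) z) (sq_nonneg _)
          (mul_nonneg (Gm_nonneg hM i) (hM.nonneg y))
      have h2 := mul_le_mul_of_nonneg_left h1 (sq_nonneg (Δ i))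
      have h3 : |Δ i| * |Δ i| = Δ i ^ 2 := by rw [abs_mul_abs_self, sq]
      rw [smul_dotProduct, smul_eq_mul]
      calc (Δ i * (V i ⬝ᵥ y) * (V i ⬝ᵥ z)) ^ 2 = Δ i ^ 2 * ((V i ⬝ᵥ y) ^ 2 * (V i ⬝ᵥ z) ^ 2) := by ring
        _ ≤ _ := h2
        _ = _ := by rw [← h3]; ring
  rw [kspert_mulVec, sum_dotProduct]
  refine h.trans (le_of_eq ?_)
  rw [← sum_mul, ← sum_mul]
  ring

theorem Qf_le (hM : PD M) (α : Ix → ℝ) :
    Qf M V I w α ≤ (∑ i ∈ I, |α i| * Gm M V i i) ^ 2 *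
      (trace M⁻¹ + ∑ i ∈ I, ell M V w i * Gm M V i i) := by
  rw [Qf_eq hM, trace_eq_sum_qf, mul_add, mul_sum, mul_sum]
  refine add_le_add (sum_le_sum fun l _ => ?_) (sum_le_sum fun i _ => ?_)
  · rw [← hM.qf_inv_mulVec (ev N l)]
    exact qf_inv_mulVec_le hM α _
  · have h := qf_inv_mulVec_le (I := I) (V := V) hM α (M⁻¹ *ᵥ V i)
    rw [hM.qf_inv_mulVec] at h
    rw [mul_left_comm]
    exact mul_le_mul_of_nonneg_left h (kspert_ell i)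

theorem abs_Kv_le (hM : PD M) (α : Ix → ℝ) (i : Ix) :
    |Kv M V I α i| ≤ (∑ j ∈ I, |α j| * Gm M V j j) * Gm M V i i := by
  rw [Kv, sum_mul]
  refine (abs_sum_le_sum_abs _ _).trans (sum_le_sum fun j _ => ?_)
  rw [abs_mul, abs_of_nonneg (sq_nonneg (Gm M V i j))]
  have := mul_le_mul_of_nonneg_right (Gm_sq_le (V := V) hM i j) (abs_nonneg (α j))
  linarith

/-- the resolvent identity -/
theorem kspert_res {A : Matrix (Fin N) (Fin N) ℝ} (hM : PD M) (hM' : PD (M - A)) (ρ : Fin N → ℝ) :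
    qf (M - A)⁻¹ ρ = qf M⁻¹ ρ + qf A (M⁻¹ *ᵥ ρ) + qf (M - A)⁻¹ (A *ᵥ (M⁻¹ *ᵥ ρ)) := by
  rw [← hM.qf_inv_mulVec ρ]
  have h1 : ρ = (M - A) *ᵥ (M⁻¹ *ᵥ ρ) + A *ᵥ (M⁻¹ *ᵥ ρ) := by
    rw [← Matrix.add_mulVec, sub_add_cancel, Matrix.mulVec_mulVec, hM.mul_inv, Matrix.one_mulVec]
  generalize M⁻¹ *ᵥ ρ = y at h1
  have h2 : (M - A)⁻¹ *ᵥ ((M - A) *ᵥ y) = y := by
    rw [Matrix.mulVec_mulVec, hM'.inv_mul, Matrix.one_mulVec]
  have h3 := dot_mulVec_comm hM'.inv.1 ((M - A) *ᵥ y) (A *ᵥ y)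
  have h4 := qf_sub M A y
  rw [h1]
  unfold qf at *
  rw [Matrix.mulVec_add, add_dotProduct, dotProduct_add, dotProduct_add, h3, h2,
    dotProduct_comm ((M - A) *ᵥ y) y, dotProduct_comm (A *ᵥ y) y]
  linarith

theorem kspert_inv {t δ : ℝ} (ht : 0 < t) (h : |δ| ≤ t / 2) :
    1 / (t + δ) ≤ 1 / t - 1 / t ^ 2 * δ + 1 / t ^ 2 / t * (2 * δ ^ 2) := by
  have h1 := (abs_le.1 h).1
  have h2 : 0 < t + δ := by linarith
  have e : 1 / t - 1 / t ^ 2 * δ + 1 / t ^ 2 / t * (2 * δ ^ 2) - 1 / (t + δ)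
      = δ ^ 2 * (t + 2 * δ) / (t ^ 3 * (t + δ)) := by
    field_simp
    ring
  have h3 : 0 ≤ δ ^ 2 * (t + 2 * δ) / (t ^ 3 * (t + δ)) :=
    div_nonneg (mul_nonneg (sq_nonneg _) (by linarith)) (by positivity)
  linarith

/-- Let `A = ∑ Δ i • op (V i)`, `M' = M - A ⪰ (1 - η) M`, so `G' ⪯ 2 G`.  The resolvent identity
`G' = G + G A G + G A G' A G` gives, for every `ρ`,
`qf G' ρ = qf G ρ + qf A (G ρ) + qf G' (A G ρ)`, the last term in `[0, 2 qf G (A G ρ)]`.  Use it for `ρ = e_l` (trace) and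
`ρ = Vᵢ`: `g'ᵢ = gᵢ + Kv Δ i + qᵢ`, `0 ≤ qᵢ ≤ 2 η²`, `|Kv Δ i| ≤ η`.  With `tᵢ = wᵢ - gᵢ`, `δᵢ = ωᵢ - Kv Δ i - qᵢ`,
`|δᵢ| ≤ tᵢ / 2`: `1 / (t + δ) ≤ 1/t - δ/t² + 2 δ²/t³` and `δ² ≤ 2 (ω - Kv Δ)² + 8 η⁴`.  Finally
`∑_l qf A (G e_l) + ∑ᵢ ℓᵢ Kv Δ i = ∑ⱼ Up j j · Δ j`, and `Qf_eq`. -/
theorem perturb (hM : PD M) (hw : ∀ i ∈ I, Gm M V i i < w i ∧ w i ≤ 1) (Δ ω : Ix → ℝ) (η : ℝ)
    (hη : ∑ i ∈ I, |Δ i| * Gm M V i i ≤ η) (hη' : η ≤ 1 / 2)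
    (hω : ∀ i ∈ I, |ω i| + η + 2 * η ^ 2 ≤ (w i - Gm M V i i) / 2) :
    PD (M - ∑ i ∈ I, Δ i • op (V i)) ∧
    (∀ i ∈ I, Gm (M - ∑ i ∈ I, Δ i • op (V i)) V i i < w i + ω i) ∧
    pot (M - ∑ i ∈ I, Δ i • op (V i)) V I (w + ω) ≤ pot M V I w +
      (∑ i ∈ I, Up M V I w i i * Δ i - ∑ i ∈ I, ell M V w i * ω i) + 2 * Qf M V I w Δ +
      ∑ i ∈ I, ell M V w i / (w i - Gm M V i i) * (4 * (ω i - Kv M V I Δ i) ^ 2 + 16 * η ^ 4) := by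
  have hη0 : 0 ≤ ∑ i ∈ I, |Δ i| * Gm M V i i :=
    sum_nonneg fun i _ => mul_nonneg (abs_nonneg _) (Gm_nonneg hM i)
  have hQ := Qf_eq (I := I) (V := V) (w := w) hM Δ
  have hA1 := fun y => abs_qf_le (I := I) (V := V) hM Δ y
  have hA2 := fun y => qf_inv_mulVec_le (I := I) (V := V) hM Δ y
  have hA3 := fun y => kspert_qf (I := I) (V := V) Δ y
  have hS := hM.1.sub (kspert_symm (I := I) (V := V) Δ)
  generalize ∑ i ∈ I, Δ i • op (V i) = A at *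
  have hle : Le ((1 / 2 : ℝ) • M) (M - A) := fun y => by
    rw [qf_smul, qf_sub]
    have h1 := (abs_le.1 (hA1 y)).2
    have h2 := mul_le_mul_of_nonneg_right (hη.trans hη') (hM.nonneg y)
    linarith
  have hh := hM.smul (show (0 : ℝ) < 1 / 2 by norm_num)
  have hM' : PD (M - A) := hh.of_le hS hle
  have hG : ∀ y, qf (M - A)⁻¹ y ≤ 2 * qf M⁻¹ y := fun y => by
    have h1 := hh.inv_anti hS hle y
    rw [hM.inv_smul (by norm_num), qf_smul] at h1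
    norm_num at h1
    exact h1
  have hK : ∀ i, qf A (M⁻¹ *ᵥ V i) = Kv M V I Δ i := fun i => by
    rw [hA3, Kv]
    exact sum_congr rfl fun j _ => by rw [Gm_comm hM i j, mul_comm]; rfl
  have key : ∀ i ∈ I, Gm (M - A) V i i < w i + ω i ∧
      1 / ((w + ω) i - Gm (M - A) V i i) ≤ 1 / (w i - Gm M V i i) +
        (ell M V w i * Kv M V I Δ i - ell M V w i * ω i
          + 2 * (ell M V w i * qf M⁻¹ (A *ᵥ (M⁻¹ *ᵥ V i)))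
          + ell M V w i / (w i - Gm M V i i) * (4 * (ω i - Kv M V I Δ i) ^ 2 + 16 * η ^ 4)) := by
    intro i hi
    have h1 : Gm (M - A) V i i = Gm M V i i + Kv M V I Δ i + qf (M - A)⁻¹ (A *ᵥ (M⁻¹ *ᵥ V i)) := by
      rw [← hK]; exact kspert_res hM hM' (V i)
    have hg0 := Gm_nonneg (V := V) hM i
    have hg1 : Gm M V i i ≤ 1 := (hw i hi).1.le.trans (hw i hi).2
    have h2 := hM'.inv.nonneg (A *ᵥ (M⁻¹ *ᵥ V i))
    have h3 := hG (A *ᵥ (M⁻¹ *ᵥ V i))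
    have h4 : qf M⁻¹ (A *ᵥ (M⁻¹ *ᵥ V i)) ≤ η ^ 2 := by
      refine (hA2 _).trans ?_
      rw [hM.qf_inv_mulVec]
      exact (mul_le_of_le_one_right (sq_nonneg _) hg1).trans (pow_le_pow_left₀ hη0 hη 2)
    have h5 : |Kv M V I Δ i| ≤ η :=
      (abs_Kv_le hM Δ i).trans ((mul_le_of_le_one_right hη0 hg1).trans hη)
    have h6 := hω i hi
    have ht : 0 < w i - Gm M V i i := sub_pos.2 (hw i hi).1
    have hl := kspert_ell (M := M) (V := V) (w := w) i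
    have hl' : ell M V w i = 1 / (w i - Gm M V i i) ^ 2 := rfl
    rw [h1, Pi.add_apply]
    generalize qf (M - A)⁻¹ (A *ᵥ (M⁻¹ *ᵥ V i)) = q at *
    generalize qf M⁻¹ (A *ᵥ (M⁻¹ *ᵥ V i)) = Q at *
    generalize Kv M V I Δ i = K at *
    have h7 := abs_le.1 h5
    have h8 := le_abs_self (ω i)
    have h9 := neg_abs_le (ω i)
    have hδ : |ω i - K - q| ≤ (w i - Gm M V i i) / 2 := abs_le.2 ⟨by linarith, by linarith⟩
    refine ⟨by linarith [(abs_le.1 hδ).1], ?_⟩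
    have h10 := kspert_inv ht hδ
    rw [← hl'] at h10
    have e : w i + ω i - (Gm M V i i + K + q) = w i - Gm M V i i + (ω i - K - q) := by ring
    rw [e]
    have h11 : 2 * (ω i - K - q) ^ 2 ≤ 4 * (ω i - K) ^ 2 + 16 * η ^ 4 := by
      have h12 : q ^ 2 ≤ (2 * η ^ 2) ^ 2 := pow_le_pow_left₀ h2 (by linarith) 2
      nlinarith [sq_nonneg (ω i - K + q)]
    have h13 := mul_le_mul_of_nonneg_left h11 (div_nonneg hl ht.le)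
    have h14 := mul_le_mul_of_nonneg_left h3 hl
    linarith
  refine ⟨hM', fun i hi => (key i hi).1, ?_⟩
  have h1 := sum_le_sum fun i hi => (key i hi).2
  have h2 : trace (M - A)⁻¹ ≤ ∑ l : Fin N, (qf M⁻¹ (ev N l) + qf A (M⁻¹ *ᵥ ev N l)
      + 2 * qf M⁻¹ (A *ᵥ (M⁻¹ *ᵥ ev N l))) := by
    rw [trace_eq_sum_qf]
    exact sum_le_sum fun l _ => by
      rw [kspert_res hM hM']
      linarith [hG (A *ᵥ (M⁻¹ *ᵥ ev N l))]
  have h3 : ∑ l : Fin N, qf A (M⁻¹ *ᵥ ev N l) + ∑ i ∈ I, ell M V w i * Kv M V I Δ i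
      = ∑ i ∈ I, Up M V I w i i * Δ i := by
    simp only [hA3, Kv, mul_sum]
    rw [sum_comm, sum_comm (s := I) (t := I), ← sum_add_distrib]
    refine sum_congr rfl fun j _ => ?_
    rw [Up, ← kspert_ev hM, add_mul, sum_mul, sum_mul]
    congr 1
    · exact sum_congr rfl fun l _ => by ring
    · exact sum_congr rfl fun i _ => by ring
  simp only [sum_add_distrib, sum_sub_distrib, ← mul_sum] at h1 h2
  rw [← trace_eq_sum_qf] at h2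
  unfold pot
  linarith

end Crest.Agent.R37.KS
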