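import Crest.Agent.R37.KSPert

/-!
# R37/KSStep: small moves, decisions, the initial and the final state
-/

set_option autoImplicit false
open Finset Matrix

namespace Crest.Agent.R37.KS

variable {N : ℕ} {M₀ : Matrix (Fin N) (Fin N) ℝ} {V : Ix → Fin N → ℝ} {al : Finset ℕ} {x ξ : ℕ → ℝ}
  {w ω : Ix → ℝ} {P h : ℝ}

theorem ksstep_tr {M : Matrix (Fin N) (Fin N) ℝ} (hM : PD M) : 0 ≤ trace M⁻¹ := by
  rw [trace_eq_sum_qf]
  exact sum_nonneg fun i _ => hM.inv.nonneg _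

theorem ksstep_mem {i : Ix} : i ∈ sides al ↔ i.1 ∈ al := by
  simp [sides]

theorem ksstep_card (hal : (al.card : ℝ) ≤ P) : ((sides al).card : ℝ) ≤ 2 * P := by
  rw [sides, card_product]
  simp only [card_univ, Fintype.card_bool]
  push_cast
  linarith

theorem ksstep_sum_le (hal : (al.card : ℝ) ≤ P) {f : Ix → ℝ} {c : ℝ} (hc : 0 ≤ c)
    (h : ∀ i ∈ sides al, f i ≤ c) : ∑ i ∈ sides al, f i ≤ 2 * P * c := by
  refine (sum_le_card_nsmul _ _ _ h).trans ?_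
  rw [nsmul_eq_mul]
  exact mul_le_mul_of_nonneg_right (ksstep_card hal) hc

theorem ksstep_xs (hk : Ok M₀ V al x w) {i : Ix} (hi : i ∈ sides al) :
    0 ≤ xs x i ∧ xs x i ≤ 1 := by
  obtain ⟨h1, h2⟩ := hk.x01 _ (ksstep_mem.1 hi)
  unfold xs
  split_ifs
  · exact ⟨h1, h2⟩
  · exact ⟨by linarith, by linarith⟩

theorem ksstep_g (hk : Ok M₀ V al x w) {i : Ix} (hi : i ∈ sides al) :
    0 ≤ Gm (MM M₀ V al x w) V i i ∧ Gm (MM M₀ V al x w) V i i ≤ 1 ∧ 0 < w i ∧ w i ≤ 1 := by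
  have h1 := Gm_nonneg (V := V) hk.pd i
  have h2 := hk.lt i hi
  have h3 := hk.le i hi
  exact ⟨h1, by linarith, by linarith, h3⟩

theorem ksstep_inv_nonneg (hk : Ok M₀ V al x w) {i : Ix} (hi : i ∈ sides al) :
    0 ≤ 1 / (w i - Gm (MM M₀ V al x w) V i i) :=
  one_div_nonneg.2 (sub_nonneg.2 (hk.lt i hi).le)

theorem Ok.pot_nonneg (hk : Ok M₀ V al x w) : 0 ≤ Pot M₀ V al x w :=
  add_nonneg (ksstep_tr hk.pd) (sum_nonneg fun _ hi => ksstep_inv_nonneg hk hi)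

theorem ksstep_inv_le (hk : Ok M₀ V al x w) (hP : Pot M₀ V al x w ≤ P) {i : Ix}
    (hi : i ∈ sides al) : 1 / (w i - Gm (MM M₀ V al x w) V i i) ≤ P := by
  have h1 := single_le_sum (f := fun i => 1 / (w i - Gm (MM M₀ V al x w) V i i))
    (fun _ hi => ksstep_inv_nonneg hk hi) hi
  have h2 := ksstep_tr hk.pd
  unfold Pot pot at hP
  linarith

/-- the slack is at least `1 / P` -/
theorem Ok.slack (hk : Ok M₀ V al x w) (hP : Pot M₀ V al x w ≤ P) {i : Ix} (hi : i ∈ sides al) :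
    1 / P ≤ w i - Gm (MM M₀ V al x w) V i i := by
  have h1 := ksstep_inv_le hk hP hi
  have h2 := sub_pos.2 (hk.lt i hi)
  exact (one_div_le h2 ((one_div_pos.2 h2).trans_le h1)).1 h1

theorem Ok.trace_le (hk : Ok M₀ V al x w) (hP : Pot M₀ V al x w ≤ P) :
    trace (MM M₀ V al x w)⁻¹ ≤ P := by
  have h1 : 0 ≤ ∑ i ∈ sides al, 1 / (w i - Gm (MM M₀ V al x w) V i i) :=
    sum_nonneg fun _ hi => ksstep_inv_nonneg hk hi
  unfold Pot pot at hP
  linarith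

theorem ksstep_ell (hk : Ok M₀ V al x w) (hP : Pot M₀ V al x w ≤ P) {i : Ix} (hi : i ∈ sides al) :
    0 ≤ ell (MM M₀ V al x w) V w i ∧ ell (MM M₀ V al x w) V w i ≤ P ^ 2 ∧
    0 ≤ ell (MM M₀ V al x w) V w i / (w i - Gm (MM M₀ V al x w) V i i) ∧
    ell (MM M₀ V al x w) V w i / (w i - Gm (MM M₀ V al x w) V i i) ≤ P ^ 3 := by
  have h1 := ksstep_inv_le hk hP hi
  have h2 := ksstep_inv_nonneg hk hi
  have e1 : ell (MM M₀ V al x w) V w i = (1 / (w i - Gm (MM M₀ V al x w) V i i)) ^ 2 := by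
    rw [ell, _root_.one_div_pow]
  have e2 : ell (MM M₀ V al x w) V w i / (w i - Gm (MM M₀ V al x w) V i i) =
      (1 / (w i - Gm (MM M₀ V al x w) V i i)) ^ 3 := by
    rw [e1]; ring
  rw [e2, e1]
  exact ⟨by positivity, pow_le_pow_left₀ h2 h1 2, by positivity, pow_le_pow_left₀ h2 h1 3⟩

/-- `|G V|² ≤ tr G · g` (`qf_le_trace`, `PD.sq_dot_le`), `ℓ ≤ P²`, `g ≤ 1`, `|sides al| ≤ 2 P`. -/
theorem Ok.Up_le (hk : Ok M₀ V al x w) (h4 : 10 ^ 4 ≤ P) (hal : (al.card : ℝ) ≤ P)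
    (hP : Pot M₀ V al x w ≤ P) {i : Ix} (hi : i ∈ sides al) :
    Up (MM M₀ V al x w) V (sides al) w i i ≤ P ^ 4 := by
  have hM := hk.pd
  have htr := hk.trace_le hP
  have htr0 := ksstep_tr hM
  obtain ⟨g0, g1, -, -⟩ := ksstep_g hk hi
  have hP0 : 0 ≤ P := by linarith
  have h1 : ((MM M₀ V al x w)⁻¹ *ᵥ V i) ⬝ᵥ ((MM M₀ V al x w)⁻¹ *ᵥ V i) ≤ P := by
    set y := (MM M₀ V al x w)⁻¹ *ᵥ V i with hy
    have a1 := hM.sq_dot_le y y
    have a2 := qf_le_trace hM.inv.1 hM.inv.nonneg y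
    have a3 : qf (MM M₀ V al x w) y = Gm (MM M₀ V al x w) V i i := hM.qf_inv_mulVec _
    have a4 : 0 ≤ y ⬝ᵥ y := sum_nonneg fun _ _ => mul_self_nonneg _
    have a5 := hM.inv.nonneg y
    rw [a3] at a1
    by_contra hc
    have a6 : P < y ⬝ᵥ y := not_le.1 hc
    have a7 : qf (MM M₀ V al x w)⁻¹ y * Gm (MM M₀ V al x w) V i i ≤ P * (y ⬝ᵥ y) :=
      (mul_le_of_le_one_right a5 g1).trans (a2.trans (mul_le_mul_of_nonneg_right htr a4))
    nlinarith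
  have h2 : ∑ j ∈ sides al, ell (MM M₀ V al x w) V w j *
      (Gm (MM M₀ V al x w) V j i * Gm (MM M₀ V al x w) V j i) ≤ 2 * P * P ^ 2 := by
    refine ksstep_sum_le hal (by positivity) fun j hj => ?_
    obtain ⟨l0, l1, -, -⟩ := ksstep_ell hk hP hj
    obtain ⟨j0, j1, -, -⟩ := ksstep_g hk hj
    have := Gm_sq_le (V := V) hM j i
    have h3 : Gm (MM M₀ V al x w) V j i * Gm (MM M₀ V al x w) V j i ≤ 1 := by nlinarith
    exact (mul_le_of_le_one_right l0 h3).trans l1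
  have h3 : 10 ^ 4 * P ^ 3 ≤ P * P ^ 3 := by gcongr
  have h5 : P ≤ P ^ 3 := le_self_pow₀ (by linarith) (by norm_num)
  unfold Up
  nlinarith

/-- the second-order part of the change of the effective weights -/
def ksstep_γ (w : Ix → ℝ) (x ξ : ℕ → ℝ) (ω : Ix → ℝ) (i : Ix) : ℝ :=
  -(76 * w i * ξ i.1 ^ 2) - 152 * xs x i * (sg i * ξ i.1) * ω i - 76 * ξ i.1 ^ 2 * ω i

theorem ksstep_aw (i : Ix) : aw (xs (x + ξ) i) ((w + ω) i) =
    aw (xs x i) (w i) + (alp w x ξ ω + ksstep_γ w x ξ ω) i := by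
  simp only [aw, psi, alp, ksstep_γ, xs, sg, Pi.add_apply]
  split_ifs <;> ring

theorem ksstep_MM : MM M₀ V al (x + ξ) (w + ω) =
    MM M₀ V al x w - ∑ i ∈ sides al, (alp w x ξ ω + ksstep_γ w x ξ ω) i • op (V i) := by
  simp only [MM, ksstep_aw, add_smul (aw _ _), sum_add_distrib, sub_sub]

theorem ksstep_sg (i : Ix) (t : ℝ) : |sg i * t| = |t| := by
  unfold sg
  split_ifs <;> simp

theorem ksstep_alp (hk : Ok M₀ V al x w) (hξ : ∀ p ∈ al, |ξ p| ≤ h)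
    (hω : ∀ i ∈ sides al, |ω i| ≤ h) {i : Ix} (hi : i ∈ sides al) : |alp w x ξ ω i| ≤ 305 * h := by
  obtain ⟨x0, x1⟩ := ksstep_xs hk hi
  obtain ⟨-, -, w0, w1⟩ := ksstep_g hk hi
  have h1 := hξ _ (ksstep_mem.1 hi)
  have h2 := hω i hi
  have h0 : 0 ≤ h := (abs_nonneg _).trans h2
  have h3 : xs x i * w i ≤ 1 := mul_le_one₀ x1 w0.le w1
  have h4 : 0 ≤ xs x i * w i := by positivity
  have a1 : |1 - 152 * xs x i * w i| ≤ 153 := abs_le.2 ⟨by nlinarith, by nlinarith⟩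
  have a2 : |psi (xs x i)| ≤ 152 := abs_le.2 ⟨by unfold psi; nlinarith, by unfold psi; nlinarith⟩
  unfold alp
  refine (abs_add_le _ _).trans ?_
  rw [abs_mul, abs_mul (psi _), ksstep_sg]
  have a3 := mul_le_mul a1 h1 (abs_nonneg _) (by norm_num)
  have a4 := mul_le_mul a2 h2 (abs_nonneg _) (by norm_num)
  linarith

theorem ksstep_cross (hk : Ok M₀ V al x w) (hξ : ∀ p ∈ al, |ξ p| ≤ h)
    (hω : ∀ i ∈ sides al, |ω i| ≤ h) {i : Ix} (hi : i ∈ sides al) :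
    0 ≤ w i * ξ i.1 ^ 2 ∧ w i * ξ i.1 ^ 2 ≤ h ^ 2 ∧ |xs x i * (sg i * ξ i.1) * ω i| ≤ h ^ 2 ∧
      |ξ i.1 ^ 2 * ω i| ≤ h ^ 3 := by
  obtain ⟨x0, x1⟩ := ksstep_xs hk hi
  obtain ⟨-, -, w0, w1⟩ := ksstep_g hk hi
  have h1 := hξ _ (ksstep_mem.1 hi)
  have h2 := hω i hi
  have h0 : 0 ≤ h := (abs_nonneg _).trans h2
  have h3 : ξ i.1 ^ 2 ≤ h ^ 2 := by
    rw [← sq_abs]; exact pow_le_pow_left₀ (abs_nonneg _) h1 2
  refine ⟨by positivity, (mul_le_of_le_one_left (sq_nonneg _) w1).trans h3, ?_, ?_⟩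
  · rw [abs_mul, abs_mul, ksstep_sg, abs_of_nonneg x0]
    calc _ ≤ 1 * h * h := by gcongr
      _ = _ := by ring
  · rw [abs_mul, abs_of_nonneg (sq_nonneg _)]
    calc _ ≤ h ^ 2 * h := by gcongr
      _ = _ := by ring

theorem ksstep_eta (hk : Ok M₀ V al x w) (hal : (al.card : ℝ) ≤ P) {α : Ix → ℝ} {c : ℝ}
    (hc : 0 ≤ c) (hα : ∀ i ∈ sides al, |α i| ≤ c) :
    0 ≤ ∑ i ∈ sides al, |α i| * Gm (MM M₀ V al x w) V i i ∧
      ∑ i ∈ sides al, |α i| * Gm (MM M₀ V al x w) V i i ≤ 2 * P * c :=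
  ⟨sum_nonneg fun i hi => mul_nonneg (abs_nonneg _) (ksstep_g hk hi).1,
    ksstep_sum_le hal hc fun i hi =>
      (mul_le_of_le_one_right (abs_nonneg _) (ksstep_g hk hi).2.1).trans (hα i hi)⟩

theorem ksstep_Qf (hk : Ok M₀ V al x w) (h4 : 10 ^ 4 ≤ P) (hal : (al.card : ℝ) ≤ P)
    (hP : Pot M₀ V al x w ≤ P) {α : Ix → ℝ} {e : ℝ}
    (he : ∑ i ∈ sides al, |α i| * Gm (MM M₀ V al x w) V i i ≤ e) :
    Qf (MM M₀ V al x w) V (sides al) w α ≤ e ^ 2 * P ^ 4 ∧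
      ∀ i ∈ sides al, |Kv (MM M₀ V al x w) V (sides al) α i| ≤ e := by
  have h0 : 0 ≤ ∑ i ∈ sides al, |α i| * Gm (MM M₀ V al x w) V i i :=
    sum_nonneg fun i hi => mul_nonneg (abs_nonneg _) (ksstep_g hk hi).1
  have hP0 : 0 ≤ P := by linarith
  refine ⟨(Qf_le hk.pd α).trans ?_, fun i hi => (abs_Kv_le hk.pd α i).trans
    ((mul_le_of_le_one_right h0 (ksstep_g hk hi).2.1).trans he)⟩
  have h1 := hk.trace_le hP
  have h2 : ∑ i ∈ sides al, ell (MM M₀ V al x w) V w i * Gm (MM M₀ V al x w) V i i ≤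
      2 * P * P ^ 2 := ksstep_sum_le hal (by positivity) fun i hi =>
    (mul_le_of_le_one_right (ksstep_ell hk hP hi).1 (ksstep_g hk hi).2.1).trans
      (ksstep_ell hk hP hi).2.1
  have h3 : 10 ^ 4 * P ^ 3 ≤ P * P ^ 3 := by gcongr
  have h5 : P ≤ P ^ 3 := le_self_pow₀ (by linarith) (by norm_num)
  refine mul_le_mul (pow_le_pow_left₀ h0 he 2) (by nlinarith) (add_nonneg (ksstep_tr hk.pd)
    (sum_nonneg fun i hi => mul_nonneg (ksstep_ell hk hP hi).1 (ksstep_g hk hi).1)) (sq_nonneg _)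

theorem ksstep_Kv_add (M : Matrix (Fin N) (Fin N) ℝ) (I : Finset Ix) (α β : Ix → ℝ) (i : Ix) :
    Kv M V I (α + β) i = Kv M V I α i + Kv M V I β i := by
  simp only [Kv, Pi.add_apply, mul_add, sum_add_distrib]

/-- `xs (x + ξ) i = xs x i + sg i * ξ i.1`, and with `ξ' = sg i * ξ i.1`:
`Δ i = aw (xs (x+ξ) i) (w i + ω i) - aw (xs x i) (w i) = alp i + γ i`,
`γ i = - 76 w ξ'² - 152 x ξ' ω - 76 ξ'² ω`.  Bounds: `|Δ| ≤ 609 h`, `η = P² h`, `|γ| ≤ 304 h²`, `∑ |γ| g ≤ P² h²`,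
`Qf γ ≤ P^8 h⁴`, `2 Qf Δ ≤ 4 Qf alp + 4 Qf γ`, `(ω - Kv Δ)² ≤ 2 (ω - Kv alp)² + 2 (Kv γ)²`, `ℓ / t ≤ P³`.
Apply `perturb`. -/
theorem step (hk : Ok M₀ V al x w) (h4 : 10 ^ 4 ≤ P) (hal : (al.card : ℝ) ≤ P)
    (hP : Pot M₀ V al x w ≤ P) (h0 : 0 ≤ h) (hh : h ≤ 1 / P ^ 4) (hξ : ∀ p ∈ al, |ξ p| ≤ h)
    (hω : ∀ i ∈ sides al, |ω i| ≤ h) :
    PD (MM M₀ V al (x + ξ) (w + ω)) ∧
    (∀ i ∈ sides al, Gm (MM M₀ V al (x + ξ) (w + ω)) V i i < (w + ω) i) ∧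
    Pot M₀ V al (x + ξ) (w + ω) ≤ Pot M₀ V al x w +
      Lin (MM M₀ V al x w) V (sides al) w x ξ ω + Hq (MM M₀ V al x w) V (sides al) w x ξ ω +
      P ^ 10 * h ^ 3 := by
  have hP0 : 0 < P := by linarith
  have hP1 : 1 ≤ P := by linarith
  have hPh : P ^ 4 * h ≤ 1 := by rwa [le_div_iff₀' (by positivity)] at hh
  have hh1 : h ≤ 1 := (le_mul_of_one_le_left h0 (one_le_pow₀ hP1)).trans hPh
  have hγ : ∀ i ∈ sides al, |ksstep_γ w x ξ ω i| ≤ 304 * h ^ 2 := fun i hi => by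
    obtain ⟨c0, c1, c2, c3⟩ := ksstep_cross hk hξ hω hi
    have c4 : h ^ 3 ≤ h ^ 2 := pow_le_pow_of_le_one h0 hh1 (by norm_num)
    rw [abs_le] at c2 c3 ⊢
    unfold ksstep_γ
    constructor <;> nlinarith
  have hΔ : ∀ i ∈ sides al, |(alp w x ξ ω + ksstep_γ w x ξ ω) i| ≤ 609 * h := fun i hi => by
    refine (abs_add_le _ _).trans ?_
    have := ksstep_alp hk hξ hω hi
    have := hγ i hi
    nlinarith
  have hη : ∑ i ∈ sides al, |(alp w x ξ ω + ksstep_γ w x ξ ω) i| * Gm (MM M₀ V al x w) V i i ≤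
      P ^ 2 * h := by
    refine (ksstep_eta hk hal (by positivity) hΔ).2.trans ?_
    have : 0 ≤ P * h := by positivity
    nlinarith
  have hη2 : ∑ i ∈ sides al, |ksstep_γ w x ξ ω i| * Gm (MM M₀ V al x w) V i i ≤ P ^ 2 * h ^ 2 := by
    refine (ksstep_eta hk hal (by positivity) hγ).2.trans ?_
    have : 0 ≤ P * h ^ 2 := by positivity
    nlinarith
  have hP2 : 10 ^ 4 ≤ P ^ 2 := h4.trans (le_self_pow₀ hP1 (by norm_num))
  have hP3 : 10 ^ 4 * (P ^ 3 * h) ≤ P ^ 4 * h := by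
    rw [show P ^ 4 * h = P * (P ^ 3 * h) by ring]
    gcongr
  have hP23 : P ^ 2 * h ≤ P ^ 3 * h := by gcongr; norm_num
  obtain ⟨p1, p2, p3⟩ := perturb hk.pd (fun i hi => ⟨hk.lt i hi, hk.le i hi⟩)
    (alp w x ξ ω + ksstep_γ w x ξ ω) ω (P ^ 2 * h) hη (by linarith) fun i hi => by
      have a1 := hk.slack hP hi
      have a2 := hω i hi
      have a3 : h + P ^ 2 * h + 2 * (P ^ 2 * h) ^ 2 ≤ 1 / P / 2 := by
        rw [div_div, le_div_iff₀ (by positivity)]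
        have b1 : (P ^ 2 * h) ^ 2 ≤ h := by
          rw [show (P ^ 2 * h) ^ 2 = P ^ 4 * h * h by ring]
          exact mul_le_of_le_one_left h0 hPh
        have b2 : P * h ≤ P ^ 3 * h := by
          gcongr
          exact le_self_pow₀ hP1 (by norm_num)
        nlinarith
      linarith
  unfold Pot
  rw [ksstep_MM]
  refine ⟨p1, p2, p3.trans ?_⟩
  set M := MM M₀ V al x w with hM
  obtain ⟨q1, q2⟩ := ksstep_Qf hk h4 hal hP hη2
  have q3 := Qf_add_le (V := V) (I := sides al) (w := w) hk.pd (alp w x ξ ω) (ksstep_γ w x ξ ω)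
  have s1 : ∑ i ∈ sides al, Up M V (sides al) w i i * (alp w x ξ ω + ksstep_γ w x ξ ω) i ≤
      ∑ i ∈ sides al, Up M V (sides al) w i i * alp w x ξ ω i +
      ∑ i ∈ sides al, Up M V (sides al) w i i *
        (-(76 * w i * ξ i.1 ^ 2) - 152 * xs x i * (sg i * ξ i.1) * ω i) +
      2 * P * (P ^ 4 * (76 * h ^ 3)) := by
    refine le_trans (le_of_eq ?_) (add_le_add_right (ksstep_sum_le hal (by positivity)
      (f := fun i => Up M V (sides al) w i i * (-(76 * (ξ i.1 ^ 2 * ω i)))) fun i hi => ?_) _)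
    · rw [← sum_add_distrib, ← sum_add_distrib]
      refine sum_congr rfl fun i _ => ?_
      simp only [Pi.add_apply, ksstep_γ]
      ring
    · have c3 := abs_le.1 (ksstep_cross hk hξ hω hi).2.2.2
      exact (mul_le_mul_of_nonneg_left (by linarith) (Up_nonneg i)).trans
        (mul_le_mul_of_nonneg_right (hk.Up_le h4 hal hP hi) (by positivity))
  have s2 : ∑ i ∈ sides al, ell M V w i / (w i - Gm M V i i) *
      (4 * (ω i - Kv M V (sides al) (alp w x ξ ω + ksstep_γ w x ξ ω) i) ^ 2 +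
        16 * (P ^ 2 * h) ^ 4) ≤
      8 * ∑ i ∈ sides al, ell M V w i / (w i - Gm M V i i) *
        (ω i - Kv M V (sides al) (alp w x ξ ω) i) ^ 2 +
      2 * P * (P ^ 3 * (8 * (P ^ 2 * h ^ 2) ^ 2 + 16 * (P ^ 2 * h) ^ 4)) := by
    refine le_trans ?_ (add_le_add_right (ksstep_sum_le hal (by positivity)
      (f := fun i => ell M V w i / (w i - Gm M V i i) *
        (8 * (P ^ 2 * h ^ 2) ^ 2 + 16 * (P ^ 2 * h) ^ 4)) fun i hi =>
      mul_le_mul_of_nonneg_right (ksstep_ell hk hP hi).2.2.2 (by positivity)) _)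
    rw [mul_sum, ← sum_add_distrib]
    refine sum_le_sum fun i hi => ?_
    rw [mul_left_comm, ← mul_add]
    refine mul_le_mul_of_nonneg_left ?_ (ksstep_ell hk hP hi).2.2.1
    rw [ksstep_Kv_add]
    have c1 : Kv M V (sides al) (ksstep_γ w x ξ ω) i ^ 2 ≤ (P ^ 2 * h ^ 2) ^ 2 := by
      rw [← sq_abs]; exact pow_le_pow_left₀ (abs_nonneg _) (q2 i hi) 2
    nlinarith [sq_nonneg (ω i - Kv M V (sides al) (alp w x ξ ω) i +
      Kv M V (sides al) (ksstep_γ w x ξ ω) i)]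
  have n1 : 2 * P * (P ^ 4 * (76 * h ^ 3)) + 4 * ((P ^ 2 * h ^ 2) ^ 2 * P ^ 4) +
      2 * P * (P ^ 3 * (8 * (P ^ 2 * h ^ 2) ^ 2 + 16 * (P ^ 2 * h) ^ 4)) ≤ P ^ 10 * h ^ 3 := by
    have e : 2 * P * (P ^ 4 * (76 * h ^ 3)) + 4 * ((P ^ 2 * h ^ 2) ^ 2 * P ^ 4) +
        2 * P * (P ^ 3 * (8 * (P ^ 2 * h ^ 2) ^ 2 + 16 * (P ^ 2 * h) ^ 4)) =
        (152 * P ^ 5 + (20 * P ^ 4 + 32 * P ^ 8) * (P ^ 4 * h)) * h ^ 3 := by ring
    rw [e]
    refine mul_le_mul_of_nonneg_right ?_ (by positivity)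
    have b1 : (20 * P ^ 4 + 32 * P ^ 8) * (P ^ 4 * h) ≤ 20 * P ^ 4 + 32 * P ^ 8 :=
      mul_le_of_le_one_right (by positivity) hPh
    have b2 : P ^ 4 ≤ P ^ 8 := pow_le_pow_right₀ hP1 (by norm_num)
    have b3 : P ^ 5 ≤ P ^ 8 := pow_le_pow_right₀ hP1 (by norm_num)
    have b4 : 10 ^ 4 * P ^ 8 ≤ P ^ 2 * P ^ 8 := by gcongr
    have b5 : 0 ≤ P ^ 8 := by positivity
    nlinarith
  unfold Lin Hq
  linarith

/-- `|alp| ≤ 305 h`. -/
theorem crude (hk : Ok M₀ V al x w) (h4 : 10 ^ 4 ≤ P) (hal : (al.card : ℝ) ≤ P)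
    (hP : Pot M₀ V al x w ≤ P) (h0 : 0 ≤ h) (hξ : ∀ p ∈ al, |ξ p| ≤ h)
    (hω : ∀ i ∈ sides al, |ω i| ≤ h) :
    |Lin (MM M₀ V al x w) V (sides al) w x ξ ω| ≤ P ^ 6 * h ∧
    Hq (MM M₀ V al x w) V (sides al) w x ξ ω ≤ P ^ 9 * h ^ 2 := by
  have hP0 : 0 < P := by linarith
  have hP1 : 1 ≤ P := by linarith
  have ha := fun i (hi : i ∈ sides al) => ksstep_alp hk hξ hω hi
  set M := MM M₀ V al x w with hM
  constructor
  · have s1 : |∑ i ∈ sides al, Up M V (sides al) w i i * alp w x ξ ω i| ≤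
        2 * P * (P ^ 4 * (305 * h)) := by
      refine (abs_sum_le_sum_abs _ _).trans (ksstep_sum_le hal (by positivity) fun i hi => ?_)
      rw [abs_mul, abs_of_nonneg (Up_nonneg i)]
      exact mul_le_mul (hk.Up_le h4 hal hP hi) (ha i hi) (abs_nonneg _) (by positivity)
    have s2 : |∑ i ∈ sides al, ell M V w i * ω i| ≤ 2 * P * (P ^ 2 * h) := by
      refine (abs_sum_le_sum_abs _ _).trans (ksstep_sum_le hal (by positivity) fun i hi => ?_)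
      rw [abs_mul, abs_of_nonneg (ksstep_ell hk hP hi).1]
      exact mul_le_mul (ksstep_ell hk hP hi).2.1 (hω i hi) (abs_nonneg _) (by positivity)
    refine (abs_sub _ _).trans ((add_le_add s1 s2).trans ?_)
    rw [show 2 * P * (P ^ 4 * (305 * h)) + 2 * P * (P ^ 2 * h) = (610 * P ^ 5 + 2 * P ^ 3) * h by
      ring]
    refine mul_le_mul_of_nonneg_right ?_ h0
    have b3 : P ^ 3 ≤ P ^ 5 := pow_le_pow_right₀ hP1 (by norm_num)
    have b4 : 10 ^ 4 * P ^ 5 ≤ P * P ^ 5 := by gcongr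
    have b5 : 0 ≤ P ^ 5 := by positivity
    nlinarith
  · have hη : ∑ i ∈ sides al, |alp w x ξ ω i| * Gm M V i i ≤ P ^ 2 * h / 10 := by
      refine (ksstep_eta hk hal (by positivity) ha).2.trans ?_
      have : 0 ≤ P * h := by positivity
      nlinarith
    obtain ⟨q1, q2⟩ := ksstep_Qf hk h4 hal hP hη
    have s1 : ∑ i ∈ sides al, Up M V (sides al) w i i *
        (-(76 * w i * ξ i.1 ^ 2) - 152 * xs x i * (sg i * ξ i.1) * ω i) ≤
        2 * P * (P ^ 4 * (152 * h ^ 2)) := by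
      refine ksstep_sum_le hal (by positivity) fun i hi => ?_
      obtain ⟨c0, -, c2, -⟩ := ksstep_cross hk hξ hω hi
      have c3 := abs_le.1 c2
      exact (mul_le_mul_of_nonneg_left (by linarith) (Up_nonneg i)).trans
        (mul_le_mul_of_nonneg_right (hk.Up_le h4 hal hP hi) (by positivity))
    have s2 : ∑ i ∈ sides al, ell M V w i / (w i - Gm M V i i) *
        (ω i - Kv M V (sides al) (alp w x ξ ω) i) ^ 2 ≤ 2 * P * (P ^ 3 * (P ^ 2 * h) ^ 2) := by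
      refine ksstep_sum_le hal (by positivity) fun i hi => ?_
      refine mul_le_mul (ksstep_ell hk hP hi).2.2.2 ?_ (sq_nonneg _) (by positivity)
      rw [← sq_abs]
      refine pow_le_pow_left₀ (abs_nonneg _) ((abs_sub _ _).trans ?_) 2
      have c1 := hω i hi
      have c2 := q2 i hi
      have c3 : 10 ^ 4 * h ≤ P ^ 2 * h := by
        gcongr
        exact h4.trans (le_self_pow₀ hP1 (by norm_num))
      linarith
    have n1 : 2 * P * (P ^ 4 * (152 * h ^ 2)) + 4 * ((P ^ 2 * h / 10) ^ 2 * P ^ 4) +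
        8 * (2 * P * (P ^ 3 * (P ^ 2 * h) ^ 2)) ≤ P ^ 9 * h ^ 2 := by
      rw [show 2 * P * (P ^ 4 * (152 * h ^ 2)) + 4 * ((P ^ 2 * h / 10) ^ 2 * P ^ 4) +
        8 * (2 * P * (P ^ 3 * (P ^ 2 * h) ^ 2)) = (304 * P ^ 5 + 401 / 25 * P ^ 8) * h ^ 2 by ring]
      refine mul_le_mul_of_nonneg_right ?_ (by positivity)
      have b3 : P ^ 5 ≤ P ^ 8 := pow_le_pow_right₀ hP1 (by norm_num)
      have b4 : 10 ^ 4 * P ^ 8 ≤ P * P ^ 8 := by gcongr
      have b5 : 0 ≤ P ^ 8 := by positivity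
      nlinarith
    unfold Hq
    linarith

/-- Rounding: any state within `1 / P^60` is admissible and costs at most `1 / P^53`. -/
theorem round_le {x' : ℕ → ℝ} {w' : Ix → ℝ} (hk : Ok M₀ V al x w) (h4 : 10 ^ 4 ≤ P)
    (hal : (al.card : ℝ) ≤ P) (hP : Pot M₀ V al x w ≤ P)
    (hx : ∀ p ∈ al, |x' p - x p| ≤ 1 / P ^ 60 ∧ 0 ≤ x' p ∧ x' p ≤ 1)
    (hw : ∀ i ∈ sides al, |w' i - w i| ≤ 1 / P ^ 60 ∧ w' i ≤ 1) :
    Ok M₀ V al x' w' ∧ Pot M₀ V al x' w' ≤ Pot M₀ V al x w + 1 / P ^ 53 := by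
  have hP0 : 0 < P := by linarith
  have hP1 : 1 ≤ P := by linarith
  have h0 : 0 ≤ 1 / P ^ 60 := by positivity
  obtain ⟨p1, p2, p3⟩ := step (ξ := x' - x) (ω := w' - w) hk h4 hal hP h0
    (one_div_le_one_div_of_le (by positivity) (pow_le_pow_right₀ hP1 (by norm_num)))
    (fun p hp => (hx p hp).1) fun i hi => (hw i hi).1
  obtain ⟨c1, c2⟩ := crude (ξ := x' - x) (ω := w' - w) hk h4 hal hP h0
    (fun p hp => (hx p hp).1) fun i hi => (hw i hi).1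
  rw [add_sub_cancel, add_sub_cancel] at p1 p2 p3
  refine ⟨⟨p1, fun p hp => (hx p hp).2, p2, fun i hi => (hw i hi).2⟩, p3.trans ?_⟩
  have c3 := (abs_le.1 c1).2
  have e1 : P ^ 6 * (1 / P ^ 60) = 1 / P ^ 54 := by field_simp
  have e2 : P ^ 9 * (1 / P ^ 60) ^ 2 = 1 / P ^ 111 := by field_simp
  have e3 : P ^ 10 * (1 / P ^ 60) ^ 3 = 1 / P ^ 170 := by field_simp
  have e4 : 1 / P ^ 53 = P * (1 / P ^ 54) := by field_simp
  have b1 : 1 / P ^ 111 ≤ 1 / P ^ 54 :=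
    one_div_le_one_div_of_le (by positivity) (pow_le_pow_right₀ hP1 (by norm_num))
  have b2 : 1 / P ^ 170 ≤ 1 / P ^ 54 :=
    one_div_le_one_div_of_le (by positivity) (pow_le_pow_right₀ hP1 (by norm_num))
  have b3 : 10 ^ 4 * (1 / P ^ 54) ≤ P * (1 / P ^ 54) := by gcongr
  have b4 : 0 ≤ 1 / P ^ 54 := by positivity
  rw [e1] at c3
  rw [e2] at c2
  rw [e3, e4]
  linarith

theorem ksstep_symm (I : Finset Ix) (a : Ix → ℝ) : (∑ i ∈ I, a i • op (V i)).IsSymm :=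
  isSymm_sum I fun i _ => (op_symm (V i)).smul _

theorem ksstep_qf_MM (y : Fin N → ℝ) : qf (MM M₀ V al x w) y =
    qf M₀ y - ∑ i ∈ sides al, aw (xs x i) (w i) * (V i ⬝ᵥ y) ^ 2 := by
  simp only [MM, qf_sub, qf_sum, qf_smul, qf_op]

/-- The matrix grows in the Loewner order (all effective weights are `≥ 0`, since `w > g ≥ 0`). -/
theorem decide_ok (hk : Ok M₀ V al x w) {i : Ix} (hi : i ∈ sides al)
    (ha : 1 ≤ aw (xs x i) (w i)) :
    Ok (M₀ - op (V i)) V (al.erase i.1) x w ∧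
      Pot (M₀ - op (V i)) V (al.erase i.1) x w ≤ Pot M₀ V al x w := by
  have hsub : sides (al.erase i.1) ⊆ sides al := fun j hj =>
    ksstep_mem.2 (mem_of_mem_erase (ksstep_mem.1 hj))
  have hni : i ∉ sides (al.erase i.1) := fun hj => notMem_erase _ _ (ksstep_mem.1 hj)
  have hs0 : M₀.IsSymm := by
    have := hk.pd.1.add (ksstep_symm (V := V) (sides al) fun i => aw (xs x i) (w i))
    rwa [MM, sub_add_cancel] at this
  have hs : (MM (M₀ - op (V i)) V (al.erase i.1) x w).IsSymm :=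
    (hs0.sub (op_symm _)).sub (ksstep_symm _ _)
  have hle : Le (MM M₀ V al x w) (MM (M₀ - op (V i)) V (al.erase i.1) x w) := fun y => by
    rw [ksstep_qf_MM, ksstep_qf_MM, qf_sub, qf_op]
    have h1 := sum_le_sum_of_subset_of_nonneg (insert_subset hi hsub)
      (f := fun i => aw (xs x i) (w i) * (V i ⬝ᵥ y) ^ 2) fun j hj _ => by
        obtain ⟨x0, x1⟩ := ksstep_xs hk hj
        obtain ⟨-, -, w0, -⟩ := ksstep_g hk hj
        have : 0 ≤ psi (xs x j) := by unfold psi; nlinarith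
        unfold aw
        positivity
    rw [sum_insert hni] at h1
    have h2 := le_mul_of_one_le_left (sq_nonneg (V i ⬝ᵥ y)) ha
    linarith
  have hinv := hk.pd.inv_anti hs hle
  have hg : ∀ j, Gm (MM (M₀ - op (V i)) V (al.erase i.1) x w) V j j ≤ Gm (MM M₀ V al x w) V j j :=
    fun j => hinv (V j)
  refine ⟨⟨hk.pd.of_le hs hle, fun p hp => hk.x01 p (mem_of_mem_erase hp),
    fun j hj => (hg j).trans_lt (hk.lt j (hsub hj)), fun j hj => hk.le j (hsub hj)⟩, ?_⟩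
  refine add_le_add hinv.trace_le (le_trans (sum_le_sum fun j hj => ?_)
    (sum_le_sum_of_subset_of_nonneg hsub fun j hj _ => ksstep_inv_nonneg hk hj))
  exact one_div_le_one_div_of_le (sub_pos.2 (hk.lt j (hsub hj))) (by linarith [hg j])

/-- If no side can be decided, the state is in the interior (`76 w ≤ psi · w < 1 - xs`, `w ≥ 1 / P`). -/
theorem interior (hk : Ok M₀ V al x w) (h4 : 10 ^ 4 ≤ P) (hP : Pot M₀ V al x w ≤ P)
    (ha : ∀ i ∈ sides al, aw (xs x i) (w i) < 1) :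
    (∀ p ∈ al, 1 / P ≤ x p ∧ x p ≤ 1 - 1 / P) ∧ ∀ i ∈ sides al, w i ≤ 1 / 76 := by
  have key : ∀ i ∈ sides al, xs x i ≤ 1 - 1 / P ∧ w i ≤ 1 / 76 := fun i hi => by
    obtain ⟨x0, x1⟩ := ksstep_xs hk hi
    obtain ⟨g0, -, w0, -⟩ := ksstep_g hk hi
    have h1 := hk.slack hP hi
    have h2 := ha i hi
    have h3 : 76 * w i ≤ psi (xs x i) * w i :=
      mul_le_mul_of_nonneg_right (by unfold psi; nlinarith) w0.le
    unfold aw at h2
    exact ⟨by linarith, by linarith⟩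
  refine ⟨fun p hp => ?_, fun i hi => (key i hi).2⟩
  have h1 := (key (p, false) (ksstep_mem.2 hp)).1
  have h2 := (key (p, true) (ksstep_mem.2 hp)).1
  simp only [xs, if_true, Bool.false_eq_true, if_false] at h1 h2
  exact ⟨by linarith, h2⟩

/-- `aw (1/2) ω₀ = 1/2 + 133 ω₀`, so `MM ⪰ 2 ω₀ B`, `g ≤ ω₀ / 2`. -/
theorem init {B : Matrix (Fin N) (Fin N) ℝ} (hB : PD B) (m : ℕ) {ω₀ Z : ℝ} (h0 : 0 < ω₀)
    (h1 : ω₀ ≤ 1) (hZ : 1 / ω₀ ≤ Z) (hm : (m : ℝ) ≤ Z) (htr : trace B⁻¹ ≤ Z)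
    (hV : Le (∑ i ∈ sides (range m), op (V i)) B) (hδ : ∀ i ∈ sides (range m), qf B⁻¹ (V i) ≤ ω₀ ^ 2) :
    Ok ((1 / 2 + 135 * ω₀) • B) V (range m) (fun _ => 1 / 2) (fun _ => ω₀) ∧
      Pot ((1 / 2 + 135 * ω₀) • B) V (range m) (fun _ => 1 / 2) (fun _ => ω₀) ≤ 5 * Z ^ 2 := by
  have h2 : 0 < 2 * ω₀ := by positivity
  have hZ0 : 0 < Z := (one_div_pos.2 h0).trans_le hZ
  set M := MM ((1 / 2 + 135 * ω₀) • B) V (range m) (fun _ => 1 / 2) (fun _ => ω₀) with hM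
  have hs : M.IsSymm := (hB.1.smul _).sub (ksstep_symm _ _)
  have ha : ∀ i : Ix, aw (xs (fun _ => 1 / 2) i) ω₀ = 1 / 2 + 133 * ω₀ := fun i => by
    unfold aw psi xs
    split_ifs <;> ring
  have hle : Le ((2 * ω₀) • B) M := fun y => by
    have h3 := hV y
    rw [hM, ksstep_qf_MM, qf_smul, qf_smul]
    simp only [qf_sum, qf_op] at h3
    simp only [ha, ← mul_sum]
    nlinarith
  have hinv := (hB.smul h2).inv_anti hs hle
  rw [hB.inv_smul h2] at hinv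
  have hg : ∀ i ∈ sides (range m), Gm M V i i ≤ ω₀ / 2 := fun i hi => by
    refine (hinv (V i)).trans ?_
    rw [qf_smul]
    refine (mul_le_mul_of_nonneg_left (hδ i hi) (by positivity)).trans_eq ?_
    field_simp
  refine ⟨⟨(hB.smul h2).of_le hs hle, fun _ _ => by norm_num,
    fun i hi => (hg i hi).trans_lt (by linarith), fun _ _ => h1⟩, ?_⟩
  have t1 : trace M⁻¹ ≤ Z / 2 * Z := by
    refine hinv.trace_le.trans ?_
    rw [trace_smul, smul_eq_mul]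
    refine mul_le_mul ?_ htr (ksstep_tr hB) (by positivity)
    rw [show (2 * ω₀)⁻¹ = 1 / ω₀ / 2 by field_simp]
    linarith
  have t2 : ∑ i ∈ sides (range m), 1 / (ω₀ - Gm M V i i) ≤ 2 * Z * (2 * Z) := by
    refine ksstep_sum_le (by rwa [card_range]) (by positivity) fun i hi => ?_
    refine (one_div_le_one_div_of_le (half_pos h0) (by linarith [hg i hi])).trans ?_
    rw [show 1 / (ω₀ / 2) = 2 * (1 / ω₀) by field_simp]
    linarith
  unfold Pot pot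
  nlinarith

end Crest.Agent.R37.KS
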