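import Crest.Agent.R37.LA1

/-!
# R37/LA: quadratic forms, positive definite matrices, resistances
-/

set_option autoImplicit false
open Finset Matrix

namespace Crest.Agent.R37

variable {N : ℕ} {A B M : Matrix (Fin N) (Fin N) ℝ} {x y b : Fin N → ℝ}

/-- `x ᵀ M x ≤ tr M · |x|²` (`|M i j| ≤ √(M i i M j j)` and Cauchy-Schwarz). -/
theorem qf_le_trace (hM : M.IsSymm) (h0 : ∀ x, 0 ≤ qf M x) (x : Fin N → ℝ) :
    qf M x ≤ trace M * (x ⬝ᵥ x) := by
  have h1 : ∀ i : Fin N, (M *ᵥ x) i ^ 2 ≤ qf M (ev N i) * qf M x := fun i => by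
    have := cs_psd hM h0 (ev N i) x
    rwa [show ev N i ⬝ᵥ M *ᵥ x = (M *ᵥ x) i from ext_fin _ i] at this
  have h2 : ∑ i, (M *ᵥ x) i ^ 2 ≤ trace M * qf M x := by
    rw [trace_eq_sum_qf, sum_mul]; exact sum_le_sum fun i _ => h1 i
  have h3 : qf M x ^ 2 ≤ (x ⬝ᵥ x) * ∑ i, (M *ᵥ x) i ^ 2 := by
    have := Finset.sum_mul_sq_le_sq_mul_sq univ x (M *ᵥ x)
    simpa only [qf, dotProduct, sq] using this
  have hx : 0 ≤ x ⬝ᵥ x := sum_nonneg fun i _ => mul_self_nonneg (x i)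
  have ht : 0 ≤ trace M := by rw [trace_eq_sum_qf]; exact sum_nonneg fun i _ => h0 _
  have h4 := h3.trans (mul_le_mul_of_nonneg_left h2 hx)
  rcases (h0 x).eq_or_lt with h5 | h5
  · rw [← h5]; positivity
  · refine le_of_mul_le_mul_right ?_ h5
    nlinarith

/-- Sherman-Morrison. -/
theorem PD.qf_inv_add (h : PD M) {τ : ℝ} (hτ : 0 ≤ τ) (x b : Fin N → ℝ) :
    qf (M + τ • op x)⁻¹ b = qf M⁻¹ b - τ * (b ⬝ᵥ M⁻¹ *ᵥ x) ^ 2 / (1 + τ * qf M⁻¹ x) := by
  have hq := h.inv.nonneg x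
  have hd : 0 < 1 + τ * qf M⁻¹ x := by positivity
  have h' : PD (M + τ • op x) := h.of_le (h.1.add ((op_symm x).smul τ)) fun y => by
    rw [qf_add, qf_smul, qf_op]; have := mul_nonneg hτ (sq_nonneg (x ⬝ᵥ y)); linarith
  set c := τ * (b ⬝ᵥ M⁻¹ *ᵥ x) / (1 + τ * qf M⁻¹ x) with hc
  have e : ∀ y, M *ᵥ (M⁻¹ *ᵥ y) = y := fun y => by rw [mulVec_mulVec, h.mul_inv, one_mulVec]
  have h1 : (M + τ • op x) *ᵥ (M⁻¹ *ᵥ b - c • (M⁻¹ *ᵥ x)) = b := by
    rw [add_mulVec, smul_mulVec, op_mulVec, mulVec_sub, mulVec_smul, e, e, dotProduct_sub,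
      dotProduct_smul, dot_mulVec_comm h.inv.1 x b, smul_smul, smul_eq_mul]
    have : τ * (b ⬝ᵥ M⁻¹ *ᵥ x - c * (x ⬝ᵥ M⁻¹ *ᵥ x)) = c := by
      change τ * (b ⬝ᵥ M⁻¹ *ᵥ x - c * qf M⁻¹ x) = c
      rw [hc]; field_simp; ring
    rw [this, sub_add_cancel]
  have h2 : (M + τ • op x)⁻¹ *ᵥ b = M⁻¹ *ᵥ b - c • (M⁻¹ *ᵥ x) := by
    conv_lhs => rw [← h1, mulVec_mulVec, h'.inv_mul, one_mulVec]
  rw [qf, h2, dotProduct_sub, dotProduct_smul, smul_eq_mul, hc]
  change qf M⁻¹ b - _ = _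
  ring

/-- Matrix determinant lemma. -/
theorem PD.det_add (h : PD M) (τ : ℝ) (x : Fin N → ℝ) :
    (M + τ • op x).det = M.det * (1 + τ * qf M⁻¹ x) := by
  have e : M + τ • op x = M * (1 + vecMulVec (M⁻¹ *ᵥ (τ • x)) x) := by
    rw [Matrix.mul_add, Matrix.mul_one, mul_vecMulVec, mulVec_mulVec, h.mul_inv, one_mulVec]
    congr 1
    ext i j
    simp [op, vecMulVec_apply, mul_assoc]
  rw [e, det_mul, vecMulVec_eq Unit, det_one_add_replicateCol_mul_replicateRow, mulVec_smul,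
    dotProduct_smul, smul_eq_mul, qf]

/-- `log det M ≤ ∑ (M i i / a i - 1 + log (a i))`: apply `log μ ≤ μ - 1` to the eigenvalues of
`D M D`, `D = diag (a i)^(-1/2)`. -/
theorem PD.log_det_le (h : PD M) (a : Fin N → ℝ) (ha : ∀ i, 0 < a i) :
    Real.log M.det ≤ ∑ i, (M i i / a i - 1 + Real.log (a i)) := by
  set d : Fin N → ℝ := fun i => (√(a i))⁻¹ with hd
  have hd0 : ∀ i, 0 < d i := fun i => inv_pos.2 (Real.sqrt_pos.2 (ha i))
  have hd2 : ∀ i, d i * d i = (a i)⁻¹ := fun i => by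
    simp only [hd]; rw [← _root_.mul_inv, Real.mul_self_sqrt (ha i).le]
  have hB : ((diagonal d)ᴴ * M * diagonal d).PosDef := by
    refine h.posDef.conjTranspose_mul_mul_same fun u v huv => ?_
    funext i
    have := congrFun huv i
    simp only [mulVec_diagonal] at this
    exact mul_left_cancel₀ (hd0 i).ne' this
  have hH : (diagonal d)ᴴ = diagonal d := by simp
  rw [hH] at hB
  have hdet : (diagonal d * M * diagonal d).det = M.det * ∏ i, (a i)⁻¹ := by
    rw [det_mul, det_mul, det_diagonal, ← prod_congr rfl fun i _ => hd2 i, prod_mul_distrib]; ring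
  have htr : trace (diagonal d * M * diagonal d) = ∑ i, M i i / a i := by
    refine sum_congr rfl fun i _ => ?_
    simp only [Matrix.diag, mul_diagonal, diagonal_mul]
    rw [div_eq_mul_inv, ← hd2]; ring
  have h1 := hB.1.det_eq_prod_eigenvalues
  have h2 := hB.1.trace_eq_sum_eigenvalues
  simp only [RCLike.ofReal_real_eq_id, id] at h1 h2
  have h3 : Real.log (diagonal d * M * diagonal d).det ≤ ∑ i, (hB.1.eigenvalues i - 1) := by
    rw [h1, Real.log_prod fun i _ => (hB.eigenvalues_pos i).ne']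
    exact sum_le_sum fun i _ => Real.log_le_sub_one_of_pos (hB.eigenvalues_pos i)
  rw [sum_sub_distrib, ← h2, htr, hdet, Real.log_mul h.det_pos.ne'
    (prod_ne_zero_iff.2 fun i _ => (inv_pos.2 (ha i)).ne'),
    Real.log_prod fun i _ => (inv_pos.2 (ha i)).ne'] at h3
  simp only [Real.log_inv, sum_neg_distrib] at h3
  rw [sum_add_distrib, sum_sub_distrib]
  linarith

theorem la_bessel {ι κ : Type} [Fintype ι] [Fintype κ] [DecidableEq κ] {T : Matrix ι ι ℝ}
    (hT : T.PosSemidef) (U : Matrix ι κ ℝ) (hU : Uᵀ * U = 1) : trace (Uᵀ * T * U) ≤ trace T := by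
  classical
  have h1 := (hT.conjTranspose_mul_mul_same (1 - U * Uᵀ)).trace_nonneg
  have h2 : (1 - U * Uᵀ : Matrix ι ι ℝ)ᴴ = 1 - U * Uᵀ := by
    rw [conjTranspose_eq_transpose_of_trivial, transpose_sub, transpose_one, transpose_mul,
      transpose_transpose]
  have h3 : (1 - U * Uᵀ : Matrix ι ι ℝ) * (1 - U * Uᵀ) = 1 - U * Uᵀ := by
    rw [Matrix.sub_mul, Matrix.one_mul, Matrix.mul_sub, Matrix.mul_one, Matrix.mul_assoc,
      ← Matrix.mul_assoc Uᵀ, hU, Matrix.one_mul, sub_self, sub_zero]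
  rw [h2, trace_mul_cycle, h3, Matrix.sub_mul, Matrix.one_mul, trace_sub] at h1
  rw [trace_mul_cycle]
  linarith

theorem la_small {ι κ : Type} [Fintype ι] [Fintype κ] {T : Matrix ι ι ℝ} (hT : T.PosSemidef)
    (L : Matrix κ ι ℝ) (hlt : Fintype.card κ < Fintype.card ι) :
    ∃ β : ι → ℝ, β ⬝ᵥ β = 1 ∧ L *ᵥ β = 0 ∧
      ((Fintype.card ι : ℝ) - Fintype.card κ) * (β ⬝ᵥ T *ᵥ β) ≤ trace T := by
  classical
  set φ : EuclideanSpace ℝ ι →ₗ[ℝ] (κ → ℝ) :=
    (Matrix.mulVecLin L).comp (WithLp.linearEquiv 2 ℝ (ι → ℝ)).toLinearMap with hφ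
  set W := LinearMap.ker φ with hW
  have hd : Fintype.card ι ≤ Fintype.card κ + Module.finrank ℝ W := by
    have h1 := LinearMap.finrank_range_add_finrank_ker φ
    have h2 : Module.finrank ℝ (LinearMap.range φ) ≤ Fintype.card κ := by
      simpa using Submodule.finrank_le (LinearMap.range φ)
    rw [finrank_euclideanSpace, ← hW] at h1
    omega
  set b := stdOrthonormalBasis ℝ W with hb
  set u : Fin (Module.finrank ℝ W) → ι → ℝ := fun k => (b k : EuclideanSpace ℝ ι).ofLp with hu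
  have hon : ∀ k l, u k ⬝ᵥ u l = if k = l then 1 else 0 := fun k l => by
    have := orthonormal_iff_ite.1 b.orthonormal k l
    rw [Submodule.coe_inner, EuclideanSpace.inner_eq_star_dotProduct] at this
    rw [← this, dotProduct_comm]
    simp [hu]
  set U : Matrix ι (Fin (Module.finrank ℝ W)) ℝ := Matrix.of fun i k => u k i with hU
  have hUU : Uᵀ * U = 1 := by
    ext k l
    rw [Matrix.one_apply, ← hon]
    rfl
  have h1 := la_bessel hT U hUU
  have h2 : trace (Uᵀ * T * U) = ∑ k, u k ⬝ᵥ T *ᵥ u k := by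
    rw [Matrix.mul_assoc]
    rfl
  have hne : (univ : Finset (Fin (Module.finrank ℝ W))).Nonempty :=
    ⟨⟨0, by omega⟩, mem_univ _⟩
  obtain ⟨k, -, hk⟩ := exists_min_image univ (fun k => u k ⬝ᵥ T *ᵥ u k) hne
  have h3 := card_nsmul_le_sum univ (fun k => u k ⬝ᵥ T *ᵥ u k) _ hk
  rw [card_univ, Fintype.card_fin, nsmul_eq_mul] at h3
  have h4 : 0 ≤ u k ⬝ᵥ T *ᵥ u k := by simpa using hT.dotProduct_mulVec_nonneg (u k)
  refine ⟨u k, by rw [hon, if_pos rfl], (b k).2, ?_⟩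
  have h5 : (Fintype.card ι : ℝ) - Fintype.card κ ≤ Module.finrank ℝ W := by
    have : (Fintype.card ι : ℝ) ≤ Fintype.card κ + Module.finrank ℝ W := by exact_mod_cast hd
    linarith
  exact (mul_le_mul_of_nonneg_right h5 h4).trans (by linarith)

/-- A positive semidefinite form is small somewhere on a large subspace.  Here `T` is a form on
`ι → ℝ` given by a symmetric positive semidefinite array, `ν > 0` are weights, and the subspace is cut
out by the `r` linear equations `L`.  Proof: rescale the coordinates by `√ν`; take an orthonormal basis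
`b` of the kernel (dimension `d ≥ |ι| - r`) in `EuclideanSpace`; write `T = SᵀS` (or diagonalise) and
use Bessel's inequality: `∑_b T b ≤ tr T`. -/
theorem exists_small {ι κ : Type} [Fintype ι] [Fintype κ] (T : ι → ι → ℝ)
    (hT : ∀ i j, T i j = T j i) (h0 : ∀ α : ι → ℝ, 0 ≤ ∑ i, ∑ j, α i * α j * T i j)
    (ν : ι → ℝ) (hν : ∀ i, 0 < ν i) (K : ℝ) (hK : ∀ i, T i i ≤ K * ν i) (L : κ → ι → ℝ)
    (hr : Fintype.card ι = 2 * Fintype.card κ) (hι : 0 < Fintype.card ι) :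
    ∃ α : ι → ℝ, α ≠ 0 ∧ (∀ p, ∑ i, L p i * α i = 0) ∧
      ∑ i, ∑ j, α i * α j * T i j ≤ 2 * K * ∑ i, ν i * α i ^ 2 := by
  set s : ι → ℝ := fun i => (√(ν i))⁻¹ with hs
  have hs0 : ∀ i, 0 < s i := fun i => inv_pos.2 (Real.sqrt_pos.2 (hν i))
  have hs2 : ∀ i, s i * s i = (ν i)⁻¹ := fun i => by
    simp only [hs]; rw [← _root_.mul_inv, Real.mul_self_sqrt (hν i).le]
  set T' : Matrix ι ι ℝ := Matrix.of fun i j => s i * s j * T i j with hT'
  have hq : ∀ β : ι → ℝ, β ⬝ᵥ T' *ᵥ β = ∑ i, ∑ j, (s i * β i) * (s j * β j) * T i j := fun β => by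
    simp only [dotProduct, mulVec, hT', Matrix.of_apply, mul_sum]
    exact sum_congr rfl fun i _ => sum_congr rfl fun j _ => by ring
  have hpsd : T'.PosSemidef := by
    refine .of_dotProduct_mulVec_nonneg ?_ fun β => ?_
    · refine Matrix.isHermitian_iff_isSymm.2 ?_
      ext i j
      simp only [hT', transpose_apply, Matrix.of_apply, hT j i, mul_comm (s j)]
    · rw [star_trivial, hq]; exact h0 _
  obtain ⟨β, h1, h2, h3⟩ := la_small hpsd (Matrix.of fun p i => L p i * s i) (by omega)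
  have htr : trace T' ≤ Fintype.card ι * K := by
    rw [← card_univ, ← nsmul_eq_mul]
    refine sum_le_card_nsmul _ _ _ fun i _ => ?_
    simp only [Matrix.diag, hT', Matrix.of_apply, hs2]
    rw [inv_mul_le_iff₀ (hν i), mul_comm]; exact hK i
  have hn : ∑ i, ν i * (s i * β i) ^ 2 = 1 := by
    rw [← h1]
    refine sum_congr rfl fun i _ => ?_
    rw [mul_pow, sq (s i), hs2, ← mul_assoc, mul_inv_cancel₀ (hν i).ne', one_mul, sq]
  refine ⟨fun i => s i * β i, fun h => ?_, fun p => ?_, ?_⟩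
  · have : ∀ i, s i * β i = 0 := fun i => congrFun h i
    simp [this] at hn
  · have := congrFun h2 p
    simpa only [mulVec, dotProduct, Matrix.of_apply, mul_assoc, Pi.zero_apply] using this
  · rw [hn, mul_one, ← hq]
    have hκ : (0 : ℝ) < Fintype.card κ := by exact_mod_cast (by omega : 0 < Fintype.card κ)
    rw [hr] at h3 htr
    push_cast at h3 htr
    refine le_of_mul_le_mul_left ?_ hκ
    linarith

end Crest.Agent.R37
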