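import Crest.Agent.R37.Defs

/-!
# R37/LA1: quadratic forms, positive definite matrices, resistances
-/

set_option autoImplicit false
open Finset Matrix

namespace Crest.Agent.R37

variable {N : ℕ} {A B M : Matrix (Fin N) (Fin N) ℝ} {x y b : Fin N → ℝ}

/-- a vector on `Fin N` as a function on `ℕ` (zero outside) -/
def ext (x : Fin N → ℝ) (u : ℕ) : ℝ := ev N u ⬝ᵥ x

theorem ext_fin (x : Fin N → ℝ) (i : Fin N) : ext x i = x i := by
  unfold ext ev dotProduct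
  rw [sum_eq_single i]
  · simp
  · intro j _ hj
    simp only [if_neg fun h => hj (Fin.ext h), zero_mul]
  · intro h; exact absurd (mem_univ i) h

theorem ext_restrict (f : ℕ → ℝ) {u : ℕ} (hu : u < N) : ext (fun i : Fin N => f i) u = f u := by
  exact ext_fin (fun i : Fin N => f i) ⟨u, hu⟩

theorem bv_dot (u v : ℕ) (x : Fin N → ℝ) : bv N u v ⬝ᵥ x = ext x u - ext x v := by
  unfold bv ext
  rw [sub_dotProduct]

theorem ev_dot_ev {u : ℕ} (hu : u < N) : ev N u ⬝ᵥ ev N u = 1 := by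
  have := ext_fin (ev N u) ⟨u, hu⟩
  simpa [ext, ev] using this

theorem bv_dot_bv {u v : ℕ} (hu : u < N) (hv : v < N) (h : u ≠ v) : bv N u v ⬝ᵥ bv N u v = 2 := by
  rw [bv_dot]
  have h1 := ext_fin (bv N u v) ⟨u, hu⟩
  have h2 := ext_fin (bv N u v) ⟨v, hv⟩
  simp only [bv, ev, Pi.sub_apply, if_true, if_neg h, if_neg h.symm] at h1 h2
  unfold bv
  rw [h1, h2]; norm_num

theorem bv_dot_bv_le (u v : ℕ) : bv N u v ⬝ᵥ bv N u v ≤ 2 := by
  have h1 : ∀ u : ℕ, ev N u ⬝ᵥ ev N u ≤ 1 := fun u => by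
    by_cases hu : u < N
    · exact (ev_dot_ev hu).le
    · have : ev N u = 0 := by
        funext i; simp only [ev, Pi.zero_apply]; rw [if_neg]; have := i.2; omega
      rw [this]; simp
  have h2 : 0 ≤ ev N u ⬝ᵥ ev N v := sum_nonneg fun i _ => by
    simp only [ev]; split_ifs <;> norm_num
  unfold bv
  rw [sub_dotProduct, dotProduct_sub, dotProduct_sub, dotProduct_comm (ev N v) (ev N u)]
  linarith [h1 u, h1 v]

@[simp] theorem bv_self (u : ℕ) : bv N u u = 0 := sub_self _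

theorem op_mulVec (x y : Fin N → ℝ) : op x *ᵥ y = (x ⬝ᵥ y) • x := by
  funext i
  simp only [op, mulVec, dotProduct, vecMulVec_apply, Pi.smul_apply, smul_eq_mul, sum_mul]
  exact sum_congr rfl fun j _ => by ring

theorem qf_op (x y : Fin N → ℝ) : qf (op x) y = (x ⬝ᵥ y) ^ 2 := by
  rw [qf, op_mulVec, dotProduct_smul, smul_eq_mul, dotProduct_comm y x, sq]

theorem op_symm (x : Fin N → ℝ) : (op x).IsSymm := by
  ext i j
  simp only [op, transpose_apply, vecMulVec_apply, mul_comm]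

theorem trace_op (x : Fin N → ℝ) : trace (op x) = x ⬝ᵥ x := by
  simp only [op, trace, Matrix.diag, vecMulVec_apply, dotProduct]

theorem qf_add (A B : Matrix (Fin N) (Fin N) ℝ) (x : Fin N → ℝ) : qf (A + B) x = qf A x + qf B x := by
  simp only [qf, add_mulVec, dotProduct_add]

theorem qf_sub (A B : Matrix (Fin N) (Fin N) ℝ) (x : Fin N → ℝ) : qf (A - B) x = qf A x - qf B x := by
  simp only [qf, sub_mulVec, dotProduct_sub]

theorem qf_smul (c : ℝ) (A : Matrix (Fin N) (Fin N) ℝ) (x : Fin N → ℝ) :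
    qf (c • A) x = c * qf A x := by
  simp only [qf, smul_mulVec, dotProduct_smul, smul_eq_mul]

theorem qf_one (x : Fin N → ℝ) : qf 1 x = x ⬝ᵥ x := by
  simp only [qf, one_mulVec]

theorem qf_zero (A : Matrix (Fin N) (Fin N) ℝ) : qf A 0 = 0 := by
  simp only [qf, zero_dotProduct]

theorem qf_smul_vec (c : ℝ) (A : Matrix (Fin N) (Fin N) ℝ) (x : Fin N → ℝ) :
    qf A (c • x) = c ^ 2 * qf A x := by
  simp only [qf, mulVec_smul, dotProduct_smul, smul_dotProduct, smul_eq_mul]; ring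

theorem qf_sum {ι : Type} (S : Finset ι) (f : ι → Matrix (Fin N) (Fin N) ℝ) (x : Fin N → ℝ) :
    qf (∑ i ∈ S, f i) x = ∑ i ∈ S, qf (f i) x := by
  classical
  induction S using Finset.induction_on with
  | empty => simp [qf]
  | insert a S ha ih => rw [sum_insert ha, sum_insert ha, qf_add, ih]

theorem qf_listSum (L : List (Matrix (Fin N) (Fin N) ℝ)) (x : Fin N → ℝ) :
    qf L.sum x = (L.map fun A => qf A x).sum := by
  induction L with
  | nil => simp [qf]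
  | cons A L ih => rw [List.sum_cons, List.map_cons, List.sum_cons, qf_add, ih]

theorem isSymm_sum {ι : Type} (S : Finset ι) {f : ι → Matrix (Fin N) (Fin N) ℝ}
    (h : ∀ i ∈ S, (f i).IsSymm) : (∑ i ∈ S, f i).IsSymm := by
  unfold Matrix.IsSymm
  rw [transpose_sum]
  exact sum_congr rfl h

theorem isSymm_sumOp (L : List (ℚ × Vec)) : (toM N (sumOp N L)).IsSymm := by
  rw [toM_sumOp]
  induction L with
  | nil => simp
  | cons p L ih =>
    rw [List.map_cons, List.sum_cons]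
    exact ((op_symm _).smul _).add ih

theorem dot_mulVec_comm (h : M.IsSymm) (x y : Fin N → ℝ) : x ⬝ᵥ M *ᵥ y = y ⬝ᵥ M *ᵥ x := by
  rw [dotProduct_mulVec, ← mulVec_transpose, h.eq, dotProduct_comm]

theorem qf_lap (s t : ℕ → ℕ) (F : Finset ℕ) (x : Fin N → ℝ) :
    qf (lap N s t F) x = qL s t F (ext x) := by
  simp only [lap, qf_sum, qf_op, bv_dot, qL]

theorem qf_glap (s t : ℕ → ℕ) (F ρ : Finset ℕ) (x : Fin N → ℝ) :
    qf (glap N s t F ρ) x = qL s t F (ext x) + ∑ r ∈ ρ, ext x r ^ 2 := by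
  simp only [glap, qf_add, qf_lap, qf_sum, qf_op, ext]

theorem glap_symm (s t : ℕ → ℕ) (F ρ : Finset ℕ) : (glap N s t F ρ).IsSymm := by
  exact (isSymm_sum _ fun _ _ => op_symm _).add (isSymm_sum _ fun _ _ => op_symm _)

theorem qf_Dm (s t : ℕ → ℕ) (F : Finset ℕ) (c : ℕ → ℕ → ℝ) (x : Fin N → ℝ) :
    qf (Dm N s t F c) x = qL s t F (ext x) + ext x 0 ^ 2 +
      ∑ u ∈ range N, ∑ v ∈ range N, c u v * (ext x u - ext x v) ^ 2 := by
  simp only [Dm, qf_add, qf_glap, qf_sum, qf_smul, qf_op, bv_dot, sum_singleton]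

theorem Dm_symm (s t : ℕ → ℕ) (F : Finset ℕ) (c : ℕ → ℕ → ℝ) : (Dm N s t F c).IsSymm := by
  exact (glap_symm _ _ _ _).add
    (isSymm_sum _ fun _ _ => isSymm_sum _ fun _ _ => (op_symm _).smul _)

theorem PD.posDef (h : PD M) : M.PosDef := by
  refine Matrix.PosDef.of_dotProduct_mulVec_pos ?_ fun x hx => ?_
  · exact (Matrix.isHermitian_iff_isSymm).2 h.1
  · simpa [qf] using h.2 x hx

theorem PD.nonneg (h : PD M) (x : Fin N → ℝ) : 0 ≤ qf M x := by
  by_cases hx : x = 0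
  · rw [hx, qf_zero]
  · exact (h.2 x hx).le

theorem PD.det_pos (h : PD M) : 0 < M.det := by
  exact h.posDef.det_pos

theorem PD.mul_inv (h : PD M) : M * M⁻¹ = 1 := by
  exact Matrix.mul_nonsing_inv _ (isUnit_iff_ne_zero.2 h.det_pos.ne')

theorem PD.inv_mul (h : PD M) : M⁻¹ * M = 1 := by
  exact Matrix.nonsing_inv_mul _ (isUnit_iff_ne_zero.2 h.det_pos.ne')

theorem PD.inv (h : PD M) : PD M⁻¹ := by
  have hs : M⁻¹.IsSymm := by
    unfold Matrix.IsSymm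
    rw [transpose_nonsing_inv, h.1.eq]
  refine ⟨hs, fun x hx => ?_⟩
  have e : M *ᵥ (M⁻¹ *ᵥ x) = x := by rw [mulVec_mulVec, h.mul_inv, one_mulVec]
  have h1 : M⁻¹ *ᵥ x ≠ 0 := fun h0 => hx (by rw [← e, h0, mulVec_zero])
  have := h.2 _ h1
  rw [qf, e, dotProduct_comm] at this
  exact this

theorem PD.of_le (h : PD A) (hB : B.IsSymm) (hAB : Le A B) : PD B := by
  exact ⟨hB, fun x hx => (h.2 x hx).trans_le (hAB x)⟩

/-- A symmetric matrix that dominates all squared coordinates is positive definite. -/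
theorem pd_of_coord (hM : M.IsSymm) (K : ℝ) (h : ∀ x i, x i ^ 2 ≤ K * qf M x)
    (h0 : ∀ x, 0 ≤ qf M x) : PD M := by
  refine ⟨hM, fun x hx => (h0 x).lt_of_ne fun h1 => hx ?_⟩
  funext i
  have := h x i
  rw [← h1, mul_zero] at this
  exact pow_eq_zero_iff (two_ne_zero) |>.1 (le_antisymm this (sq_nonneg _))

/-- Cauchy-Schwarz for a positive semidefinite form. -/
theorem cs_psd (hM : M.IsSymm) (h0 : ∀ x, 0 ≤ qf M x) (x y : Fin N → ℝ) :
    (x ⬝ᵥ M *ᵥ y) ^ 2 ≤ qf M x * qf M y := by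
  have key : ∀ r : ℝ, 0 ≤ qf M y * (r * r) + (2 * (x ⬝ᵥ M *ᵥ y)) * r + qf M x := fun r => by
    have := h0 (x + r • y)
    simp only [qf, mulVec_add, mulVec_smul, add_dotProduct, dotProduct_add, smul_dotProduct,
      dotProduct_smul, smul_eq_mul, dot_mulVec_comm hM y x] at this ⊢
    linarith
  have := discrim_le_zero key
  unfold discrim at this
  nlinarith

/-- Variational principle (expand `qf M (φ - M⁻¹ b) ≥ 0`). -/
theorem PD.var (h : PD M) (b φ : Fin N → ℝ) : 2 * (b ⬝ᵥ φ) - qf M φ ≤ qf M⁻¹ b := by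
  have e : M *ᵥ (M⁻¹ *ᵥ b) = b := by rw [mulVec_mulVec, h.mul_inv, one_mulVec]
  have h1 := h.nonneg (φ - M⁻¹ *ᵥ b)
  simp only [qf, mulVec_sub, sub_dotProduct, dotProduct_sub, e,
    dot_mulVec_comm h.1 (M⁻¹ *ᵥ b) φ] at h1 ⊢
  rw [dotProduct_comm φ b, dotProduct_comm (M⁻¹ *ᵥ b) b] at h1
  linarith

theorem PD.qf_inv_mulVec (h : PD M) (b : Fin N → ℝ) : qf M (M⁻¹ *ᵥ b) = qf M⁻¹ b := by
  have e : M *ᵥ (M⁻¹ *ᵥ b) = b := by rw [mulVec_mulVec, h.mul_inv, one_mulVec]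
  rw [qf, e, dotProduct_comm, qf]

theorem PD.sq_dot_le (h : PD M) (b x : Fin N → ℝ) : (b ⬝ᵥ x) ^ 2 ≤ qf M⁻¹ b * qf M x := by
  have e : M *ᵥ (M⁻¹ *ᵥ b) = b := by rw [mulVec_mulVec, h.mul_inv, one_mulVec]
  have := cs_psd h.1 h.nonneg x (M⁻¹ *ᵥ b)
  rw [e, h.qf_inv_mulVec, dotProduct_comm, mul_comm] at this
  exact this

/-- Converse: test with `x = M⁻¹ b`. -/
theorem PD.qf_inv_le (h : PD M) {ρ : ℝ} (hρ : 0 ≤ ρ) (hb : ∀ x, (b ⬝ᵥ x) ^ 2 ≤ ρ * qf M x) :
    qf M⁻¹ b ≤ ρ := by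
  have h1 := hb (M⁻¹ *ᵥ b)
  rw [h.qf_inv_mulVec] at h1
  change qf M⁻¹ b ^ 2 ≤ _ at h1
  have h2 := h.inv.nonneg b
  by_contra hc
  nlinarith [not_le.1 hc]

theorem PD.inv_anti (hA : PD A) (hB : B.IsSymm) (h : Le A B) : Le B⁻¹ A⁻¹ := by
  intro x
  have hB' := hA.of_le hB h
  have h1 := hA.var x (B⁻¹ *ᵥ x)
  have h2 := h (B⁻¹ *ᵥ x)
  rw [hB'.qf_inv_mulVec] at h2
  change 2 * qf B⁻¹ x - _ ≤ _ at h1
  linarith

theorem PD.smul (h : PD M) {c : ℝ} (hc : 0 < c) : PD (c • M) := by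
  exact ⟨h.1.smul c, fun x hx => by rw [qf_smul]; exact mul_pos hc (h.2 x hx)⟩

theorem PD.inv_smul (h : PD M) {c : ℝ} (hc : 0 < c) : (c • M)⁻¹ = c⁻¹ • M⁻¹ := by
  refine Matrix.inv_eq_right_inv ?_
  rw [Matrix.smul_mul, Matrix.mul_smul, h.mul_inv, smul_smul, mul_inv_cancel₀ hc.ne', one_smul]

theorem trace_eq_sum_qf (M : Matrix (Fin N) (Fin N) ℝ) :
    trace M = ∑ i : Fin N, qf M (ev N i) := by
  refine sum_congr rfl fun i _ => ?_
  change _ = ext (M *ᵥ ev N i) i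
  rw [ext_fin, mulVec, dotProduct_comm]
  exact (ext_fin (fun j => M i j) i).symm

theorem Le.trace_le (h : Le A B) : trace A ≤ trace B := by
  rw [trace_eq_sum_qf, trace_eq_sum_qf]
  exact sum_le_sum fun i _ => h _

end Crest.Agent.R37
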