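import Crest.Agent.R37.Halve

/-!
# R37/Loop: repeated halving, the thin tree of a partition-connected multigraph
-/

set_option autoImplicit false
open Finset

namespace Crest.Agent.R37

open Crest.Agent.Lib.PT

/-- the integer part of the `120`-th root -/
def loop_t (j : ℕ) : ℕ := (List.range j).countP fun i => decide ((i + 1) ^ 120 ≤ j)

theorem loop_t_spec (j : ℕ) : loop_t j ^ 120 ≤ j ∧ j < (loop_t j + 1) ^ 120 := by
  obtain ⟨r, h1, h2⟩ : ∃ r, r ^ 120 ≤ j ∧ j < (r + 1) ^ 120 :=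
    ⟨Nat.nthRoot 120 j, Nat.pow_nthRoot_le (Or.inl (by norm_num)), Nat.lt_pow_nthRoot_add_one (by norm_num) j⟩
  have h3 : r ≤ j := (Nat.le_self_pow (by norm_num) r).trans h1
  have h4 : loop_t j = r := by
    rw [loop_t, List.countP_eq_length_filter, ← List.toFinset_card_of_nodup (List.nodup_range.filter _),
      List.toFinset_filter, List.toFinset_range, ← card_range r]
    congr 1
    ext i
    simp only [mem_filter, mem_range, decide_eq_true_eq]
    constructor
    · intro h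
      have := lt_of_pow_lt_pow_left₀ 120 (Nat.zero_le _) (h.2.trans_lt h2)
      omega
    · intro h
      exact ⟨by omega, (Nat.pow_le_pow_left h 120).trans h1⟩
  rw [h4]
  exact ⟨h1, h2⟩

@[fun_prop] theorem loop_t_pt {α : Type} [Enc α] {j : α → ℕ} (hj : PT j) (hb : PB j) :
    PT fun a => loop_t (j a) :=
  PT.countP (p := fun a i => decide ((i + 1) ^ 120 ≤ j a)) (hj.range hb) (PT.decide (PT.nat_le
    (PT.nat_pow (by fun_prop) (PT.const _) (PB.const _)) (hj.comp PT.id.fst)))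

attribute [local irreducible] loop_t

/-- the next value of the connectivity -/
def loop_nx (j : ℕ) : ℕ := j / 2 - (1000 * j / loop_t j + 1)

theorem loop_real {t t' j x y : ℝ} (tR : 10000 ≤ t) (t1 : 1 ≤ t') (y0 : 0 ≤ y) (r1 : t * x ≤ 1000 * j)
    (r2 : 1000 * j ≤ t * (x + 1)) (r3 : 2 * (y + x + 1) ≤ j) (r4 : j ≤ 2 * (y + x + 1) + 1)
    (r5 : 10000 * t ≤ j) (r6 : 200 * t' ≤ 199 * t) : y ≤ (1 / 2 - 1000 / t) * j ∧
      (1 / 2 + 1000 / t) * (Real.exp (1200000 / t) * j) ≤ Real.exp (1200000 / t') * y := by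
  have t0 : 0 < t := by linarith
  obtain ⟨u, hu⟩ : ∃ u : ℝ, u = j / t := ⟨_, rfl⟩
  have u1 : j = t * u := by rw [hu]; field_simp
  have u2 : 10000 ≤ u := by rw [hu, le_div_iff₀ t0]; linarith
  have u3 : x ≤ 1000 * u := le_of_mul_le_mul_left (by rw [u1] at r1; linarith) t0
  have u4 : 1000 * u ≤ x + 1 := le_of_mul_le_mul_left (by rw [u1] at r2; linarith) t0
  refine ⟨?_, ?_⟩
  · have : (1 / 2 - 1000 / t) * j = j / 2 - 1000 * u := by rw [hu]; ring
    linarith
  · have f1 : 1200000 / t + 6000 / t ≤ 1200000 / t' := by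
      rw [← add_div, div_le_div_iff₀ t0 (by linarith)]
      linarith
    have f2 : Real.exp (1200000 / t) * (1 + 6000 / t) ≤ Real.exp (1200000 / t') :=
      le_trans (by
        rw [Real.exp_add]
        exact mul_le_mul_of_nonneg_left (by linarith [Real.add_one_le_exp (6000 / t)])
          (Real.exp_pos _).le) (Real.exp_le_exp.2 f1)
    have f3 : (1 / 2 + 1000 / t) * j ≤ (1 + 6000 / t) * y := by
      have g1 : j / 2 - 1001 * u ≤ y := by linarith
      have g2 : 6006000 / t ≤ 999 := by rw [div_le_iff₀ t0]; linarith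
      calc (1 / 2 + 1000 / t) * j = j / 2 + 1000 * u := by rw [hu]; ring
        _ ≤ j / 2 + 1999 * u - 6006000 / t * u := by nlinarith
        _ = (1 + 6000 / t) * (j / 2 - 1001 * u) := by rw [u1]; field_simp; ring
        _ ≤ _ := mul_le_mul_of_nonneg_left g1 (by positivity)
    calc _ = Real.exp (1200000 / t) * ((1 / 2 + 1000 / t) * j) := by ring
      _ ≤ Real.exp (1200000 / t) * ((1 + 6000 / t) * y) := mul_le_mul_of_nonneg_left f3 (Real.exp_pos _).le
      _ ≤ _ := by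
        rw [← mul_assoc]
        exact mul_le_mul_of_nonneg_right f2 y0

theorem loop_root {t t' : ℕ} (ht : 10 ^ 4 ≤ t) (d4 : 2 * t' ^ 120 < (t + 1) ^ 120) : 200 * t' ≤ 199 * t := by
  by_contra hc
  have d1 : (199 * t) ^ 120 ≤ (200 * t') ^ 120 := Nat.pow_le_pow_left (by omega) _
  have d2 : (10000 * (t + 1)) ^ 120 ≤ (10001 * t) ^ 120 := Nat.pow_le_pow_left (by omega) _
  have d3 : 200 ^ 120 * 10001 ^ 120 ≤ 2 * (199 ^ 120 * 10000 ^ 120) := by norm_num
  rw [mul_pow, mul_pow] at d1 d2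
  generalize t ^ 120 = A at *
  generalize t' ^ 120 = A' at *
  generalize (t + 1) ^ 120 = A'' at *
  have d5 : 200 ^ 120 * (10000 ^ 120 * (2 * A')) < 200 ^ 120 * (10001 ^ 120 * A) :=
    Nat.mul_lt_mul_of_pos_left ((Nat.mul_lt_mul_of_pos_left d4 (by positivity)).trans_le d2) (by positivity)
  have d6 := Nat.mul_le_mul_right A d3
  have d7 := Nat.mul_le_mul_left (2 * 10000 ^ 120) d1
  generalize 200 ^ 120 = p at *
  generalize 199 ^ 120 = q at *
  generalize 10000 ^ 120 = r at *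
  generalize 10001 ^ 120 = s at *
  nlinarith

theorem loop_num {j : ℕ} (ht : 10 ^ 4 ≤ loop_t j) :
    1 ≤ loop_nx j ∧ loop_nx j < j ∧ (loop_nx j : ℝ) ≤ (1 / 2 - 1000 / loop_t j) * j ∧
      (1 / 2 + 1000 / (loop_t j : ℝ)) * (Real.exp (1200000 / loop_t j) * j) ≤
        Real.exp (1200000 / loop_t (loop_nx j)) * loop_nx j := by
  obtain ⟨h1, h2⟩ := loop_t_spec j
  obtain ⟨h3, h4⟩ := loop_t_spec (loop_nx j)
  obtain ⟨t, e⟩ : ∃ t, t = loop_t j := ⟨_, rfl⟩
  obtain ⟨t', e'⟩ : ∃ t', t' = loop_t (loop_nx j) := ⟨_, rfl⟩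
  rw [← e'] at h3 h4 ⊢
  unfold loop_nx at h3 h4 ⊢
  rw [← e] at ht h1 h2 h3 h4 ⊢
  clear e e'
  have a1 : t * t ≤ j := by
    rw [← pow_two]
    exact (Nat.pow_le_pow_right (by omega) (by norm_num)).trans h1
  have a2 : 10 ^ 4 * t ≤ j := (Nat.mul_le_mul_right t ht).trans a1
  have a3 : 1000 * j / t ≤ 1000 * j / 10 ^ 4 := Nat.div_le_div_left ht (by norm_num)
  have a4 : 1000 * j / t + 2 ≤ j / 2 := by omega
  have b1 : t * (1000 * j / t) ≤ 1000 * j := Nat.mul_div_le _ _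
  have b2 : 1000 * j < t * (1000 * j / t + 1) := Nat.lt_mul_div_succ _ (by omega)
  obtain ⟨x, hx⟩ : ∃ x, x = 1000 * j / t := ⟨_, rfl⟩
  rw [← hx] at a4 b1 b2 h3 h4 ⊢
  obtain ⟨y, hy⟩ : ∃ y, y = j / 2 - (x + 1) := ⟨_, rfl⟩
  rw [← hy] at h3 h4 ⊢
  have c1 : 2 * (y + x + 1) ≤ j := by omega
  have c2 : j ≤ 2 * (y + x + 1) + 1 := by omega
  have c3 : 1 ≤ t' := by
    by_contra hc
    obtain rfl : t' = 0 := by omega
    omega
  have c4 : 200 * t' ≤ 199 * t := loop_root ht (by omega)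
  obtain ⟨g1, g2⟩ := loop_real (t := t) (t' := t') (j := j) (x := x) (y := y) (by exact_mod_cast ht)
    (by exact_mod_cast c3) (Nat.cast_nonneg _) (by exact_mod_cast b1) (by exact_mod_cast b2.le)
    (by exact_mod_cast c1) (by exact_mod_cast c2) (by exact_mod_cast a2) (by exact_mod_cast c4)
  exact ⟨by omega, by omega, g1, g2⟩

/-- one round -/
def loop_step (hv : Un × Un × ℕ × Gr × List ℕ → List ℕ) (n : Un) (E : Gr) (c : Un × List ℕ) : Un × List ℕ :=
  if loop_t c.1.n < 10 ^ 4 then c else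
    (⟨loop_nx c.1.n⟩, c.2.filter fun e => decide (e ∈ hv (n, c.1, loop_t c.1.n, E, c.2)))

theorem loop_pt {hv : Un × Un × ℕ × Gr × List ℕ → List ℕ} (h : PT hv) :
    PT fun z : Un × Un × Gr × List ℕ => (loop_step hv z.1 z.2.2.1)^[z.2.1.n] (z.2.1, z.2.2.2) := by
  refine PT.iterate_grow (f := fun z : Un × Un × Gr × List ℕ => loop_step hv z.1 z.2.2.1) (G := fun _ => 0)
    (by fun_prop) (by fun_prop) (by fun_prop) ?_ (by fun_prop) fun a c => ?_
  · unfold loop_step loop_nx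
    fun_prop
  · unfold loop_step
    split_ifs
    · omega
    · have h1 := sz_sublist (List.filter_sublist (l := c.2)
        (p := fun e => decide (e ∈ hv (a.1, c.1, loop_t c.1.n, a.2.2.1, c.2))))
      have h2 : loop_nx c.1.n ≤ c.1.n := (Nat.sub_le _ _).trans (Nat.div_le_self _ _)
      rw [sz_mk, sz_prod c, sz_un, sz_un]
      dsimp only
      omega

/-- State `(j, F)`, start `(k, F)`, `k` rounds.  Let `t` be the largest number with `t^120 ≤ j` (the length of
`(range j).filter ((i+1)^120 ≤ j)`).  If `t < 10^4` keep the state, else go to `(j / 2 - (1000 j / t + 1), hv (n, j, t, E, F))`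
(natural division; the new value `j'` satisfies `(1/2 - 1001/t) j ≤ j' ≤ (1/2 - 1000/t) j`, so `1 ≤ j' < j`).  Invariant:
`1 ≤ j ≤ k`, `F` is a `j`-PC sublist, and `cut F S ≤ a j · (j / k) · cut F₀ S` for all `S`, with
`a j = exp (c · j^(-1/120))` for a large constant `c`: `(1/2 + 1000/t) ≤ (1 + 6000/t) j' / j`, `1 / t ≤ 2 j^(-1/120)`, and
`j'^(-1/120) - j^(-1/120) ≥ (2^(1/120) - 1) j^(-1/120)` (any other bookkeeping, e.g. the sum of `1/t` along the run, is fine).
At the end `j < 10^480`; output `tr (n, E, F)`.  To keep the unary argument polynomial use `min j k`. -/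
theorem exists_thin : ∃ C : ℝ, 0 < C ∧ ∃ th : Un × Un × Gr × List ℕ → List ℕ, PT th ∧
    ∀ (n k : ℕ) (E : Gr) (F : List ℕ), 1 ≤ n → 1 ≤ k → F.Nodup →
      WF (src E) (tgt E) n F.toFinset → PC (src E) (tgt E) k F.toFinset (range n) →
      ∀ T : List ℕ, th (⟨n⟩, ⟨k⟩, E, F) = T →
      T.toFinset ⊆ F.toFinset ∧ T.toFinset.card + 1 = n ∧
      PC (src E) (tgt E) 1 T.toFinset (range n) ∧
      (∀ e ∈ T, ∀ e' ∈ T, s(src E e, tgt E e) = s(src E e', tgt E e') → e = e') ∧
      ∀ S : Finset ℕ, (cut (src E) (tgt E) T.toFinset S : ℝ) ≤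
        C / k * cut (src E) (tgt E) F.toFinset S := by
  obtain ⟨hv, hv1, hv2⟩ := exists_halve
  obtain ⟨tr, tr1, tr2⟩ := exists_tree
  refine ⟨Real.exp 1200000 * (10 ^ 4) ^ 120, by positivity, fun z =>
    tr (z.1, z.2.2.1, ((loop_step hv z.1 z.2.2.1)^[z.2.1.n] (z.2.1, z.2.2.2)).2),
    tr1.comp (PT.id.fst.pair (PT.id.snd.snd.fst.pair (loop_pt hv1).snd)),
    fun n k E F hn hk hF hW hP T hT => ?_⟩
  have k0 : (0 : ℝ) < k := by exact_mod_cast hk
  have key : ∀ i, ∀ c, c = (loop_step hv ⟨n⟩ E)^[i] (⟨k⟩, F) → 1 ≤ c.1.n ∧ (loop_t c.1.n < 10 ^ 4 ∨ c.1.n + i ≤ k) ∧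
      c.2.Nodup ∧ c.2.toFinset ⊆ F.toFinset ∧ PC (src E) (tgt E) c.1.n c.2.toFinset (range n) ∧
      ∀ S : Finset ℕ, (cut (src E) (tgt E) c.2.toFinset S : ℝ) ≤
        Real.exp (1200000 / loop_t c.1.n) * c.1.n / k * cut (src E) (tgt E) F.toFinset S := by
    intro i
    induction i with
    | zero =>
      rintro c rfl
      refine ⟨hk, Or.inr le_rfl, hF, Subset.refl _, hP, fun S => le_mul_of_one_le_left (Nat.cast_nonneg _) ?_⟩
      rw [one_le_div k0]
      exact le_mul_of_one_le_left k0.le (Real.one_le_exp (by positivity))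
    | succ i ih =>
      rintro c rfl
      rw [Function.iterate_succ_apply']
      obtain ⟨a1, a2, a3, a4, a5, a6⟩ := ih _ rfl
      generalize (loop_step hv ⟨n⟩ E)^[i] (⟨k⟩, F) = c at *
      obtain ⟨⟨j⟩, G⟩ := c
      unfold loop_step
      split_ifs with h
      · exact ⟨a1, Or.inl h, a3, a4, a5, a6⟩
      · dsimp only at *
        obtain ⟨b1, b2, b3, b4⟩ := loop_num (not_lt.1 h)
        obtain ⟨-, c2, c3, c4⟩ := hv2 n j (loop_t j) E G hn (not_lt.1 h) (loop_t_spec j).1 (loop_t_spec j).2 a3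
          (hW.mono a4) a5 _ rfl
        have e : (G.filter fun e => decide (e ∈ hv (⟨n⟩, ⟨j⟩, loop_t j, E, G))).toFinset =
            (hv (⟨n⟩, ⟨j⟩, loop_t j, E, G)).toFinset := by
          ext e
          simp only [List.mem_toFinset, List.mem_filter, decide_eq_true_eq]
          exact ⟨fun h => h.2, fun h => ⟨c2 h, h⟩⟩
        rw [e]
        refine ⟨b1, Or.inr (by omega), a3.filter _,
          fun e he => a4 (List.mem_toFinset.2 (c2 (List.mem_toFinset.1 he))), c3 _ b3, fun S => ?_⟩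
        refine (c4 S).trans ((mul_le_mul_of_nonneg_left (a6 S) (by positivity)).trans ?_)
        rw [← mul_assoc, ← mul_div_assoc]
        gcongr
  obtain ⟨a1, a2, a3, a4, a5, a6⟩ := key k _ rfl
  dsimp only at hT
  generalize (loop_step hv ⟨n⟩ E)^[k] (⟨k⟩, F) = c at *
  obtain ⟨b1, b2, b3, b4⟩ := tr2 n E c.2 hn a3 (hW.mono a4) (a5.mono (Subset.refl _) a1)
  rw [hT] at b1 b2 b3 b4
  refine ⟨b1.trans a4, b2, b3, b4, fun S => ?_⟩
  have c1 : (cut (src E) (tgt E) T.toFinset S : ℝ) ≤ cut (src E) (tgt E) c.2.toFinset S := by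
    exact_mod_cast card_le_card (filter_subset_filter _ b1)
  have c2 : (c.1.n : ℝ) ≤ (10 ^ 4) ^ 120 := by
    have d1 : (loop_t c.1.n + 1) ^ 120 ≤ (10 ^ 4) ^ 120 := Nat.pow_le_pow_left (by omega) _
    exact_mod_cast (loop_t_spec c.1.n).2.le.trans d1
  have c3 : 1200000 / (loop_t c.1.n : ℝ) ≤ 1200000 := by
    rcases Nat.eq_zero_or_pos (loop_t c.1.n) with h | h
    · simp [h]
    · exact div_le_self (by norm_num) (by exact_mod_cast h)
  refine c1.trans ((a6 S).trans ?_)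
  gcongr

end Crest.Agent.R37
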