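import Crest.Agent.R37.Loop
import Crest.Prelude.Def_MultigraphCut
import Crest.Prelude.Def_Complexity

/-!
# R37/Main: the two statements
-/

set_option autoImplicit false
open Finset

namespace Crest.Agent.R37

open Crest.Agent.Lib.PT Crest.CombinatoricsR.Multigraph

/-! ### the algorithm -/

def main_K (N k : ℕ) : ℕ := min k (N * N)

def main_q (N k : ℕ) : ℕ := max 1 (k / (2 * (N * N)))

def main_mu (N k : ℕ) (l : List ℕ) (i j : ℕ) : ℕ := min (l.getD (i * N + j) 0 / main_q N k) (main_K N k)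

def main_E (N K : ℕ) : Gr := (List.range (N * N * (2 * K))).map fun e => (e / (2 * K) / N, e / (2 * K) % N)

def main_F (N K : ℕ) (μ : ℕ → ℕ → ℕ) : List ℕ :=
  (List.range (N * N * (2 * K))).filter fun e =>
    decide (e / (2 * K) / N < e / (2 * K) % N ∧ e % (2 * K) < 2 * μ (e / (2 * K) / N) (e / (2 * K) % N))

def main_out (N : ℕ) (E : Gr) (T : List ℕ) : List Bool :=
  (List.range (N * N)).map fun p => decide ((p / N, p % N) ∈ T.map fun e => E.getD e (0, 0))

def main_g (th : Un × Un × Gr × List ℕ → List ℕ) (N k : ℕ) (l : List ℕ) : List Bool :=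
  main_out N (main_E N (main_K N k))
    (th (⟨N⟩, ⟨main_K N k⟩, main_E N (main_K N k), main_F N (main_K N k) (main_mu N k l)))

def main_l (x : List Bool) : List ℕ := (parseList parseNat (parseNat (parseNat x).2).2).1

def main_f (th : Un × Un × Gr × List ℕ → List ℕ) (x : List Bool) : List Bool :=
  main_g th (min (parseNat x).1 (main_l x).length) (parseNat (parseNat x).2).1 (main_l x)

theorem main_E_pt {α : Type} [Enc α] {N K : α → ℕ} (hN : PT N) (hb : PB N) (hK : PT K) (hKb : PB K) :
    PT fun a => main_E (N a) (K a) := by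
  unfold main_E
  fun_prop

theorem main_F_pt {α : Type} [Enc α] {N K q : α → ℕ} {l : α → List ℕ} (hN : PT N) (hb : PB N) (hK : PT K)
    (hKb : PB K) (hq : PT q) (hl : PT l) :
    PT fun a => main_F (N a) (K a) fun i j => min ((l a).getD (i * N a + j) 0 / q a) (K a) := by
  unfold main_F
  fun_prop

theorem main_out_pt {α : Type} [Enc α] {N : α → ℕ} {E : α → Gr} {T : α → List ℕ} (hN : PT N) (hb : PB N)
    (hE : PT E) (hT : PT T) : PT fun a => main_out (N a) (E a) (T a) := by
  unfold main_out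
  fun_prop

theorem main_g_pt {α : Type} [Enc α] {th : Un × Un × Gr × List ℕ → List ℕ} (hth : PT th) {N k : α → ℕ}
    {l : α → List ℕ} (hN : PT N) (hb : PB N) (hk : PT k) (hl : PT l) :
    PT fun a => main_g th (N a) (k a) (l a) := by
  have hK : PT fun a => main_K (N a) (k a) := by
    unfold main_K
    fun_prop
  have hKb : PB fun a => main_K (N a) (k a) := (hb.mul hb).mono fun a => min_le_right _ _
  have hq : PT fun a => main_q (N a) (k a) := by
    unfold main_q
    fun_prop
  have hE := main_E_pt hN hb hK hKb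
  have hF := main_F_pt hN hb hK hKb hq hl
  exact main_out_pt hN hb hE (hth.comp ((hN.un_mk hb).pair ((hK.un_mk hKb).pair (hE.pair hF))))

theorem main_f_pt {th : Un × Un × Gr × List ℕ → List ℕ} (hth : PT th) : PT (main_f th) := by
  have hl : PT main_l := by
    unfold main_l
    exact (PT.parseList (p := fun _ => parseNat) (by fun_prop) (fun _ => shrinks_parseNat) (by fun_prop)).fst
  exact main_g_pt hth (by fun_prop) ((PB.length hl).mono fun a => min_le_right _ _) (by fun_prop) hl

/-- the table of multiplicities -/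
def main_tab {n : ℕ} (mult : Fin n → Fin n → ℕ) : List ℕ :=
  ((List.finRange n).map fun i => (List.finRange n).map fun j => mult i j).flatten

theorem main_getD_flatten (n : ℕ) (L : List (List ℕ)) (h : ∀ r ∈ L, r.length = n) (i j : ℕ) (hj : j < n) :
    L.flatten.getD (i * n + j) 0 = (L.getD i []).getD j 0 := by
  induction L generalizing i with
  | nil => simp
  | cons r L ih =>
    have hr : r.length = n := h r List.mem_cons_self
    cases i with
    | zero =>
      rw [List.flatten_cons, zero_mul, zero_add, List.getD_append _ _ _ _ (by omega), List.getD_cons_zero]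
    | succ i =>
      rw [List.flatten_cons, List.getD_append_right _ _ _ _ (by rw [hr]; nlinarith), List.getD_cons_succ,
        ← ih (fun r hr => h r (List.mem_cons_of_mem _ hr)) i, hr,
        show (i + 1) * n + j - n = i * n + j by rw [add_mul, one_mul]; omega]

theorem main_tab_getD {n : ℕ} (mult : Fin n → Fin n → ℕ) (i j : Fin n) :
    (main_tab mult).getD (i * n + j) 0 = mult i j := by
  rw [main_tab, main_getD_flatten n _ (by simp) i j j.2]
  simp [List.getD_eq_getElem?_getD]

theorem main_tab_length {n : ℕ} (mult : Fin n → Fin n → ℕ) : (main_tab mult).length = n * n := by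
  simp [main_tab, List.length_flatten, Function.comp_def]

theorem main_f_code (th : Un × Un × Gr × List ℕ → List ℕ) {n : ℕ} (k : ℕ) (mult : Fin n → Fin n → ℕ) :
    main_f th (multigraphCode n k mult) = main_g th n k (main_tab mult) := by
  have h1 : main_l (multigraphCode n k mult) = main_tab mult := by
    simp only [main_l, multigraphCode, List.append_assoc, parseNat_natCode, parseList_listCode', main_tab]
  rw [main_f, h1, main_tab_length]
  simp only [multigraphCode, List.append_assoc, parseNat_natCode]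
  rw [min_eq_left (Nat.le_mul_self n)]

/-! ### counting -/

theorem main_sum_range (N M : ℕ) (f : ℕ → ℕ → ℕ) :
    ∑ e ∈ range (N * M), f (e / M) (e % M) = ∑ p ∈ range N, ∑ r ∈ range M, f p r := by
  induction N with
  | zero => simp
  | succ N ih =>
    rw [add_mul, one_mul, sum_range_add, ih, sum_range_succ]
    congr 1
    refine sum_congr rfl fun r hr => ?_
    have hr' := mem_range.1 hr
    rw [mul_comm N M, Nat.mul_add_div (by omega), Nat.mul_add_mod, Nat.div_eq_of_lt hr', Nat.mod_eq_of_lt hr',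
      add_zero]

theorem main_getD_E {N K e : ℕ} (he : e < N * N * (2 * K)) :
    (main_E N K).getD e (0, 0) = (e / (2 * K) / N, e / (2 * K) % N) := by
  simp [main_E, List.getD_eq_getElem?_getD, he]

theorem main_mem_F {N K e : ℕ} {μ : ℕ → ℕ → ℕ} : e ∈ (main_F N K μ).toFinset ↔ e < N * N * (2 * K) ∧
    src (main_E N K) e < tgt (main_E N K) e ∧
      e % (2 * K) < 2 * μ (src (main_E N K) e) (tgt (main_E N K) e) := by
  simp only [main_F, List.mem_toFinset, List.mem_filter, List.mem_range, decide_eq_true_eq]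
  refine and_congr_right fun he => ?_
  rw [src, tgt, main_getD_E he]

theorem main_wf (N K : ℕ) (μ : ℕ → ℕ → ℕ) :
    WF (src (main_E N K)) (tgt (main_E N K)) N (main_F N K μ).toFinset := by
  intro e he
  obtain ⟨h1, h2, -⟩ := main_mem_F.1 he
  have hN : 0 < N := Nat.pos_of_ne_zero fun h => by simp [h] at h1
  have h3 : tgt (main_E N K) e < N := by
    rw [tgt, main_getD_E h1]
    exact Nat.mod_lt _ hN
  exact ⟨h2.trans h3, h3, h2.ne⟩

theorem main_card (N K : ℕ) {μ : ℕ → ℕ → ℕ} (hμ : ∀ i j, μ i j ≤ K) (P : ℕ → ℕ → Prop)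
    [∀ i j, Decidable (P i j)] :
    ((main_F N K μ).toFinset.filter fun e => P (src (main_E N K) e) (tgt (main_E N K) e)).card =
      ∑ i ∈ range N, ∑ j ∈ range N, if i < j ∧ P i j then 2 * μ i j else 0 := by
  have h1 : ((main_F N K μ).toFinset.filter fun e => P (src (main_E N K) e) (tgt (main_E N K) e)) =
      (range (N * N * (2 * K))).filter fun e => (e / (2 * K) / N < e / (2 * K) % N ∧
        P (e / (2 * K) / N) (e / (2 * K) % N)) ∧ e % (2 * K) < 2 * μ (e / (2 * K) / N) (e / (2 * K) % N) := by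
    ext e
    rw [mem_filter, mem_filter, main_mem_F, mem_range, and_assoc]
    refine and_congr_right fun he => ?_
    rw [src, tgt, main_getD_E he]
    tauto
  rw [h1, card_filter, main_sum_range (N * N) (2 * K) fun p r =>
      if (p / N < p % N ∧ P (p / N) (p % N)) ∧ r < 2 * μ (p / N) (p % N) then 1 else 0,
    main_sum_range N N fun i j => ∑ r ∈ range (2 * K), if (i < j ∧ P i j) ∧ r < 2 * μ i j then 1 else 0]
  refine sum_congr rfl fun i _ => sum_congr rfl fun j _ => ?_
  by_cases h : i < j ∧ P i j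
  · simp only [h, true_and, if_true]
    rw [← card_filter]
    have : (range (2 * K)).filter (fun r => r < 2 * μ i j) = range (2 * μ i j) := by
      ext r
      have := hμ i j
      simp only [mem_filter, mem_range]
      omega
    rw [this, card_range]
  · simp [h]

/-- the vertices of `Fin n` in a set of natural numbers -/
def main_S (n : ℕ) (S : Finset ℕ) : Finset (Fin n) := univ.filter fun i => i.val ∈ S

theorem main_cut (N K : ℕ) {μ : ℕ → ℕ → ℕ} (hμ : ∀ i j, μ i j ≤ K)
    (hs : ∀ i < N, ∀ j < N, μ i j = μ j i) (S : Finset ℕ) :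
    cut (src (main_E N K)) (tgt (main_E N K)) (main_F N K μ).toFinset S =
      2 * ∑ i ∈ main_S N S, ∑ j ∈ (main_S N S)ᶜ, μ i j := by
  rw [cut, main_card N K hμ fun i j => ¬ (i ∈ S ↔ j ∈ S)]
  have h1 : ∑ i ∈ main_S N S, ∑ j ∈ (main_S N S)ᶜ, μ i j =
      ∑ i ∈ range N, ∑ j ∈ range N, if i ∈ S ∧ j ∉ S then μ i j else 0 := by
    rw [main_S, compl_filter, sum_filter, sum_range]
    refine sum_congr rfl fun i _ => ?_
    rw [sum_filter, sum_range]
    by_cases h : i.val ∈ S
    · simp only [h, true_and, if_true]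
    · simp [h]
  have h2 : ∑ i ∈ range N, ∑ j ∈ range N, (if i < j ∧ i ∉ S ∧ j ∈ S then μ i j else 0) =
      ∑ i ∈ range N, ∑ j ∈ range N, if j < i ∧ i ∈ S ∧ j ∉ S then μ i j else 0 := by
    rw [sum_comm]
    refine sum_congr rfl fun i hi => sum_congr rfl fun j hj => ?_
    rw [hs j (mem_range.1 hj) i (mem_range.1 hi)]
    exact if_congr (by tauto) rfl rfl
  have h3 : ∑ i ∈ range N, ∑ j ∈ range N, (if i ∈ S ∧ j ∉ S then μ i j else 0) =
      ∑ i ∈ range N, ∑ j ∈ range N, (if i < j ∧ i ∈ S ∧ j ∉ S then μ i j else 0) +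
        ∑ i ∈ range N, ∑ j ∈ range N, if j < i ∧ i ∈ S ∧ j ∉ S then μ i j else 0 := by
    simp only [← sum_add_distrib]
    refine sum_congr rfl fun i _ => sum_congr rfl fun j _ => ?_
    by_cases h : i ∈ S ∧ j ∉ S
    · have hij : i ≠ j := fun e => h.2 (e ▸ h.1)
      rcases lt_or_gt_of_ne hij with h' | h'
      · simp [h, h', h'.not_gt]
      · simp [h, h', h'.not_gt]
    · simp [h]
  rw [h1, h3, ← h2]
  simp only [← sum_add_distrib, mul_sum]
  refine sum_congr rfl fun i _ => sum_congr rfl fun j _ => ?_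
  by_cases h : i < j <;> by_cases hi : i ∈ S <;> by_cases hj : j ∈ S <;> simp [h, hi, hj]

theorem main_pc {s t : ℕ → ℕ} {n K : ℕ} {F : Finset ℕ} (hF : WF s t n F)
    (h : ∀ S : Finset ℕ, (main_S n S).Nonempty → main_S n S ≠ univ → 2 * K ≤ cut s t F S) :
    PC s t K F (range n) := by
  intro c
  rcases le_or_gt ((range n).image c).card 1 with h1 | h1
  · rw [Nat.sub_eq_zero_of_le h1, mul_zero]
    exact Nat.zero_le _
  · have h2 := sum_cut_eq hF c
    have h3 : ((range n).image c).card • (2 * K) ≤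
        ∑ a ∈ (range n).image c, cut s t F ((range n).filter fun v => c v = a) := by
      refine card_nsmul_le_sum _ _ _ fun a ha => h _ ?_ ?_
      · obtain ⟨v, hv, rfl⟩ := mem_image.1 ha
        exact ⟨⟨v, mem_range.1 hv⟩, mem_filter.2 ⟨mem_univ _, mem_filter.2 ⟨hv, rfl⟩⟩⟩
      · obtain ⟨b, hb, hba⟩ := exists_mem_ne h1 a
        obtain ⟨v, hv, rfl⟩ := mem_image.1 hb
        intro hu
        have : (⟨v, mem_range.1 hv⟩ : Fin n) ∈ main_S n ((range n).filter fun v => c v = a) :=
          hu ▸ mem_univ _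
        exact hba (mem_filter.1 (mem_filter.1 this).2).2
    rw [h2, smul_eq_mul] at h3
    have h4 : K * (((range n).image c).card - 1) ≤ K * ((range n).image c).card :=
      Nat.mul_le_mul_left _ (Nat.sub_le _ _)
    nlinarith

/-! ### scaling -/

theorem main_q_pos (n k : ℕ) : 0 < main_q n k := lt_of_lt_of_le one_pos (le_max_left _ _)

theorem main_kq {n k : ℕ} (hn : 1 ≤ n) : k ≤ 4 * main_q n k * main_K n k := by
  have hq := main_q_pos n k
  rcases le_total k (n * n) with h | h
  · rw [main_K, min_eq_left h]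
    nlinarith
  · rw [main_K, min_eq_right h]
    have h1 : 0 < 2 * (n * n) := by positivity
    have h2 := Nat.lt_div_mul_add (a := k) h1
    have h3 : k / (2 * (n * n)) ≤ main_q n k := le_max_right _ _
    have h4 := Nat.mul_le_mul_right (2 * (n * n)) h3
    have h5 := Nat.mul_le_mul_right (2 * (n * n)) hq
    nlinarith

theorem main_low {n k : ℕ} (m : Fin n → Fin n → ℕ) (S : Finset (Fin n)) (h : k ≤ ∑ i ∈ S, ∑ j ∈ Sᶜ, m i j) :
    main_K n k ≤ ∑ i ∈ S, ∑ j ∈ Sᶜ, min (m i j / main_q n k) (main_K n k) := by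
  by_cases h1 : ∃ i ∈ S, ∃ j ∈ Sᶜ, main_K n k ≤ m i j / main_q n k
  · obtain ⟨i, hi, j, hj, h1⟩ := h1
    calc main_K n k = min (m i j / main_q n k) (main_K n k) := (min_eq_right h1).symm
      _ ≤ ∑ j ∈ Sᶜ, min (m i j / main_q n k) (main_K n k) :=
          single_le_sum (f := fun j => min (m i j / main_q n k) (main_K n k)) (fun _ _ => Nat.zero_le _) hj
      _ ≤ _ := single_le_sum (f := fun i => ∑ j ∈ Sᶜ, min (m i j / main_q n k) (main_K n k))
          (fun _ _ => Nat.zero_le _) hi
  · push Not at h1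
    rw [sum_congr rfl fun i hi => sum_congr rfl fun j hj => min_eq_left (h1 i hi j hj).le]
    have hq := main_q_pos n k
    rcases le_total (k / (2 * (n * n))) 1 with h2 | h2
    · have : main_q n k = 1 := max_eq_left h2
      simp only [this, Nat.div_one]
      exact (min_le_left _ _).trans h
    · have h3 : main_q n k * (2 * (n * n)) ≤ k := by
        rw [main_q, max_eq_right h2]
        exact Nat.div_mul_le_self _ _
      have h4 : ∑ i ∈ S, ∑ j ∈ Sᶜ, m i j ≤ ∑ i ∈ S, ∑ j ∈ Sᶜ, (m i j / main_q n k * main_q n k + main_q n k) :=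
        sum_le_sum fun i _ => sum_le_sum fun j _ => (Nat.lt_div_mul_add hq).le
      simp only [sum_add_distrib, ← sum_mul, sum_const, smul_eq_mul] at h4
      have h5 : S.card ≤ n := (card_le_univ _).trans (Fintype.card_fin n).le
      have h6 : Sᶜ.card ≤ n := (card_le_univ _).trans (Fintype.card_fin n).le
      have h7 : S.card * Sᶜ.card * main_q n k ≤ n * n * main_q n k :=
        Nat.mul_le_mul_right _ (Nat.mul_le_mul h5 h6)
      refine (min_le_right _ _).trans (Nat.le_of_mul_le_mul_right ?_ hq)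
      nlinarith

/-! ### the output -/

theorem main_mem_out {n : ℕ} (E : Gr) (T : List ℕ) (p : Fin n × Fin n) :
    p ∈ decodePairs n (main_out n E T) ↔ ∃ e ∈ T.toFinset, src E e = p.1 ∧ tgt E e = p.2 := by
  have h1 : (p.1 : ℕ) * n + p.2 < n * n := by
    have h1 := p.1.2
    have h2 := p.2.2
    nlinarith
  have h2 : ((p.1 : ℕ) * n + p.2) / n = p.1 := by
    rw [mul_comm, Nat.mul_add_div p.1.pos, Nat.div_eq_of_lt p.2.2, add_zero]
  have h3 : ((p.1 : ℕ) * n + p.2) % n = p.2 := by
    rw [mul_comm, Nat.mul_add_mod, Nat.mod_eq_of_lt p.2.2]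
  simp only [decodePairs, main_out, mem_filter, mem_univ, true_and, List.getD_eq_getElem?_getD,
    List.getElem?_map, List.getElem?_range h1, Option.map_some, Option.getD_some, decide_eq_true_eq, h2, h3,
    List.mem_map, List.mem_toFinset, src, tgt, Prod.ext_iff]

theorem main_card_out {s t : ℕ → ℕ} {n : ℕ} {F : Finset ℕ} (hF : WF s t n F)
    (hi : ∀ e ∈ F, ∀ e' ∈ F, s(s e, t e) = s(s e', t e') → e = e') {T : Finset (Fin n × Fin n)}
    (hT : ∀ p, p ∈ T ↔ ∃ e ∈ F, s e = p.1 ∧ t e = p.2) (P : ℕ → ℕ → Prop) [∀ i j, Decidable (P i j)] :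
    (F.filter fun e => P (s e) (t e)).card = (T.filter fun p => P p.1 p.2).card := by
  refine card_bij (fun e he => (⟨s e, (hF e (mem_filter.1 he).1).1⟩, ⟨t e, (hF e (mem_filter.1 he).1).2.1⟩))
    (fun e he => ?_) (fun e he e' he' h => ?_) fun p hp => ?_
  · exact mem_filter.2 ⟨(hT _).2 ⟨e, (mem_filter.1 he).1, rfl, rfl⟩, (mem_filter.1 he).2⟩
  · simp only [Prod.mk.injEq, Fin.mk.injEq] at h
    exact hi e (mem_filter.1 he).1 e' (mem_filter.1 he').1 (by rw [h.1, h.2])
  · obtain ⟨h1, h2⟩ := mem_filter.1 hp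
    obtain ⟨e, he, h3, h4⟩ := (hT p).1 h1
    exact ⟨e, mem_filter.2 ⟨he, by rw [h3, h4]; exact h2⟩, Prod.ext (Fin.ext h3) (Fin.ext h4)⟩

theorem main_conn {s t : ℕ → ℕ} {n : ℕ} (hn : 1 ≤ n) {F : Finset ℕ} (hF : WF s t n F)
    (hc : PC s t 1 F (range n)) {T : Finset (Fin n × Fin n)}
    (hT : ∀ p, p ∈ T ↔ ∃ e ∈ F, s e = p.1 ∧ t e = p.2) : (adjGraph Prod.fst Prod.snd T).Connected := by
  have : Nonempty (Fin n) := ⟨⟨0, hn⟩⟩
  refine ⟨fun u v => ?_⟩
  obtain ⟨_, h⟩ := hc.conn le_rfl (fun w => ∃ h : w < n, (adjGraph Prod.fst Prod.snd T).Reachable u ⟨w, h⟩)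
    (fun e he _ _ => by
      obtain ⟨h1, h2, h3⟩ := hF e he
      have ha : (adjGraph Prod.fst Prod.snd T).Adj ⟨s e, h1⟩ ⟨t e, h2⟩ :=
        ⟨fun h => h3 (congrArg Fin.val h), (⟨s e, h1⟩, ⟨t e, h2⟩), (hT _).2 ⟨e, he, rfl, rfl⟩,
          Or.inl ⟨rfl, rfl⟩⟩
      exact ⟨fun ⟨_, h⟩ => ⟨h2, h.trans ha.reachable⟩, fun ⟨_, h⟩ => ⟨h1, h.trans ha.symm.reachable⟩⟩)
    (mem_range.2 u.2) (mem_range.2 v.2) ⟨u.2, SimpleGraph.Reachable.refl _⟩
  exact h

/-- Parse `n`, `k` (`parseNat`) and the table `l` (`parseList parseNat`; `l.getD (i n + j) 0 = mult i j`); replace `n` by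
`min n l.length` to have it in unary (`l.length = n²`, `n ≥ 1`).  Let `q = max 1 (k / n²)`, `k' = min k (n² / 2 + 1)`,
`μ i j = min (mult i j / q) k'`.  Every nontrivial cut of `μ` is at least `k'` (if `q ≥ 2` then `k / q ≥ n²`, and at most `n² / 4`
pairs cross a cut) and at most `1 / q` times the cut of `mult`; `k ≤ 4 q k'`.  Let `E` list every pair `(i, j)`, `i < j < n`,
`2 μ i j` times, `F = range E.length`.  It is `k'`-PC by `sum_cut_eq`.  Output the bits
`(range (n n)).map fun p => ∃ e ∈ th (n, k', E, F), E.getD e = (p / n, p % n)`.  Connectivity of `adjGraph` follows from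
`PC.conn` (with `P v :=` reachable from `0`); the map `e ↦ (src e, tgt e)` is injective on the tree.  The constant is `8 C`. -/
theorem algorithm :
    ∃ C : ℝ, 0 < C ∧ ∃ f : List Bool → List Bool, Crest.Complexity.PolyTime f ∧
      ∀ (n k : ℕ) (mult : Fin n → Fin n → ℕ), 1 ≤ n → 1 ≤ k →
        (∀ i j, mult i j = mult j i) → (∀ i, mult i i = 0) →
        (∀ S : Finset (Fin n), S.Nonempty → S ≠ Finset.univ → k ≤ ∑ i ∈ S, ∑ j ∈ Sᶜ, mult i j) →
        ∀ T : Finset (Fin n × Fin n), T = decodePairs n (f (multigraphCode n k mult)) →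
          (∀ p ∈ T, p.1 < p.2 ∧ 1 ≤ mult p.1 p.2) ∧ T.card + 1 = n ∧
          (adjGraph Prod.fst Prod.snd T).Connected ∧
          ∀ S : Finset (Fin n), S.Nonempty → S ≠ Finset.univ →
            ((cutEdges Prod.fst Prod.snd T S).card : ℝ) ≤
              C / k * ((∑ i ∈ S, ∑ j ∈ Sᶜ, mult i j : ℕ) : ℝ) := by
  obtain ⟨C, hC, th, hth, H⟩ := exists_thin
  refine ⟨8 * C, by positivity, main_f th, PT.polyTime (main_f_pt hth), ?_⟩
  intro n k mult hn hk hsy _ hcut T hT
  rw [main_f_code, main_g] at hT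
  have hK : 1 ≤ main_K n k := le_min hk (Nat.mul_pos hn hn)
  have hq := main_q_pos n k
  have hμ : ∀ i j, main_mu n k (main_tab mult) i j ≤ main_K n k := fun _ _ => min_le_right _ _
  have hμ' : ∀ i j : Fin n, main_mu n k (main_tab mult) i j = min (mult i j / main_q n k) (main_K n k) :=
    fun i j => by rw [main_mu, main_tab_getD]
  have hs : ∀ i < n, ∀ j < n, main_mu n k (main_tab mult) i j = main_mu n k (main_tab mult) j i :=
    fun i hi j hj => by rw [hμ' ⟨i, hi⟩ ⟨j, hj⟩, hμ' ⟨j, hj⟩ ⟨i, hi⟩, hsy]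
  have hwf := main_wf n (main_K n k) (main_mu n k (main_tab mult))
  have hpc := main_pc (K := main_K n k) hwf fun S h1 h2 => by
    rw [main_cut n _ hμ hs]
    simp only [hμ']
    exact Nat.mul_le_mul_left _ (main_low mult _ (hcut _ h1 h2))
  have hnd : (main_F n (main_K n k) (main_mu n k (main_tab mult))).Nodup := List.nodup_range.filter _
  obtain ⟨h1, h2, h3, h4, h5⟩ := H n (main_K n k) _ _ hn hK hnd hwf hpc _ rfl
  generalize th (⟨n⟩, ⟨main_K n k⟩, main_E n (main_K n k),
    main_F n (main_K n k) (main_mu n k (main_tab mult))) = L at hT h1 h2 h3 h4 h5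
  have hmem : ∀ p, p ∈ T ↔ ∃ e ∈ L.toFinset, src (main_E n (main_K n k)) e = p.1 ∧
      tgt (main_E n (main_K n k)) e = p.2 := fun p => hT ▸ main_mem_out _ L p
  have hwf' := hwf.mono h1
  have hcard := main_card_out hwf' (fun e he e' he' => h4 e (List.mem_toFinset.1 he) e' (List.mem_toFinset.1 he'))
    hmem
  refine ⟨fun p hp => ?_, ?_, main_conn hn hwf' h3 hmem, fun S _ _ => ?_⟩
  · obtain ⟨e, he, h6, h7⟩ := (hmem p).1 hp
    obtain ⟨-, h8, h9⟩ := main_mem_F.1 (h1 he)
    rw [h6, h7] at h8 h9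
    refine ⟨h8, ?_⟩
    rw [hμ'] at h9
    have h10 : min (mult p.1 p.2 / main_q n k) (main_K n k) ≤ mult p.1 p.2 :=
      (min_le_left _ _).trans (Nat.div_le_self _ _)
    omega
  · have := hcard fun _ _ => True
    rw [filter_true, filter_true] at this
    rw [← this, h2]
  · have hS : main_S n (S.map Fin.valEmbedding) = S := by
      ext i
      simp [main_S, Fin.val_inj]
    have h6 : (cutEdges Prod.fst Prod.snd T S).card =
        cut (src (main_E n (main_K n k))) (tgt (main_E n (main_K n k))) L.toFinset (S.map Fin.valEmbedding) := by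
      rw [cut, hcard fun i j => ¬ (i ∈ S.map Fin.valEmbedding ↔ j ∈ S.map Fin.valEmbedding), cutEdges]
      refine congrArg card (filter_congr fun p _ => ?_)
      have e1 : ∀ i : Fin n, i.val ∈ S.map Fin.valEmbedding ↔ i ∈ S := fun i => mem_map' Fin.valEmbedding
      rw [e1, e1]
      tauto
    have h7 := h5 (S.map Fin.valEmbedding)
    rw [main_cut n _ hμ hs, hS] at h7
    have h8 : main_q n k * ∑ i ∈ S, ∑ j ∈ Sᶜ, main_mu n k (main_tab mult) i j ≤ ∑ i ∈ S, ∑ j ∈ Sᶜ, mult i j := by
      simp only [mul_sum, hμ']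
      exact sum_le_sum fun i _ => sum_le_sum fun j _ =>
        (Nat.mul_le_mul_left _ (min_le_left _ _)).trans (Nat.mul_div_le _ _)
    have h9 := main_kq (k := k) hn
    rw [h6]
    refine h7.trans ?_
    generalize ∑ i ∈ S, ∑ j ∈ Sᶜ, main_mu n k (main_tab mult) i j = a at h8 ⊢
    generalize ∑ i ∈ S, ∑ j ∈ Sᶜ, mult i j = b at h8 ⊢
    have h10 : k * a ≤ 4 * main_K n k * b := by
      calc k * a ≤ 4 * main_q n k * main_K n k * a := Nat.mul_le_mul_right _ h9
        _ = 4 * main_K n k * (main_q n k * a) := by ring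
        _ ≤ _ := Nat.mul_le_mul_left _ h8
    have h11 : (k : ℝ) * a ≤ 4 * main_K n k * b := by exact_mod_cast h10
    have hk' : (0 : ℝ) < k := by exact_mod_cast hk
    have hK' : (0 : ℝ) < main_K n k := by exact_mod_cast hK
    rw [div_mul_eq_mul_div, div_mul_eq_mul_div, div_le_div_iff₀ hK' hk']
    push_cast
    nlinarith

end Crest.Agent.R37
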