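import Crest.Agent.R37.OptM1

/-!
# R37/OptM: the convex programme (moves, lower bound)
-/

set_option autoImplicit false
open Finset Matrix

namespace Crest.Agent.R37

variable {s t : ℕ → ℕ} {n : ℕ} {F : Finset ℕ} {c c' : ℕ → ℕ → ℝ} {g g' : ℕ → ℝ} {lam : ℕ → ℕ}

/-- the demand part of the form -/
def optm_Q (n : ℕ) (c : ℕ → ℕ → ℝ) (x : Fin n → ℝ) : ℝ :=
  ∑ u ∈ range n, ∑ v ∈ range n, c u v * (bv n u v ⬝ᵥ x) ^ 2

theorem optm_qf (c : ℕ → ℕ → ℝ) (x : Fin n → ℝ) :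
    qf (Dm n s t F c) x = qL s t F (ext x) + ext x 0 ^ 2 + optm_Q n c x := by
  simp only [qf_Dm, optm_Q, bv_dot]

theorem optm_Q_le (c : ℕ → ℕ → ℝ) (x : Fin n → ℝ) : optm_Q n c x ≤ qf (Dm n s t F c) x := by
  rw [optm_qf]
  have : 0 ≤ qL s t F (ext x) := sum_nonneg fun _ _ => sq_nonneg _
  nlinarith [sq_nonneg (ext x 0)]

theorem optm_sum_Q (hD : PD (Dm n s t F c)) (c' : ℕ → ℕ → ℝ) :
    ∑ e ∈ F, (lam e : ℝ) * optm_Q n c' ((Dm n s t F c)⁻¹ *ᵥ bv n (s e) (t e)) =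
      ∑ u ∈ range n, ∑ v ∈ range n, c' u v * gr n s t F lam c u v := by
  simp only [optm_Q, gr, mul_sum]
  rw [sum_comm]
  refine sum_congr rfl fun u _ => ?_
  rw [sum_comm]
  refine sum_congr rfl fun v _ => sum_congr rfl fun e _ => ?_
  rw [dot_mulVec_comm hD.inv.1]
  ring

theorem optm_parts (hF : WF s t n F) (hPC : PC s t 1 F (range n)) (h : Valid n s t F c g) {P : ℝ}
    (hFv : Fv n s t F lam c g ≤ P) :
    ∑ e ∈ F, (lam e : ℝ) * res (Dm n s t F c) (s e) (t e) ≤ P ∧ ∀ a ∈ F, 1 / (1 - g a) ≤ P := by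
  have h1 : 0 ≤ ∑ e ∈ F, (lam e : ℝ) * res (Dm n s t F c) (s e) (t e) :=
    sum_nonneg fun e _ => mul_nonneg (Nat.cast_nonneg _) (res_nonneg hF hPC h.c_nonneg _ _)
  have h2 : ∀ a ∈ F, 0 ≤ 1 / (1 - g a) := fun a ha =>
    one_div_nonneg.2 (sub_nonneg.2 (h.g_lt a ha).le)
  have h3 := sum_nonneg h2
  unfold Fv at hFv
  refine ⟨by linarith, fun a ha => ?_⟩
  have := single_le_sum h2 ha
  linarith

theorem optm_count (W : List ℕ) (hWF : ∀ a ∈ W, a ∈ F) (f : ℕ → ℝ) :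
    (W.map f).sum = ∑ a ∈ F, (W.count a : ℝ) * f a := by
  rw [Finset.sum_list_map_count]
  simp only [nsmul_eq_mul]
  refine sum_subset (fun a ha => hWF a (List.mem_toFinset.1 ha)) fun a _ ha => ?_
  rw [List.count_eq_zero_of_not_mem fun h => ha (List.mem_toFinset.2 h)]
  simp

theorem optm_up {x δ P : ℝ} (hx : 0 < x) (hδ : 0 ≤ δ) (h : δ ≤ x / 2) (hP : 1 / x ≤ P) :
    1 / (x - δ) ≤ 1 / x + δ * (1 / x ^ 2) + 2 * δ ^ 2 * P ^ 3 := by
  have h0 : 0 < x - δ := by linarith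
  have h1 : 1 / (x - δ) = 1 / x + δ * (1 / x ^ 2) + δ ^ 2 * (1 / x) ^ 2 * (1 / (x - δ)) := by
    field_simp
    ring
  have h2 : 1 / (x - δ) ≤ 2 * (1 / x) := by
    rw [mul_one_div, div_le_div_iff₀ h0 hx]
    linarith
  have h3 : (1 / x) ^ 3 ≤ P ^ 3 := pow_le_pow_left₀ (by positivity) hP 3
  have h4 := mul_le_mul_of_nonneg_left h2 (show 0 ≤ δ ^ 2 * (1 / x) ^ 2 by positivity)
  have h5 := mul_le_mul_of_nonneg_left h3 (show 0 ≤ 2 * δ ^ 2 by positivity)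
  rw [h1]
  nlinarith

theorem optm_down {x δ P : ℝ} (hx : 0 < x) (hδ : 0 ≤ δ) (hP : 1 / x ≤ P) :
    1 / (x + δ) ≤ 1 / x - δ / x ^ 2 + δ ^ 2 * P ^ 3 := by
  have h0 : 0 < x + δ := by linarith
  have h1 : 1 / (x + δ) = 1 / x - δ / x ^ 2 + δ ^ 2 * (1 / x) ^ 2 * (1 / (x + δ)) := by
    field_simp
    ring
  have h2 : 1 / (x + δ) ≤ 1 / x := one_div_le_one_div_of_le hx (by linarith)
  have h3 : (1 / x) ^ 3 ≤ P ^ 3 := pow_le_pow_left₀ (by positivity) hP 3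
  have h4 := mul_le_mul_of_nonneg_left h2 (show 0 ≤ δ ^ 2 * (1 / x) ^ 2 by positivity)
  have h5 := mul_le_mul_of_nonneg_left h3 (show 0 ≤ δ ^ 2 by positivity)
  rw [h1]
  nlinarith

theorem optm_single {M : Type} [AddCommMonoid M] {u v : ℕ} (hu : u < n) (hv : v < n)
    (f : ℕ → ℕ → M) :
    ∑ x ∈ range n, ∑ y ∈ range n, (if x = u ∧ y = v then f x y else 0) = f u v := by
  rw [sum_eq_single_of_mem u (mem_range.2 hu), sum_eq_single_of_mem v (mem_range.2 hv),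
    if_pos ⟨rfl, rfl⟩]
  · intro y _ hy
    exact if_neg fun h => hy h.2
  · intro x _ hx
    exact sum_eq_zero fun y _ => if_neg fun h => hx h.1

/-- Routing `τ` more along the walk `W`.  `1 / (1 - g a) ≤ Fv ≤ P`, `τ · count ≤ τ n ≤ (1 - g a) / 2`.
By `PD.qf_inv_add` the resistance part drops by `τ gr / (1 + τ res u v) ≥ τ gr - τ² gr · res u v`, with
`res u v ≤ n` and `gr ≤ Λ n` (`cs_psd` for `D⁻¹`).  For `0 ≤ δ ≤ x / 2`: `1 / (x - δ) ≤ 1/x + δ/x² + 2 δ²/x³`, and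
`∑_a count a = |W| ≤ n`. -/
theorem move_path (hF : WF s t n F) (hPC : PC s t 1 F (range n)) (h : Valid n s t F c g) (P τ : ℝ)
    (hP : 3 ≤ P) (hFv : Fv n s t F lam c g ≤ P) (hl : ∑ e ∈ F, (lam e : ℝ) ≤ P) (hn : (n : ℝ) ≤ P)
    (hτ : 0 ≤ τ) (hτ' : τ ≤ 1 / P ^ 3) {u v : ℕ} (hu : u < n) (hv : v < n) (W : List ℕ)
    (hW : W.length ≤ n) (hWF : ∀ a ∈ W, a ∈ F)
    (hWd : ∀ d, IsPM d → d u v ≤ (W.map fun a => d (s a) (t a)).sum)
    (hc' : ∀ x y, c' x y = c x y + if x = u ∧ y = v then τ else 0)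
    (hg' : ∀ a ∈ F, g' a = g a + τ * W.count a) :
    Valid n s t F c' g' ∧ Fv n s t F lam c' g' ≤ Fv n s t F lam c g -
      τ * (gr n s t F lam c u v - (W.map fun a => 1 / (1 - g a) ^ 2).sum) + τ ^ 2 * P ^ 6 := by
  have hD := pd_Dm hF hPC h.c_nonneg
  obtain ⟨hR, hB⟩ := optm_parts hF hPC h hFv
  have hP0 : 0 < P := by linarith
  have hx : ∀ a ∈ F, 0 < 1 - g a := fun a ha => sub_pos.2 (h.g_lt a ha)
  have hcount : ∀ a, (W.count a : ℝ) ≤ P := fun a =>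
    le_trans (by exact_mod_cast List.count_le_length.trans hW) hn
  have hδ : ∀ a ∈ F, τ * W.count a ≤ (1 - g a) / 2 := by
    intro a ha
    have h1 : τ * W.count a ≤ 1 / P ^ 3 * P :=
      mul_le_mul hτ' (hcount a) (Nat.cast_nonneg _) (by positivity)
    have h2 : 1 / P ≤ 1 - g a := (one_div_le (hx a ha) hP0).1 (hB a ha)
    have h3 : 1 / P ^ 3 * P ≤ 1 / P / 2 := by
      rw [div_mul_eq_mul_div, div_div, div_le_div_iff₀ (by positivity) (by positivity)]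
      nlinarith [mul_le_mul_of_nonneg_left hP (sq_nonneg P), mul_le_mul_of_nonneg_left hP hP0.le]
    linarith
  refine ⟨⟨fun x y => ?_, fun a ha => ?_, fun a ha => ?_, fun d hd => ?_⟩, ?_⟩
  · rw [hc']
    refine add_nonneg (h.c_nonneg x y) ?_
    split_ifs
    · exact hτ
    · exact le_rfl
  · rw [hg' a ha]
    exact add_nonneg (h.g_nonneg a ha) (by positivity)
  · rw [hg' a ha]
    linarith [hδ a ha, hx a ha]
  · have h1 := h.route d hd
    have h2 := mul_le_mul_of_nonneg_left (hWd d hd) hτ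
    rw [optm_count W hWF, mul_sum] at h2
    have h3 : ∑ x ∈ range n, ∑ y ∈ range n, c' x y * d x y =
        ∑ x ∈ range n, ∑ y ∈ range n, c x y * d x y + τ * d u v := by
      simp only [hc', add_mul, ite_mul, zero_mul, sum_add_distrib]
      rw [optm_single hu hv fun x y => τ * d x y]
    have h4 : ∑ a ∈ F, g' a * d (s a) (t a) = ∑ a ∈ F, g a * d (s a) (t a) +
        ∑ a ∈ F, τ * ((W.count a : ℝ) * d (s a) (t a)) := by
      rw [← sum_add_distrib]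
      refine sum_congr rfl fun a ha => ?_
      rw [hg' a ha]; ring
    linarith
  · have hD' : Dm n s t F c' = Dm n s t F c + τ • op (bv n u v) := by
      unfold Dm
      simp only [hc', add_smul, ite_smul, zero_smul, sum_add_distrib]
      rw [optm_single hu hv fun x y => τ • op (bv n x y), add_assoc]
    have hr0 := res_nonneg hF hPC h.c_nonneg u v
    have hr1 := (res_le hF hPC h.c_nonneg hu hv).trans hn
    have hgr0 : 0 ≤ gr n s t F lam c u v := sum_nonneg fun e _ => by positivity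
    have hgr1 : gr n s t F lam c u v ≤ P * P := by
      calc gr n s t F lam c u v
          ≤ ∑ e ∈ F, (lam e : ℝ) * res (Dm n s t F c) (s e) (t e) * res (Dm n s t F c) u v := by
            refine sum_le_sum fun e _ => ?_
            rw [mul_assoc]
            exact mul_le_mul_of_nonneg_left (cs_psd hD.inv.1 hD.inv.nonneg _ _) (Nat.cast_nonneg _)
        _ ≤ P * P := by
            rw [← sum_mul]
            exact mul_le_mul hR hr1 hr0 hP0.le
    have h1 : ∑ e ∈ F, (lam e : ℝ) * res (Dm n s t F c') (s e) (t e) =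
        ∑ e ∈ F, (lam e : ℝ) * res (Dm n s t F c) (s e) (t e) -
          τ * gr n s t F lam c u v / (1 + τ * res (Dm n s t F c) u v) := by
      unfold gr
      rw [mul_sum, sum_div, ← sum_sub_distrib]
      refine sum_congr rfl fun e _ => ?_
      unfold res
      rw [hD', hD.qf_inv_add hτ]
      ring
    have h2 : τ * gr n s t F lam c u v - τ ^ 2 * P ^ 3 ≤
        τ * gr n s t F lam c u v / (1 + τ * res (Dm n s t F c) u v) := by
      rw [le_div_iff₀ (by positivity)]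
      have a1 : gr n s t F lam c u v * res (Dm n s t F c) u v ≤ P * P * P :=
        mul_le_mul hgr1 hr1 hr0 (by positivity)
      have a2 := mul_le_mul_of_nonneg_left a1 (sq_nonneg τ)
      have a3 : 0 ≤ τ ^ 2 * P ^ 3 * (τ * res (Dm n s t F c) u v) := by positivity
      nlinarith
    have h3 : ∑ a ∈ F, 1 / (1 - g' a) ≤ ∑ a ∈ F, (1 / (1 - g a) +
        τ * ((W.count a : ℝ) * (1 / (1 - g a) ^ 2)) + 2 * τ ^ 2 * P ^ 4 * ((W.count a : ℝ) * 1)) := by
      refine sum_le_sum fun a ha => ?_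
      have a1 := optm_up (hx a ha) (by positivity) (hδ a ha) (hB a ha)
      have a2 := mul_le_mul_of_nonneg_left (hcount a)
        (show 0 ≤ 2 * τ ^ 2 * P ^ 3 * W.count a by positivity)
      rw [hg' a ha, ← sub_sub]
      nlinarith
    rw [sum_add_distrib, sum_add_distrib, ← mul_sum, ← mul_sum, ← optm_count W hWF,
      ← optm_count W hWF] at h3
    have h4 : (W.map fun _ => (1 : ℝ)).sum ≤ P := by
      simp only [List.map_const', List.sum_replicate, nsmul_eq_mul, mul_one]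
      exact le_trans (by exact_mod_cast hW) hn
    have h5 := mul_le_mul_of_nonneg_left h4 (show 0 ≤ 2 * τ ^ 2 * P ^ 4 by positivity)
    have h6 : P ^ 3 + 2 * P ^ 5 ≤ P ^ 6 := by
      have a1 : P ^ 3 ≤ P ^ 5 := pow_le_pow_right₀ (by linarith) (by norm_num)
      have a2 := mul_le_mul_of_nonneg_left hP (show 0 ≤ P ^ 5 by positivity)
      nlinarith
    have h7 := mul_le_mul_of_nonneg_left h6 (sq_nonneg τ)
    unfold Fv
    rw [h1]
    nlinarith

theorem optm_scale_res (hD : PD (Dm n s t F c)) (hD' : PD (Dm n s t F c')) (hc : ∀ u v, 0 ≤ c u v)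
    {τ : ℝ} (hτ : 0 ≤ τ) (hτ' : τ ≤ 1 / 2) (hc' : ∀ x y, c' x y = (1 - τ) * c x y)
    (b : Fin n → ℝ) : qf (Dm n s t F c')⁻¹ b ≤ qf (Dm n s t F c)⁻¹ b +
      (τ + 2 * τ ^ 2) * optm_Q n c ((Dm n s t F c)⁻¹ *ᵥ b) := by
  set φ := (Dm n s t F c)⁻¹ *ᵥ b with hφ
  set δ := (Dm n s t F c')⁻¹ *ᵥ b - φ with hδ
  have hψ : (Dm n s t F c')⁻¹ *ᵥ b = φ + δ := by rw [hδ]; abel
  have h1 : qf (Dm n s t F c') (φ + δ) = qf (Dm n s t F c')⁻¹ b := by
    rw [← hψ]; exact hD'.qf_inv_mulVec b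
  have h2 : b ⬝ᵥ φ + b ⬝ᵥ δ = qf (Dm n s t F c')⁻¹ b := by
    rw [← dotProduct_add, ← hψ]; rfl
  have h3 : b ⬝ᵥ φ = qf (Dm n s t F c)⁻¹ b := rfl
  have h4 : qf (Dm n s t F c') (φ + δ) = qf (Dm n s t F c) (φ + δ) - τ * optm_Q n c (φ + δ) := by
    have : optm_Q n c' (φ + δ) = (1 - τ) * optm_Q n c (φ + δ) := by
      simp only [optm_Q, hc', mul_sum, mul_assoc]
    rw [optm_qf, optm_qf, this]
    ring
  have h5 : Dm n s t F c *ᵥ φ = b := by
    rw [hφ, mulVec_mulVec, hD.mul_inv, one_mulVec]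
  have h6 : qf (Dm n s t F c) (φ + δ) = b ⬝ᵥ φ + 2 * (b ⬝ᵥ δ) + qf (Dm n s t F c) δ := by
    unfold qf
    rw [mulVec_add, add_dotProduct, dotProduct_add, dotProduct_add, dot_mulVec_comm hD.1 φ δ, h5,
      dotProduct_comm φ b, dotProduct_comm δ b]
    ring
  have h7 : τ * optm_Q n c (φ + δ) ≤ (τ + 2 * τ ^ 2) * optm_Q n c φ + optm_Q n c δ := by
    simp only [optm_Q, mul_sum, ← sum_add_distrib, dotProduct_add]
    refine sum_le_sum fun u _ => sum_le_sum fun v _ => ?_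
    generalize bv n u v ⬝ᵥ φ = p
    generalize bv n u v ⬝ᵥ δ = q
    have a1 : τ * (p + q) ^ 2 ≤ (τ + 2 * τ ^ 2) * p ^ 2 + q ^ 2 := by
      nlinarith [sq_nonneg (τ * p - q / 2), mul_nonneg (sub_nonneg.2 hτ') (sq_nonneg q)]
    nlinarith [mul_le_mul_of_nonneg_left a1 (hc u v)]
  have h8 := optm_Q_le (s := s) (t := t) (F := F) c δ
  linarith

/-- Scaling down.  Let `C = ∑ c u v • op (bv u v) ⪯ D`, `D' = D - τ C`, `φ = D⁻¹ b`, `ψ = D'⁻¹ b = φ + δ`.  Then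
`res' = 2 b ⬝ ψ - qf D' ψ = res - qf D δ + τ qf C (φ + δ)` and
`qf C (φ + δ) ≤ qf C φ / (1 - τ) + qf C δ / τ`, so `res' ≤ res + τ / (1 - τ) · qf C φ`; and
`τ / (1 - τ) ≤ τ + 2 τ²`.  For the barrier `1 / (x + δ) ≤ 1/x - δ/x² + δ²/x³`. -/
theorem move_scale (hF : WF s t n F) (hPC : PC s t 1 F (range n)) (h : Valid n s t F c g) (P τ : ℝ)
    (hP : 3 ≤ P) (hFv : Fv n s t F lam c g ≤ P) (hm : (F.card : ℝ) ≤ P)
    (hτ : 0 ≤ τ) (hτ' : τ ≤ 1 / P ^ 3)
    (hc' : ∀ x y, c' x y = (1 - τ) * c x y) (hg' : ∀ a ∈ F, g' a = (1 - τ) * g a) :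
    Valid n s t F c' g' ∧ Fv n s t F lam c' g' ≤ Fv n s t F lam c g -
      τ * (∑ a ∈ F, g a / (1 - g a) ^ 2 -
        ∑ u ∈ range n, ∑ v ∈ range n, c u v * gr n s t F lam c u v) + τ ^ 2 * P ^ 6 := by
  have hD := pd_Dm hF hPC h.c_nonneg
  obtain ⟨hR, hB⟩ := optm_parts hF hPC h hFv
  have hP0 : 0 < P := by linarith
  have hx : ∀ a ∈ F, 0 < 1 - g a := fun a ha => sub_pos.2 (h.g_lt a ha)
  have hτ2 : τ ≤ 1 / 2 := by
    refine hτ'.trans (one_div_le_one_div_of_le (by norm_num) ?_)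
    have : (3 : ℝ) ^ 3 ≤ P ^ 3 := pow_le_pow_left₀ (by norm_num) hP 3
    linarith
  have hτ1 : 0 ≤ 1 - τ := by linarith
  have hc0 : ∀ x y, 0 ≤ c' x y := fun x y => by
    rw [hc']; exact mul_nonneg hτ1 (h.c_nonneg x y)
  refine ⟨⟨hc0, fun a ha => ?_, fun a ha => ?_, fun d hd => ?_⟩, ?_⟩
  · rw [hg' a ha]
    exact mul_nonneg hτ1 (h.g_nonneg a ha)
  · rw [hg' a ha]
    nlinarith [mul_nonneg hτ (h.g_nonneg a ha), h.g_lt a ha]
  · have h1 := mul_le_mul_of_nonneg_left (h.route d hd) hτ1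
    simp only [mul_sum] at h1
    simp only [hc', mul_assoc]
    refine h1.trans (le_of_eq (sum_congr rfl fun a ha => ?_))
    rw [hg' a ha, mul_assoc]
  · have hD' := pd_Dm hF hPC hc0
    have h1 : ∑ e ∈ F, (lam e : ℝ) * res (Dm n s t F c') (s e) (t e) ≤
        ∑ e ∈ F, ((lam e : ℝ) * res (Dm n s t F c) (s e) (t e) + (τ + 2 * τ ^ 2) *
          ((lam e : ℝ) * optm_Q n c ((Dm n s t F c)⁻¹ *ᵥ bv n (s e) (t e)))) := by
      refine sum_le_sum fun e _ => ?_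
      have := mul_le_mul_of_nonneg_left (optm_scale_res hD hD' h.c_nonneg hτ hτ2 hc'
        (bv n (s e) (t e))) (Nat.cast_nonneg (α := ℝ) (lam e))
      unfold res
      linarith
    rw [sum_add_distrib, ← mul_sum, optm_sum_Q hD] at h1
    have h2 := (sum_gr_le (lam := lam) hF hPC h.c_nonneg).trans hR
    have h3 : ∑ a ∈ F, 1 / (1 - g' a) ≤
        ∑ a ∈ F, (1 / (1 - g a) - τ * (g a / (1 - g a) ^ 2) + τ ^ 2 * P ^ 3) := by
      refine sum_le_sum fun a ha => ?_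
      have a0 := h.g_nonneg a ha
      have a1 := optm_down (hx a ha) (mul_nonneg hτ a0) (hB a ha)
      have a2 : g a ^ 2 ≤ 1 := pow_le_one₀ a0 (h.g_lt a ha).le
      have a3 := mul_le_mul_of_nonneg_left a2 (show 0 ≤ τ ^ 2 * P ^ 3 by positivity)
      have a4 : 1 - g' a = 1 - g a + τ * g a := by rw [hg' a ha]; ring
      rw [a4, ← mul_div_assoc]
      nlinarith
    rw [sum_add_distrib, sum_sub_distrib, ← mul_sum, sum_const, nsmul_eq_mul] at h3
    have h4 := mul_le_mul_of_nonneg_right hm (show 0 ≤ τ ^ 2 * P ^ 3 by positivity)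
    have h5 := mul_le_mul_of_nonneg_left h2 (show 0 ≤ 2 * τ ^ 2 by positivity)
    have h6 : 2 * P + P ^ 4 ≤ P ^ 6 := by
      have a1 : P ^ 1 ≤ P ^ 5 := pow_le_pow_right₀ (by linarith) (by norm_num)
      have a2 : P ^ 4 ≤ P ^ 5 := pow_le_pow_right₀ (by linarith) (by norm_num)
      have a3 := mul_le_mul_of_nonneg_left hP (show 0 ≤ P ^ 5 by positivity)
      nlinarith
    have h7 := mul_le_mul_of_nonneg_left h6 (sq_nonneg τ)
    unfold Fv
    nlinarith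

/-- Tangent bound.  With `φ f = D⁻¹ b_f`, `PD.var` for `D'` gives
`res' f ≥ 2 res f - qf D' (φ f) = res f - ∑ (c' - c) u v (φ f u - φ f v)²`; for `f = e` test with `0.7 φ e`:
`2 res' e ≥ 2.8 res e - 0.98 qf D' (φ e) ≥ 0.8 res e + (2 res e - qf D' (φ e))`.  Convexity:
`1 / (1 - g') ≥ 1 / (1 - g) + (g' - g) / (1 - g)²`.  Finally
`∑ g' a / (1 - g a)² ≥ ∑ g' a d a ≥ ∑ c' d ≥ ∑ c' gr - ξ |F|` (`gr u u = 0`, `Valid.total_le`). -/
theorem lower_bound (hF : WF s t n F) (hPC : PC s t 1 F (range n)) (h : Valid n s t F c g)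
    (h' : Valid n s t F c' g') {ξ : ℝ} (hξ : 0 ≤ ξ) (hNS : NS n s t F lam c g ξ) {e : ℕ} (he : e ∈ F)
    (lam' : ℕ → ℕ) (h1 : lam' e = 2 * lam e) (h2 : ∀ f ∈ F, f ≠ e → lam' f = lam f) :
    Fv n s t F lam c g + 4 / 5 * lam e * res (Dm n s t F c) (s e) (t e) - ξ * (F.card + 1) ≤
      Fv n s t F lam' c' g' := by
  have hD := pd_Dm hF hPC h.c_nonneg
  have hD' := pd_Dm hF hPC h'.c_nonneg
  obtain ⟨d, hd, hd1, hd2, hd3⟩ := hNS
  have hx : ∀ a ∈ F, 0 < 1 - g a := fun a ha => sub_pos.2 (h.g_lt a ha)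
  have hq : ∀ b : Fin n → ℝ, qf (Dm n s t F c') ((Dm n s t F c)⁻¹ *ᵥ b) = qf (Dm n s t F c)⁻¹ b +
      optm_Q n c' ((Dm n s t F c)⁻¹ *ᵥ b) - optm_Q n c ((Dm n s t F c)⁻¹ *ᵥ b) := by
    intro b
    rw [← hD.qf_inv_mulVec, optm_qf, optm_qf]
    ring
  have a1 : ∑ f ∈ F, ((lam f : ℝ) * res (Dm n s t F c) (s f) (t f) +
      (if f = e then 4 / 5 * lam e * res (Dm n s t F c) (s e) (t e) else 0) -
      (lam f : ℝ) * optm_Q n c' ((Dm n s t F c)⁻¹ *ᵥ bv n (s f) (t f)) +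
      (lam f : ℝ) * optm_Q n c ((Dm n s t F c)⁻¹ *ᵥ bv n (s f) (t f))) ≤
      ∑ f ∈ F, (lam' f : ℝ) * res (Dm n s t F c') (s f) (t f) := by
    refine sum_le_sum fun f hf => ?_
    have b0 : bv n (s f) (t f) ⬝ᵥ (Dm n s t F c)⁻¹ *ᵥ bv n (s f) (t f) =
      qf (Dm n s t F c)⁻¹ (bv n (s f) (t f)) := rfl
    have b1 := hq (bv n (s f) (t f))
    have b2 : (0 : ℝ) ≤ lam f := Nat.cast_nonneg _
    unfold res
    split_ifs with hfe
    · subst hfe
      have b3 := hD'.var (bv n (s f) (t f)) ((7 / 10 : ℝ) • (Dm n s t F c)⁻¹ *ᵥ bv n (s f) (t f))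
      rw [qf_smul_vec, dotProduct_smul, smul_eq_mul, b0] at b3
      have b4 := hD'.nonneg ((Dm n s t F c)⁻¹ *ᵥ bv n (s f) (t f))
      have b5 : qf (Dm n s t F c)⁻¹ (bv n (s f) (t f)) +
          4 / 5 * qf (Dm n s t F c)⁻¹ (bv n (s f) (t f)) -
          optm_Q n c' ((Dm n s t F c)⁻¹ *ᵥ bv n (s f) (t f)) +
          optm_Q n c ((Dm n s t F c)⁻¹ *ᵥ bv n (s f) (t f)) ≤
          2 * qf (Dm n s t F c')⁻¹ (bv n (s f) (t f)) := by linarith
      have b6 := mul_le_mul_of_nonneg_left b5 b2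
      rw [h1]
      push_cast
      linarith
    · have b3 := hD'.var (bv n (s f) (t f)) ((Dm n s t F c)⁻¹ *ᵥ bv n (s f) (t f))
      rw [b0] at b3
      have b5 : qf (Dm n s t F c)⁻¹ (bv n (s f) (t f)) -
          optm_Q n c' ((Dm n s t F c)⁻¹ *ᵥ bv n (s f) (t f)) +
          optm_Q n c ((Dm n s t F c)⁻¹ *ᵥ bv n (s f) (t f)) ≤
          qf (Dm n s t F c')⁻¹ (bv n (s f) (t f)) := by linarith
      have b6 := mul_le_mul_of_nonneg_left b5 b2
      rw [h2 f hf hfe]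
      linarith
  rw [sum_add_distrib, sum_sub_distrib, sum_add_distrib, optm_sum_Q hD, optm_sum_Q hD,
    sum_ite_eq' F e, if_pos he] at a1
  have a2 : ∑ a ∈ F, (1 / (1 - g a) + g' a * d (s a) (t a) - g a / (1 - g a) ^ 2) ≤
      ∑ a ∈ F, 1 / (1 - g' a) := by
    refine sum_le_sum fun a ha => ?_
    have b1 := mul_le_mul_of_nonneg_left (hd1 a ha) (h'.g_nonneg a ha)
    have b2 := hx a ha
    have b3 := sub_pos.2 (h'.g_lt a ha)
    have b4 : 1 / (1 - g' a) - (1 / (1 - g a) + g' a * (1 / (1 - g a) ^ 2) - g a / (1 - g a) ^ 2) =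
        (g' a - g a) ^ 2 / ((1 - g a) ^ 2 * (1 - g' a)) := by
      field_simp
      ring
    have b5 : 0 ≤ (g' a - g a) ^ 2 / ((1 - g a) ^ 2 * (1 - g' a)) := by positivity
    linarith
  rw [sum_sub_distrib, sum_add_distrib] at a2
  have a3 := h'.route d hd
  have a4 : ∑ u ∈ range n, ∑ v ∈ range n, c' u v * gr n s t F lam c u v ≤
      ∑ u ∈ range n, ∑ v ∈ range n, c' u v * d u v +
        ξ * ∑ u ∈ range n, ∑ v ∈ range n, (if u = v then 0 else c' u v) := by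
    simp only [mul_sum, ← sum_add_distrib]
    refine sum_le_sum fun u hu => sum_le_sum fun v hv => ?_
    split_ifs with huv
    · subst huv
      have : gr n s t F lam c u u = 0 := by simp [gr, bv]
      rw [this, hd.1]
      simp
    · have := mul_le_mul_of_nonneg_left (hd2 u (mem_range.1 hu) v (mem_range.1 hv))
        (h'.c_nonneg u v)
      linarith
  have a5 := mul_le_mul_of_nonneg_left h'.total_le hξ
  unfold Fv
  linarith

end Crest.Agent.R37
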