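import Crest.Agent.R37.Comb
import Crest.Agent.R37.LA

/-!
# R37/OptM1: the convex programme (moves, lower bound)
-/

set_option autoImplicit false
open Finset Matrix

namespace Crest.Agent.R37

variable {s t : ℕ → ℕ} {n : ℕ} {F : Finset ℕ} {c c' : ℕ → ℕ → ℝ} {g g' : ℕ → ℝ} {lam : ℕ → ℕ}

theorem optm1_qL (x : ℕ → ℝ) : 0 ≤ qL s t F x := sum_nonneg fun _ _ => sq_nonneg _

theorem optm1_dem (hc : ∀ u v, 0 ≤ c u v) (x : ℕ → ℝ) :
    0 ≤ ∑ u ∈ range n, ∑ v ∈ range n, c u v * (x u - x v) ^ 2 :=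
  sum_nonneg fun u _ => sum_nonneg fun v _ => mul_nonneg (hc u v) (sq_nonneg _)

theorem optm1_qf (hc : ∀ u v, 0 ≤ c u v) (x : Fin n → ℝ) :
    qL s t F (ext x) + ext x 0 ^ 2 ≤ qf (Dm n s t F c) x := by
  rw [qf_Dm]
  exact le_add_of_nonneg_right (optm1_dem hc _)

theorem optm1_qf' (hc : ∀ u v, 0 ≤ c u v) (x : Fin n → ℝ) :
    qL s t F (ext x) ≤ qf (Dm n s t F c) x :=
  (le_add_of_nonneg_right (sq_nonneg _)).trans (optm1_qf hc x)

theorem optm1_route (h : Valid n s t F c g) {d : ℕ → ℕ → ℝ} (hd : IsPM d) :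
    ∑ u ∈ range n, ∑ v ∈ range n, c u v * d u v ≤ ∑ a ∈ F, d (s a) (t a) :=
  (h.route d hd).trans (sum_le_sum fun a ha =>
    mul_le_of_le_one_left (hd.nonneg _ _) (h.g_lt a ha).le)

/-- `pd_of_coord`, `qf_Dm`, `Rel.sq_le`. -/
theorem pd_Dm (hF : WF s t n F) (hPC : PC s t 1 F (range n)) (hc : ∀ u v, 0 ≤ c u v) :
    PD (Dm n s t F c) := by
  refine pd_of_coord (Dm_symm s t F c) n (fun x i => ?_) fun x =>
    (optm1_qL _).trans (optm1_qf' hc x)
  rw [← ext_fin x i]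
  exact ((hPC.rel (mem_range.2 i.2) (mem_range.2 i.pos)).sq_le hF le_rfl i.2 _).trans
    (mul_le_mul_of_nonneg_left (optm1_qf hc x) (Nat.cast_nonneg n))

theorem res_nonneg (hF : WF s t n F) (hPC : PC s t 1 F (range n)) (hc : ∀ u v, 0 ≤ c u v)
    (u v : ℕ) : 0 ≤ res (Dm n s t F c) u v := (pd_Dm hF hPC hc).inv.nonneg _

/-- `PD.qf_inv_le` -/
theorem res_le_one (hF : WF s t n F) (hPC : PC s t 1 F (range n)) (hc : ∀ u v, 0 ≤ c u v)
    {e : ℕ} (he : e ∈ F) : res (Dm n s t F c) (s e) (t e) ≤ 1 := by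
  refine (pd_Dm hF hPC hc).qf_inv_le zero_le_one fun x => ?_
  rw [bv_dot, one_mul]
  exact (single_le_sum (f := fun e => (ext x (s e) - ext x (t e)) ^ 2) (fun _ _ => sq_nonneg _)
    he).trans (optm1_qf' hc x)

/-- `PD.qf_inv_le`, `Rel.sq_sub_le` -/
theorem res_le (hF : WF s t n F) (hPC : PC s t 1 F (range n)) (hc : ∀ u v, 0 ≤ c u v)
    {u v : ℕ} (hu : u < n) (hv : v < n) : res (Dm n s t F c) u v ≤ n := by
  refine (pd_Dm hF hPC hc).qf_inv_le (Nat.cast_nonneg n) fun x => ?_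
  rw [bv_dot]
  refine ((hPC.rel (mem_range.2 hu) (mem_range.2 hv)).sq_sub_le hF le_rfl hu _).trans ?_
  exact mul_le_mul (by linarith) (optm1_qf' hc x) (optm1_qL _) (Nat.cast_nonneg n)

theorem valid_zero : Valid n s t F (fun _ _ => 0) (fun _ => 0) := by
  exact ⟨fun _ _ => le_rfl, fun _ _ => le_rfl, fun _ _ => zero_lt_one, fun d _ => by simp⟩

theorem Fv_zero_le (hF : WF s t n F) (hPC : PC s t 1 F (range n)) :
    Fv n s t F lam (fun _ _ => 0) (fun _ => 0) ≤ ∑ e ∈ F, (lam e : ℝ) + F.card := by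
  unfold Fv
  refine add_le_add (sum_le_sum fun e he => mul_le_of_le_one_right (Nat.cast_nonneg _)
    (res_le_one hF hPC (fun _ _ => le_rfl) he)) (by simp)

theorem Fv_nonneg (hF : WF s t n F) (hPC : PC s t 1 F (range n)) (h : Valid n s t F c g) :
    0 ≤ Fv n s t F lam c g := by
  refine add_nonneg (sum_nonneg fun e _ => mul_nonneg (Nat.cast_nonneg _)
    (res_nonneg hF hPC h.c_nonneg _ _)) (sum_nonneg fun a ha => ?_)
  exact div_nonneg zero_le_one (sub_nonneg.2 (h.g_lt a ha).le)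

/-- With `φ e = D⁻¹ b_e`: `∑ c u v (φ e u - φ e v)² ≤ qf D (φ e) = res e`. -/
theorem sum_gr_le (hF : WF s t n F) (hPC : PC s t 1 F (range n)) (hc : ∀ u v, 0 ≤ c u v) :
    ∑ u ∈ range n, ∑ v ∈ range n, c u v * gr n s t F lam c u v ≤
      ∑ e ∈ F, (lam e : ℝ) * res (Dm n s t F c) (s e) (t e) := by
  have hD := pd_Dm hF hPC hc
  have e1 : ∑ u ∈ range n, ∑ v ∈ range n, c u v * gr n s t F lam c u v =
      ∑ e ∈ F, (lam e : ℝ) * ∑ u ∈ range n, ∑ v ∈ range n, c u v *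
        (ext ((Dm n s t F c)⁻¹ *ᵥ bv n (s e) (t e)) u -
          ext ((Dm n s t F c)⁻¹ *ᵥ bv n (s e) (t e)) v) ^ 2 := by
    simp only [gr, mul_sum]
    rw [sum_comm (s := F)]
    refine sum_congr rfl fun u _ => ?_
    rw [sum_comm (s := F)]
    refine sum_congr rfl fun v _ => sum_congr rfl fun e _ => ?_
    rw [dot_mulVec_comm hD.inv.1, bv_dot, mul_left_comm]
  rw [e1]
  refine sum_le_sum fun e _ => mul_le_mul_of_nonneg_left ?_ (Nat.cast_nonneg _)
  rw [res, ← hD.qf_inv_mulVec, qf_Dm]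
  exact le_add_of_nonneg_left (add_nonneg (optm1_qL _) (sq_nonneg _))

/-- Routable demands are dominated on cuts (cut metric of `S`). -/
theorem Valid.cut_le (h : Valid n s t F c g) (S : Finset ℕ) :
    ∑ u ∈ range n, ∑ v ∈ range n,
      c u v * ((if u ∈ S then (1 : ℝ) else 0) - (if v ∈ S then 1 else 0)) ^ 2 ≤
      (cut s t F S : ℝ) := by
  rw [← qL_indicator]
  refine optm1_route h (d := fun u v =>
    ((if u ∈ S then (1 : ℝ) else 0) - (if v ∈ S then 1 else 0)) ^ 2)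
    ⟨fun u => by simp, fun u v => by ring, fun u v w => ?_⟩
  beta_reduce
  split_ifs <;> norm_num

/-- The total demand is at most `|F|` (discrete metric). -/
theorem Valid.total_le (h : Valid n s t F c g) :
    ∑ u ∈ range n, ∑ v ∈ range n, (if u = v then 0 else c u v) ≤ F.card := by
  have := optm1_route h (d := fun u v => if u = v then 0 else 1)
    ⟨fun u => by simp, fun u v => by simp [eq_comm], fun u v w => by
      beta_reduce
      split_ifs <;> simp_all⟩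
  simp only [mul_ite, mul_zero, mul_one] at this
  refine this.trans ((sum_le_card_nsmul F _ 1 fun a _ => ?_).trans (by simp))
  split_ifs <;> norm_num

end Crest.Agent.R37
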