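import Crest.Agent.R37.EntM
import Crest.Agent.R37.Sweep
import Crest.Agent.R37.Canon

/-!
# R37/Piece: a hierarchy of well connected pieces with small resistances
-/

set_option autoImplicit false
open Finset Matrix

namespace Crest.Agent.R37

open Crest.Agent.Lib.PT

section alg
variable (cn : Un × ℕ × Gr × List ℕ → List ℕ) (sw : Mat → Mat × Vec × Bool)

/-- the list of the roots -/
def piece_roots (n j : ℕ) (E : Gr) (H : List ℕ) : List ℕ :=
  (List.range n).filter fun v => decide ((cn (⟨n⟩, j, E, H)).getD v 0 = v)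

/-- the grounded Laplacian -/
def piece_mat (n j : ℕ) (E : Gr) (H : List ℕ) : Mat :=
  sumOp n (H.map (fun e => ((1 : ℚ), bvL n (src E e) (tgt E e))) ++
    (piece_roots cn n j E H).map fun r => ((1 : ℚ), evL n r))

/-- the edges of large resistance -/
def piece_bad (n j A : ℕ) (E : Gr) (H : List ℕ) : List ℕ :=
  H.filter fun e => decide (1 < (A : ℚ) * bil n (sw (piece_mat cn n j E H)).1
    (bvL n (src E e) (tgt E e)) (bvL n (src E e) (tgt E e)))

/-- the edges inside the classes -/
def piece_tidy (n j : ℕ) (E : Gr) (H : List ℕ) : List ℕ :=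
  H.filter fun f =>
    decide ((cn (⟨n⟩, j, E, H)).getD (src E f) 0 = (cn (⟨n⟩, j, E, H)).getD (tgt E f) 0)

/-- one round -/
def piece_step (n j A : ℕ) (E : Gr) (H : List ℕ) : List ℕ :=
  if piece_bad cn sw n j A E H = [] then H
  else piece_tidy cn n j E (H.erase ((piece_bad cn sw n j A E H).headD 0))

/-- the algorithm -/
def piece_run (p : Un × ℕ × ℕ × Gr × List ℕ) : List ℕ :=
  (piece_step cn sw p.1.n p.2.1 p.2.2.1 p.2.2.2.1)^[p.2.2.2.2.length] p.2.2.2.2

theorem piece_step_sublist (n j A : ℕ) (E : Gr) (H : List ℕ) :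
    (piece_step cn sw n j A E H).Sublist H := by
  unfold piece_step
  split_ifs
  · exact List.Sublist.refl _
  · exact List.filter_sublist.trans List.erase_sublist

theorem piece_iter_sublist (n j A : ℕ) (E : Gr) (F : List ℕ) (m : ℕ) :
    ((piece_step cn sw n j A E)^[m] F).Sublist F := by
  induction m with
  | zero => exact List.Sublist.refl _
  | succ m ih =>
    rw [Function.iterate_succ_apply']
    exact (piece_step_sublist cn sw n j A E _).trans ih

theorem piece_head_mem {n j A : ℕ} {E : Gr} {H : List ℕ} (h : piece_bad cn sw n j A E H ≠ []) :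
    (piece_bad cn sw n j A E H).headD 0 ∈ piece_bad cn sw n j A E H := by
  generalize piece_bad cn sw n j A E H = l at h
  cases l with
  | nil => exact absurd rfl h
  | cons a l => simp

theorem piece_iter_len (n j A : ℕ) (E : Gr) (F : List ℕ) (m : ℕ) :
    piece_bad cn sw n j A E ((piece_step cn sw n j A E)^[m] F) = [] ∨
      ((piece_step cn sw n j A E)^[m] F).length + m ≤ F.length := by
  induction m with
  | zero => right; simp
  | succ m ih =>
    rw [Function.iterate_succ_apply']
    generalize (piece_step cn sw n j A E)^[m] F = H at ih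
    by_cases hb : piece_bad cn sw n j A E H = []
    · left
      have : piece_step cn sw n j A E H = H := by unfold piece_step; rw [if_pos hb]
      rw [this]; exact hb
    · right
      have h1 := ih.resolve_left hb
      have h2 : (piece_bad cn sw n j A E H).headD 0 ∈ H :=
        List.mem_of_mem_filter (piece_head_mem cn sw hb)
      have h3 : (piece_step cn sw n j A E H).length ≤
          (H.erase ((piece_bad cn sw n j A E H).headD 0)).length := by
        unfold piece_step
        rw [if_neg hb]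
        exact List.filter_sublist.length_le
      rw [List.length_erase_of_mem h2] at h3
      have h4 : 0 < H.length := List.length_pos_of_mem h2
      omega

theorem piece_final_bad (n j A : ℕ) (E : Gr) (F : List ℕ) :
    piece_bad cn sw n j A E ((piece_step cn sw n j A E)^[F.length] F) = [] := by
  rcases piece_iter_len cn sw n j A E F F.length with h | h
  · exact h
  · have : (piece_step cn sw n j A E)^[F.length] F = [] := List.length_eq_zero_iff.1 (by omega)
    rw [this]; rfl

end alg

section pt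
variable {cn : Un × ℕ × Gr × List ℕ → List ℕ} {sw : Mat → Mat × Vec × Bool}
variable {α : Type} [Enc α] {n j A : α → ℕ} {E : α → Gr} {H : α → List ℕ}

theorem piece_cn_pt (hcn : PT cn) (hn : PT n) (hb : PB n) (hj : PT j) (hE : PT E) (hH : PT H) :
    PT fun a => cn (⟨n a⟩, j a, E a, H a) :=
  hcn.comp ((hn.un_mk hb).pair (hj.pair (hE.pair hH)))

theorem piece_roots_pt (hcn : PT cn) (hn : PT n) (hb : PB n) (hj : PT j) (hE : PT E)
    (hH : PT H) : PT fun a => piece_roots cn (n a) (j a) (E a) (H a) := by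
  unfold piece_roots
  have h1 := piece_cn_pt hcn hn hb hj hE hH
  refine PT.filter (hn.range hb) (PT.decide (PT.eq (PT.getD (h1.comp PT.id.fst) ?_ ?_) ?_))
  all_goals fun_prop

theorem piece_mat_pt (hcn : PT cn) (hn : PT n) (hb : PB n) (hj : PT j) (hE : PT E)
    (hH : PT H) : PT fun a => piece_mat cn (n a) (j a) (E a) (H a) := by
  unfold piece_mat
  have h1 := piece_roots_pt hcn hn hb hj hE hH
  refine sumOp_pt hn hb (PT.append (PT.map hH ?_) (PT.map h1 ?_))
  · exact (PT.const _).pair (bvL_pt (hn.comp PT.id.fst) (hb.comp PT.id.fst)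
      (src_pt (hE.comp PT.id.fst) PT.id.snd) (tgt_pt (hE.comp PT.id.fst) PT.id.snd))
  · exact (PT.const _).pair (evL_pt (hn.comp PT.id.fst) (hb.comp PT.id.fst) PT.id.snd)

theorem piece_bad_pt (hcn : PT cn) (hsw : PT sw) (hn : PT n) (hb : PB n) (hj : PT j) (hA : PT A)
    (hE : PT E) (hH : PT H) : PT fun a => piece_bad cn sw (n a) (j a) (A a) (E a) (H a) := by
  unfold piece_bad
  have h1 := (hsw.comp (piece_mat_pt hcn hn hb hj hE hH)).fst
  have h2 : PT fun q : α × ℕ => bvL (n q.1) (src (E q.1) q.2) (tgt (E q.1) q.2) :=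
    bvL_pt (hn.comp PT.id.fst) (hb.comp PT.id.fst)
      (src_pt (hE.comp PT.id.fst) PT.id.snd) (tgt_pt (hE.comp PT.id.fst) PT.id.snd)
  refine PT.filter hH (PT.decide (PT.rat_lt (PT.const _) (PT.rat_mul ?_ ?_)))
  · exact (hA.comp PT.id.fst).rat_natCast
  · exact bil_pt (hn.comp PT.id.fst) (hb.comp PT.id.fst) (h1.comp PT.id.fst) h2 h2

theorem piece_tidy_pt (hcn : PT cn) (hn : PT n) (hb : PB n) (hj : PT j) (hE : PT E)
    (hH : PT H) : PT fun a => piece_tidy cn (n a) (j a) (E a) (H a) := by
  unfold piece_tidy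
  have h1 := piece_cn_pt hcn hn hb hj hE hH
  refine PT.filter hH (PT.decide (PT.eq (PT.getD (h1.comp PT.id.fst) ?_ (PT.const _))
    (PT.getD (h1.comp PT.id.fst) ?_ (PT.const _))))
  · exact src_pt (hE.comp PT.id.fst) PT.id.snd
  · exact tgt_pt (hE.comp PT.id.fst) PT.id.snd

theorem piece_step_pt (hcn : PT cn) (hsw : PT sw) (hn : PT n) (hb : PB n) (hj : PT j) (hA : PT A)
    (hE : PT E) (hH : PT H) : PT fun a => piece_step cn sw (n a) (j a) (A a) (E a) (H a) := by
  unfold piece_step
  have h1 := piece_bad_pt hcn hsw hn hb hj hA hE hH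
  refine PT.ite (PT.eq h1 (PT.const _)) hH (piece_tidy_pt hcn hn hb hj hE (PT.erase hH ?_))
  fun_prop

theorem piece_run_pt (hcn : PT cn) (hsw : PT sw) : PT (piece_run cn sw) := by
  unfold piece_run
  refine PT.iterate (f := fun p : Un × ℕ × ℕ × Gr × List ℕ =>
      piece_step cn sw p.1.n p.2.1 p.2.2.1 p.2.2.2.1) (by fun_prop) (by fun_prop) (by fun_prop)
    (piece_step_pt hcn hsw (by fun_prop) (by fun_prop) (by fun_prop) (by fun_prop) (by fun_prop)
      (by fun_prop)) (B := fun p => sz p.2.2.2.2) (by fun_prop) fun p m _ => ?_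
  exact sz_sublist (piece_iter_sublist cn sw _ _ _ _ _ m)

end pt

section correct
variable {cn : Un × ℕ × Gr × List ℕ → List ℕ} {sw : Mat → Mat × Vec × Bool}

/-- the specification of the labelling algorithm -/
def piece_Cn (cn : Un × ℕ × Gr × List ℕ → List ℕ) : Prop :=
  ∀ (n j : ℕ) (E : Gr) (F : List ℕ), 1 ≤ j → F.Nodup → WF (src E) (tgt E) n F.toFinset →
      (cn (⟨n⟩, j, E, F)).length = n ∧
      ∀ u < n, (cn (⟨n⟩, j, E, F)).getD u 0 = can (src E) (tgt E) j F.toFinset u

/-- the specification of the inversion algorithm -/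
def piece_Sw (sw : Mat → Mat × Vec × Bool) : Prop :=
  ∀ C : Mat, (toM C.length C).IsSymm →
      ((sw C).2.2 = true → PD (toM C.length C) ∧ toM C.length (sw C).1 = (toM C.length C)⁻¹) ∧
      ((sw C).2.2 = false → toV C.length (sw C).2.1 ≠ 0 ∧
        qf (toM C.length C) (toV C.length (sw C).2.1) ≤ 0)

variable {n j A : ℕ} {E : Gr} {H : List ℕ}

theorem piece_inv_eq (hsw : piece_Sw sw) {C : Mat} (hC : C.length = n) (h : PD (toM n C)) :
    toM n (sw C).1 = (toM n C)⁻¹ := by
  subst hC
  obtain ⟨h1, h2⟩ := hsw C h.1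
  cases hb : (sw C).2.2 with
  | true => exact (h1 hb).2
  | false => exact absurd (h.2 _ (h2 hb).1) (not_lt.2 (h2 hb).2)

theorem piece_roots_eq (hcn : piece_Cn cn) (hj : 1 ≤ j) (hH : H.Nodup)
    (hW : WF (src E) (tgt E) n H.toFinset) :
    (piece_roots cn n j E H).toFinset = roots n (src E) (tgt E) j H.toFinset := by
  ext v
  simp only [piece_roots, roots, List.mem_toFinset, List.mem_filter, List.mem_range,
    decide_eq_true_eq, mem_filter, mem_range]
  refine and_congr_right fun hv => ?_
  rw [(hcn n j E H hj hH hW).2 v hv]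

theorem piece_roots_nodup : (piece_roots cn n j E H).Nodup :=
  List.nodup_range.filter _

theorem piece_mat_eq (hcn : piece_Cn cn) (hj : 1 ≤ j) (hH : H.Nodup)
    (hW : WF (src E) (tgt E) n H.toFinset) :
    toM n (piece_mat cn n j E H) =
      glap n (src E) (tgt E) H.toFinset (roots n (src E) (tgt E) j H.toFinset) := by
  rw [piece_mat, toM_sumOp, List.map_append, List.sum_append, List.map_map, List.map_map, glap, lap,
    ← piece_roots_eq hcn hj hH hW, List.sum_toFinset _ hH, List.sum_toFinset _ piece_roots_nodup]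
  congr 2
  · refine List.map_congr_left fun e _ => ?_
    simp
  · refine List.map_congr_left fun e _ => ?_
    simp

theorem piece_mem_bad (hcn : piece_Cn cn) (hsw : piece_Sw sw) (hj : 1 ≤ j) (hH : H.Nodup)
    (hW : WF (src E) (tgt E) n H.toFinset) {e : ℕ} :
    e ∈ piece_bad cn sw n j A E H ↔ e ∈ H ∧ 1 < A * res (glap n (src E) (tgt E) H.toFinset
      (roots n (src E) (tgt E) j H.toFinset)) (src E e) (tgt E e) := by
  have h1 := piece_mat_eq hcn hj hH hW
  have h2 : toM n (sw (piece_mat cn n j E H)).1 = (toM n (piece_mat cn n j E H))⁻¹ :=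
    piece_inv_eq hsw (by simp [piece_mat]) (h1 ▸ pd_roots hW hj)
  rw [piece_bad, List.mem_filter, decide_eq_true_eq]
  refine and_congr_right fun _ => ?_
  rw [← Rat.cast_lt (K := ℝ)]
  push_cast
  rw [cast_bil, h2, h1, toV_bvL]
  rfl

open Classical in
theorem piece_tidy_eq (hcn : piece_Cn cn) (hj : 1 ≤ j) (hH : H.Nodup)
    (hW : WF (src E) (tgt E) n H.toFinset) :
    (piece_tidy cn n j E H).toFinset =
      H.toFinset.filter fun f => Rel (src E) (tgt E) j H.toFinset (src E f) (tgt E f) := by
  ext f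
  simp only [piece_tidy, List.mem_toFinset, List.mem_filter, decide_eq_true_eq, mem_filter]
  refine and_congr_right fun hf => ?_
  obtain ⟨h1, h2, -⟩ := hW f (List.mem_toFinset.2 hf)
  rw [(hcn n j E H hj hH hW).2 _ h1, (hcn n j E H hj hH hW).2 _ h2, can_eq_iff]

theorem piece_toFinset_erase (hH : H.Nodup) (e : ℕ) :
    (H.erase e).toFinset = H.toFinset.erase e := by
  ext f
  simp only [List.mem_toFinset, mem_erase, hH.mem_erase_iff]

theorem piece_step_inv (hcn : piece_Cn cn) (hsw : piece_Sw sw) (hj : 2 ≤ j) (hH : H.Nodup)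
    (hW : WF (src E) (tgt E) n H.toFinset)
    (ht : ∀ e ∈ H.toFinset, Rel (src E) (tgt E) j H.toFinset (src E e) (tgt E e)) :
    (∀ e ∈ (piece_step cn sw n j A E H).toFinset,
      Rel (src E) (tgt E) j (piece_step cn sw n j A E H).toFinset (src E e) (tgt E e)) ∧
    entP n (src E) (tgt E) j A H.toFinset ≤
      entP n (src E) (tgt E) j A (piece_step cn sw n j A E H).toFinset := by
  classical
  have hj1 : 1 ≤ j := by omega
  unfold piece_step
  split_ifs with hb
  · exact ⟨ht, le_rfl⟩
  obtain ⟨he, hR⟩ := (piece_mem_bad hcn hsw hj1 hH hW).1 (piece_head_mem cn sw hb)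
  generalize (piece_bad cn sw n j A E H).headD 0 = e at he hR
  have hW' : WF (src E) (tgt E) n (H.erase e).toFinset := by
    rw [piece_toFinset_erase hH]
    exact hW.mono (erase_subset _ _)
  rw [piece_tidy_eq hcn hj1 (hH.erase e) hW', piece_toFinset_erase hH]
  refine ⟨fun f hf => rel_tidy.2 (mem_filter.1 hf).2, ?_⟩
  exact (entP_step hW hj ht A (List.mem_toFinset.2 he) hR).le

theorem piece_iter_inv (hcn : piece_Cn cn) (hsw : piece_Sw sw) (hj : 2 ≤ j) (hH : H.Nodup)
    (hW : WF (src E) (tgt E) n H.toFinset)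
    (ht : ∀ e ∈ H.toFinset, Rel (src E) (tgt E) j H.toFinset (src E e) (tgt E e)) (m : ℕ) :
    (∀ e ∈ ((piece_step cn sw n j A E)^[m] H).toFinset,
      Rel (src E) (tgt E) j ((piece_step cn sw n j A E)^[m] H).toFinset (src E e) (tgt E e)) ∧
    entP n (src E) (tgt E) j A H.toFinset ≤
      entP n (src E) (tgt E) j A ((piece_step cn sw n j A E)^[m] H).toFinset := by
  induction m with
  | zero => exact ⟨ht, le_rfl⟩
  | succ m ih =>
    rw [Function.iterate_succ_apply']
    have hs := piece_iter_sublist cn sw n j A E H m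
    have h1 := piece_step_inv (A := A) hcn hsw hj (hH.sublist hs)
      (hW.mono fun e he => List.mem_toFinset.2 (hs.subset (List.mem_toFinset.1 he))) ih.1
    exact ⟨h1.1, ih.2.trans h1.2⟩

theorem piece_bound {s t : ℕ → ℕ} {G : Finset ℕ} (hW : WF s t n G) (hj : 1 ≤ j) {e : ℕ}
    (he : e ∈ G) (hR : A * res (glap n s t G (roots n s t j G)) (s e) (t e) ≤ 1) (x : ℕ → ℝ) :
    A * (x (s e) - x (t e)) ^ 2 ≤ qL s t G x + ∑ r ∈ roots n s t j G, x r ^ 2 := by
  have hPD := pd_roots hW hj
  have h1 := hPD.sq_dot_le (bv n (s e) (t e)) (fun i : Fin n => x i)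
  have h0 := hPD.nonneg (fun i : Fin n => x i)
  have h2 : qf (glap n s t G (roots n s t j G)) (fun i : Fin n => x i) =
      qL s t G x + ∑ r ∈ roots n s t j G, x r ^ 2 := by
    rw [qf_glap]
    congr 1
    · refine sum_congr rfl fun f hf => ?_
      rw [ext_restrict x (hW f hf).1, ext_restrict x (hW f hf).2.1]
    · refine sum_congr rfl fun r hr => ?_
      rw [ext_restrict x (mem_range.1 (mem_filter.1 hr).1)]
  rw [bv_dot, ext_restrict x (hW e he).1, ext_restrict x (hW e he).2.1] at h1
  rw [← h2]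
  have hA : (0 : ℝ) ≤ A := Nat.cast_nonneg _
  calc (A : ℝ) * (x (s e) - x (t e)) ^ 2
      ≤ A * (res (glap n s t G (roots n s t j G)) (s e) (t e) *
          qf (glap n s t G (roots n s t j G)) (fun i : Fin n => x i)) :=
        mul_le_mul_of_nonneg_left h1 hA
    _ = (A * res (glap n s t G (roots n s t j G)) (s e) (t e)) *
          qf (glap n s t G (roots n s t j G)) (fun i : Fin n => x i) := by ring
    _ ≤ 1 * qf (glap n s t G (roots n s t j G)) (fun i : Fin n => x i) :=
        mul_le_mul_of_nonneg_right hR h0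
    _ = _ := one_mul _

end correct

/-- One piece.  Start with `H = F` (all its edges lie inside the one big class) and repeat `|F|` times: compute
the labels `cn (n, j, E, H)`, the roots, the inverse of `glap` (`sumOp`, `exists_sweep`, `pd_roots`); if some
`e ∈ H` has `A · res e > 1`, erase it and keep the edges whose ends have equal labels in the new graph.
Invariant: `H ⊆ F`, all edges inside classes (`rel_tidy`), `0 < entP H` if `2 ≤ |W|` (`entP_init`, `entP_step`), so
`H ≠ []` (`entP_empty`).  The list shrinks at each deletion.  At the end use `PD.sq_dot_le`. -/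
theorem exists_piece : ∃ pc : Un × ℕ × ℕ × Gr × List ℕ → List ℕ, PT pc ∧
    ∀ (n j A k : ℕ) (E : Gr) (F : List ℕ) (W : Finset ℕ), 2 ≤ j → 1 ≤ A → 2 * A ≤ k →
      (j : ℝ) + 2 * A * Real.log (2 * k + 1) < k → F.Nodup → WF (src E) (tgt E) n F.toFinset →
      W ⊆ range n → (∀ e ∈ F, src E e ∈ W ∧ tgt E e ∈ W) → PC (src E) (tgt E) k F.toFinset W →
      ∀ H : List ℕ, pc (⟨n⟩, j, A, E, F) = H →
      H.Nodup ∧ H ⊆ F ∧ (2 ≤ W.card → H ≠ []) ∧
      (∀ e ∈ H, Rel (src E) (tgt E) j H.toFinset (src E e) (tgt E e)) ∧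
      ∀ e ∈ H, ∀ x : ℕ → ℝ, A * (x (src E e) - x (tgt E e)) ^ 2 ≤
        qL (src E) (tgt E) H.toFinset x + ∑ r ∈ roots n (src E) (tgt E) j H.toFinset, x r ^ 2 := by
  obtain ⟨cn, hcn_pt, hcn⟩ := exists_canon
  obtain ⟨sw, hsw_pt, hsw⟩ := exists_sweep
  refine ⟨piece_run cn sw, piece_run_pt hcn_pt hsw_pt, ?_⟩
  intro n j A k E F W hj hA hAk hk hF hWF hWn hFW hPC H hH
  have hj1 : 1 ≤ j := by omega
  have hjk : j ≤ k := by
    have h1 : 0 ≤ Real.log (2 * k + 1) :=
      Real.log_nonneg (by have : (0 : ℝ) ≤ k := Nat.cast_nonneg _; linarith)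
    have h2 : (0 : ℝ) ≤ 2 * A * Real.log (2 * k + 1) := by positivity
    have h3 : (j : ℝ) ≤ k := by linarith
    exact_mod_cast h3
  have ht : ∀ e ∈ F.toFinset, Rel (src E) (tgt E) j F.toFinset (src E e) (tgt E e) := fun e he =>
    (hPC.mono Subset.rfl hjk).rel (hFW e (List.mem_toFinset.1 he)).1
      (hFW e (List.mem_toFinset.1 he)).2
  have hH' : (piece_step cn sw n j A E)^[F.length] F = H := hH
  have hs := piece_iter_sublist cn sw n j A E F F.length
  have hi := piece_iter_inv (A := A) hcn hsw hj hF hWF ht F.length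
  have hb := piece_final_bad cn sw n j A E F
  rw [hH'] at hs hi hb
  have hHn : H.Nodup := hF.sublist hs
  have hHW : WF (src E) (tgt E) n H.toFinset :=
    hWF.mono fun e he => List.mem_toFinset.2 (hs.subset (List.mem_toFinset.1 he))
  refine ⟨hHn, hs.subset, fun h2 h0 => ?_, fun e he => hi.1 e (List.mem_toFinset.2 he),
    fun e he x => ?_⟩
  · have h3 := entP_init hWF hj1 A hWn h2 (fun e he => hFW e (List.mem_toFinset.1 he)) hPC hAk hk
    have h4 := hi.2
    rw [h0, List.toFinset_nil, entP_empty hj1] at h4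
    linarith
  · refine piece_bound hHW hj1 (List.mem_toFinset.2 he) (not_lt.1 fun hR => ?_) x
    have := (piece_mem_bad hcn hsw hj1 hHn hHW).2 ⟨he, hR⟩
    rw [hb] at this
    exact List.not_mem_nil this

end Crest.Agent.R37
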