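import Crest.Agent.R37.Geo1

/-!
# R37/Prune: trimming a tree, clean centres and their sections
-/

set_option autoImplicit false
open Finset

namespace Crest.Agent.R37

variable {Y : Type} [NormedAddCommGroup Y] [NormedSpace ℝ Y] [DecidableEq Y]

/-- a rooted tree on a finite set -/
structure prune_Tree {Z : Type} (K : Finset Z) (o : Z) (p : Z → Z) (d : Z → ℕ) : Prop where
  oK : o ∈ K
  po : p o = o
  d0 : d o = 0
  mem : ∀ x ∈ K, p x ∈ K
  dep : ∀ x ∈ K, x ≠ o → d x = d (p x) + 1

/-- leaves -/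
def prune_L {Z : Type} [DecidableEq Z] (K : Finset Z) (o : Z) (p : Z → Z) : Finset Z :=
  K.filter fun x => x ≠ o ∧ ∀ y ∈ K, y ≠ o → p y ≠ x

/-- points with a sibling -/
def prune_B {Z : Type} [DecidableEq Z] (K : Finset Z) (o : Z) (p : Z → Z) : Finset Z :=
  K.filter fun c => c ≠ o ∧ ∃ y ∈ K, y ≠ o ∧ y ≠ c ∧ p y = p c

section tree
variable {Z : Type} {K : Finset Z} {o : Z} {p : Z → Z} {d : Z → ℕ}

theorem prune_Tree.it_mem (T : prune_Tree K o p d) {x : Z} (hx : x ∈ K) (i : ℕ) :
    p^[i] x ∈ K := by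
  induction i with
  | zero => exact hx
  | succ i ih => rw [Function.iterate_succ_apply']; exact T.mem _ ih

theorem prune_Tree.dep_par (T : prune_Tree K o p d) {x : Z} (hx : x ∈ K) :
    d (p x) = d x - 1 := by
  by_cases h : x = o
  · rw [h, T.po, T.d0]
  · have := T.dep x hx h
    omega

theorem prune_Tree.dep_it (T : prune_Tree K o p d) {x : Z} (hx : x ∈ K) (i : ℕ) :
    d (p^[i] x) = d x - i := by
  induction i with
  | zero => rfl
  | succ i ih =>
    rw [Function.iterate_succ_apply', T.dep_par (T.it_mem hx i), ih]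
    omega

theorem prune_Tree.eq_o (T : prune_Tree K o p d) {x : Z} (hx : x ∈ K) (h : d x = 0) : x = o := by
  by_contra h'
  have := T.dep x hx h'
  omega

theorem prune_Tree.ne_o (T : prune_Tree K o p d) {x : Z} (h : 0 < d x) : x ≠ o := by
  rintro rfl
  rw [T.d0] at h
  exact lt_irrefl _ h

variable [DecidableEq Z]

theorem prune_Tree.trim (T : prune_Tree K o p d) (t : ℕ) :
    prune_Tree (K.image p^[t]) o p d where
  oK := mem_image.2 ⟨o, T.oK, Function.iterate_fixed T.po t⟩
  po := T.po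
  d0 := T.d0
  mem := by
    intro x hx
    obtain ⟨y, hy, rfl⟩ := mem_image.1 hx
    refine mem_image.2 ⟨p y, T.mem y hy, ?_⟩
    rw [← Function.iterate_succ_apply, Function.iterate_succ_apply']
  dep := by
    intro x hx
    obtain ⟨y, hy, rfl⟩ := mem_image.1 hx
    exact T.dep _ (T.it_mem hy t)

theorem prune_Tree.trim_sub (T : prune_Tree K o p d) (t : ℕ) : K.image p^[t] ⊆ K := by
  intro x hx
  obtain ⟨y, hy, rfl⟩ := mem_image.1 hx
  exact T.it_mem hy t

theorem prune_Tree.leaf_anc (T : prune_Tree K o p d) {x z : Z} (hx : x ∈ prune_L K o p)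
    (hz : z ∈ K) {k : ℕ} (hk : 1 ≤ k) : p^[k] z ≠ x := by
  intro e
  obtain ⟨k, rfl⟩ : ∃ k', k = k' + 1 := ⟨k - 1, by omega⟩
  rw [Function.iterate_succ_apply'] at e
  obtain ⟨-, h1, h2⟩ := mem_filter.1 hx
  refine h2 _ (T.it_mem hz k) (fun h => h1 ?_) e
  rw [← e, h, T.po]

theorem prune_Tree.trim_card (T : prune_Tree K o p d) (t : ℕ) :
    (K.image p^[t]).card + t * (prune_L (K.image p^[t]) o p).card ≤ K.card := by
  have T0 := T.trim t
  have h1 : ((prune_L (K.image p^[t]) o p) ×ˢ range t).card ≤ (K \ K.image p^[t]).card := by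
    refine card_le_card_of_forall_subsingleton
      (fun (q : Z × ℕ) z => p^[t - q.2] z = q.1) ?_ ?_
    · rintro ⟨x, i⟩ hq
      obtain ⟨hx, hi⟩ := mem_product.1 hq
      have hi' : i < t := mem_range.1 hi
      obtain ⟨y, hy, e⟩ := mem_image.1 (mem_filter.1 hx).1
      have e' : p^[t - i] (p^[i] y) = x := by
        rw [← Function.iterate_add_apply, Nat.sub_add_cancel hi'.le, e]
      refine ⟨p^[i] y, mem_sdiff.2 ⟨T.it_mem hy i, fun h => ?_⟩, e'⟩
      exact T0.leaf_anc hx h (by omega) e'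
    · rintro z - ⟨x, i⟩ ⟨hq, e⟩ ⟨x', j⟩ ⟨hq', e'⟩
      obtain ⟨hx, hi⟩ := mem_product.1 (mem_coe.1 hq)
      obtain ⟨hx', hj⟩ := mem_product.1 (mem_coe.1 hq')
      have hi' : i < t := mem_range.1 hi
      have hj' : j < t := mem_range.1 hj
      simp only at e e' hx hx'
      rcases lt_trichotomy i j with h | h | h
      · exfalso
        refine T0.leaf_anc hx (mem_filter.1 hx').1 (k := j - i) (by omega) ?_
        rw [← e', ← Function.iterate_add_apply, show j - i + (t - j) = t - i by omega, e]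
      · subst h
        rw [← e, ← e']
      · exfalso
        refine T0.leaf_anc hx' (mem_filter.1 hx).1 (k := i - j) (by omega) ?_
        rw [← e, ← Function.iterate_add_apply, show i - j + (t - i) = t - j by omega, e']
  rw [card_product, card_range, card_sdiff_of_subset (T.trim_sub t), Nat.mul_comm] at h1
  have := card_le_card (T.trim_sub t)
  omega

theorem prune_card_B (K : Finset Z) (o : Z) (p : Z → Z) :
    (prune_B K o p).card ≤ 2 * (prune_L K o p).card := by
  have hB : prune_B K o p ⊆ K.erase o := fun c hc =>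
    mem_erase.2 ⟨(mem_filter.1 hc).2.1, (mem_filter.1 hc).1⟩
  have h1 : K.erase o ⊆ ((prune_B K o p).image p ∪ (K.erase o \ prune_B K o p).image p) ∪
      prune_L K o p := by
    intro x hx
    obtain ⟨hx1, hx2⟩ := mem_erase.1 hx
    by_cases h : ∀ y ∈ K, y ≠ o → p y ≠ x
    · exact mem_union_right _ (mem_filter.2 ⟨hx2, hx1, h⟩)
    · push Not at h
      obtain ⟨y, hy, hy', e⟩ := h
      refine mem_union_left _ ?_
      by_cases hyB : y ∈ prune_B K o p
      · exact mem_union_left _ (mem_image.2 ⟨y, hyB, e⟩)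
      · exact mem_union_right _ (mem_image.2 ⟨y, mem_sdiff.2 ⟨mem_erase.2 ⟨hy', hy⟩, hyB⟩, e⟩)
  have h2 : 2 * ((prune_B K o p).image p).card ≤ (prune_B K o p).card := by
    refine mul_card_image_le_card _ 2 fun b hb => ?_
    obtain ⟨c, hc, rfl⟩ := mem_image.1 hb
    obtain ⟨hc1, hc2, y, hy1, hy2, hy3, hy4⟩ := mem_filter.1 hc
    have hyB : y ∈ prune_B K o p := mem_filter.2 ⟨hy1, hy2, c, hc1, hc2, hy3.symm, hy4.symm⟩
    exact one_lt_card.2 ⟨y, mem_filter.2 ⟨hyB, hy4⟩, c, mem_filter.2 ⟨hc, rfl⟩, hy3⟩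
  have h3 := (card_le_card h1).trans ((card_union_le _ _).trans
    (Nat.add_le_add_right (card_union_le _ _) _))
  have h4 : ((K.erase o \ prune_B K o p).image p).card ≤ (K.erase o \ prune_B K o p).card :=
    card_image_le
  rw [card_sdiff_of_subset hB] at h4
  have h5 := card_le_card hB
  omega

theorem prune_sib {c y : Z} (hc : c ∈ K) (hco : c ≠ o) (hB : c ∉ prune_B K o p) (hy : y ∈ K)
    (hyo : y ≠ o) (e : p y = p c) : y = c := by
  by_contra h
  exact hB (mem_filter.2 ⟨hc, hco, y, hy, hyo, h, e⟩)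

theorem prune_Tree.walk (T : prune_Tree K o p d) {x x' : Z} (hx : x ∈ K) (hx' : x' ∈ K)
    (hd : d x = d x') {k : ℕ} (e : p^[k] x = p^[k] x')
    (hB : ∀ i < k, p^[i] x ∉ prune_B K o p) : x = x' := by
  induction k with
  | zero => exact e
  | succ k ih =>
    refine ih ?_ fun i hi => hB i (by omega)
    rw [Function.iterate_succ_apply', Function.iterate_succ_apply'] at e
    have h1 := T.dep_it hx k
    have h2 := T.dep_it hx' k
    by_cases h : d x - k = 0
    · rw [T.eq_o (T.it_mem hx k) (by omega), T.eq_o (T.it_mem hx' k) (by omega)]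
    · exact (prune_sib (T.it_mem hx k) (T.ne_o (by omega)) (hB k (by omega)) (T.it_mem hx' k)
        (T.ne_o (by omega)) e.symm).symm

/-- clean points -/
def prune_Cl (K C : Finset Z) (o : Z) (p : Z → Z) (d : Z → ℕ) (N : ℕ) : Finset Z :=
  C.filter fun x => N + 1 ≤ d x ∧ ∀ i < N, p^[i] x ∉ prune_B K o p

theorem prune_Tree.unclean (T : prune_Tree K o p d) {C : Finset Z} (hC : C ⊆ K) {t h : ℕ}
    (ht : 1 ≤ t) (hd : ∀ x ∈ C, t ∣ d x) :
    (C \ prune_Cl K C o p d (h * t)).card ≤ 2 * h * (prune_L K o p).card + h + 1 := by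
  classical
  have h1 : (C.filter fun x => ∃ i < h * t, p^[i] x ∈ prune_B K o p).card ≤
      ((prune_B K o p) ×ˢ range h).card := by
    refine card_le_card_of_forall_subsingleton
      (fun x (q : Z × ℕ) => ∃ i, p^[i] x = q.1 ∧ i / t = q.2 ∧
        ∀ j < i, p^[j] x ∉ prune_B K o p) ?_ ?_
    · intro x hx
      have hex : ∃ i, i < h * t ∧ p^[i] x ∈ prune_B K o p := (mem_filter.1 hx).2
      have hs := Nat.find_spec hex
      refine ⟨(p^[Nat.find hex] x, Nat.find hex / t), mem_product.2 ⟨hs.2, mem_range.2 ?_⟩,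
        Nat.find hex, rfl, rfl, fun j hj hB => ?_⟩
      · exact (Nat.div_lt_iff_lt_mul ht).2 hs.1
      · exact Nat.find_min hex hj ⟨hj.trans hs.1, hB⟩
    · rintro ⟨c, m⟩ hq x ⟨hx, i, e1, e2, e3⟩ x' ⟨hx', i', e1', e2', -⟩
      have hxC := (mem_filter.1 (mem_coe.1 hx)).1
      have hxC' := (mem_filter.1 (mem_coe.1 hx')).1
      obtain ⟨hc1, hc2, -⟩ := mem_filter.1 (mem_product.1 hq).1
      simp only at e1 e2 e1' e2' hc1 hc2
      have hc3 : d c ≠ 0 := fun h0 => hc2 (T.eq_o hc1 h0)
      have d1 := T.dep_it (hC hxC) i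
      have d2 := T.dep_it (hC hxC') i'
      rw [e1] at d1
      rw [e1'] at d2
      have m1 : (d c + i) % t = 0 := by
        rw [show d c + i = d x by omega]; exact Nat.mod_eq_zero_of_dvd (hd x hxC)
      have m2 : (d c + i') % t = 0 := by
        rw [show d c + i' = d x' by omega]; exact Nat.mod_eq_zero_of_dvd (hd x' hxC')
      have m3 : i % t = i' % t := Nat.ModEq.add_left_cancel' (d c) (m1.trans m2.symm)
      have hii : i = i' := by
        rw [← Nat.div_add_mod i t, ← Nat.div_add_mod i' t, e2, e2', m3]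
      subst hii
      exact T.walk (hC hxC) (hC hxC') (by omega) (e1.trans e1'.symm) e3
  have h2 : (C.filter fun x => d x ≤ h * t ∧ ∀ i < h * t, p^[i] x ∉ prune_B K o p).card ≤
      (range (h + 1)).card := by
    refine card_le_card_of_injOn (fun x => d x / t) ?_ ?_
    · intro x hx
      have := (mem_filter.1 (mem_coe.1 hx)).2.1
      refine mem_coe.2 (mem_range.2 (Nat.lt_succ_of_le ?_))
      exact Nat.div_le_of_le_mul (by rwa [Nat.mul_comm])
    · intro x hx x' hx' e
      obtain ⟨a1, a2, a3⟩ := mem_filter.1 (mem_coe.1 hx)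
      obtain ⟨b1, -, -⟩ := mem_filter.1 (mem_coe.1 hx')
      have hdd : d x = d x' := by
        rw [← Nat.mul_div_cancel' (hd x a1), ← Nat.mul_div_cancel' (hd x' b1)]
        exact congrArg _ e
      refine T.walk (hC a1) (hC b1) hdd (k := d x) ?_ fun i hi => a3 i (by omega)
      rw [T.eq_o (T.it_mem (hC a1) _) (by rw [T.dep_it (hC a1)]; omega),
        T.eq_o (T.it_mem (hC b1) _) (by rw [T.dep_it (hC b1)]; omega)]
  have h3 : C \ prune_Cl K C o p d (h * t) ⊆
      (C.filter fun x => ∃ i < h * t, p^[i] x ∈ prune_B K o p) ∪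
        (C.filter fun x => d x ≤ h * t ∧ ∀ i < h * t, p^[i] x ∉ prune_B K o p) := by
    intro x hx
    obtain ⟨a1, a2⟩ := mem_sdiff.1 hx
    by_cases hb : ∃ i < h * t, p^[i] x ∈ prune_B K o p
    · exact mem_union_left _ (mem_filter.2 ⟨a1, hb⟩)
    · push Not at hb
      refine mem_union_right _ (mem_filter.2 ⟨a1, ?_, hb⟩)
      by_contra hcon
      exact a2 (mem_filter.2 ⟨a1, by omega, hb⟩)
  have h4 := (card_le_card h3).trans (card_union_le _ _)
  rw [card_product, card_range] at h1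
  rw [card_range] at h2
  have h5 : (prune_B K o p).card * h ≤ 2 * h * (prune_L K o p).card := by
    calc (prune_B K o p).card * h ≤ 2 * (prune_L K o p).card * h :=
          Nat.mul_le_mul_right _ (prune_card_B K o p)
      _ = _ := by ring
  omega

theorem prune_gap {t h m m' : ℕ} (ht : 1 ≤ t) (h1 : t ∣ m) (h2 : t ∣ m')
    (e : m / t % (h + 1) = m' / t % (h + 1)) (hlt : m < m') : m + h * t < m' := by
  obtain ⟨q, rfl⟩ := h1
  obtain ⟨q', rfl⟩ := h2
  rw [Nat.mul_div_cancel_left _ ht, Nat.mul_div_cancel_left _ ht] at e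
  have hq : q < q' := Nat.lt_of_mul_lt_mul_left hlt
  have h3 : h + 1 ∣ q' - q := (Nat.modEq_iff_dvd' hq.le).1 e
  have h4 : h + 1 ≤ q' - q := Nat.le_of_dvd (by omega) h3
  have h5 : t * (q + (h + 1)) ≤ t * q' := Nat.mul_le_mul_left _ (by omega)
  nlinarith

/-- sections -/
def prune_Sec (p : Z → Z) (N : ℕ) (x : Z) : Finset Z := (range N).image fun i => p^[i + 1] x

theorem prune_mem_Sec {N : ℕ} {x y : Z} : y ∈ prune_Sec p N x ↔ ∃ i < N, p^[i + 1] x = y := by
  simp [prune_Sec]

theorem prune_Tree.sections (T : prune_Tree K o p d) {S : Finset Z} {N : ℕ} (hS : S ⊆ K)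
    (hd : ∀ x ∈ S, N + 1 ≤ d x) (hB : ∀ x ∈ S, ∀ i < N, p^[i] x ∉ prune_B K o p)
    (hg : ∀ x ∈ S, ∀ x' ∈ S, d x < d x' → d x + N < d x') :
    ∃ Kr ⊆ K, o ∈ Kr ∧ S ⊆ Kr ∧ Kr.card + N * S.card ≤ K.card ∧
      (∀ y ∈ Kr, y ≠ o → p y ∈ Kr ∨ y ∈ S) ∧ (∀ y ∈ S, p^[N + 1] y ∈ Kr) ∧
      ∀ y ∈ K, y ∈ Kr ∨ ∃ x ∈ S, ∃ i ≤ N, p^[i] x = y := by
  have hmem : ∀ y, y ∈ K \ S.biUnion (prune_Sec p N) ↔
      y ∈ K ∧ ∀ x ∈ S, ∀ i < N, p^[i + 1] x ≠ y := by
    intro y
    simp only [mem_sdiff, mem_biUnion, prune_mem_Sec, not_exists, not_and, ne_eq]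
  refine ⟨K \ S.biUnion (prune_Sec p N), sdiff_subset, ?_, ?_, ?_, ?_, ?_, ?_⟩
  · refine (hmem _).2 ⟨T.oK, fun x hx i hi => T.ne_o ?_⟩
    have := hd x hx
    rw [T.dep_it (hS hx)]
    omega
  · intro y hy
    refine (hmem _).2 ⟨hS hy, fun x hx i hi e => ?_⟩
    have h1 := T.dep_it (hS hx) (i + 1)
    rw [e] at h1
    have h2 := hd x hx
    have h3 := hg y hy x hx (by omega)
    omega
  · have hsub : S.biUnion (prune_Sec p N) ⊆ K := by
      intro y hy
      obtain ⟨x, hx, hy⟩ := mem_biUnion.1 hy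
      obtain ⟨i, -, rfl⟩ := prune_mem_Sec.1 hy
      exact T.it_mem (hS hx) _
    have hc : (S.biUnion (prune_Sec p N)).card = N * S.card := by
      rw [card_biUnion, Nat.mul_comm]
      · refine sum_const_nat fun x hx => ?_
        unfold prune_Sec
        rw [card_image_of_injOn, card_range]
        intro i hi j hj e
        have h1 := T.dep_it (hS hx) (i + 1)
        have h2 := T.dep_it (hS hx) (j + 1)
        have e' : p^[i + 1] x = p^[j + 1] x := e
        rw [e'] at h1
        have h3 := hd x hx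
        have hi' := mem_range.1 (mem_coe.1 hi)
        have hj' := mem_range.1 (mem_coe.1 hj)
        omega
      · intro x hx x' hx' hne
        have hx := mem_coe.1 hx
        have hx' := mem_coe.1 hx'
        rw [Function.onFun, disjoint_left]
        intro y h1 h2
        obtain ⟨i, hi, e⟩ := prune_mem_Sec.1 h1
        obtain ⟨j, hj, e'⟩ := prune_mem_Sec.1 h2
        have d1 := T.dep_it (hS hx) (i + 1)
        have d2 := T.dep_it (hS hx') (j + 1)
        rw [e] at d1
        rw [e'] at d2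
        have a1 := hd x hx
        have a2 := hd x' hx'
        have a3 := hg x hx x' hx'
        have a4 := hg x' hx' x hx
        have hdd : d x = d x' := by omega
        have hij : i = j := by omega
        subst hij
        exact hne (T.walk (hS hx) (hS hx') hdd (e.trans e'.symm)
          fun k hk => hB x hx k (by omega))
    rw [card_sdiff_of_subset hsub, ← hc]
    have := card_le_card hsub
    omega
  · intro y hy hyo
    obtain ⟨hyK, hy2⟩ := (hmem _).1 hy
    by_cases h : p y ∈ K \ S.biUnion (prune_Sec p N)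
    · exact Or.inl h
    · right
      rw [hmem] at h
      push Not at h
      obtain ⟨x, hx, i, hi, e⟩ := h (T.mem y hyK)
      rw [Function.iterate_succ_apply'] at e
      have a1 := hd x hx
      have h1 : y = p^[i] x := prune_sib (T.it_mem (hS hx) i)
        (T.ne_o (by rw [T.dep_it (hS hx)]; omega)) (hB x hx i hi) hyK hyo e.symm
      rcases i with _ | i
      · rw [h1]; exact hx
      · exact absurd h1.symm (hy2 x hx i (by omega))
  · intro y hy
    refine (hmem _).2 ⟨T.it_mem (hS hy) _, fun x hx i hi e => ?_⟩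
    have d1 := T.dep_it (hS hx) (i + 1)
    have d2 := T.dep_it (hS hy) (N + 1)
    rw [e] at d1
    have a1 := hd x hx
    have a2 := hd y hy
    have a3 := hg x hx y hy
    omega
  · intro y hy
    by_cases h : y ∈ K \ S.biUnion (prune_Sec p N)
    · exact Or.inl h
    · rw [hmem] at h
      push Not at h
      obtain ⟨x, hx, i, hi, e⟩ := h hy
      exact Or.inr ⟨x, hx, i + 1, hi, e⟩

end tree

omit [NormedSpace ℝ Y] [DecidableEq Y] in
theorem prune_dist {K : Finset Y} {o : Y} {p : Y → Y} {d : Y → ℕ} (T : prune_Tree K o p d)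
    (hp : ∀ x ∈ K, dist x (p x) ≤ 1) {x : Y} (hx : x ∈ K) (i : ℕ) : dist x (p^[i] x) ≤ i := by
  induction i with
  | zero => simp
  | succ i ih =>
    rw [Function.iterate_succ_apply']
    have h1 := dist_triangle x (p^[i] x) (p (p^[i] x))
    have h2 := hp _ (T.it_mem hx i)
    push_cast
    linarith

omit [NormedSpace ℝ Y] [DecidableEq Y] in
theorem prune_reach {K ρ : Finset Y} {d : Y → ℕ}
    (h : ∀ y ∈ K, y ∈ ρ ∨ ∃ z ∈ K, dist y z ≤ 1 ∧ d z < d y) : Reach K ρ := by
  intro P hP h0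
  have key : ∀ m, ∀ y ∈ K, d y = m → P y := by
    intro m
    induction m using Nat.strong_induction_on with
    | _ m ih =>
      intro y hy e
      rcases h y hy with h1 | ⟨z, hz, h1, h2⟩
      · exact h0 y h1
      · exact hP z hz y hy (by rwa [dist_comm]) (ih _ (by omega) z hz rfl)
  exact fun y hy => key _ y hy rfl

omit [NormedSpace ℝ Y] [DecidableEq Y] in
theorem prune_conn {K : Finset Y} {o : Y} {d : Y → ℕ} {a : ℝ}
    (h : ∀ y ∈ K, y = o ∨ ∃ z ∈ K, dist y z ≤ a ∧ d z < d y) : Conn a K := by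
  intro P hP
  have key : ∀ m, ∀ y ∈ K, d y = m → (P y ↔ P o) := by
    intro m
    induction m using Nat.strong_induction_on with
    | _ m ih =>
      intro y hy e
      rcases h y hy with h1 | ⟨z, hz, h1, h2⟩
      · rw [h1]
      · rw [← ih _ (by omega) z hz rfl]
        exact ⟨hP y hy z hz h1, hP z hz y hy (by rwa [dist_comm])⟩
  exact fun x hx y hy h1 => (key _ y hy rfl).2 ((key _ x hx rfl).1 h1)

omit [NormedSpace ℝ Y] in
/-- Take `o ∈ K`, `par, dep` from `exists_rooted` (so `dep (par^[i] x) = dep x - i`, and `dep x = 0`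
only for `x = o`).  Put `N = h t`.

* `K₀ = par^[t] '' K`; it contains `o` and is closed under `par` (so `Reach K₀ {o}` by induction on
  `dep`).  A child of `b` is a point `y ∈ K₀`, `y ≠ o`, with `par y = b`.  `l` is the number of
  `x ∈ K₀`, `x ≠ o`, without child.
* For such a leaf `x = par^[t] y` (`dep y = dep x + t`) the `t` points `par^[i] y`, `i < t`, are not in
  `K₀` (else `par^[t-1] y` is a child of `x`); for different leaves these sets are disjoint (two
  ancestors of one point are comparable, and a proper ancestor of a point of `K₀` has a child).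
* `cen x = par^[dep x₁ % t] x₁` with `x₁ = par^[t] x`, so `t ∣ dep (cen x)`; `rs x = dep x / t % (h+1)`.
* `x ∈ K.image cen` is clean (`x ∈ Cl`) if `N + 1 ≤ dep x` and, for `1 ≤ i ≤ N`, the only child of
  `par^[i] x` is `par^[i-1] x`.
* Counting the unclean centres.  Call `b ∈ K₀` a branch point if it has at least two children.
  `∑_b #children b = |K₀| - 1` gives that at most `2 l` points are children of branch points.  If an
  unclean centre `x` has a branch point among `par^[i] x`, `1 ≤ i ≤ min N (dep x)`, take the least such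
  `i` and `c = par^[i-1] x`: the pair `(c, dep x)` determines `x` (walk down through unique children),
  and `dep x` is one of the `h` multiples of `t` in `[dep c, dep c + N)`.  Otherwise `dep x ≤ N`, no
  proper ancestor of `x` is a branch point, `dep x` determines `x`, and there are `h + 1` values.
* Given `S`: `Sec x = {par^[i] x | 1 ≤ i ≤ N}` has `N` points, `Kr = K₀ \ ⋃_{x ∈ S} Sec x`.  The depths of
  two points of `S` differ by a multiple of `(h+1) t > N`; hence no point of `S` lies in a section, and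
  sections are disjoint (walk down from a common point through unique children).  If `y ∈ Kr`,
  `y ≠ o`, then `par y ∈ Kr` or `y ∈ S`, and for `y ∈ S` the point `par^[N+1] y` is in `Kr`; induction on
  `dep` gives `Reach` and `Conn`. -/
theorem prune (K : Finset Y) (hK : Conn 1 K) (hne : K.Nonempty) (t h : ℕ) (ht : 1 ≤ t) :
    ∃ (o : Y) (K₀ Cl : Finset Y) (l : ℕ) (cen : Y → Y) (rs : Y → ℕ),
      o ∈ K₀ ∧ K₀ ⊆ K ∧ K₀.card + t * l ≤ K.card ∧ Reach K₀ {o} ∧
      (∀ x ∈ K, cen x ∈ K₀ ∧ dist x (cen x) ≤ 2 * t) ∧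
      (∀ x ∈ K, ∃ y ∈ K₀, dist x y ≤ t) ∧
      ((K.image cen) \ Cl).card ≤ 2 * h * l + h + 1 ∧ (∀ x, rs x < h + 1) ∧
      ∀ (a : ℕ) (S : Finset Y), S ⊆ Cl → (∀ x ∈ S, rs x = a) →
        ∃ Kr ⊆ K₀, o ∈ Kr ∧ S ⊆ Kr ∧ Kr.card + h * t * S.card ≤ K₀.card ∧
          Reach Kr (insert o S) ∧ Conn (h * t + 1) Kr ∧ ∀ y ∈ K₀, ∃ x ∈ Kr, dist y x ≤ h * t := by
  obtain ⟨o, ho⟩ := hne
  obtain ⟨p, d, po, d0, hp, hdep⟩ := exists_rooted hK ho
  have T : prune_Tree K o p d := ⟨ho, po, d0, fun x hx => (hp x hx).1, hdep⟩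
  have hp1 : ∀ x ∈ K, dist x (p x) ≤ 1 := fun x hx => (hp x hx).2
  have T0 := T.trim t
  have hsub := T.trim_sub t
  let cen : Y → Y := fun x => p^[d (p^[t] x) % t] (p^[t] x)
  have hcen : ∀ x ∈ K, cen x ∈ K.image p^[t] := fun x hx =>
    T0.it_mem (mem_image_of_mem _ hx) _
  have hC : K.image cen ⊆ K.image p^[t] := by
    intro y hy
    obtain ⟨x, hx, rfl⟩ := mem_image.1 hy
    exact hcen x hx
  have hdv : ∀ y ∈ K.image cen, t ∣ d y := by
    intro y hy
    obtain ⟨x, hx, rfl⟩ := mem_image.1 hy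
    show t ∣ d (p^[d (p^[t] x) % t] (p^[t] x))
    rw [T.dep_it (T.it_mem hx t)]
    exact Nat.dvd_sub_mod _
  have hlt : ∀ y ∈ K, y ≠ o → d (p y) < d y := fun y hy h => by
    have := hdep y hy h
    omega
  refine ⟨o, K.image p^[t], prune_Cl (K.image p^[t]) (K.image cen) o p d (h * t),
    (prune_L (K.image p^[t]) o p).card, cen, fun x => d x / t % (h + 1), T0.oK, hsub,
    T.trim_card t, ?_, fun x hx => ⟨hcen x hx, ?_⟩,
    fun x hx => ⟨_, mem_image_of_mem _ hx, prune_dist T hp1 hx t⟩, T0.unclean hC ht hdv,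
    fun x => Nat.mod_lt _ (Nat.succ_pos h), ?_⟩
  · refine prune_reach (d := d) fun y hy => ?_
    by_cases hyo : y = o
    · exact Or.inl (mem_singleton.2 hyo)
    · exact Or.inr ⟨p y, T0.mem y hy, hp1 y (hsub hy), hlt y (hsub hy) hyo⟩
  · have h1 := prune_dist T hp1 hx (d (p^[t] x) % t + t)
    rw [Function.iterate_add_apply] at h1
    refine h1.trans ?_
    have h2 : d (p^[t] x) % t + t ≤ 2 * t := by
      have := Nat.mod_lt (d (p^[t] x)) ht
      omega
    exact_mod_cast h2
  · intro a S hS hrs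
    have hS1 : ∀ x ∈ S, x ∈ K.image cen := fun x hx => (mem_filter.1 (hS hx)).1
    have hS2 : ∀ x ∈ S, h * t + 1 ≤ d x := fun x hx => (mem_filter.1 (hS hx)).2.1
    obtain ⟨Kr, k1, k2, k3, k4, k5, k6, k7⟩ := T0.sections (S := S) (N := h * t)
      (fun x hx => hC (hS1 x hx)) hS2 (fun x hx => (mem_filter.1 (hS hx)).2.2)
      (fun x hx x' hx' => prune_gap ht (hdv x (hS1 x hx)) (hdv x' (hS1 x' hx'))
        ((hrs x hx).trans (hrs x' hx').symm))
    have hN : (0 : ℝ) ≤ h * t := by positivity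
    refine ⟨Kr, k1, k2, k3, k4, ?_, ?_, ?_⟩
    · refine prune_reach (d := d) fun y hy => ?_
      by_cases hyo : y = o
      · exact Or.inl (by rw [hyo]; exact mem_insert_self _ _)
      · rcases k5 y hy hyo with h1 | h1
        · exact Or.inr ⟨p y, h1, hp1 y (hsub (k1 hy)), hlt y (hsub (k1 hy)) hyo⟩
        · exact Or.inl (mem_insert_of_mem h1)
    · refine prune_conn (o := o) (d := d) fun y hy => ?_
      by_cases hyo : y = o
      · exact Or.inl hyo
      · have hyK := hsub (k1 hy)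
        rcases k5 y hy hyo with h1 | h1
        · exact Or.inr ⟨p y, h1, (hp1 y hyK).trans (by linarith), hlt y hyK hyo⟩
        · refine Or.inr ⟨_, k6 y h1, ?_, ?_⟩
          · exact_mod_cast prune_dist T hp1 hyK (h * t + 1)
          · rw [T.dep_it hyK]
            have := hS2 y h1
            omega
    · intro y hy
      rcases k7 y hy with h1 | ⟨x, hx, i, hi, rfl⟩
      · exact ⟨y, h1, by rw [dist_self]; exact hN⟩
      · refine ⟨x, k3 hx, ?_⟩
        rw [dist_comm]
        refine (prune_dist T hp1 (hsub (k1 (k3 hx))) i).trans ?_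
        exact_mod_cast hi

end Crest.Agent.R37
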