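import Crest.Agent.R37.Prune

/-!
# R37/Surg: merging covers, with a saving for every cluster touched by a rung
-/

set_option autoImplicit false
open Finset

namespace Crest.Agent.R37

/-- Two-colouring: for pairs of different labels, some set `A` of labels contains the first and not
the second label of a quarter of the pairs (average over all subsets of a finite set of labels, or
induct). -/
theorem exists_colouring {β : Type} (Z : Finset β) (f g : β → ℕ) (h : ∀ z ∈ Z, f z ≠ g z) :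
    ∃ A : Finset ℕ, Z.card ≤ 4 * (Z.filter fun z => f z ∈ A ∧ g z ∉ A).card := by
  classical
  set L : Finset ℕ := Z.image f ∪ Z.image g with hL
  have key : ∀ z ∈ Z, L.powerset.card ≤
      4 * (L.powerset.filter fun A => f z ∈ A ∧ g z ∉ A).card := by
    intro z hz
    have hf : f z ∈ L := mem_union_left _ (mem_image_of_mem _ hz)
    refine (card_le_mul_card_image (f := fun A : Finset ℕ => insert (f z) (A.erase (g z)))
      L.powerset 4 fun B _ => ?_).trans (Nat.mul_le_mul_left _ (card_le_card fun B hB => ?_))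
    · refine (card_le_card (t := {B, B.erase (f z), insert (g z) B, insert (g z) (B.erase (f z))})
        fun A hA => ?_).trans card_le_four
      have hAB := (mem_filter.1 hA).2
      have hne := h z hz
      simp only [mem_insert, mem_singleton]
      subst hAB
      by_cases h1 : f z ∈ A <;> by_cases h2 : g z ∈ A
      · right; right; left; ext x; simp only [mem_insert, mem_erase]; grind
      · left; ext x; simp only [mem_insert, mem_erase]; grind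
      · right; right; right; ext x; simp only [mem_insert, mem_erase]; grind
      · right; left; ext x; simp only [mem_insert, mem_erase]; grind
    · obtain ⟨A, hA, rfl⟩ := mem_image.1 hB
      refine mem_filter.2 ⟨mem_powerset.2 (insert_subset hf
        ((erase_subset _ _).trans (mem_powerset.1 hA))), mem_insert_self _ _, ?_⟩
      simp [(h z hz).symm]
  have hsum : ∑ _A ∈ L.powerset, Z.card ≤
      ∑ A ∈ L.powerset, 4 * (Z.filter fun z => f z ∈ A ∧ g z ∉ A).card := by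
    rw [← mul_sum]
    have e : ∑ A ∈ L.powerset, (Z.filter fun z => f z ∈ A ∧ g z ∉ A).card =
        ∑ z ∈ Z, (L.powerset.filter fun A => f z ∈ A ∧ g z ∉ A).card := by
      simp only [card_filter]
      exact sum_comm
    rw [e, mul_sum, sum_const, smul_eq_mul, mul_comm, ← smul_eq_mul, ← sum_const]
    exact sum_le_sum key
  obtain ⟨A, -, hA⟩ := exists_le_of_sum_le ⟨∅, empty_mem_powerset _⟩ hsum
  exact ⟨A, hA⟩

variable {Y : Type} [NormedAddCommGroup Y] [NormedSpace ℝ Y] [DecidableEq Y]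

theorem surg_select {β : Type} (Z : Finset β) (f g : β → ℕ) (h : ∀ z ∈ Z, f z ≠ g z)
    (rs : β → ℕ) (H : ℕ) (hH : 0 < H) (hrs : ∀ z ∈ Z, rs z < H) :
    ∃ (a₀ : ℕ) (A : Finset ℕ),
      Z.card ≤ 4 * H * (Z.filter fun z => rs z = a₀ ∧ f z ∈ A ∧ g z ∉ A).card := by
  have e := card_eq_sum_card_fiberwise (s := Z) (t := range H) (f := rs)
    fun z hz => mem_coe.2 (mem_range.2 (hrs z hz))
  have hsum : ∑ _a ∈ range H, Z.card ≤ ∑ a ∈ range H, H * (Z.filter fun z => rs z = a).card := by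
    rw [← mul_sum, ← e]; simp
  obtain ⟨a₀, -, ha⟩ := exists_le_of_sum_le ⟨0, mem_range.2 hH⟩ hsum
  obtain ⟨A, hA⟩ := exists_colouring (Z.filter fun z => rs z = a₀) f g
    fun z hz => h z (mem_filter.1 hz).1
  refine ⟨a₀, A, ha.trans ?_⟩
  rw [filter_filter] at hA
  calc _ ≤ H * (4 * _) := Nat.mul_le_mul_left _ hA
    _ = _ := by ring

theorem surg_chains {ι : Type} (J : Finset ι) (K : Finset Y) (a b : ι → Y) (ha : ∀ j ∈ J, a j ∈ K) :
    ∃ C : ι → Finset Y, (∀ j, a j ∈ C j ∧ b j ∈ C j ∧ Conn 1 (C j)) ∧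
      ((K ∪ J.biUnion C).card : ℝ) ≤ K.card + ∑ j ∈ J, (dist (a j) (b j) + 1) := by
  choose C h1 h2 h3 h4 using fun j => exists_chain (a j) (b j)
  refine ⟨C, fun j => ⟨h1 j, h2 j, h3 j⟩, ?_⟩
  have hsub : K ∪ J.biUnion C ⊆ K ∪ J.biUnion fun j => (C j).erase (a j) := by
    intro x hx
    rcases mem_union.1 hx with hx | hx
    · exact mem_union_left _ hx
    · obtain ⟨j, hj, hx⟩ := mem_biUnion.1 hx
      by_cases e : x = a j
      · exact mem_union_left _ (e ▸ ha j hj)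
      · exact mem_union_right _ (mem_biUnion.2 ⟨j, hj, mem_erase.2 ⟨e, hx⟩⟩)
  have h5 := (card_le_card hsub).trans ((card_union_le _ _).trans
    (Nat.add_le_add_left card_biUnion_le _))
  have h6 : ((K ∪ J.biUnion C).card : ℝ) ≤ K.card + ∑ j ∈ J, (((C j).erase (a j)).card : ℝ) := by
    exact_mod_cast h5
  refine h6.trans (add_le_add le_rfl (sum_le_sum fun j _ => ?_))
  have := card_erase_add_one (h1 j)
  have h7 : (((C j).erase (a j)).card : ℝ) + 1 = (C j).card := by exact_mod_cast this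
  linarith [h4 j]

omit [NormedSpace ℝ Y] [DecidableEq Y] in
theorem surg_conn {a b : ℝ} {K K' : Finset Y} (h : Conn a K) (hab : a ≤ b) (hK : K ⊆ K')
    {P : Y → Prop} (hP : ∀ x ∈ K', ∀ y ∈ K', dist x y ≤ b → P x → P y) {x y : Y} (hx : x ∈ K)
    (hy : y ∈ K) (h1 : P x) : P y :=
  h P (fun x hx y hy hd => hP x (hK hx) y (hK hy) (hd.trans hab)) x hx y hy h1

set_option maxHeartbeats 400000 in
/-- Let `p = |c(W)|`, `N = h t`, `σ' = σ + 2 (r + 2 t)`.

If `p = 1` then `R = ∅`, `q ≤ 0` (use `hq` with `lab = id`; note `0 ≤ r`) and `K' = K a` works.  Let `p ≥ 2`.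
Apply `prune` to each `K a` (`choose`).  For `v ∈ W` let `pt v ∈ K (c v)` be within `r` of `ι v` and
`lab v = (c v, cen (c v) (pt v)) : ℕ × Y`; `ι v` is within `r + 2 t` of `(lab v).2`, so `hq` gives `q ≤ |Z|` for
the set `Z` of labels of ends of rungs.  Each `z ∈ Z` has a partner `π z` (the label of the other end of
a rung) with `(π z).1 ≠ z.1` and `dist z.2 (π z).2 ≤ σ'`.  At most `∑_a (2 h l_a + h + 1)` labels of `Z`
are unclean.  Pigeonhole on `rs` and `exists_colouring` give `a₀`, `A` and the set `𝒮` of clean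
`z ∈ Z` with residue `a₀`, `z.1 ∈ A`, `(π z).1 ∉ A`, with
`4 (h+1) |𝒮| ≥ q - ∑_a (2 h l_a + h + 1)`.  For `a ∈ A` let `Kr a` be given by `prune` for
`S a = {z.2 | z ∈ 𝒮, z.1 = a}`, for `a ∉ A` let `Kr a = K₀ a`.  Let `Kall` be the union of the `Kr a`, of
a chain from `z.2` to `(π z).2` for each `z ∈ 𝒮` (at most `σ' + 1 ≤ N / 2` new points), and for each
`e ∈ T` of a chain between points of `Kr (c (s e))`, `Kr (c (t e))` within `r + t + N` of `ι (s e)`,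
`ι (t e)`.  Then `Reach Kall {roots}` and `Conn (N + 1) Kall` (use `hT` with
`P' v := ∀ x ∈ Kr (c v), P x`), so `connect` applies with at most `p` roots.  The saving is
`t ∑ l_a + (N / 2) |𝒮| ≥ t ∑ l_a + 2 t |𝒮| ≥ t q / (2 (h+1)) - t p / 2`, and `p ≤ 2 (p - 1)`. -/
theorem surgery (s t' : ℕ → ℕ) (W : Finset ℕ) (hW : W.Nonempty) (c : ℕ → ℕ) (ι : ℕ → Y)
    (K : ℕ → Finset Y) (r σ q : ℝ) (t h : ℕ) (ht : 1 ≤ t) (hh : 4 ≤ h) (hr : 0 ≤ r)
    (hσ : 2 * (σ + 2 * (r + 2 * t) + 1) ≤ h * t)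
    (hK : ∀ v ∈ W, Conn 1 (K (c v))) (hcov : ∀ v ∈ W, ∃ x ∈ K (c v), dist (ι v) x ≤ r)
    (T : Finset ℕ) (hTW : ∀ e ∈ T, s e ∈ W ∧ t' e ∈ W) (hTc : T.card + 1 = (W.image c).card)
    (hT : ∀ P : ℕ → Prop, (∀ u ∈ W, ∀ v ∈ W, c u = c v → P u → P v) →
      (∀ e ∈ T, P (s e) ↔ P (t' e)) → ∀ u ∈ W, ∀ v ∈ W, P u → P v)
    (R : Finset ℕ)
    (hR : ∀ e ∈ R, s e ∈ W ∧ t' e ∈ W ∧ c (s e) ≠ c (t' e) ∧ dist (ι (s e)) (ι (t' e)) ≤ σ)
    (hq : ∀ (β : Type) [DecidableEq β] (lab : ℕ → β),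
      (∀ u ∈ W, ∀ v ∈ W, lab u = lab v → dist (ι u) (ι v) ≤ 2 * (r + 2 * t)) →
      q ≤ ((R.image s ∪ R.image t').image lab).card) :
    ∃ K' : Finset Y, Conn 1 K' ∧ (∀ v ∈ W, ∃ x ∈ K', dist (ι v) x ≤ r + t + h * t) ∧
      (K'.card : ℝ) + t * q / (2 * (h + 1)) ≤ ∑ a ∈ W.image c, ((K a).card : ℝ) +
        ∑ e ∈ T, dist (ι (s e)) (ι (t' e)) +
        (((W.image c).card - 1 : ℕ) : ℝ) * (2 * r + 3 * t + 3 * (h * t) + 3) := by
  classical
  set U := W.image c with hU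
  have ht' : (1 : ℝ) ≤ t := by exact_mod_cast ht
  have hh' : (4 : ℝ) ≤ h := by exact_mod_cast hh
  have hcU : ∀ v ∈ W, c v ∈ U := fun v hv => mem_image_of_mem _ hv
  have hp1 : 1 ≤ U.card := by omega
  rcases hp1.eq_or_lt with hp | hp
  · -- one label
    obtain ⟨a, ha⟩ := card_eq_one.1 hp.symm
    have hca : ∀ v ∈ W, c v = a := fun v hv => by simpa [ha] using hcU v hv
    have hR0 : R = ∅ := eq_empty_of_forall_notMem fun e he => by
      obtain ⟨h1, h2, h3, -⟩ := hR e he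
      exact h3 ((hca _ h1).trans (hca _ h2).symm)
    have hT0 : T = ∅ := card_eq_zero.1 (by omega)
    have hq0 : q ≤ 0 := by
      have := hq ℕ id fun u _ v _ huv => by
        have e : u = v := huv
        rw [e, dist_self]; positivity
      simpa [hR0] using this
    obtain ⟨v, hv⟩ := hW
    refine ⟨K a, hca v hv ▸ hK v hv, fun v hv => ?_, ?_⟩
    · obtain ⟨x, hx, hd⟩ := hcov v hv
      refine ⟨x, hca v hv ▸ hx, hd.trans ?_⟩
      have : (0 : ℝ) ≤ h * t := by positivity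
      linarith
    · rw [hT0, ha]
      have : t * q / (2 * (h + 1)) ≤ 0 :=
        div_nonpos_of_nonpos_of_nonneg (mul_nonpos_of_nonneg_of_nonpos (by positivity) hq0)
          (by positivity)
      simpa using this
  have hKa : ∀ a ∈ U, Conn 1 (K a) ∧ (K a).Nonempty := by
    intro a ha
    obtain ⟨v, hv, rfl⟩ := mem_image.1 ha
    obtain ⟨x, hx, -⟩ := hcov v hv
    exact ⟨hK v hv, x, hx⟩
  choose! o K₀ Cl l cen rs ho hsub hcard hreach hcen hnear hunc hrs hsec using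
    fun a (ha : a ∈ U) => prune (K a) (hKa a ha).1 (hKa a ha).2 t h ht
  choose! pt hpt hptd using hcov
  set lab : ℕ → ℕ × Y := fun v => (c v, cen (c v) (pt v)) with hlab
  have hld : ∀ v ∈ W, dist (ι v) (lab v).2 ≤ r + 2 * t := fun v hv =>
    (dist_triangle _ (pt v) _).trans (add_le_add (hptd v hv) (hcen _ (hcU v hv) _ (hpt v hv)).2)
  set Z := (R.image s ∪ R.image t').image lab with hZ
  have hqZ : q ≤ Z.card := hq (ℕ × Y) lab fun u hu v hv huv => by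
    have h1 := hld u hu
    have h2 := hld v hv
    rw [huv] at h1
    have := dist_triangle_right (ι u) (ι v) (lab v).2
    linarith
  have hpair : ∀ u ∈ W, ∀ v ∈ W, dist (ι u) (ι v) ≤ σ →
      dist (lab u).2 (lab v).2 ≤ σ + 2 * (r + 2 * t) := by
    intro u hu v hv hd
    have h1 := hld u hu
    have h2 := hld v hv
    have := dist_triangle4 (lab u).2 (ι u) (ι v) (lab v).2
    rw [dist_comm (lab u).2 (ι u)] at this
    linarith
  have hZ1 : ∀ z ∈ Z, (z.1 ∈ U ∧ z.2 ∈ (K z.1).image (cen z.1)) ∧ ∃ z' : ℕ × Y,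
      z.1 ≠ z'.1 ∧ z'.1 ∈ U ∧ z'.2 ∈ K₀ z'.1 ∧ dist z.2 z'.2 ≤ σ + 2 * (r + 2 * t) := by
    intro z hz
    obtain ⟨v, hv, rfl⟩ := mem_image.1 hz
    rcases mem_union.1 hv with hv | hv <;> obtain ⟨e, he, rfl⟩ := mem_image.1 hv <;>
      obtain ⟨h1, h2, h3, h4⟩ := hR e he
    · exact ⟨⟨hcU _ h1, mem_image_of_mem _ (hpt _ h1)⟩, lab (t' e), h3, hcU _ h2,
        (hcen _ (hcU _ h2) _ (hpt _ h2)).1, hpair _ h1 _ h2 h4⟩
    · exact ⟨⟨hcU _ h2, mem_image_of_mem _ (hpt _ h2)⟩, lab (s e), h3.symm, hcU _ h1,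
        (hcen _ (hcU _ h1) _ (hpt _ h1)).1, hpair _ h2 _ h1 (by rwa [dist_comm])⟩
  choose! π hπ1 hπ2 hπ3 hπ4 using fun z (hz : z ∈ Z) => (hZ1 z hz).2
  -- clean labels
  set Zc := Z.filter fun z => z.2 ∈ Cl z.1 with hZc
  have hZcard : Z.card ≤ Zc.card + ∑ a ∈ U, (2 * h * l a + h + 1) := by
    rw [← card_filter_add_card_filter_not (s := Z) (fun z => z.2 ∈ Cl z.1)]
    refine Nat.add_le_add_left ?_ _
    refine (card_le_card (t := U.biUnion fun a =>
      (((K a).image (cen a)) \ Cl a).image fun x => (a, x)) fun z hz => ?_).trans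
      (card_biUnion_le.trans (sum_le_sum fun a ha => card_image_le.trans (hunc a ha)))
    obtain ⟨h1, h2⟩ := mem_filter.1 hz
    exact mem_biUnion.2 ⟨z.1, (hZ1 z h1).1.1,
      mem_image.2 ⟨z.2, mem_sdiff.2 ⟨(hZ1 z h1).1.2, h2⟩, rfl⟩⟩
  obtain ⟨a₀, A, hsel⟩ := surg_select Zc (fun z => z.1) (fun z => (π z).1)
    (fun z hz => hπ1 z (mem_filter.1 hz).1) (fun z => rs z.1 z.2) (h + 1) (by omega)
    fun z hz => hrs _ (hZ1 z (mem_filter.1 hz).1).1.1 _
  set 𝒮 := Zc.filter fun z => rs z.1 z.2 = a₀ ∧ z.1 ∈ A ∧ (π z).1 ∉ A with h𝒮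
  have h𝒮Z : ∀ z ∈ 𝒮, z ∈ Z := fun z hz => (mem_filter.1 (mem_filter.1 hz).1).1
  set S : ℕ → Finset Y := fun a => (𝒮.filter fun z => z.1 = a).image Prod.snd with hS
  have hSsum : ∑ a ∈ U, (S a).card = 𝒮.card := by
    rw [card_eq_sum_card_fiberwise (s := 𝒮) (t := U) (f := Prod.fst)
      fun z hz => mem_coe.2 (hZ1 z (h𝒮Z z hz)).1.1]
    refine sum_congr rfl fun a _ => card_image_of_injOn fun z hz z' hz' e => ?_
    exact Prod.ext ((mem_filter.1 hz).2.trans (mem_filter.1 hz').2.symm) e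
  have hN1 : (1 : ℝ) ≤ h * t + 1 := by
    have : (0 : ℝ) ≤ h * t := by positivity
    linarith
  have hKr : ∀ a ∈ U, ∃ Kr ⊆ K₀ a, o a ∈ Kr ∧ S a ⊆ Kr ∧
      Kr.card + h * t * (S a).card ≤ (K₀ a).card ∧ Reach Kr (insert (o a) (S a)) ∧
      Conn (h * t + 1) Kr ∧ (∀ y ∈ K₀ a, ∃ x ∈ Kr, dist y x ≤ h * t) ∧
      (a ∉ A → Kr = K₀ a) := by
    intro a ha
    by_cases haA : a ∈ A
    · obtain ⟨Kr, h1, h2, h3, h4, h5, h6, h7⟩ := hsec a ha a₀ (S a) (fun x hx => by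
        obtain ⟨z, hz, rfl⟩ := mem_image.1 hx
        obtain ⟨hz1, rfl⟩ := mem_filter.1 hz
        exact (mem_filter.1 (mem_filter.1 hz1).1).2) fun x hx => by
        obtain ⟨z, hz, rfl⟩ := mem_image.1 hx
        obtain ⟨hz1, rfl⟩ := mem_filter.1 hz
        exact (mem_filter.1 hz1).2.1
      exact ⟨Kr, h1, h2, h3, h4, h5, h6, h7, fun h => absurd haA h⟩
    · have hS0 : S a = ∅ := eq_empty_of_forall_notMem fun x hx => by
        obtain ⟨z, hz, rfl⟩ := mem_image.1 hx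
        obtain ⟨hz1, rfl⟩ := mem_filter.1 hz
        exact haA (mem_filter.1 hz1).2.2.1
      rw [hS0]
      refine ⟨K₀ a, Subset.rfl, ho a ha, empty_subset _, by simp, by simpa using hreach a ha,
        (hreach a ha).conn.mono hN1, fun y hy => ⟨y, hy, ?_⟩, fun _ => rfl⟩
      rw [dist_self]; positivity
  choose! Kr hKr1 hKr2 hKr3 hKr4 hKr5 hKr6 hKr7 hKr8 using hKr
  have hrp : ∀ v ∈ W, ∃ x ∈ Kr (c v), dist (ι v) x ≤ r + t + h * t := by
    intro v hv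
    obtain ⟨y, hy, hd⟩ := hnear _ (hcU v hv) _ (hpt v hv)
    obtain ⟨x, hx, hd'⟩ := hKr7 _ (hcU v hv) y hy
    refine ⟨x, hx, (dist_triangle4 _ (pt v) y x).trans ?_⟩
    linarith [hptd v hv]
  choose! rp hrp1 hrp2 using hrp
  set K₁ := U.biUnion Kr with hK₁
  have hK₁s : ∀ a ∈ U, Kr a ⊆ K₁ := fun a ha => subset_biUnion_of_mem Kr ha
  have hz2 : ∀ z ∈ 𝒮, z.2 ∈ Kr z.1 := fun z hz =>
    hKr3 _ (hZ1 z (h𝒮Z z hz)).1.1 (mem_image.2 ⟨z, mem_filter.2 ⟨hz, rfl⟩, rfl⟩)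
  obtain ⟨C₁, hC₁, hc₁⟩ := surg_chains 𝒮 K₁ (fun z => z.2) (fun z => (π z).2)
    fun z hz => hK₁s _ (hZ1 z (h𝒮Z z hz)).1.1 (hz2 z hz)
  set K₂ := K₁ ∪ 𝒮.biUnion C₁ with hK₂
  obtain ⟨C₂, hC₂, hc₂⟩ := surg_chains T K₂ (fun e => rp (s e)) (fun e => rp (t' e))
    fun e he => mem_union_left _ (hK₁s _ (hcU _ (hTW e he).1) (hrp1 _ (hTW e he).1))
  set K₃ := K₂ ∪ T.biUnion C₂ with hK₃
  have s1 : ∀ a ∈ U, Kr a ⊆ K₃ := fun a ha =>
    (hK₁s a ha).trans (subset_union_left.trans subset_union_left)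
  have s2 : ∀ z ∈ 𝒮, C₁ z ⊆ K₃ := fun z hz =>
    (subset_biUnion_of_mem C₁ hz).trans (subset_union_right.trans subset_union_left)
  have s3 : ∀ e ∈ T, C₂ e ⊆ K₃ := fun e he =>
    (subset_biUnion_of_mem C₂ he).trans subset_union_right
  have cases3 : ∀ x ∈ K₃, (∃ a ∈ U, x ∈ Kr a) ∨ (∃ z ∈ 𝒮, x ∈ C₁ z) ∨ ∃ e ∈ T, x ∈ C₂ e := by
    intro x hx
    rcases mem_union.1 hx with hx | hx
    · rcases mem_union.1 hx with hx | hx
      · exact Or.inl (mem_biUnion.1 hx)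
      · exact Or.inr (Or.inl (mem_biUnion.1 hx))
    · exact Or.inr (Or.inr (mem_biUnion.1 hx))
  have hReach : Reach K₃ (U.image o) := by
    intro P hP hPo
    have b1 : ∀ a ∈ U, a ∉ A → ∀ x ∈ K₀ a, P x := by
      intro a ha haA
      have e := hKr8 a ha haA
      refine hreach a ha P (fun x hx y hy => hP x (s1 a ha (e ▸ hx)) y (s1 a ha (e ▸ hy))) ?_
      intro x hx
      rw [mem_singleton.1 hx]
      exact hPo _ (mem_image_of_mem _ ha)
    have b2 : ∀ z ∈ 𝒮, ∀ x ∈ C₁ z, P x := fun z hz x hx =>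
      surg_conn (hC₁ z).2.2 le_rfl (s2 z hz) hP (hC₁ z).2.1 hx
        (b1 _ (hπ2 z (h𝒮Z z hz)) (mem_filter.1 hz).2.2.2 _ (hπ3 z (h𝒮Z z hz)))
    have b3 : ∀ a ∈ U, ∀ x ∈ Kr a, P x := by
      intro a ha
      refine hKr5 a ha P (fun x hx y hy => hP x (s1 a ha hx) y (s1 a ha hy)) fun x hx => ?_
      rcases mem_insert.1 hx with rfl | hx
      · exact hPo _ (mem_image_of_mem _ ha)
      · obtain ⟨z, hz, rfl⟩ := mem_image.1 hx
        exact b2 z (mem_filter.1 hz).1 _ (hC₁ z).1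
    intro x hx
    rcases cases3 x hx with ⟨a, ha, hx⟩ | ⟨z, hz, hx⟩ | ⟨e, he, hx⟩
    · exact b3 a ha x hx
    · exact b2 z hz x hx
    · exact surg_conn (hC₂ e).2.2 le_rfl (s3 e he) hP (hC₂ e).1 hx
        (b3 _ (hcU _ (hTW e he).1) _ (hrp1 _ (hTW e he).1))
  have hConn : Conn (h * t + 1) K₃ := by
    intro P hP
    have d1 : ∀ a ∈ U, ∀ x ∈ Kr a, (P x ↔ P (o a)) := fun a ha x hx =>
      ⟨surg_conn (hKr6 a ha) le_rfl (s1 a ha) hP hx (hKr2 a ha),
        surg_conn (hKr6 a ha) le_rfl (s1 a ha) hP (hKr2 a ha) hx⟩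
    have d2 : ∀ x ∈ K₃, ∃ v ∈ W, (P x ↔ P (o (c v))) := by
      intro x hx
      rcases cases3 x hx with ⟨a, ha, hx⟩ | ⟨z, hz, hx⟩ | ⟨e, he, hx⟩
      · obtain ⟨v, hv, rfl⟩ := mem_image.1 ha
        exact ⟨v, hv, d1 _ ha x hx⟩
      · have ha := (hZ1 z (h𝒮Z z hz)).1.1
        obtain ⟨v, hv, e⟩ := mem_image.1 ha
        refine ⟨v, hv, ?_⟩
        rw [e, ← d1 _ ha _ (hz2 z hz)]
        exact ⟨surg_conn (hC₁ z).2.2 hN1 (s2 z hz) hP hx (hC₁ z).1,
          surg_conn (hC₁ z).2.2 hN1 (s2 z hz) hP (hC₁ z).1 hx⟩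
      · refine ⟨s e, (hTW e he).1, ?_⟩
        rw [← d1 _ (hcU _ (hTW e he).1) _ (hrp1 _ (hTW e he).1)]
        exact ⟨surg_conn (hC₂ e).2.2 hN1 (s3 e he) hP hx (hC₂ e).1,
          surg_conn (hC₂ e).2.2 hN1 (s3 e he) hP (hC₂ e).1 hx⟩
    have d3 := hT (fun v => P (o (c v))) (fun u _ v _ e h => e ▸ h) fun e he => by
      rw [← d1 _ (hcU _ (hTW e he).1) _ (hrp1 _ (hTW e he).1),
        ← d1 _ (hcU _ (hTW e he).2) _ (hrp1 _ (hTW e he).2)]
      exact ⟨surg_conn (hC₂ e).2.2 hN1 (s3 e he) hP (hC₂ e).1 (hC₂ e).2.1,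
        surg_conn (hC₂ e).2.2 hN1 (s3 e he) hP (hC₂ e).2.1 (hC₂ e).1⟩
    intro x hx y hy hPx
    obtain ⟨u, hu, e1⟩ := d2 x hx
    obtain ⟨v, hv, e2⟩ := d2 y hy
    exact e2.2 (d3 u hu v hv (e1.1 hPx))
  obtain ⟨K', hK', hK'c, hK'card⟩ := connect K₃ (U.image o) (h * t + 1) hN1 (fun x hx => by
    obtain ⟨a, ha, rfl⟩ := mem_image.1 hx
    exact s1 a ha (hKr2 a ha)) hReach hConn
  refine ⟨K', hK'c, fun v hv => ⟨rp v, hK' (s1 _ (hcU v hv) (hrp1 v hv)), hrp2 v hv⟩, ?_⟩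
  -- counting
  obtain ⟨p, hpdef⟩ : ∃ p : ℝ, p = ((U.card - 1 : ℕ) : ℝ) := ⟨_, rfl⟩
  rw [← hpdef]
  have hp1' : (U.card : ℝ) = p + 1 := by
    rw [hpdef, Nat.cast_sub hp1, Nat.cast_one, sub_add_cancel]
  have hpge : 1 ≤ p := by
    have : (2 : ℝ) ≤ U.card := by exact_mod_cast hp
    linarith
  have hTp : (T.card : ℝ) = p := by
    have : (T.card : ℝ) + 1 = U.card := by exact_mod_cast hTc
    linarith
  obtain ⟨Lsum, hLsum⟩ : ∃ L : ℝ, L = ∑ a ∈ U, (l a : ℝ) := ⟨_, rfl⟩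
  have hL0 : 0 ≤ Lsum := hLsum ▸ sum_nonneg fun _ _ => Nat.cast_nonneg _
  obtain ⟨m, hm⟩ : ∃ m : ℝ, m = (𝒮.card : ℝ) := ⟨_, rfl⟩
  have hm0 : 0 ≤ m := hm ▸ Nat.cast_nonneg _
  have e1 : (((U.image o).card - 1 : ℕ) : ℝ) ≤ p := by
    rw [hpdef]; exact_mod_cast Nat.sub_le_sub_right card_image_le 1
  have e2 : (K₁.card : ℝ) + h * t * m + t * Lsum ≤ ∑ a ∈ U, ((K a).card : ℝ) := by
    have h1 : K₁.card + h * t * 𝒮.card + t * ∑ a ∈ U, l a ≤ ∑ a ∈ U, (K a).card := by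
      rw [← hSsum, mul_sum, mul_sum]
      refine (Nat.add_le_add_right (Nat.add_le_add_right card_biUnion_le _) _).trans ?_
      rw [← sum_add_distrib, ← sum_add_distrib]
      exact sum_le_sum fun a ha => (Nat.add_le_add_right (hKr4 a ha) _).trans (hcard a ha)
    rw [hm, hLsum]
    exact_mod_cast h1
  have e3 : ∑ z ∈ 𝒮, (dist z.2 (π z).2 + 1) ≤ m * (h * t / 2) := by
    rw [hm, ← nsmul_eq_mul, ← sum_const]
    refine sum_le_sum fun z hz => ?_
    linarith [hπ4 z (h𝒮Z z hz)]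
  have e4 : ∑ e ∈ T, (dist (rp (s e)) (rp (t' e)) + 1) ≤
      ∑ e ∈ T, dist (ι (s e)) (ι (t' e)) + p * (2 * (r + t + h * t) + 1) := by
    rw [← hTp, ← nsmul_eq_mul, ← sum_const, ← sum_add_distrib]
    refine sum_le_sum fun e he => ?_
    have h1 := hrp2 _ (hTW e he).1
    have h2 := hrp2 _ (hTW e he).2
    have := dist_triangle4 (rp (s e)) (ι (s e)) (ι (t' e)) (rp (t' e))
    rw [dist_comm (rp (s e)) (ι (s e))] at this
    linarith
  have e5 : q ≤ 4 * (h + 1) * m + (2 * h * Lsum + (p + 1) * (h + 1)) := by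
    have h1 : Z.card ≤ 4 * (h + 1) * 𝒮.card + (2 * h * ∑ a ∈ U, l a + U.card * (h + 1)) := by
      refine hZcard.trans (add_le_add hsel (le_of_eq ?_))
      rw [mul_sum, ← smul_eq_mul U.card, ← sum_const, ← sum_add_distrib]
      exact sum_congr rfl fun _ _ => by ring
    rw [← hp1', hm, hLsum]
    exact hqZ.trans (by exact_mod_cast h1)
  have e6 : t * q / (2 * (h + 1)) ≤ 2 * t * m + t * Lsum + t * p := by
    rw [div_le_iff₀ (by positivity)]
    have h1 : t * q ≤ t * (4 * (h + 1) * m + (2 * h * Lsum + (p + 1) * (h + 1))) :=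
      mul_le_mul_of_nonneg_left e5 (by positivity)
    have h2 : 0 ≤ t * Lsum := by positivity
    have h3 : 0 ≤ t * ((p - 1) * (h + 1)) := by
      have : 0 ≤ p - 1 := by linarith
      positivity
    nlinarith
  have e7 : 2 * t * m ≤ m * (h * t / 2) := by
    have : 0 ≤ m * (t * (h - 4)) := by
      have : (0 : ℝ) ≤ h - 4 := by linarith
      positivity
    nlinarith
  have e8 : (((U.image o).card - 1 : ℕ) : ℝ) * (h * t + 1 + 1) ≤ p * (h * t + 1 + 1) :=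
    mul_le_mul_of_nonneg_right e1 (by positivity)
  have e9 : p * (2 * r + 3 * t + 3 * (h * t) + 3) =
      p * (2 * (r + t + h * t) + 1) + p * (h * t + 1 + 1) + t * p := by ring
  have e10 : h * t * m = m * (h * t / 2) + m * (h * t / 2) := by ring
  linarith

end Crest.Agent.R37
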