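import Crest.Agent.R37.Surg
import Crest.Agent.R37.Foster

/-!
# R37/Tele: rungs touch many clusters; summing the savings over the scales
-/

set_option autoImplicit false
open Finset

namespace Crest.Agent.R37

variable {s t : ℕ → ℕ} {n j : ℕ} {F : Finset ℕ}

theorem tele_disj (I B : Finset ℕ) (A : ℕ → Finset ℕ) (f : ℕ → ℝ) (hf : ∀ x ∈ B, 0 ≤ f x)
    (hA : ∀ a ∈ I, A a ⊆ B) (hd : ∀ a ∈ I, ∀ b ∈ I, ∀ x, x ∈ A a → x ∈ A b → a = b) :
    ∑ a ∈ I, ∑ x ∈ A a, f x ≤ ∑ x ∈ B, f x := by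
  rw [← Finset.sum_biUnion]
  · exact Finset.sum_le_sum_of_subset_of_nonneg (biUnion_subset.2 hA) fun x hx _ => hf x hx
  · intro a ha b hb hab
    exact Finset.disjoint_left.2 fun x h1 h2 => hab (hd a ha b hb x h1 h2)

theorem tele_iota {d : ℕ → ℕ → ℝ} (hd : IsPM d) {m : ℝ} (hm : 0 ≤ m) {u v : ℕ} (hu : u < n) :
    dist (fun i : Fin n => m * d u i) (fun i : Fin n => m * d v i) = m * d u v := by
  refine le_antisymm ((dist_pi_le_iff (mul_nonneg hm (hd.nonneg u v))).2 fun i => ?_) ?_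
  · rw [Real.dist_eq, ← mul_sub, abs_mul, abs_of_nonneg hm]
    refine mul_le_mul_of_nonneg_left (abs_le.2 ⟨?_, ?_⟩) hm
    · have := hd.2.2 v u i
      rw [hd.2.1 v u] at this
      linarith
    · linarith [hd.2.2 u v i]
  · refine le_trans (le_of_eq ?_)
      (dist_le_pi_dist (fun i : Fin n => m * d u i) (fun i : Fin n => m * d v i) ⟨u, hu⟩)
    rw [Real.dist_eq, hd.1, mul_zero, zero_sub, abs_neg, hd.2.1 v u,
      abs_of_nonneg (mul_nonneg hm (hd.nonneg u v))]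

section
variable {Z : Type} [NormedAddCommGroup Z] [NormedSpace ℝ Z] [DecidableEq Z]

theorem tele_init (hF : WF s t n F) (hj : 1 ≤ j) (c : ℕ → ℕ)
    (hPC : ∀ a, PC s t j F ((range n).filter fun v => c v = a)) (ι : ℕ → Z) :
    ∃ K : ℕ → Finset Z, (∀ v < n, Conn 1 (K (c v)) ∧ ι v ∈ K (c v)) ∧
      ∑ a ∈ (range n).image c, ((K a).card : ℝ) +
        (∑ e ∈ cr s t F (range n) c, dist (ι (s e)) (ι (t e))) / j ≤
        2 * n + (∑ e ∈ F, dist (ι (s e)) (ι (t e))) / j := by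
  have h1 : ∀ a, ∃ K : Finset Z, ((range n).filter fun v => c v = a).Nonempty →
      Conn 1 K ∧ (∀ v ∈ (range n).filter fun v => c v = a, ι v ∈ K) ∧
      (K.card : ℝ) ≤ 2 * ((range n).filter fun v => c v = a).card +
        (∑ e ∈ cr s t F ((range n).filter fun v => c v = a) id, dist (ι (s e)) (ι (t e))) / j := by
    intro a
    by_cases h : ((range n).filter fun v => c v = a).Nonempty
    · obtain ⟨K, hK⟩ := init_cover (hPC a) hj h ι
      exact ⟨K, fun _ => hK⟩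
    · exact ⟨∅, fun h' => absurd h' h⟩
  choose K hK using h1
  have hm : ∀ v < n, v ∈ (range n).filter fun w => c w = c v := fun v hv => by simp [hv]
  refine ⟨K, fun v hv => ⟨(hK _ ⟨v, hm v hv⟩).1, (hK _ ⟨v, hm v hv⟩).2.1 v (hm v hv)⟩, ?_⟩
  have h2 := Finset.sum_le_sum (s := (range n).image c) fun a ha => (hK a (by
    obtain ⟨v, hv, rfl⟩ := mem_image.1 ha
    exact ⟨v, hm v (mem_range.1 hv)⟩)).2.2
  rw [Finset.sum_add_distrib, ← Finset.mul_sum, ← Finset.sum_div] at h2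
  have h3 := tele_disj ((range n).image c) (range n) (fun a => (range n).filter fun v => c v = a)
    (fun _ => 1) (fun _ _ => zero_le_one) (fun _ _ => filter_subset _ _)
    (fun a _ b _ x h1 h2 => (mem_filter.1 h1).2.symm.trans (mem_filter.1 h2).2)
  simp only [sum_const, nsmul_eq_mul, mul_one, card_range] at h3
  have h4 := tele_disj ((range n).image c) (F \ cr s t F (range n) c)
    (fun a => cr s t F ((range n).filter fun v => c v = a) id)
    (fun e => dist (ι (s e)) (ι (t e))) (fun _ _ => dist_nonneg) (fun a _ e he => by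
      simp only [cr, mem_filter, mem_sdiff] at he ⊢
      exact ⟨he.1, fun h => h.2.2.2 (he.2.1.2.trans he.2.2.1.2.symm)⟩)
    (fun a _ b _ e h1 h2 => by
      simp only [cr, mem_filter] at h1 h2
      exact h1.2.1.2.symm.trans h2.2.1.2)
  have h5 := Finset.sum_sdiff (f := fun e => dist (ι (s e)) (ι (t e)))
    (cr_subset (s := s) (t := t) (F := F) (U := range n) c)
  have hj' : (0 : ℝ) < j := by exact_mod_cast hj
  have h6 := div_le_div_of_nonneg_right h4 hj'.le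
  rw [← h5, add_div]
  linarith

theorem tele_class (hj : 1 ≤ j) (Y h : ℕ) (hY : 1 ≤ Y) (hh : h = 256 * Y ^ 2 + 18)
    (c : ℕ → ℕ) (τ : ℕ) (hτ : 1 ≤ τ) (W : Finset ℕ) (hW : W.Nonempty) (hPC : PC s t j F W)
    (d : ℕ → ℕ → ℝ) (hd : IsPM d) (X : ℕ → ℕ → ℝ)
    (hX : ∀ u ∈ W, ∀ v ∈ W, ∑ f ∈ F, (X u f - X v f) ^ 2 ≤ d u v) (ι : ℕ → Z)
    (hι : ∀ u ∈ W, ∀ v, dist (ι u) (ι v) = 64 * Y * d u v) (R : Finset ℕ)
    (hR : ∀ e ∈ R, e ∈ F ∧ s e ∈ W ∧ t e ∈ W ∧ c (s e) ≠ c (t e) ∧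
      2 * (τ : ℝ) / Y ≤ (X (s e) e - X (t e) e) ^ 2 ∧ d (s e) (t e) ≤ 2 * (τ : ℝ) * Y)
    (K : ℕ → Finset Z) (hK : ∀ v ∈ W, Conn 1 (K (c v)) ∧ ∃ x ∈ K (c v), dist (ι v) x ≤ 2 * τ) :
    ∃ K' : Finset Z, Conn 1 K' ∧ (∀ v ∈ W, ∃ x ∈ K', dist (ι v) x ≤ (h + 3) * τ) ∧
      (K'.card : ℝ) + τ / (12 * Y ^ 2 * (h + 1)) * R.card ≤ ∑ a ∈ W.image c, ((K a).card : ℝ) +
        (∑ e ∈ cr s t F W c, dist (ι (s e)) (ι (t e))) / j +
        (3 * h + 10) * τ * (((W.image c).card : ℝ) - 1) := by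
  obtain ⟨T, hT, hTc, hTs, hTP⟩ := kruskal hPC hj hW c (fun e => dist (ι (s e)) (ι (t e)))
    fun _ _ => dist_nonneg
  have hY' : (1 : ℝ) ≤ Y := by exact_mod_cast hY
  have hτ' : (1 : ℝ) ≤ τ := by exact_mod_cast hτ
  have hj' : (0 : ℝ) < j := by exact_mod_cast hj
  have hh' : (h : ℝ) = 256 * Y ^ 2 + 18 := by rw [hh]; push_cast; ring
  obtain ⟨K', h1, h2, h3⟩ := surgery s t W hW c ι K (2 * τ) (128 * Y ^ 2 * τ)
    (R.card / (6 * Y ^ 2)) τ h hτ (by omega) (by positivity) (by rw [hh']; nlinarith)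
    (fun v hv => (hK v hv).1) (fun v hv => (hK v hv).2) T
    (fun e he => ⟨(mem_filter.1 (hT he)).2.1, (mem_filter.1 (hT he)).2.2.1⟩) hTc hTP R
    (fun e he => by
      obtain ⟨-, a1, a2, a3, -, a4⟩ := hR e he
      refine ⟨a1, a2, a3, ?_⟩
      rw [hι _ a1]
      nlinarith)
    (fun β _ lab hlab => by
      have := foster (s := s) (t := t) R W (fun e he => (hR e he).1) X d hd hX lab (2 * τ / Y)
        (2 * τ * Y) (by positivity) (fun u hu v hv e => by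
          have := hlab u hu v hv e
          rw [hι u hu] at this
          rw [div_div, le_div_iff₀ (by positivity)]
          linarith)
        fun e he => ⟨(hR e he).2.1, (hR e he).2.2.1, (hR e he).2.2.2.2⟩
      rw [div_le_iff₀ (by positivity)]
      set z : ℝ := (((R.image s ∪ R.image t).image lab).card : ℝ) with hz
      have hz0 : 0 ≤ z := Nat.cast_nonneg _
      have e1 : 2 * (τ : ℝ) / Y * R.card = τ / Y * (2 * R.card) := by ring
      have e2 : 4 * (2 * (τ : ℝ) * Y + 2 * τ / Y / 8) * z = τ / Y * ((8 * Y ^ 2 + 1) * z) := by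
        field_simp
        ring
      rw [e1, e2] at this
      have h4 := le_of_mul_le_mul_left this (by positivity)
      have h5 : (1 : ℝ) ≤ Y ^ 2 := one_le_pow₀ hY'
      nlinarith)
  refine ⟨K', h1, fun v hv => ?_, ?_⟩
  · obtain ⟨x, hx, hx'⟩ := h2 v hv
    exact ⟨x, hx, by linarith⟩
  · have hp : 1 ≤ (W.image c).card := by omega
    rw [Nat.cast_sub hp, Nat.cast_one] at h3
    have hp' : (0 : ℝ) ≤ (W.image c).card - 1 := by
      have : (1 : ℝ) ≤ (W.image c).card := by exact_mod_cast hp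
      linarith
    have e1 : (τ : ℝ) * (R.card / (6 * Y ^ 2)) / (2 * (h + 1)) =
        τ / (12 * Y ^ 2 * (h + 1)) * R.card := by
      field_simp
      ring
    have e2 : ∑ e ∈ T, dist (ι (s e)) (ι (t e)) ≤
        (∑ e ∈ cr s t F W c, dist (ι (s e)) (ι (t e))) / j := by
      rw [le_div_iff₀ hj']
      linarith
    rw [e1] at h3
    nlinarith [mul_le_mul_of_nonneg_left hτ' hp']

theorem tele_step (hF : WF s t n F) (hn : 1 ≤ n) (hj : 1 ≤ j) (Y h : ℕ) (hY : 1 ≤ Y)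
    (hh : h = 256 * Y ^ 2 + 18) (c c' : ℕ → ℕ) (τ : ℕ) (hτ : 1 ≤ τ)
    (hc : ∀ u < n, ∀ v < n, c u = c v → c' u = c' v)
    (hPC : ∀ a, PC s t j F ((range n).filter fun v => c' v = a))
    (d : ℕ → ℕ → ℝ) (hd : IsPM d) (X : ℕ → ℕ → ℝ)
    (hX : ∀ u < n, ∀ v < n, ∑ f ∈ F, (X u f - X v f) ^ 2 ≤ d u v) (ι : ℕ → Z)
    (hι : ∀ u < n, ∀ v, dist (ι u) (ι v) = 64 * Y * d u v) (R : Finset ℕ)
    (hR : ∀ e ∈ R, e ∈ F ∧ c (s e) ≠ c (t e) ∧ c' (s e) = c' (t e) ∧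
      2 * (τ : ℝ) / Y ≤ (X (s e) e - X (t e) e) ^ 2 ∧ d (s e) (t e) ≤ 2 * (τ : ℝ) * Y)
    (K : ℕ → Finset Z) (hK : ∀ v < n, Conn 1 (K (c v)) ∧ ∃ x ∈ K (c v), dist (ι v) x ≤ 2 * τ) :
    ∃ K' : ℕ → Finset Z,
      (∀ v < n, Conn 1 (K' (c' v)) ∧ ∃ x ∈ K' (c' v), dist (ι v) x ≤ (h + 3) * τ) ∧
      ∑ a ∈ (range n).image c', ((K' a).card : ℝ) +
        (∑ e ∈ cr s t F (range n) c', dist (ι (s e)) (ι (t e))) / j +
        τ / (12 * Y ^ 2 * (h + 1)) * R.card ≤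
      ∑ a ∈ (range n).image c, ((K a).card : ℝ) +
        (∑ e ∈ cr s t F (range n) c, dist (ι (s e)) (ι (t e))) / j +
        (3 * h + 10) * (τ * ((((range n).image c).card - 1 : ℕ) : ℝ)) := by
  set W : ℕ → Finset ℕ := fun a => (range n).filter fun v => c' v = a with hW
  have hWm : ∀ a v, v ∈ W a ↔ v < n ∧ c' v = a := fun a v => by simp [hW]
  have h1 : ∀ a, ∃ K' : Finset Z, (W a).Nonempty →
      Conn 1 K' ∧ (∀ v ∈ W a, ∃ x ∈ K', dist (ι v) x ≤ (h + 3) * τ) ∧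
      (K'.card : ℝ) + τ / (12 * Y ^ 2 * (h + 1)) * (R.filter fun e => c' (s e) = a).card ≤
        ∑ b ∈ (W a).image c, ((K b).card : ℝ) +
        (∑ e ∈ cr s t F (W a) c, dist (ι (s e)) (ι (t e))) / j +
        (3 * h + 10) * τ * ((((W a).image c).card : ℝ) - 1) := by
    intro a
    by_cases hne : (W a).Nonempty
    · obtain ⟨K', hK'⟩ := tele_class hj Y h hY hh c τ hτ (W a) hne (hPC a) d hd X
        (fun u hu v hv => hX u ((hWm a u).1 hu).1 v ((hWm a v).1 hv).1) ι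
        (fun u hu => hι u ((hWm a u).1 hu).1) (R.filter fun e => c' (s e) = a)
        (fun e he => by
          obtain ⟨he1, he2⟩ := mem_filter.1 he
          obtain ⟨a1, a2, a3, a4⟩ := hR e he1
          exact ⟨a1, (hWm _ _).2 ⟨(hF e a1).1, he2⟩, (hWm _ _).2 ⟨(hF e a1).2.1, a3 ▸ he2⟩, a2, a4⟩)
        K fun v hv => hK v ((hWm a v).1 hv).1
      exact ⟨K', fun _ => hK'⟩
    · exact ⟨∅, fun h' => absurd h' hne⟩
  choose K' hK' using h1
  have hm : ∀ v < n, v ∈ W (c' v) := fun v hv => (hWm _ _).2 ⟨hv, rfl⟩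
  refine ⟨K', fun v hv => ⟨(hK' _ ⟨v, hm v hv⟩).1, (hK' _ ⟨v, hm v hv⟩).2.1 v (hm v hv)⟩, ?_⟩
  have h2 := Finset.sum_le_sum (s := (range n).image c') fun a ha => (hK' a (by
    obtain ⟨v, hv, rfl⟩ := mem_image.1 ha
    exact ⟨v, hm v (mem_range.1 hv)⟩)).2.2
  simp only [Finset.sum_add_distrib, ← Finset.mul_sum, ← Finset.sum_div, Finset.sum_sub_distrib,
    sum_const, nsmul_eq_mul, mul_one] at h2
  have hsub : ∀ a ∈ (range n).image c', (W a).image c ⊆ (range n).image c := fun a _ =>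
    image_subset_image (filter_subset _ _)
  have hdis : ∀ a ∈ (range n).image c', ∀ b ∈ (range n).image c', ∀ x, x ∈ (W a).image c →
      x ∈ (W b).image c → a = b := fun a _ b _ x h1 h2 => by
    obtain ⟨u, hu, rfl⟩ := mem_image.1 h1
    obtain ⟨v, hv, e⟩ := mem_image.1 h2
    rw [hWm] at hu hv
    rw [← hu.2, ← hv.2, hc v hv.1 u hu.1 e]
  have h3 := tele_disj _ _ _ (fun b => ((K b).card : ℝ)) (fun _ _ => Nat.cast_nonneg _) hsub hdis
  have h4 := tele_disj _ _ _ (fun _ => (1 : ℝ)) (fun _ _ => zero_le_one) hsub hdis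
  simp only [sum_const, nsmul_eq_mul, mul_one] at h4
  have h5 := tele_disj ((range n).image c') (cr s t F (range n) c \ cr s t F (range n) c')
    (fun a => cr s t F (W a) c) (fun e => dist (ι (s e)) (ι (t e))) (fun _ _ => dist_nonneg)
    (fun a _ e he => by
      simp only [cr, mem_filter, mem_sdiff, hWm, mem_range] at he ⊢
      exact ⟨⟨he.1, he.2.1.1, he.2.2.1.1, he.2.2.2⟩,
        fun h => h.2.2.2 (he.2.1.2.trans he.2.2.1.2.symm)⟩)
    (fun a _ b _ e h1 h2 => by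
      simp only [cr, mem_filter, hWm] at h1 h2
      exact h1.2.1.2.symm.trans h2.2.1.2)
  have h6 := Finset.sum_sdiff (f := fun e => dist (ι (s e)) (ι (t e)))
    (s₁ := cr s t F (range n) c') (s₂ := cr s t F (range n) c) (fun e he => by
      simp only [cr, mem_filter, mem_range] at he ⊢
      exact ⟨he.1, he.2.1, he.2.2.1, fun h => he.2.2.2 (hc _ he.2.1 _ he.2.2.1 h)⟩)
  have hj' : (0 : ℝ) < j := by exact_mod_cast hj
  have h7 := div_le_div_of_nonneg_right h5 hj'.le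
  have h8 : (R.card : ℝ) =
      ∑ a ∈ (range n).image c', ((R.filter fun e => c' (s e) = a).card : ℝ) := by
    rw [Finset.card_eq_sum_card_fiberwise (f := fun e => c' (s e)) (t := (range n).image c')
      fun e he => mem_image_of_mem _ (mem_range.2 (hF e (hR e he).1).1), Nat.cast_sum]
  have hne : (range n).Nonempty := ⟨0, mem_range.2 hn⟩
  have h9 : (1 : ℝ) ≤ ((range n).image c').card := by exact_mod_cast (hne.image c').card_pos
  rw [Nat.cast_sub (hne.image c).card_pos, Nat.cast_one, ← h6, add_div, h8]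
  have h10 : (0 : ℝ) ≤ (3 * h + 10) * τ := by positivity
  nlinarith [mul_le_mul_of_nonneg_left h4 h10, mul_le_mul_of_nonneg_left h9 h10]

end

/-- Work in `Fin n → ℝ` (sup norm) with `ι u i = 64 Y d u i`, so `dist (ι u) (ι v) = 64 Y d u v` for
`u, v < n`.  Prove by induction on `i` that there are `K a` with `Conn 1 (K (c i v))` and a point of
`K (c i v)` within `2 τ i` of `ι v` for all `v < n`, such that
`∑_{a ∈ c i (range n)} |K a| + (64 Y / j) ∑_{e ∈ cr F (range n) (c i)} d e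
  + ∑_{i' < i} τ i' |R i'| / (12 Y² (h+1)) ≤ 2 n + (64 Y / j) ∑_F d + (3 h + 10) ∑_{i' < i} τ i' (p i' - 1)`.
Start: `init_cover` on each class of `c 0`.  Step: for each class `W` of `c (i+1)` take `T` from `kruskal`
(labelling `c i`, `ℓ e = 64 Y d e`) and apply `surgery` with `r = 2 τ i`, `t = τ i`, `σ = 128 Y² τ i`, the rungs
of `R i` inside `W`, and `q = |R i ∩ W| / (6 Y²)` (`foster` with `ω = 2 τ i / Y`, `σ = 2 τ i Y`).  The sets
`cr F W (c i)` and `cr F (range n) (c (i+1))` are disjoint subsets of `cr F (range n) (c i)`, and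
`∑_W (|c i (W)| - 1) ≤ p i - 1`. -/
theorem tele (hF : WF s t n F) (hn : 1 ≤ n) (hj : 1 ≤ j) (Y h : ℕ) (hY : 1 ≤ Y)
    (hh : h = 256 * Y ^ 2 + 18) (S : ℕ) (c : ℕ → ℕ → ℕ) (τ : ℕ → ℕ) (R : ℕ → Finset ℕ)
    (hτ1 : ∀ i, 1 ≤ τ i) (hτ : ∀ i, (h + 3) * τ i ≤ 2 * τ (i + 1))
    (hc : ∀ i, ∀ u < n, ∀ v < n, c i u = c i v → c (i + 1) u = c (i + 1) v)
    (hPC : ∀ i a, PC s t j F ((range n).filter fun v => c i v = a))
    (d : ℕ → ℕ → ℝ) (hd : IsPM d) (X : ℕ → ℕ → ℝ)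
    (hX : ∀ u < n, ∀ v < n, ∑ f ∈ F, (X u f - X v f) ^ 2 ≤ d u v)
    (hR : ∀ i, ∀ e ∈ R i, e ∈ F ∧ c i (s e) ≠ c i (t e) ∧ c (i + 1) (s e) = c (i + 1) (t e) ∧
      2 * (τ i : ℝ) / Y ≤ (X (s e) e - X (t e) e) ^ 2 ∧ d (s e) (t e) ≤ 2 * (τ i : ℝ) * Y) :
    ∑ i ∈ range S, (τ i : ℝ) * (R i).card ≤ 12 * (Y : ℝ) ^ 2 * (h + 1) *
      (2 * n + 64 * Y * (∑ e ∈ F, d (s e) (t e)) / j +
        (3 * h + 10) * ∑ i ∈ range S, (τ i : ℝ) * ((((range n).image (c i)).card - 1 : ℕ) : ℝ)) := by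
  classical
  set ι : ℕ → Fin n → ℝ := fun u i => 64 * Y * d u i with hιd
  have hι : ∀ u < n, ∀ v, dist (ι u) (ι v) = 64 * Y * d u v := fun u hu v =>
    tele_iota hd (by positivity) hu
  have key : ∀ i, ∃ K : ℕ → Finset (Fin n → ℝ),
      (∀ v < n, Conn 1 (K (c i v)) ∧ ∃ x ∈ K (c i v), dist (ι v) x ≤ 2 * τ i) ∧
      ∑ a ∈ (range n).image (c i), ((K a).card : ℝ) +
        (∑ e ∈ cr s t F (range n) (c i), dist (ι (s e)) (ι (t e))) / j +
        ∑ i' ∈ range i, τ i' / (12 * Y ^ 2 * (h + 1)) * ((R i').card : ℝ) ≤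
      2 * n + (∑ e ∈ F, dist (ι (s e)) (ι (t e))) / j +
        (3 * h + 10) * ∑ i' ∈ range i, (τ i' : ℝ) * ((((range n).image (c i')).card - 1 : ℕ) : ℝ) := by
    intro i
    induction i with
    | zero =>
      obtain ⟨K, h1, h2⟩ := tele_init hF hj (c 0) (hPC 0) ι
      exact ⟨K, fun v hv => ⟨(h1 v hv).1, ι v, (h1 v hv).2, by simp⟩, by simpa using h2⟩
    | succ i ih =>
      obtain ⟨K, h1, h2⟩ := ih
      obtain ⟨K', h3, h4⟩ := tele_step hF hn hj Y h hY hh (c i) (c (i + 1)) (τ i) (hτ1 i) (hc i)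
        (hPC (i + 1)) d hd X hX ι hι (R i) (hR i) K h1
      refine ⟨K', fun v hv => ⟨(h3 v hv).1, ?_⟩, ?_⟩
      · obtain ⟨x, hx, hx'⟩ := (h3 v hv).2
        exact ⟨x, hx, hx'.trans (by exact_mod_cast hτ i)⟩
      · rw [Finset.sum_range_succ, Finset.sum_range_succ]
        linarith
  obtain ⟨K, -, h2⟩ := key S
  have e1 : ∑ e ∈ F, dist (ι (s e)) (ι (t e)) = 64 * Y * ∑ e ∈ F, d (s e) (t e) := by
    rw [Finset.mul_sum]
    exact Finset.sum_congr rfl fun e he => hι _ (hF e he).1 _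
  have hY' : (0 : ℝ) < Y := by exact_mod_cast hY
  have e2 : ∑ i' ∈ range S, τ i' / (12 * Y ^ 2 * (h + 1)) * ((R i').card : ℝ) =
      (∑ i ∈ range S, (τ i : ℝ) * (R i).card) / (12 * Y ^ 2 * (h + 1)) := by
    rw [Finset.sum_div]
    exact Finset.sum_congr rfl fun i _ => by ring
  have p1 : 0 ≤ ∑ a ∈ (range n).image (c S), ((K a).card : ℝ) :=
    Finset.sum_nonneg fun _ _ => Nat.cast_nonneg _
  have p2 : 0 ≤ (∑ e ∈ cr s t F (range n) (c S), dist (ι (s e)) (ι (t e))) / j :=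
    div_nonneg (Finset.sum_nonneg fun _ _ => dist_nonneg) (Nat.cast_nonneg _)
  rw [e1, e2] at h2
  rw [← div_le_iff₀' (by positivity)]
  linarith

end Crest.Agent.R37
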