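import Crest.Agent.R37.OptM
import Crest.Agent.R37.EI

/-!
# R37/Upper: the value of the programme for aligned weights; keeping the weights aligned
-/

set_option autoImplicit false
open Finset Matrix

namespace Crest.Agent.R37

variable {s t : ℕ → ℕ} {n k : ℕ} {F : Finset ℕ} {c : ℕ → ℕ → ℝ} {g : ℕ → ℝ} {lam : ℕ → ℕ}

theorem upper_pm {d : ℕ → ℕ → ℝ} (hd : IsPM d) {ξ : ℝ} (hξ : 0 ≤ ξ) :
    IsPM fun u v => d u v + if u = v then 0 else ξ := by
  refine ⟨fun u => by simp [hd.1], fun u v => ?_, fun u v w => ?_⟩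
  · simp only [hd.2.1 u v, eq_comm (a := u) (b := v)]
  · have h1 := hd.2.2 u v w
    by_cases a : u = w
    · subst a
      by_cases b : u = v
      · subst b; simp [hd.1]
      · simp only [if_true, if_neg b, if_neg (Ne.symm b)]
        linarith
    · by_cases b : u = v
      · subst b
        simp only [if_true, if_neg a]
        linarith
      · by_cases b' : v = w
        · subst b'
          simp only [if_true, if_neg a]
          linarith
        · simp only [if_neg a, if_neg b, if_neg b']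
          linarith

theorem upper_ell {x : ℝ} (h0 : 0 ≤ x) (h1 : x < 1) :
    1 / (1 - x) ^ 2 ≤ 2 * (x / (1 - x) ^ 2) + 4 := by
  have hp : 0 < (1 - x) ^ 2 := pow_pos (by linarith) 2
  have e : 2 * (x / (1 - x) ^ 2) + 4 = (2 * x + 4 * (1 - x) ^ 2) / (1 - x) ^ 2 := by
    rw [add_div, mul_div_assoc, mul_div_assoc, div_self hp.ne', mul_one]
  rw [e]
  refine div_le_div_of_nonneg_right ?_ hp.le
  nlinarith [sq_nonneg (4 * x - 3)]

theorem upper_ell2 {x : ℝ} (h0 : 0 ≤ x) (h1 : x < 1) : 1 / (1 - x) ≤ 1 / (1 - x) ^ 2 := by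
  have hp : 0 < 1 - x := by linarith
  refine one_div_le_one_div_of_le (pow_pos hp 2) ?_
  nlinarith

theorem upper_quad {Φ Λ Q y : ℝ} (hy : 4 ≤ y) (hΛ : 0 ≤ Λ) (hQ : 0 ≤ Q)
    (h : Φ ^ 2 ≤ Λ * (4 / y ^ 2 * Φ + 3 / y ^ 2 * Λ + Q)) : Φ ≤ 4 / y * Λ + y * Q := by
  have y0 : 0 < y := by linarith
  obtain ⟨a, ha⟩ : ∃ a, a = Λ / y := ⟨_, rfl⟩
  obtain ⟨b, hb⟩ : ∃ b, b = y * Q := ⟨_, rfl⟩
  obtain ⟨z, hz⟩ : ∃ z, z = 4 / y := ⟨_, rfl⟩
  have a0 : 0 ≤ a := ha ▸ div_nonneg hΛ y0.le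
  have b0 : 0 ≤ b := hb ▸ mul_nonneg y0.le hQ
  have z1 : z ≤ 1 := hz ▸ (div_le_one y0).2 hy
  have e1 : Λ * (4 / y ^ 2 * Φ + 3 / y ^ 2 * Λ + Q) = z * a * Φ + 3 * a ^ 2 + a * b := by
    rw [ha, hb, hz]; field_simp
  have e2 : 4 / y * Λ + y * Q = 4 * a + b := by
    rw [ha, hb]; field_simp
  rw [e1] at h
  rw [e2]
  by_contra hc
  push Not at hc
  have p0 : 0 < Φ := by linarith
  have h1 : z * a ≤ a := by nlinarith
  have h2 : 3 * a + b < Φ - z * a := by linarith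
  have h3 : Φ * (3 * a + b) < Φ * (Φ - z * a) := mul_lt_mul_of_pos_left h2 p0
  have h4 : (4 * a + b) * (3 * a + b) ≤ Φ * (3 * a + b) :=
    mul_le_mul_of_nonneg_right hc.le (by linarith)
  nlinarith [mul_nonneg a0 b0, sq_nonneg a, sq_nonneg b]

/-- Apply `energy_ineq` to `X u f = √(lam f) · ext (D⁻¹ b_f) u` and `d' u v = d u v + (if u = v then 0 else ξ)`;
then `w e = lam e · res e ²`.  Let `Φ = ∑ lam e res e`, `m = |F|`, `ℓ a = 1 / (1 - g a)²`.  Since
`ℓ a ≤ 2 g a ℓ a + 4`, `NS` and `sum_gr_le` give `∑ ℓ ≤ 2 Φ + 2 + 4 m` and `∑ d' ≤ 2 Φ + 2 + 5 m`.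
Cauchy-Schwarz: `Φ² ≤ Λ ∑ w ≤ (4/y²) Λ Φ + (3/y²) Λ² + Λ Q`, `Q = 2 m + 1 + n k`, hence `Φ ≤ (4/y) Λ + y Q`; and
`Fv ≤ Φ + ∑ ℓ`. -/
theorem upper_bound (hF : WF s t n F) (hn : 1 ≤ n) (y : ℕ) (hy : 1000 ≤ y) (hk1 : y ^ 40 ≤ k)
    (hk2 : k ≤ 2 * y ^ 40) (hPC : PC s t k F (range n)) (hal : Aligned s t F (k - y ^ 35) lam)
    (h : Valid n s t F c g) {ξ : ℝ} (hξ : 0 ≤ ξ) (hξ1 : ξ ≤ 1) (hNS : NS n s t F lam c g ξ) :
    Fv n s t F lam c g ≤ 12 / y * ∑ e ∈ F, (lam e : ℝ) +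
      (3 * y * (2 * F.card + 1 + n * k) + 4 * F.card + 2) := by
  obtain ⟨d, hd, hd1, hd2, hd3⟩ := hNS
  have y1 : 1 ≤ y := by omega
  have k1 : 1 ≤ k := (Nat.one_le_pow _ _ y1).trans hk1
  have hPC1 : PC s t 1 F (range n) := hPC.mono subset_rfl k1
  have hD : PD (Dm n s t F c) := pd_Dm hF hPC1 h.c_nonneg
  set D := Dm n s t F c with hDdef
  let X : ℕ → ℕ → ℝ := fun u f => √(lam f : ℝ) * ext (D⁻¹ *ᵥ bv n (s f) (t f)) u
  have hXd : ∀ u v f, (X u f - X v f) ^ 2 =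
      (lam f : ℝ) * (bv n (s f) (t f) ⬝ᵥ D⁻¹ *ᵥ bv n u v) ^ 2 := by
    intro u v f
    simp only [X]
    rw [← mul_sub, ← bv_dot, mul_pow, Real.sq_sqrt (Nat.cast_nonneg _),
      dot_mulVec_comm hD.inv.1]
  have hres : ∀ e, (X (s e) e - X (t e) e) ^ 2 = (lam e : ℝ) * res D (s e) (t e) ^ 2 := fun e =>
    hXd _ _ _
  have r0 : ∀ e, 0 ≤ res D (s e) (t e) := fun e => res_nonneg hF hPC1 h.c_nonneg _ _
  have r1 : ∀ e ∈ F, res D (s e) (t e) ≤ 1 := fun e he => res_le_one hF hPC1 h.c_nonneg he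
  have E := energy_ineq hF hn y hy hk1 hk2 hPC lam hal _ (upper_pm hd hξ) X
    (fun u hu v hv => by
      simp only [hXd]
      by_cases a : u = v
      · subst a
        simp [hd.1]
      · rw [if_neg a]
        exact hd2 u hu v hv)
    (fun e he => by
      rw [hres]
      exact mul_le_of_le_one_right (Nat.cast_nonneg _) (pow_le_one₀ (r0 e) (r1 e he)))
  simp only [hres] at E
  have hg := sum_gr_le (lam := lam) hF hPC1 h.c_nonneg
  rw [← hDdef] at hg
  set Φ := ∑ e ∈ F, (lam e : ℝ) * res D (s e) (t e) with hΦ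
  set Λ := ∑ e ∈ F, (lam e : ℝ) with hΛ
  have Λ0 : 0 ≤ Λ := sum_nonneg fun e _ => Nat.cast_nonneg _
  have m0 : (0 : ℝ) ≤ F.card := Nat.cast_nonneg _
  have hl : ∑ a ∈ F, 1 / (1 - g a) ^ 2 ≤ 2 * Φ + 2 + 4 * F.card := by
    have h1 : ∑ a ∈ F, 1 / (1 - g a) ^ 2 ≤ ∑ a ∈ F, (2 * (g a / (1 - g a) ^ 2) + 4) :=
      sum_le_sum fun a ha => upper_ell (h.g_nonneg a ha) (h.g_lt a ha)
    rw [sum_add_distrib, ← mul_sum, sum_const, nsmul_eq_mul] at h1
    linarith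
  have hd' : ∑ e ∈ F, (d (s e) (t e) + if s e = t e then 0 else ξ) ≤
      2 * Φ + 2 + 5 * F.card := by
    have h1 : ∑ e ∈ F, (d (s e) (t e) + if s e = t e then 0 else ξ) ≤
        ∑ a ∈ F, (1 / (1 - g a) ^ 2 + 1) :=
      sum_le_sum fun a ha => add_le_add (hd1 a ha) (by split_ifs <;> linarith)
    rw [sum_add_distrib (f := fun a => 1 / (1 - g a) ^ 2), sum_const, nsmul_eq_mul] at h1
    linarith
  have hyR : (1000 : ℝ) ≤ y := by exact_mod_cast hy
  have hy2 : (0 : ℝ) < (y : ℝ) ^ 2 := by positivity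
  have hz : 2 / (y : ℝ) ^ 2 ≤ 1 / 5 := by
    rw [div_le_div_iff₀ hy2 (by norm_num)]
    nlinarith
  have hz0 : 0 ≤ 2 / (y : ℝ) ^ 2 := by positivity
  have hW : ∑ e ∈ F, (lam e : ℝ) * res D (s e) (t e) ^ 2 ≤
      4 / (y : ℝ) ^ 2 * Φ + 3 / (y : ℝ) ^ 2 * Λ + (2 * F.card + 1 + n * k) := by
    have h1 := mul_le_mul_of_nonneg_left hd' hz0
    have h2 : 2 / (y : ℝ) ^ 2 * (2 + 5 * F.card) ≤ 1 / 5 * (2 + 5 * F.card) :=
      mul_le_mul_of_nonneg_right hz (by linarith)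
    have h3 : 2 / (y : ℝ) ^ 2 * (2 * Φ + 2 + 5 * F.card) =
        4 / (y : ℝ) ^ 2 * Φ + 2 / (y : ℝ) ^ 2 * (2 + 5 * F.card) := by ring
    linarith
  have hCS : Φ ^ 2 ≤ Λ * ∑ e ∈ F, (lam e : ℝ) * res D (s e) (t e) ^ 2 :=
    sum_sq_le_sum_mul_sum_of_sq_le_mul F (fun e _ => Nat.cast_nonneg _)
      (fun e _ => mul_nonneg (Nat.cast_nonneg _) (sq_nonneg _)) (fun e _ => le_of_eq (by ring))
  have hQ : (0 : ℝ) ≤ 2 * F.card + 1 + n * k := by positivity
  have hΦle := upper_quad (by linarith) Λ0 hQ (hCS.trans (mul_le_mul_of_nonneg_left hW Λ0))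
  have hb : ∑ a ∈ F, 1 / (1 - g a) ≤ ∑ a ∈ F, 1 / (1 - g a) ^ 2 :=
    sum_le_sum fun a ha => upper_ell2 (h.g_nonneg a ha) (h.g_lt a ha)
  have e1 : Fv n s t F lam c g = Φ + ∑ a ∈ F, 1 / (1 - g a) := rfl
  have e2 : 12 / (y : ℝ) * Λ = 3 * (4 / (y : ℝ) * Λ) := by ring
  have e3 : 3 * (y : ℝ) * (2 * F.card + 1 + n * k) = 3 * (y * (2 * F.card + 1 + n * k)) := by ring
  rw [e1, e2, e3]
  linarith

theorem aligned_one : Aligned s t F k fun _ => 1 := by
  exact fun e _ => ⟨⟨0, rfl⟩, fun h => absurd h (by norm_num)⟩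

/-- If the good edges `G` do not connect everything, a bad edge crosses their canonical partition
(`card_cr_can_lt` against `hPC`). -/
theorem exists_bad (hF : WF s t n F) (hPC : PC s t k F (range n)) {k' : ℕ} (h1 : 1 ≤ k')
    (h2 : k' ≤ k) {G : Finset ℕ} (hG : G ⊆ F) (hn : ¬ PC s t k' G (range n)) :
    ∃ e ∈ F, e ∉ G ∧ ¬ Rel s t k' G (s e) (t e) := by
  by_contra hc
  push Not at hc
  by_cases h2' : 2 ≤ ((range n).image (can s t k' G)).card
  · have a1 := card_cr_can_lt (hF.mono hG) h1 (Subset.refl (range n)) h2'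
    have a2 := hPC (can s t k' G)
    have a3 : cr s t F (range n) (can s t k' G) ⊆ cr s t G (range n) (can s t k' G) := by
      intro e he
      simp only [cr, mem_filter] at he ⊢
      refine ⟨?_, he.2⟩
      by_contra heG
      exact he.2.2.2 (can_eq_iff.2 (hc e he.1 heG))
    have a4 := card_le_card a3
    have a5 := Nat.mul_le_mul_right (((range n).image (can s t k' G)).card - 1) h2
    omega
  · apply hn
    have a1 := pc_class (j := k') (hF.mono hG) (can s t k' G 0)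
    rwa [filter_true_of_mem] at a1
    intro v hv
    have a2 : ((range n).image (can s t k' G)).card ≤ 1 := by omega
    exact card_le_one.1 a2 _ (mem_image_of_mem _ hv) _
      (mem_image_of_mem _ (mem_range.2 (by have := mem_range.1 hv; omega)))

/-- Doubling the lightest bad crossing edge.  For `e` itself: if a `k`-PC set `U` of
`{f | lam f < lam e}` contained both ends, at least `k (r - 1)` of these edges would cross `can k G` inside
`U` (`r ≥ 2` classes); they are all in `G` by minimality, against `card_cr_can_lt`.  For the other raised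
edges the set of lighter edges only shrinks. -/
theorem Aligned.double (hF : WF s t n F) (hk : 1 ≤ k) (hal : Aligned s t F k lam) {G : Finset ℕ}
    (hG : G ⊆ F) {e : ℕ} (he : e ∈ F) (hne : ¬ Rel s t k G (s e) (t e))
    (hmin : ∀ f ∈ F, f ∉ G → ¬ Rel s t k G (s f) (t f) → lam e ≤ lam f)
    (lam' : ℕ → ℕ) (h1 : lam' e = 2 * lam e) (h2 : ∀ f ∈ F, f ≠ e → lam' f = lam f) :
    Aligned s t F k lam' := by
  have hle : ∀ f ∈ F, lam f ≤ lam' f := by
    intro f hf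
    by_cases a : f = e
    · subst a; omega
    · exact (h2 f hf a).ge
  intro f hf
  by_cases a : f = e
  · subst a
    obtain ⟨⟨a, ha⟩, -⟩ := hal f hf
    refine ⟨⟨a + 1, by rw [h1, ha, pow_succ, mul_comm]⟩, fun _ hR => ?_⟩
    have hH : WF s t n (F.filter fun f' => 2 * lam' f' < lam' f) := hF.mono (filter_subset _ _)
    obtain ⟨U, u1, u2, hU⟩ := hR
    have hUn : U ⊆ range n := fun u hu =>
      mem_range.2 ((hU.rel u1 hu).lt hH hk (hF f hf).1)
    have hc2 : 2 ≤ (U.image (can s t k G)).card :=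
      one_lt_card.2 ⟨_, mem_image_of_mem _ u1, _, mem_image_of_mem _ u2,
        fun h => hne (can_eq_iff.1 h)⟩
    have a1 := card_cr_can_lt (hF.mono hG) hk hUn hc2
    have a2 := hU (can s t k G)
    have a3 : cr s t (F.filter fun f' => 2 * lam' f' < lam' f) U (can s t k G) ⊆
        cr s t G U (can s t k G) := by
      intro x hx
      simp only [cr, mem_filter] at hx ⊢
      refine ⟨?_, hx.2⟩
      by_contra hxG
      have b1 := hmin x hx.1.1 hxG fun h => hx.2.2.2 (can_eq_iff.2 h)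
      have b2 := hle x hx.1.1
      have b3 := hx.1.2
      omega
    have a4 := card_le_card a3
    omega
  · rw [h2 f hf a]
    refine ⟨(hal f hf).1, fun h2' hR => (hal f hf).2 h2' (hR.mono ?_ le_rfl)⟩
    intro x hx
    simp only [mem_filter] at hx ⊢
    have b2 := hle x hx.1
    exact ⟨hx.1, by omega⟩

end Crest.Agent.R37
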